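import Mathlib

open Finset BigOperators

namespace Vale.Agent.Lib.P125

variable {V : Type*} [Fintype V]

/-- The one step operator `(P h)(x) = ∑ y, P x y * h y`. -/
def op (P : V → V → ℝ) (h : V → ℝ) (x : V) : ℝ := ∑ y, P x y * h y

/-- Iterates of the one step operator. -/
def pw (P : V → V → ℝ) : ℕ → (V → ℝ) → V → ℝ
  | 0, h => h
  | n + 1, h => op P (pw P n h)

/-- Reversible stochastic data. -/
structure Rev (π : V → ℝ) (P : V → V → ℝ) : Prop where
  pi_nonneg : ∀ x, 0 ≤ π x
  nonneg : ∀ x y, 0 ≤ P x y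
  sum_one : ∀ x, ∑ y, P x y = 1
  rev : ∀ x y, π x * P x y = π y * P y x

variable {π : V → ℝ} {P : V → V → ℝ}

@[simp] lemma pw_zero (h : V → ℝ) : pw P 0 h = h := rfl
lemma pw_succ (n : ℕ) (h : V → ℝ) : pw P (n + 1) h = op P (pw P n h) := rfl

lemma op_add (g h : V → ℝ) : op P (fun x => g x + h x) = fun x => op P g x + op P h x := by
  funext x; simp [op, mul_add, Finset.sum_add_distrib]

lemma op_sub (g h : V → ℝ) : op P (fun x => g x - h x) = fun x => op P g x - op P h x := by
  funext x; simp [op, mul_sub, Finset.sum_sub_distrib]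

lemma op_const_mul (c : ℝ) (h : V → ℝ) : op P (fun x => c * h x) = fun x => c * op P h x := by
  funext x; simp only [op, Finset.mul_sum]; exact Finset.sum_congr rfl (fun y _ => by ring)

lemma op_sum {α : Type*} (s : Finset α) (F : α → V → ℝ) :
    op P (fun x => ∑ i ∈ s, F i x) = fun x => ∑ i ∈ s, op P (F i) x := by
  funext x
  simp only [op, Finset.mul_sum]
  exact Finset.sum_comm

lemma op_mono (hc : Rev π P) {g h : V → ℝ} (hgh : ∀ x, g x ≤ h x) (x : V) :
    op P g x ≤ op P h x :=
  Finset.sum_le_sum (fun y _ => mul_le_mul_of_nonneg_left (hgh y) (hc.nonneg x y))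

lemma op_const (hc : Rev π P) (c : ℝ) : op P (fun _ => c) = fun _ => c := by
  funext x
  simp only [op, ← Finset.sum_mul, hc.sum_one, one_mul]

/-- Variance identity. -/
lemma op_var (hc : Rev π P) (h : V → ℝ) (u : V) (c : ℝ) :
    ∑ v, P u v * (h v - c) ^ 2 = op P (fun y => h y ^ 2) u - 2 * c * op P h u + c ^ 2 := by
  have h1 : ∀ v, P u v * (h v - c) ^ 2 =
      P u v * h v ^ 2 - 2 * c * (P u v * h v) + c ^ 2 * P u v := by intro v; ring
  simp only [h1, Finset.sum_add_distrib, Finset.sum_sub_distrib, ← Finset.mul_sum, hc.sum_one, op]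
  ring

lemma sq_op_le (hc : Rev π P) (h : V → ℝ) (x : V) :
    (op P h x) ^ 2 ≤ op P (fun y => h y ^ 2) x := by
  have h1 := op_var hc h x (op P h x)
  have h2 : 0 ≤ ∑ v, P x v * (h v - op P h x) ^ 2 :=
    Finset.sum_nonneg (fun v _ => mul_nonneg (hc.nonneg x v) (sq_nonneg _))
  nlinarith

lemma abs_op_le (hc : Rev π P) (h : V → ℝ) (x : V) :
    |op P h x| ≤ op P (fun y => |h y|) x := by
  unfold op
  refine (Finset.abs_sum_le_sum_abs _ _).trans (le_of_eq ?_)
  exact Finset.sum_congr rfl (fun y _ => by rw [abs_mul, abs_of_nonneg (hc.nonneg x y)])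

/-- Self adjointness of the one step operator. -/
lemma op_selfadj (hc : Rev π P) (g h : V → ℝ) :
    ∑ x, π x * op P g x * h x = ∑ x, π x * g x * op P h x := by
  simp only [op, Finset.mul_sum, Finset.sum_mul]
  rw [Finset.sum_comm]
  refine Finset.sum_congr rfl (fun y _ => Finset.sum_congr rfl (fun x _ => ?_))
  have := hc.rev x y
  calc π x * (P x y * g y) * h x = (π x * P x y) * (g y * h x) := by ring
    _ = (π y * P y x) * (g y * h x) := by rw [this]
    _ = π y * g y * (P y x * h x) := by ring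

/-! ### Iterates -/

lemma pw_add_fun (n : ℕ) (g h : V → ℝ) :
    pw P n (fun x => g x + h x) = fun x => pw P n g x + pw P n h x := by
  induction n with
  | zero => rfl
  | succ n ih => rw [pw_succ, ih, op_add]; rfl

lemma pw_sub_fun (n : ℕ) (g h : V → ℝ) :
    pw P n (fun x => g x - h x) = fun x => pw P n g x - pw P n h x := by
  induction n with
  | zero => rfl
  | succ n ih => rw [pw_succ, ih, op_sub]; rfl

lemma pw_const_mul (n : ℕ) (c : ℝ) (h : V → ℝ) :
    pw P n (fun x => c * h x) = fun x => c * pw P n h x := by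
  induction n with
  | zero => rfl
  | succ n ih => rw [pw_succ, ih, op_const_mul]; rfl

lemma pw_sum {α : Type*} (n : ℕ) (s : Finset α) (F : α → V → ℝ) :
    pw P n (fun x => ∑ i ∈ s, F i x) = fun x => ∑ i ∈ s, pw P n (F i) x := by
  induction n with
  | zero => rfl
  | succ n ih => rw [pw_succ, ih, op_sum]; rfl

lemma pw_const (hc : Rev π P) (n : ℕ) (c : ℝ) : pw P n (fun _ => c) = fun _ => c := by
  induction n with
  | zero => rfl
  | succ n ih => rw [pw_succ, ih, op_const hc]

lemma pw_mono (hc : Rev π P) (n : ℕ) {g h : V → ℝ} (hgh : ∀ x, g x ≤ h x) (x : V) :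
    pw P n g x ≤ pw P n h x := by
  induction n generalizing x with
  | zero => exact hgh x
  | succ n ih => exact op_mono hc ih x

lemma pw_nonneg (hc : Rev π P) (n : ℕ) {h : V → ℝ} (hh : ∀ x, 0 ≤ h x) (x : V) :
    0 ≤ pw P n h x := by
  have := pw_mono hc n (g := fun _ => 0) (h := h) hh x
  rwa [pw_const hc] at this

lemma pw_add (a b : ℕ) (h : V → ℝ) : pw P (a + b) h = pw P a (pw P b h) := by
  induction a with
  | zero => simp
  | succ a ih =>
    rw [show a + 1 + b = (a + b) + 1 by ring, pw_succ, ih, pw_succ]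

lemma pw_succ' (a : ℕ) (h : V → ℝ) : pw P (a + 1) h = pw P a (op P h) := by
  rw [pw_add]; rfl

lemma abs_pw_le (hc : Rev π P) (n : ℕ) (h : V → ℝ) (x : V) :
    |pw P n h x| ≤ pw P n (fun y => |h y|) x := by
  induction n generalizing x with
  | zero => exact le_rfl
  | succ n ih =>
    exact (abs_op_le hc _ x).trans (op_mono hc ih x)

lemma sq_pw_le (hc : Rev π P) (n : ℕ) (h : V → ℝ) (x : V) :
    (pw P n h x) ^ 2 ≤ pw P n (fun y => h y ^ 2) x := by
  induction n generalizing x with
  | zero => exact le_rfl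
  | succ n ih =>
    exact (sq_op_le hc _ x).trans (op_mono hc ih x)

lemma pw_selfadj (hc : Rev π P) (n : ℕ) (g h : V → ℝ) :
    ∑ x, π x * pw P n g x * h x = ∑ x, π x * g x * pw P n h x := by
  induction n generalizing g h with
  | zero => rfl
  | succ n ih =>
    rw [pw_succ, op_selfadj hc, ih, ← pw_succ' n h]

lemma pw_stationary (hc : Rev π P) (n : ℕ) (h : V → ℝ) :
    ∑ x, π x * pw P n h x = ∑ x, π x * h x := by
  have := pw_selfadj hc n h (fun _ => 1)
  simp only [mul_one, pw_const hc] at this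
  exact this

/-- Young: `⟨w, P^T w²⟩ ≤ ⟨1, w³⟩`. -/
lemma young_pw (hc : Rev π P) (T : ℕ) {w : V → ℝ} (hw : ∀ x, 0 ≤ w x) :
    ∑ x, π x * w x * pw P T (fun y => w y ^ 2) x ≤ ∑ x, π x * w x ^ 3 := by
  have key : ∀ x, w x * pw P T (fun y => w y ^ 2) x ≤
      (w x ^ 3 + 2 * pw P T (fun y => w y ^ 3) x) / 3 := by
    intro x
    have h1 : w x * pw P T (fun y => w y ^ 2) x = pw P T (fun y => w x * w y ^ 2) x := by
      rw [pw_const_mul]
    have h2 : pw P T (fun y => w x * w y ^ 2) x ≤
        pw P T (fun y => (w x ^ 3 / 3) + (2 / 3) * w y ^ 3) x := by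
      apply pw_mono hc
      intro y
      have hx := hw x
      have hy := hw y
      nlinarith [mul_nonneg hx (sq_nonneg (w x - w y)), mul_nonneg hy (sq_nonneg (w x - w y)),
        mul_nonneg hx hy]
    have h3 : pw P T (fun y => (w x ^ 3 / 3) + (2 / 3) * w y ^ 3) x =
        w x ^ 3 / 3 + (2 / 3) * pw P T (fun y => w y ^ 3) x := by
      rw [pw_add_fun, pw_const hc, pw_const_mul]
    rw [h1]
    linarith
  calc ∑ x, π x * w x * pw P T (fun y => w y ^ 2) x
      = ∑ x, π x * (w x * pw P T (fun y => w y ^ 2) x) :=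
        Finset.sum_congr rfl (fun x _ => by ring)
    _ ≤ ∑ x, π x * ((w x ^ 3 + 2 * pw P T (fun y => w y ^ 3) x) / 3) :=
        Finset.sum_le_sum (fun x _ => mul_le_mul_of_nonneg_left (key x) (hc.pi_nonneg x))
    _ = (∑ x, π x * w x ^ 3 + 2 * ∑ x, π x * pw P T (fun y => w y ^ 3) x) / 3 := by
        rw [Finset.mul_sum, ← Finset.sum_add_distrib, Finset.sum_div]
        exact Finset.sum_congr rfl (fun x _ => by ring)
    _ = ∑ x, π x * w x ^ 3 := by
        rw [pw_stationary hc]; ring

/-- Symmetry of the edge measure. -/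
lemma edge_symm (hc : Rev π P) (F : V → V → ℝ) :
    ∑ u, ∑ v, π u * P u v * F u v = ∑ u, ∑ v, π u * P u v * F v u := by
  rw [Finset.sum_comm]
  refine Finset.sum_congr rfl (fun u _ => Finset.sum_congr rfl (fun v _ => ?_))
  rw [hc.rev v u]

end Vale.Agent.Lib.P125
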