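import Vale.Agent.Lib.P125.Mean

open Finset BigOperators

namespace Vale.Agent.Lib.P125

variable {V : Type*} [Fintype V]

lemma rpow_three_halves {x : ℝ} (hx : 0 ≤ x) : x ^ (3 / 2 : ℝ) = (√x) ^ 3 := by
  rw [Real.sqrt_eq_rpow, ← Real.rpow_natCast (x ^ (1 / 2 : ℝ)) 3, ← Real.rpow_mul hx]
  norm_num

/-- Iterates agree with powers of the matrix. -/
lemma pw_eq_matrix [DecidableEq V] (P : Matrix V V ℝ) (n : ℕ) (h : V → ℝ) (x : V) :
    pw (fun a b => P a b) n h x = ∑ w, (P ^ n) x w * h w := by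
  induction n generalizing x with
  | zero =>
    simp [Matrix.one_apply]
  | succ n ih =>
    rw [pw_succ]
    unfold op
    simp only [ih]
    rw [pow_succ', ]
    simp only [Matrix.mul_apply, Finset.mul_sum, Finset.sum_mul]
    rw [Finset.sum_comm]
    exact Finset.sum_congr rfl (fun a _ => Finset.sum_congr rfl (fun b _ => by ring))

/-- Final form of the mean Markov inequality for summing operators. -/
theorem mean_summing {ι : Type*} [DecidableEq V] [Fintype ι] [LinearOrder ι]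
    (π : V → ℝ) (P : Matrix V V ℝ)
    (hπ : ∀ x, 0 ≤ π x) (hP : ∀ x y, 0 ≤ P x y) (hS : ∀ x, ∑ y, P x y = 1)
    (hR : ∀ x y, π x * P x y = π y * P y x)
    (f : V → ι → ℝ) (t : ℕ) :
    ∑ x, π x * (⨆ y : ι, |∑ z with z ≤ y, (f x z - ∑ w, (P ^ t) x w * f w z)|) ^ (3 / 2 : ℝ)
      ≤ 3 * t * ∑ u, ∑ v, π u * P u v * (∑ z, |f u z - f v z|) ^ (3 / 2 : ℝ) := by
  have hc : Rev π (fun a b => P a b) := ⟨hπ, hP, hS, hR⟩
  -- trivial case of an empty chain or ordering
  by_cases hV : Nonempty ι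
  · have hsel : ∀ x, ∃ y : ι, |∑ z with z ≤ y, (f x z - ∑ w, (P ^ t) x w * f w z)| =
        ⨆ y : ι, |∑ z with z ≤ y, (f x z - ∑ w, (P ^ t) x w * f w z)| := by
      intro x
      exact exists_eq_ciSup_of_finite
    choose y hy using hsel
    have h := mean_summing_sel hc t f y
    have e1 : ∀ x, (⨆ y : ι, |∑ z with z ≤ y, (f x z - ∑ w, (P ^ t) x w * f w z)|) ^ (3 / 2 : ℝ) =
        (√|∑ z with z ≤ y x, (f x z - pw (fun a b => P a b) t (fun w => f w z) x)|) ^ 3 := by
      intro x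
      rw [← hy x, rpow_three_halves (abs_nonneg _)]
      simp only [pw_eq_matrix]
    have e2 : ∀ u v, (∑ z, |f u z - f v z|) ^ (3 / 2 : ℝ) = (√(∑ z, |f u z - f v z|)) ^ 3 :=
      fun u v => rpow_three_halves (Finset.sum_nonneg (fun z _ => abs_nonneg _))
    simp only [e1, e2]
    exact h
  · have : IsEmpty ι := not_nonempty_iff.mp hV
    simp

end Vale.Agent.Lib.P125
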