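import Mathlib

open Finset BigOperators

namespace Vale.Agent.Lib.P125

/-- Elementary cubic inequality behind the plateau estimate. -/
lemma abs_cube_le (c a : ℝ) : |c| ^ 3 ≤ |c - a| ^ 3 + 3 * |a| * c ^ 2 := by
  have hc : c ^ 2 = |c| ^ 2 := (sq_abs c).symm
  rw [hc]
  have h1 : |c| ≤ |c - a| + |a| := by
    have := abs_add_le (c - a) a
    simpa using this
  set C := |c| with hC
  set D := |c - a| with hD
  set A := |a| with hA
  have hC0 : 0 ≤ C := abs_nonneg _
  have hD0 : 0 ≤ D := abs_nonneg _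
  have hA0 : 0 ≤ A := abs_nonneg _
  by_cases h : C ≤ D
  · have : C ^ 3 ≤ D ^ 3 := pow_le_pow_left₀ hC0 h 3
    nlinarith [mul_nonneg hA0 (sq_nonneg C)]
  · push Not at h
    have h2 : C - D ≤ A := by linarith
    have h3 : C ^ 3 - D ^ 3 = (C - D) * (C ^ 2 + C * D + D ^ 2) := by ring
    have h4 : C ^ 2 + C * D + D ^ 2 ≤ 3 * C ^ 2 := by nlinarith
    have h5 : 0 ≤ C ^ 2 + C * D + D ^ 2 := by positivity
    have h6 : (C - D) * (C ^ 2 + C * D + D ^ 2) ≤ A * (3 * C ^ 2) :=
      mul_le_mul h2 h4 h5 hA0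
    nlinarith

variable {ι : Type*} [LinearOrder ι]

/-- Plateau inequality on a finite chain. -/
lemma plateau_finset (a : ι → ℝ) (s : Finset ι) :
    |∑ z ∈ s, a z| ^ 3 ≤ 3 * ∑ z ∈ s, |a z| * (∑ z' ∈ s.filter (· ≤ z), a z') ^ 2 := by
  induction s using Finset.induction_on_max with
  | empty => simp
  | insert y s hy ih =>
    have hnot : y ∉ s := fun h => lt_irrefl _ (hy y h)
    have h1 : ∑ z ∈ insert y s, a z = a y + ∑ z ∈ s, a z := Finset.sum_insert hnot
    have h2 := abs_cube_le (a y + ∑ z ∈ s, a z) (a y)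
    have h3 : a y + ∑ z ∈ s, a z - a y = ∑ z ∈ s, a z := by ring
    rw [h3] at h2
    have hfy : (insert y s).filter (· ≤ y) = insert y s := by
      apply Finset.filter_true_of_mem
      intro z hz
      rcases Finset.mem_insert.mp hz with rfl | hz
      · exact le_rfl
      · exact (hy z hz).le
    have hfz : ∀ z ∈ s, (insert y s).filter (· ≤ z) = s.filter (· ≤ z) := by
      intro z hz
      rw [Finset.filter_insert, if_neg (not_le.mpr (hy z hz))]
    have h4 : ∑ z ∈ insert y s, |a z| * (∑ z' ∈ (insert y s).filter (· ≤ z), a z') ^ 2 =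
        |a y| * (a y + ∑ z ∈ s, a z) ^ 2 + ∑ z ∈ s, |a z| * (∑ z' ∈ s.filter (· ≤ z), a z') ^ 2 := by
      rw [Finset.sum_insert hnot, hfy, h1]
      congr 1
      exact Finset.sum_congr rfl (fun z hz => by rw [hfz z hz])
    rw [h1, h4]
    linarith

variable [Fintype ι]

/-- Plateau inequality, initial segment form. -/
lemma plateau (a : ι → ℝ) (y : ι) :
    |∑ z with z ≤ y, a z| ^ 3 ≤
      3 * ∑ z, |a z| * (∑ z' with z' ≤ z, a z') ^ 2 := by
  have h := plateau_finset a (Finset.univ.filter (· ≤ y))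
  refine h.trans ?_
  apply mul_le_mul_of_nonneg_left _ (by norm_num)
  have hsub : (Finset.univ.filter (· ≤ y)) ⊆ (Finset.univ : Finset ι) := Finset.subset_univ _
  calc ∑ z ∈ Finset.univ.filter (· ≤ y), |a z| *
        (∑ z' ∈ (Finset.univ.filter (· ≤ y)).filter (· ≤ z), a z') ^ 2
      = ∑ z ∈ Finset.univ.filter (· ≤ y), |a z| * (∑ z' with z' ≤ z, a z') ^ 2 := by
        refine Finset.sum_congr rfl (fun z hz => ?_)
        have hzy : z ≤ y := (Finset.mem_filter.mp hz).2
        congr 3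
        ext w
        simp only [Finset.mem_filter, Finset.mem_univ, true_and]
        constructor
        · exact fun h => h.2
        · exact fun h => ⟨h.trans hzy, h⟩
    _ ≤ ∑ z, |a z| * (∑ z' with z' ≤ z, a z') ^ 2 :=
        Finset.sum_le_sum_of_subset_of_nonneg hsub
          (fun z _ _ => mul_nonneg (abs_nonneg _) (sq_nonneg _))

end Vale.Agent.Lib.P125
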