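import Vale.Agent.Lib.P125.Basic
import Vale.Agent.Lib.P125.Plateau

open Finset BigOperators

namespace Vale.Agent.Lib.P125

variable {V : Type*} [Fintype V] {π : V → ℝ} {P : V → V → ℝ}

/-- Truncated Green operator `∑_{b<t} P^b`. -/
def gr (P : V → V → ℝ) (t : ℕ) (h : V → ℝ) (x : V) : ℝ := ∑ b ∈ range t, pw P b h x

lemma gr_nonneg (hc : Rev π P) (t : ℕ) {h : V → ℝ} (hh : ∀ x, 0 ≤ h x) (x : V) :
    0 ≤ gr P t h x := Finset.sum_nonneg (fun b _ => pw_nonneg hc b hh x)

lemma abs_gr_le (hc : Rev π P) (t : ℕ) (h : V → ℝ) (x : V) :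
    |gr P t h x| ≤ gr P t (fun y => |h y|) x :=
  (Finset.abs_sum_le_sum_abs _ _).trans
    (Finset.sum_le_sum (fun b _ => abs_pw_le hc b h x))

lemma gr_sum {α : Type*} (t : ℕ) (s : Finset α) (F : α → V → ℝ) (x : V) :
    gr P t (fun y => ∑ i ∈ s, F i y) x = ∑ i ∈ s, gr P t (F i) x := by
  unfold gr
  rw [Finset.sum_comm]
  refine Finset.sum_congr rfl (fun b _ => ?_)
  rw [pw_sum]

lemma gr_sub_decomp (t : ℕ) (h : V → ℝ) (u v : V) :
    gr P t h v - gr P t h u =
      ∑ b ∈ range t, (pw P b h v - pw P (b + 1) h u) + (pw P t h u - h u) := by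
  have h1 : ∑ b ∈ range t, (pw P (b + 1) h u - pw P b h u) = pw P t h u - pw P 0 h u :=
    Finset.sum_range_sub (fun b => pw P b h u) t
  have h2 : ∑ b ∈ range t, (pw P b h v - pw P (b + 1) h u) =
      gr P t h v - gr P t h u - ∑ b ∈ range t, (pw P (b + 1) h u - pw P b h u) := by
    unfold gr
    rw [← Finset.sum_sub_distrib, ← Finset.sum_sub_distrib]
    exact Finset.sum_congr rfl (fun b _ => by ring)
  rw [h2, h1]
  simp

lemma sq_gr_sub_le (t : ℕ) (h : V → ℝ) (u v : V) :
    (gr P t h v - gr P t h u) ^ 2 ≤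
      2 * t * ∑ b ∈ range t, (pw P b h v - pw P (b + 1) h u) ^ 2 + 2 * (pw P t h u - h u) ^ 2 := by
  rw [gr_sub_decomp]
  have h1 := sq_sum_le_card_mul_sum_sq (s := range t) (f := fun b => pw P b h v - pw P (b + 1) h u)
  simp only [Finset.card_range] at h1
  set A := ∑ b ∈ range t, (pw P b h v - pw P (b + 1) h u)
  set R := pw P t h u - h u
  nlinarith [sq_nonneg (A - R)]

/-- Conditional variance of `P^b h` along one step. -/
def cvar (P : V → V → ℝ) (h : V → ℝ) (b : ℕ) (u : V) : ℝ :=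
  op P (fun y => pw P b h y ^ 2) u - pw P (b + 1) h u ^ 2

lemma sum_edge_sq (hc : Rev π P) (h : V → ℝ) (b : ℕ) (u : V) :
    ∑ v, P u v * (pw P b h v - pw P (b + 1) h u) ^ 2 = cvar P h b u := by
  have := op_var hc (pw P b h) u (pw P (b + 1) h u)
  rw [this, ← pw_succ]
  unfold cvar
  ring

lemma sum_edge_gr_le (hc : Rev π P) (t : ℕ) (h : V → ℝ) (u : V) :
    ∑ v, P u v * (gr P t h v - gr P t h u) ^ 2 ≤
      2 * t * ∑ b ∈ range t, cvar P h b u + 2 * (pw P t h u - h u) ^ 2 := by
  calc ∑ v, P u v * (gr P t h v - gr P t h u) ^ 2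
      ≤ ∑ v, P u v * (2 * t * ∑ b ∈ range t, (pw P b h v - pw P (b + 1) h u) ^ 2
          + 2 * (pw P t h u - h u) ^ 2) :=
        Finset.sum_le_sum (fun v _ =>
          mul_le_mul_of_nonneg_left (sq_gr_sub_le t h u v) (hc.nonneg u v))
    _ = 2 * t * ∑ b ∈ range t, ∑ v, P u v * (pw P b h v - pw P (b + 1) h u) ^ 2
          + 2 * (pw P t h u - h u) ^ 2 := by
        have h1 : ∀ v, P u v * (2 * t * ∑ b ∈ range t, (pw P b h v - pw P (b + 1) h u) ^ 2
            + 2 * (pw P t h u - h u) ^ 2) =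
            2 * t * ∑ b ∈ range t, P u v * (pw P b h v - pw P (b + 1) h u) ^ 2
              + P u v * (2 * (pw P t h u - h u) ^ 2) := by
          intro v
          rw [mul_add, Finset.mul_sum, Finset.mul_sum, Finset.mul_sum]
          congr 1
          exact Finset.sum_congr rfl (fun b _ => by ring)
        simp only [h1]
        rw [Finset.sum_add_distrib, ← Finset.mul_sum, ← Finset.sum_mul, hc.sum_one, one_mul,
          Finset.sum_comm]
    _ = 2 * t * ∑ b ∈ range t, cvar P h b u + 2 * (pw P t h u - h u) ^ 2 := by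
        simp only [sum_edge_sq hc]

/-- Double telescoping. -/
lemma double_telescope (c : ℕ → ℕ → ℝ) (s t : ℕ) :
    ∑ a ∈ range s, ∑ b ∈ range t, (c (a + 1) b - c a (b + 1)) =
      ∑ b ∈ range t, c s b - ∑ b ∈ range t, c 0 b
        + ∑ a ∈ range s, c a 0 - ∑ a ∈ range s, c a t := by
  have h1 : ∀ a, ∑ b ∈ range t, (c (a + 1) b - c a (b + 1)) =
      (∑ b ∈ range t, c (a + 1) b - ∑ b ∈ range t, c a b) + (c a 0 - c a t) := by
    intro a
    rw [Finset.sum_sub_distrib]
    have h2 := Finset.sum_range_succ (fun b => c a b) t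
    have h3 := Finset.sum_range_succ' (fun b => c a b) t
    linarith
  simp only [h1, Finset.sum_add_distrib, Finset.sum_sub_distrib]
  have h4 := Finset.sum_range_sub (fun a => ∑ b ∈ range t, c a b) s
  simp only [Finset.sum_sub_distrib] at h4
  linarith

/-- Doob identity, in the form needed. -/
lemma doob_bound (hc : Rev π P) (t : ℕ) (h : V → ℝ) (x : V) :
    ∑ a ∈ range t, pw P a (fun u => ∑ b ∈ range t, cvar P h b u) x ≤
      ∑ b ∈ range t, pw P (t + b) (fun y => h y ^ 2) x +
        ∑ a ∈ range t, pw P a (fun y => h y ^ 2) x := by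
  set c : ℕ → ℕ → ℝ := fun a b => pw P a (fun y => pw P b h y ^ 2) x with hcdef
  have hc0 : ∀ a b, 0 ≤ c a b := fun a b => pw_nonneg hc a (fun y => sq_nonneg _) x
  have h1 : ∀ a, pw P a (fun u => ∑ b ∈ range t, cvar P h b u) x =
      ∑ b ∈ range t, (c (a + 1) b - c a (b + 1)) := by
    intro a
    rw [pw_sum]
    refine Finset.sum_congr rfl (fun b _ => ?_)
    have : cvar P h b = fun u => op P (fun y => pw P b h y ^ 2) u - pw P (b + 1) h u ^ 2 := rfl
    rw [this, pw_sub_fun, ← pw_succ']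
  simp only [h1]
  rw [double_telescope c t t]
  have h2 : ∑ b ∈ range t, c t b ≤ ∑ b ∈ range t, pw P (t + b) (fun y => h y ^ 2) x := by
    refine Finset.sum_le_sum (fun b _ => ?_)
    rw [pw_add]
    exact pw_mono hc t (fun y => sq_pw_le hc b h y) x
  have h3 : ∑ a ∈ range t, c a 0 = ∑ a ∈ range t, pw P a (fun y => h y ^ 2) x := rfl
  have h4 : 0 ≤ ∑ b ∈ range t, c 0 b := Finset.sum_nonneg (fun b _ => hc0 0 b)
  have h5 : 0 ≤ ∑ a ∈ range t, c a t := Finset.sum_nonneg (fun a _ => hc0 a t)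
  linarith

/-- Pairing of a nonnegative function with the `T`-step power of `w²`. -/
def Yk (π : V → ℝ) (P : V → V → ℝ) (k w : V → ℝ) (T : ℕ) : ℝ :=
  ∑ x, π x * k x * pw P T (fun y => w y ^ 2) x

/-- Bound on `∑ π(u) G k(u) ∑ P(u,v) (G h(v) - G h(u))²`. -/
lemma energy_bound (hc : Rev π P) (t : ℕ) {k w h : V → ℝ} (hk : ∀ x, 0 ≤ k x)
    (hhw : ∀ x, h x ^ 2 ≤ w x ^ 2) :
    ∑ u, π u * gr P t k u * ∑ v, P u v * (gr P t h v - gr P t h u) ^ 2 ≤
      2 * t * (∑ b ∈ range t, Yk π P k w (t + b) + ∑ a ∈ range t, Yk π P k w a)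
        + 2 * ∑ a ∈ range t, (2 * Yk π P k w (a + t) + 2 * Yk π P k w a) := by
  -- the pointwise majorant
  set Y : V → ℝ := fun u => 2 * t * ∑ b ∈ range t, cvar P h b u + 2 * (pw P t h u - h u) ^ 2
    with hY
  have step1 : ∑ u, π u * gr P t k u * ∑ v, P u v * (gr P t h v - gr P t h u) ^ 2 ≤
      ∑ u, π u * gr P t k u * Y u := by
    refine Finset.sum_le_sum (fun u _ => ?_)
    exact mul_le_mul_of_nonneg_left (sum_edge_gr_le hc t h u)
      (mul_nonneg (hc.pi_nonneg u) (gr_nonneg hc t hk u))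
  have step2 : ∑ u, π u * gr P t k u * Y u = ∑ a ∈ range t, ∑ u, π u * k u * pw P a Y u := by
    have : ∀ u, π u * gr P t k u * Y u = ∑ a ∈ range t, π u * pw P a k u * Y u := by
      intro u
      unfold gr
      rw [Finset.mul_sum, Finset.sum_mul]
    simp only [this]
    rw [Finset.sum_comm]
    exact Finset.sum_congr rfl (fun a _ => pw_selfadj hc a k Y)
  have step3 : ∀ a u, pw P a Y u =
      2 * t * pw P a (fun u => ∑ b ∈ range t, cvar P h b u) u +
        2 * pw P a (fun u => (pw P t h u - h u) ^ 2) u := by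
    intro a u
    rw [hY, pw_add_fun, pw_const_mul, pw_const_mul]
  -- bound on the second term
  have hR : ∀ a u, pw P a (fun u => (pw P t h u - h u) ^ 2) u ≤
      2 * pw P (a + t) (fun y => w y ^ 2) u + 2 * pw P a (fun y => w y ^ 2) u := by
    intro a u
    have h0 : ∀ u, (pw P t h u - h u) ^ 2 ≤
        2 * pw P t (fun y => w y ^ 2) u + 2 * w u ^ 2 := by
      intro u
      have h1 := sq_pw_le hc t h u
      have h2 : pw P t (fun y => h y ^ 2) u ≤ pw P t (fun y => w y ^ 2) u := pw_mono hc t hhw u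
      have h3 := hhw u
      nlinarith [sq_nonneg (pw P t h u + h u)]
    have h1 := pw_mono hc a h0 u
    have h2 : pw P a (fun u => 2 * pw P t (fun y => w y ^ 2) u + 2 * w u ^ 2) u =
        2 * pw P (a + t) (fun y => w y ^ 2) u + 2 * pw P a (fun y => w y ^ 2) u := by
      rw [pw_add_fun, pw_const_mul, pw_const_mul, pw_add]
    rwa [h2] at h1
  have step4 : ∑ a ∈ range t, ∑ u, π u * k u * pw P a Y u ≤
      ∑ u, π u * k u * (2 * t * (∑ b ∈ range t, pw P (t + b) (fun y => w y ^ 2) u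
          + ∑ a ∈ range t, pw P a (fun y => w y ^ 2) u)
        + 2 * ∑ a ∈ range t, (2 * pw P (a + t) (fun y => w y ^ 2) u
            + 2 * pw P a (fun y => w y ^ 2) u)) := by
    rw [Finset.sum_comm]
    refine Finset.sum_le_sum (fun u _ => ?_)
    rw [← Finset.mul_sum]
    refine mul_le_mul_of_nonneg_left ?_ (mul_nonneg (hc.pi_nonneg u) (hk u))
    have e1 : ∑ a ∈ range t, pw P a Y u =
        2 * t * ∑ a ∈ range t, pw P a (fun u => ∑ b ∈ range t, cvar P h b u) u +
          2 * ∑ a ∈ range t, pw P a (fun u => (pw P t h u - h u) ^ 2) u := by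
      simp only [step3, Finset.sum_add_distrib, Finset.mul_sum]
    rw [e1]
    have e2 := doob_bound hc t h u
    have e3 : ∑ b ∈ range t, pw P (t + b) (fun y => h y ^ 2) u +
        ∑ a ∈ range t, pw P a (fun y => h y ^ 2) u ≤
        ∑ b ∈ range t, pw P (t + b) (fun y => w y ^ 2) u +
        ∑ a ∈ range t, pw P a (fun y => w y ^ 2) u :=
      add_le_add (Finset.sum_le_sum (fun b _ => pw_mono hc _ hhw u))
        (Finset.sum_le_sum (fun a _ => pw_mono hc _ hhw u))
    have e4 : ∑ a ∈ range t, pw P a (fun u => (pw P t h u - h u) ^ 2) u ≤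
        ∑ a ∈ range t, (2 * pw P (a + t) (fun y => w y ^ 2) u
            + 2 * pw P a (fun y => w y ^ 2) u) :=
      Finset.sum_le_sum (fun a _ => hR a u)
    have ht0 : (0 : ℝ) ≤ 2 * t := by positivity
    have e5 := mul_le_mul_of_nonneg_left (e2.trans e3) ht0
    linarith
  have step5 : ∑ u, π u * k u * (2 * t * (∑ b ∈ range t, pw P (t + b) (fun y => w y ^ 2) u
          + ∑ a ∈ range t, pw P a (fun y => w y ^ 2) u)
        + 2 * ∑ a ∈ range t, (2 * pw P (a + t) (fun y => w y ^ 2) u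
            + 2 * pw P a (fun y => w y ^ 2) u)) =
      2 * t * (∑ b ∈ range t, Yk π P k w (t + b) + ∑ a ∈ range t, Yk π P k w a)
        + 2 * ∑ a ∈ range t, (2 * Yk π P k w (a + t) + 2 * Yk π P k w a) := by
    unfold Yk
    simp only [mul_add, Finset.mul_sum, Finset.sum_add_distrib]
    have swap : ∀ (F : ℕ → V → ℝ), ∑ u, ∑ a ∈ range t, F a u = ∑ a ∈ range t, ∑ u, F a u :=
      fun F => Finset.sum_comm
    simp only [swap]
    congr 1
    · congr 1
      · refine Finset.sum_congr rfl (fun b _ => Finset.sum_congr rfl (fun u _ => by ring))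
      · refine Finset.sum_congr rfl (fun b _ => Finset.sum_congr rfl (fun u _ => by ring))
    · congr 1
      · refine Finset.sum_congr rfl (fun b _ => Finset.sum_congr rfl (fun u _ => by ring))
      · refine Finset.sum_congr rfl (fun b _ => Finset.sum_congr rfl (fun u _ => by ring))
  linarith [step1, step2.le, step4, step5.le]

variable {ι : Type*} [LinearOrder ι] [Fintype ι]

/-- Green measure Kolmogorov-Smirnov bound: dimension free, thresholds arbitrary. -/
theorem green_ks (hc : Rev π P) (t : ℕ) (ht : 1 ≤ t) (g : V → ι → ℝ) (y : V → V → ι) :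
    ∑ u, ∑ v, π u * P u v *
        |gr P t (fun x => ∑ z' with z' ≤ y u v, g x z') v
          - gr P t (fun x => ∑ z' with z' ≤ y u v, g x z') u| ^ 3
      ≤ 72 * t ^ 2 * ∑ x, π x * (∑ z, |g x z|) ^ 3 := by
  set H : ι → V → ℝ := fun z x => ∑ z' with z' ≤ z, g x z' with hH
  set kk : ι → V → ℝ := fun z x => |g x z| with hkk
  set w : V → ℝ := fun x => ∑ z, |g x z| with hw
  set Φ : ι → V → V → ℝ := fun z u v => gr P t (H z) v - gr P t (H z) u with hΦ
  have hw0 : ∀ x, 0 ≤ w x := fun x => Finset.sum_nonneg (fun z _ => abs_nonneg _)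
  have hkk0 : ∀ z x, 0 ≤ kk z x := fun z x => abs_nonneg _
  have hHw : ∀ z x, H z x ^ 2 ≤ w x ^ 2 := by
    intro z x
    apply sq_le_sq'
    · have : |H z x| ≤ w x := by
        refine (Finset.abs_sum_le_sum_abs _ _).trans ?_
        exact Finset.sum_le_sum_of_subset_of_nonneg (Finset.filter_subset _ _)
          (fun z _ _ => abs_nonneg _)
      linarith [(abs_le.mp this).1]
    · have : |H z x| ≤ w x := by
        refine (Finset.abs_sum_le_sum_abs _ _).trans ?_
        exact Finset.sum_le_sum_of_subset_of_nonneg (Finset.filter_subset _ _)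
          (fun z _ _ => abs_nonneg _)
      exact (abs_le.mp this).2
  -- pointwise plateau
  have hpl : ∀ u v, |Φ (y u v) u v| ^ 3 ≤
      3 * ∑ z, (gr P t (kk z) u + gr P t (kk z) v) * Φ z u v ^ 2 := by
    intro u v
    set a : ι → ℝ := fun z => gr P t (fun x => g x z) v - gr P t (fun x => g x z) u with ha
    have hsum : ∀ z, ∑ z' with z' ≤ z, a z' = Φ z u v := by
      intro z
      simp only [hΦ, hH, ha]
      rw [gr_sum, gr_sum, Finset.sum_sub_distrib]
    have hab : ∀ z, |a z| ≤ gr P t (kk z) u + gr P t (kk z) v := by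
      intro z
      have h1 := abs_gr_le hc t (fun x => g x z) u
      have h2 := abs_gr_le hc t (fun x => g x z) v
      calc |a z| ≤ |gr P t (fun x => g x z) v| + |gr P t (fun x => g x z) u| := abs_sub _ _
        _ ≤ gr P t (kk z) u + gr P t (kk z) v := by linarith
    have h1 := plateau a (y u v)
    rw [hsum] at h1
    refine h1.trans ?_
    apply mul_le_mul_of_nonneg_left _ (by norm_num)
    refine Finset.sum_le_sum (fun z _ => ?_)
    rw [hsum]
    exact mul_le_mul_of_nonneg_right (hab z) (sq_nonneg _)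
  -- sum over edges
  have hΦsym : ∀ z u v, Φ z v u ^ 2 = Φ z u v ^ 2 := by
    intro z u v
    simp only [hΦ]
    ring
  set M := ∑ x, π x * w x ^ 3 with hM
  set I : ι → ℝ := fun z =>
    ∑ u, π u * gr P t (kk z) u * ∑ v, P u v * (gr P t (H z) v - gr P t (H z) u) ^ 2 with hI
  have hedge1 : ∑ u, ∑ v, π u * P u v * ∑ z, gr P t (kk z) u * Φ z u v ^ 2 = ∑ z, I z := by
    have h1 : ∀ u v, π u * P u v * ∑ z, gr P t (kk z) u * Φ z u v ^ 2 =
        ∑ z, π u * gr P t (kk z) u * (P u v * Φ z u v ^ 2) := by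
      intro u v
      rw [Finset.mul_sum]
      exact Finset.sum_congr rfl (fun z _ => by ring)
    simp only [h1]
    have h2 : ∀ u, ∑ v, ∑ z, π u * gr P t (kk z) u * (P u v * Φ z u v ^ 2) =
        ∑ z, π u * gr P t (kk z) u * ∑ v, P u v * Φ z u v ^ 2 := by
      intro u
      rw [Finset.sum_comm]
      exact Finset.sum_congr rfl (fun z _ => by rw [Finset.mul_sum])
    simp only [h2]
    rw [Finset.sum_comm]
  have hedge2 : ∑ u, ∑ v, π u * P u v * ∑ z, gr P t (kk z) v * Φ z u v ^ 2 = ∑ z, I z := by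
    rw [← hedge1, edge_symm hc]
    refine Finset.sum_congr rfl (fun u _ => Finset.sum_congr rfl (fun v _ => ?_))
    congr 1
    exact Finset.sum_congr rfl (fun z _ => by rw [hΦsym])
  have hedge3 : ∑ u, ∑ v, π u * P u v * |Φ (y u v) u v| ^ 3 ≤ 6 * ∑ z, I z := by
    calc ∑ u, ∑ v, π u * P u v * |Φ (y u v) u v| ^ 3
        ≤ ∑ u, ∑ v, π u * P u v * (3 * ∑ z, (gr P t (kk z) u + gr P t (kk z) v) * Φ z u v ^ 2) :=
          Finset.sum_le_sum (fun u _ => Finset.sum_le_sum (fun v _ =>
            mul_le_mul_of_nonneg_left (hpl u v)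
              (mul_nonneg (hc.pi_nonneg u) (hc.nonneg u v))))
      _ = 3 * (∑ u, ∑ v, π u * P u v * ∑ z, gr P t (kk z) u * Φ z u v ^ 2
            + ∑ u, ∑ v, π u * P u v * ∑ z, gr P t (kk z) v * Φ z u v ^ 2) := by
          rw [← Finset.sum_add_distrib, Finset.mul_sum]
          refine Finset.sum_congr rfl (fun u _ => ?_)
          rw [← Finset.sum_add_distrib, Finset.mul_sum]
          refine Finset.sum_congr rfl (fun v _ => ?_)
          simp only [add_mul, Finset.sum_add_distrib]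
          ring
      _ = 6 * ∑ z, I z := by
          rw [hedge1, hedge2]; ring
  -- the per-threshold energy bounds, summed
  have hY : ∀ T, ∑ z, Yk π P (kk z) w T = ∑ x, π x * w x * pw P T (fun y => w y ^ 2) x := by
    intro T
    unfold Yk
    rw [Finset.sum_comm]
    refine Finset.sum_congr rfl (fun x _ => ?_)
    rw [← Finset.sum_mul, ← Finset.mul_sum]
  have hYM : ∀ T, ∑ z, Yk π P (kk z) w T ≤ M := by
    intro T
    rw [hY]
    exact young_pw hc T hw0
  have hIz : ∀ z, I z ≤
      2 * t * (∑ b ∈ range t, Yk π P (kk z) w (t + b) + ∑ a ∈ range t, Yk π P (kk z) w a)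
        + 2 * ∑ a ∈ range t, (2 * Yk π P (kk z) w (a + t) + 2 * Yk π P (kk z) w a) :=
    fun z => energy_bound hc t (hkk0 z) (hHw z)
  have hsumI : ∑ z, I z ≤ (4 * t ^ 2 + 8 * t) * M := by
    calc ∑ z, I z
        ≤ ∑ z, (2 * t * (∑ b ∈ range t, Yk π P (kk z) w (t + b) + ∑ a ∈ range t, Yk π P (kk z) w a)
          + 2 * ∑ a ∈ range t, (2 * Yk π P (kk z) w (a + t) + 2 * Yk π P (kk z) w a)) :=
          Finset.sum_le_sum (fun z _ => hIz z)
      _ = 2 * t * (∑ b ∈ range t, ∑ z, Yk π P (kk z) w (t + b)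
            + ∑ a ∈ range t, ∑ z, Yk π P (kk z) w a)
          + 2 * ∑ a ∈ range t, (2 * ∑ z, Yk π P (kk z) w (a + t)
            + 2 * ∑ z, Yk π P (kk z) w a) := by
          rw [Finset.sum_add_distrib, ← Finset.mul_sum, ← Finset.mul_sum,
            Finset.sum_add_distrib, Finset.sum_comm (s := Finset.univ) (t := range t),
            Finset.sum_comm (s := Finset.univ) (t := range t)]
          congr 2
          rw [Finset.sum_comm]
          refine Finset.sum_congr rfl (fun a _ => ?_)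
          rw [Finset.sum_add_distrib, Finset.mul_sum, Finset.mul_sum]
      _ ≤ 2 * t * (∑ b ∈ range t, M + ∑ a ∈ range t, M)
          + 2 * ∑ a ∈ range t, (2 * M + 2 * M) := by
          have ht0 : (0 : ℝ) ≤ 2 * t := by positivity
          apply add_le_add
          · apply mul_le_mul_of_nonneg_left _ ht0
            exact add_le_add (Finset.sum_le_sum (fun b _ => hYM _))
              (Finset.sum_le_sum (fun a _ => hYM _))
          · apply mul_le_mul_of_nonneg_left _ (by norm_num)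
            refine Finset.sum_le_sum (fun a _ => ?_)
            have h1 := hYM (a + t)
            have h2 := hYM a
            linarith
      _ = (4 * t ^ 2 + 8 * t) * M := by
          simp only [Finset.sum_const, Finset.card_range, nsmul_eq_mul]
          ring
  have hM0 : 0 ≤ M := Finset.sum_nonneg (fun x _ => mul_nonneg (hc.pi_nonneg x) (pow_nonneg (hw0 x) 3))
  have ht1 : (1 : ℝ) ≤ t := by exact_mod_cast ht
  have hfinal : 6 * ((4 * (t : ℝ) ^ 2 + 8 * t) * M) ≤ 72 * t ^ 2 * M := by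
    have : (4 * (t : ℝ) ^ 2 + 8 * t) ≤ 12 * t ^ 2 := by nlinarith
    nlinarith [mul_le_mul_of_nonneg_right this hM0]
  calc ∑ u, ∑ v, π u * P u v * |Φ (y u v) u v| ^ 3 ≤ 6 * ∑ z, I z := hedge3
    _ ≤ 6 * ((4 * t ^ 2 + 8 * t) * M) := by linarith
    _ ≤ 72 * t ^ 2 * M := hfinal

end Vale.Agent.Lib.P125
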