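import Vale.Agent.Lib.P125.Mean

open Finset BigOperators

namespace Vale.Agent.Lib.P125

/-- Elementary quadratic inequality behind the second order plateau estimate. -/
lemma abs_sq_le (c a : ℝ) : |c| ^ 2 ≤ |c - a| ^ 2 + 2 * |a| * |c| := by
  have h1 : |c| ≤ |c - a| + |a| := by
    have := abs_add_le (c - a) a
    simpa using this
  set C := |c| with hC
  set D := |c - a| with hD
  set A := |a| with hA
  have hC0 : 0 ≤ C := abs_nonneg _
  have hD0 : 0 ≤ D := abs_nonneg _
  have hA0 : 0 ≤ A := abs_nonneg _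
  by_cases h : C ≤ D
  · have : C ^ 2 ≤ D ^ 2 := pow_le_pow_left₀ hC0 h 2
    nlinarith [mul_nonneg hA0 hC0]
  · push Not at h
    nlinarith [mul_nonneg hA0 hC0]

section plateau
variable {ι : Type*} [LinearOrder ι]

/-- Second order plateau inequality on a finite chain. -/
lemma plateau_two_finset (a : ι → ℝ) (s : Finset ι) :
    |∑ z ∈ s, a z| ^ 2 ≤ 2 * ∑ z ∈ s, |a z| * |∑ z' ∈ s.filter (· ≤ z), a z'| := by
  induction s using Finset.induction_on_max with
  | empty => simp
  | insert y s hy ih =>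
    have hnot : y ∉ s := fun h => lt_irrefl _ (hy y h)
    have h1 : ∑ z ∈ insert y s, a z = a y + ∑ z ∈ s, a z := Finset.sum_insert hnot
    have h2 := abs_sq_le (a y + ∑ z ∈ s, a z) (a y)
    have h3 : a y + ∑ z ∈ s, a z - a y = ∑ z ∈ s, a z := by ring
    rw [h3] at h2
    have hfy : (insert y s).filter (· ≤ y) = insert y s := by
      apply Finset.filter_true_of_mem
      intro z hz
      rcases Finset.mem_insert.mp hz with rfl | hz
      · exact le_rfl
      · exact (hy z hz).le
    have hfz : ∀ z ∈ s, (insert y s).filter (· ≤ z) = s.filter (· ≤ z) := by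
      intro z hz
      rw [Finset.filter_insert, if_neg (not_le.mpr (hy z hz))]
    have h4 : ∑ z ∈ insert y s, |a z| * |∑ z' ∈ (insert y s).filter (· ≤ z), a z'| =
        |a y| * |a y + ∑ z ∈ s, a z| + ∑ z ∈ s, |a z| * |∑ z' ∈ s.filter (· ≤ z), a z'| := by
      rw [Finset.sum_insert hnot, hfy, h1]
      congr 1
      exact Finset.sum_congr rfl (fun z hz => by rw [hfz z hz])
    rw [h1, h4]
    linarith

variable [Fintype ι]

/-- Second order plateau inequality, initial segment form. -/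
lemma plateau_two (a : ι → ℝ) (y : ι) :
    |∑ z with z ≤ y, a z| ^ 2 ≤
      2 * ∑ z, |a z| * |∑ z' with z' ≤ z, a z'| := by
  have h := plateau_two_finset a (Finset.univ.filter (· ≤ y))
  refine h.trans ?_
  apply mul_le_mul_of_nonneg_left _ (by norm_num)
  have hsub : (Finset.univ.filter (· ≤ y)) ⊆ (Finset.univ : Finset ι) := Finset.subset_univ _
  calc ∑ z ∈ Finset.univ.filter (· ≤ y), |a z| *
        |∑ z' ∈ (Finset.univ.filter (· ≤ y)).filter (· ≤ z), a z'|
      = ∑ z ∈ Finset.univ.filter (· ≤ y), |a z| * |∑ z' with z' ≤ z, a z'| := by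
        refine Finset.sum_congr rfl (fun z hz => ?_)
        have hzy : z ≤ y := (Finset.mem_filter.mp hz).2
        congr 3
        ext w
        simp only [Finset.mem_filter, Finset.mem_univ, true_and]
        constructor
        · exact fun h => h.2
        · exact fun h => ⟨h.trans hzy, h⟩
    _ ≤ ∑ z, |a z| * |∑ z' with z' ≤ z, a z'| :=
        Finset.sum_le_sum_of_subset_of_nonneg hsub
          (fun z _ _ => mul_nonneg (abs_nonneg _) (abs_nonneg _))

end plateau

/-- Weighted Cauchy-Schwarz on a finset. -/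
lemma sq_sum_weighted_le {α : Type*} (s : Finset α) (μ a b : α → ℝ) (hμ : ∀ i ∈ s, 0 ≤ μ i) :
    (∑ i ∈ s, μ i * (a i * b i)) ^ 2 ≤ (∑ i ∈ s, μ i * a i ^ 2) * (∑ i ∈ s, μ i * b i ^ 2) := by
  have h := Finset.sum_mul_sq_le_sq_mul_sq s (fun i => √(μ i) * a i) (fun i => √(μ i) * b i)
  have e0 : ∀ i ∈ s, √(μ i) * √(μ i) = μ i := fun i hi => Real.mul_self_sqrt (hμ i hi)
  have e1 : ∑ i ∈ s, (√(μ i) * a i) * (√(μ i) * b i) = ∑ i ∈ s, μ i * (a i * b i) :=
    Finset.sum_congr rfl (fun i hi => by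
      calc (√(μ i) * a i) * (√(μ i) * b i) = (√(μ i) * √(μ i)) * (a i * b i) := by ring
        _ = _ := by rw [e0 i hi])
  have e2 : ∑ i ∈ s, (√(μ i) * a i) ^ 2 = ∑ i ∈ s, μ i * a i ^ 2 :=
    Finset.sum_congr rfl (fun i hi => by
      calc (√(μ i) * a i) ^ 2 = (√(μ i) * √(μ i)) * a i ^ 2 := by ring
        _ = _ := by rw [e0 i hi])
  have e3 : ∑ i ∈ s, (√(μ i) * b i) ^ 2 = ∑ i ∈ s, μ i * b i ^ 2 :=
    Finset.sum_congr rfl (fun i hi => by
      calc (√(μ i) * b i) ^ 2 = (√(μ i) * √(μ i)) * b i ^ 2 := by ring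
        _ = _ := by rw [e0 i hi])
  rw [e1, e2, e3] at h
  exact h

section green
variable {V : Type*} [Fintype V] {π : V → ℝ} {P : V → V → ℝ}

/-- Pointwise majorant of the time integrated edge energy. -/
def Qm (P : V → V → ℝ) (t : ℕ) (w : V → ℝ) (x : V) : ℝ :=
  2 * t * (∑ b ∈ range t, pw P (t + b) (fun y => w y ^ 2) x
      + ∑ a ∈ range t, pw P a (fun y => w y ^ 2) x)
    + 2 * ∑ a ∈ range t, (2 * pw P (a + t) (fun y => w y ^ 2) x
      + 2 * pw P a (fun y => w y ^ 2) x)

lemma Qm_nonneg (hc : Rev π P) (t : ℕ) (w : V → ℝ) (x : V) : 0 ≤ Qm P t w x := by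
  unfold Qm
  have h0 : ∀ n, 0 ≤ pw P n (fun y => w y ^ 2) x :=
    fun n => pw_nonneg hc n (fun y => sq_nonneg _) x
  have h1 : 0 ≤ ∑ b ∈ range t, pw P (t + b) (fun y => w y ^ 2) x :=
    Finset.sum_nonneg (fun b _ => h0 _)
  have h2 : 0 ≤ ∑ a ∈ range t, pw P a (fun y => w y ^ 2) x :=
    Finset.sum_nonneg (fun b _ => h0 _)
  have h3 : 0 ≤ ∑ a ∈ range t, (2 * pw P (a + t) (fun y => w y ^ 2) x
      + 2 * pw P a (fun y => w y ^ 2) x) :=
    Finset.sum_nonneg (fun a _ => by have := h0 (a + t); have := h0 a; linarith)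
  positivity

/-- Pointwise form of the energy estimate. -/
lemma sum_pw_edge_le (hc : Rev π P) (t : ℕ) {w h : V → ℝ} (hhw : ∀ x, h x ^ 2 ≤ w x ^ 2) (x : V) :
    ∑ a ∈ range t, pw P a (fun u => ∑ v, P u v * (gr P t h v - gr P t h u) ^ 2) x ≤
      Qm P t w x := by
  set Y : V → ℝ := fun u => 2 * t * ∑ b ∈ range t, cvar P h b u + 2 * (pw P t h u - h u) ^ 2
    with hY
  have step1 : ∀ a, pw P a (fun u => ∑ v, P u v * (gr P t h v - gr P t h u) ^ 2) x ≤
      pw P a Y x := fun a => pw_mono hc a (fun u => sum_edge_gr_le hc t h u) x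
  have step3 : ∀ a u, pw P a Y u =
      2 * t * pw P a (fun u => ∑ b ∈ range t, cvar P h b u) u +
        2 * pw P a (fun u => (pw P t h u - h u) ^ 2) u := by
    intro a u
    rw [hY, pw_add_fun, pw_const_mul, pw_const_mul]
  have hR : ∀ a u, pw P a (fun u => (pw P t h u - h u) ^ 2) u ≤
      2 * pw P (a + t) (fun y => w y ^ 2) u + 2 * pw P a (fun y => w y ^ 2) u := by
    intro a u
    have h0 : ∀ u, (pw P t h u - h u) ^ 2 ≤
        2 * pw P t (fun y => w y ^ 2) u + 2 * w u ^ 2 := by
      intro u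
      have h1 := sq_pw_le hc t h u
      have h2 : pw P t (fun y => h y ^ 2) u ≤ pw P t (fun y => w y ^ 2) u := pw_mono hc t hhw u
      have h3 := hhw u
      nlinarith [sq_nonneg (pw P t h u + h u)]
    have h1 := pw_mono hc a h0 u
    have h2 : pw P a (fun u => 2 * pw P t (fun y => w y ^ 2) u + 2 * w u ^ 2) u =
        2 * pw P (a + t) (fun y => w y ^ 2) u + 2 * pw P a (fun y => w y ^ 2) u := by
      rw [pw_add_fun, pw_const_mul, pw_const_mul, pw_add]
    rwa [h2] at h1
  have e1 : ∑ a ∈ range t, pw P a Y x =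
      2 * t * ∑ a ∈ range t, pw P a (fun u => ∑ b ∈ range t, cvar P h b u) x +
        2 * ∑ a ∈ range t, pw P a (fun u => (pw P t h u - h u) ^ 2) x := by
    simp only [step3, Finset.sum_add_distrib, Finset.mul_sum]
  have e2 := doob_bound hc t h x
  have e3 : ∑ b ∈ range t, pw P (t + b) (fun y => h y ^ 2) x +
      ∑ a ∈ range t, pw P a (fun y => h y ^ 2) x ≤
      ∑ b ∈ range t, pw P (t + b) (fun y => w y ^ 2) x +
      ∑ a ∈ range t, pw P a (fun y => w y ^ 2) x :=
    add_le_add (Finset.sum_le_sum (fun b _ => pw_mono hc _ hhw x))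
      (Finset.sum_le_sum (fun a _ => pw_mono hc _ hhw x))
  have e4 : ∑ a ∈ range t, pw P a (fun u => (pw P t h u - h u) ^ 2) x ≤
      ∑ a ∈ range t, (2 * pw P (a + t) (fun y => w y ^ 2) x
          + 2 * pw P a (fun y => w y ^ 2) x) :=
    Finset.sum_le_sum (fun a _ => hR a x)
  have ht0 : (0 : ℝ) ≤ 2 * t := by positivity
  have e5 := mul_le_mul_of_nonneg_left (e2.trans e3) ht0
  calc ∑ a ∈ range t, pw P a (fun u => ∑ v, P u v * (gr P t h v - gr P t h u) ^ 2) x
      ≤ ∑ a ∈ range t, pw P a Y x := Finset.sum_le_sum (fun a _ => step1 a)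
    _ ≤ Qm P t w x := by
      rw [e1]
      unfold Qm
      linarith

lemma sum_pi_Qm (hc : Rev π P) (t : ℕ) (w : V → ℝ) :
    ∑ x, π x * Qm P t w x = (4 * t ^ 2 + 8 * t) * ∑ x, π x * w x ^ 2 := by
  set M := ∑ x, π x * w x ^ 2 with hM
  have hs : ∀ n, ∑ x, π x * pw P n (fun y => w y ^ 2) x = M := fun n => pw_stationary hc n _
  have h1 : ∀ x, π x * Qm P t w x =
      2 * t * (∑ b ∈ range t, π x * pw P (t + b) (fun y => w y ^ 2) x
        + ∑ a ∈ range t, π x * pw P a (fun y => w y ^ 2) x)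
      + 2 * ∑ a ∈ range t, (2 * (π x * pw P (a + t) (fun y => w y ^ 2) x)
        + 2 * (π x * pw P a (fun y => w y ^ 2) x)) := by
    intro x
    unfold Qm
    simp only [mul_add, Finset.mul_sum]
    congr 1
    · congr 1
      · exact Finset.sum_congr rfl (fun b _ => by ring)
      · exact Finset.sum_congr rfl (fun b _ => by ring)
    · exact Finset.sum_congr rfl (fun b _ => by ring)
  simp only [h1]
  rw [Finset.sum_add_distrib, ← Finset.mul_sum, ← Finset.mul_sum, Finset.sum_add_distrib,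
    Finset.sum_comm (s := Finset.univ) (t := range t),
    Finset.sum_comm (s := Finset.univ) (t := range t),
    Finset.sum_comm (s := Finset.univ) (t := range t)]
  simp only [Finset.sum_add_distrib, ← Finset.mul_sum, hs]
  simp only [Finset.sum_const, Finset.card_range, nsmul_eq_mul]
  ring

variable {ι : Type*} [LinearOrder ι] [Fintype ι]

/-- Green measure Kolmogorov-Smirnov bound in `L²`: dimension free, thresholds arbitrary. -/
theorem green_two (hc : Rev π P) (t : ℕ) (g : V → ι → ℝ) (y : V → V → ι) :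
    ∑ u, ∑ v, π u * P u v *
        (gr P t (fun x => ∑ z' with z' ≤ y u v, g x z') v
          - gr P t (fun x => ∑ z' with z' ≤ y u v, g x z') u) ^ 2
      ≤ 14 * t * √t * ∑ x, π x * (∑ z, |g x z|) ^ 2 := by
  set H : ι → V → ℝ := fun z x => ∑ z' with z' ≤ z, g x z' with hH
  set kk : ι → V → ℝ := fun z x => |g x z| with hkk
  set w : V → ℝ := fun x => ∑ z, |g x z| with hw
  set Φ : ι → V → V → ℝ := fun z u v => gr P t (H z) v - gr P t (H z) u with hΦ
  have hw0 : ∀ x, 0 ≤ w x := fun x => Finset.sum_nonneg (fun z _ => abs_nonneg _)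
  have hkk0 : ∀ z x, 0 ≤ kk z x := fun z x => abs_nonneg _
  have hHw : ∀ z x, H z x ^ 2 ≤ w x ^ 2 := by
    intro z x
    have : |H z x| ≤ w x := by
      refine (Finset.abs_sum_le_sum_abs _ _).trans ?_
      exact Finset.sum_le_sum_of_subset_of_nonneg (Finset.filter_subset _ _)
        (fun z _ _ => abs_nonneg _)
    exact sq_le_sq' (by linarith [(abs_le.mp this).1]) (abs_le.mp this).2
  -- pointwise plateau
  have hpl : ∀ u v, Φ (y u v) u v ^ 2 ≤
      2 * ∑ z, (gr P t (kk z) u + gr P t (kk z) v) * |Φ z u v| := by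
    intro u v
    set a : ι → ℝ := fun z => gr P t (fun x => g x z) v - gr P t (fun x => g x z) u with ha
    have hsum : ∀ z, ∑ z' with z' ≤ z, a z' = Φ z u v := by
      intro z
      simp only [hΦ, hH, ha]
      rw [gr_sum, gr_sum, Finset.sum_sub_distrib]
    have hab : ∀ z, |a z| ≤ gr P t (kk z) u + gr P t (kk z) v := by
      intro z
      have h1 := abs_gr_le hc t (fun x => g x z) u
      have h2 := abs_gr_le hc t (fun x => g x z) v
      calc |a z| ≤ |gr P t (fun x => g x z) v| + |gr P t (fun x => g x z) u| := abs_sub _ _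
        _ ≤ gr P t (kk z) u + gr P t (kk z) v := by linarith
    have h1 := plateau_two a (y u v)
    rw [hsum, sq_abs] at h1
    refine h1.trans ?_
    apply mul_le_mul_of_nonneg_left _ (by norm_num)
    refine Finset.sum_le_sum (fun z _ => ?_)
    rw [hsum]
    exact mul_le_mul_of_nonneg_right (hab z) (abs_nonneg _)
  -- sum over edges
  have hΦsym : ∀ z u v, |Φ z v u| = |Φ z u v| := by
    intro z u v
    simp only [hΦ]
    rw [abs_sub_comm]
  set M := ∑ x, π x * w x ^ 2 with hM
  set J : ι → V → ℝ := fun z u => ∑ v, P u v * |Φ z u v| with hJ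
  set I : ι → ℝ := fun z => ∑ u, π u * gr P t (kk z) u * J z u with hI
  have hedge1 : ∑ u, ∑ v, π u * P u v * ∑ z, gr P t (kk z) u * |Φ z u v| = ∑ z, I z := by
    have h1 : ∀ u v, π u * P u v * ∑ z, gr P t (kk z) u * |Φ z u v| =
        ∑ z, π u * gr P t (kk z) u * (P u v * |Φ z u v|) := by
      intro u v
      rw [Finset.mul_sum]
      exact Finset.sum_congr rfl (fun z _ => by ring)
    simp only [h1]
    have h2 : ∀ u, ∑ v, ∑ z, π u * gr P t (kk z) u * (P u v * |Φ z u v|) =
        ∑ z, π u * gr P t (kk z) u * ∑ v, P u v * |Φ z u v| := by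
      intro u
      rw [Finset.sum_comm]
      exact Finset.sum_congr rfl (fun z _ => by rw [Finset.mul_sum])
    simp only [h2]
    rw [Finset.sum_comm]
  have hedge2 : ∑ u, ∑ v, π u * P u v * ∑ z, gr P t (kk z) v * |Φ z u v| = ∑ z, I z := by
    rw [← hedge1, edge_symm hc]
    refine Finset.sum_congr rfl (fun u _ => Finset.sum_congr rfl (fun v _ => ?_))
    congr 1
    exact Finset.sum_congr rfl (fun z _ => by rw [hΦsym])
  have hedge3 : ∑ u, ∑ v, π u * P u v * Φ (y u v) u v ^ 2 ≤ 4 * ∑ z, I z := by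
    calc ∑ u, ∑ v, π u * P u v * Φ (y u v) u v ^ 2
        ≤ ∑ u, ∑ v, π u * P u v * (2 * ∑ z, (gr P t (kk z) u + gr P t (kk z) v) * |Φ z u v|) :=
          Finset.sum_le_sum (fun u _ => Finset.sum_le_sum (fun v _ =>
            mul_le_mul_of_nonneg_left (hpl u v)
              (mul_nonneg (hc.pi_nonneg u) (hc.nonneg u v))))
      _ = 2 * (∑ u, ∑ v, π u * P u v * ∑ z, gr P t (kk z) u * |Φ z u v|
            + ∑ u, ∑ v, π u * P u v * ∑ z, gr P t (kk z) v * |Φ z u v|) := by
          rw [← Finset.sum_add_distrib, Finset.mul_sum]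
          refine Finset.sum_congr rfl (fun u _ => ?_)
          rw [← Finset.sum_add_distrib, Finset.mul_sum]
          refine Finset.sum_congr rfl (fun v _ => ?_)
          simp only [add_mul, Finset.sum_add_distrib]
          ring
      _ = 4 * ∑ z, I z := by
          rw [hedge1, hedge2]; ring
  -- the function `J` is controlled by the edge energy
  have hJ0 : ∀ z u, 0 ≤ J z u := fun z u =>
    Finset.sum_nonneg (fun v _ => mul_nonneg (hc.nonneg u v) (abs_nonneg _))
  have hJsq : ∀ z u, J z u ^ 2 ≤ ∑ v, P u v * (gr P t (H z) v - gr P t (H z) u) ^ 2 := by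
    intro z u
    have h1 := sq_op_le hc (fun v => |Φ z u v|) u
    have e1 : op P (fun v => |Φ z u v|) u = J z u := rfl
    have e2 : op P (fun v => |Φ z u v| ^ 2) u =
        ∑ v, P u v * (gr P t (H z) v - gr P t (H z) u) ^ 2 := by
      unfold op
      refine Finset.sum_congr rfl (fun v _ => ?_)
      show P u v * |Φ z u v| ^ 2 = _
      rw [sq_abs]
    rwa [e1, e2] at h1
  -- the time sum at a point
  have hpt : ∀ z x, ∑ a ∈ range t, pw P a (J z) x ≤ √t * √(Qm P t w x) := by
    intro z x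
    have h1 : ∑ a ∈ range t, (pw P a (J z) x) ^ 2 ≤ Qm P t w x := by
      refine le_trans (Finset.sum_le_sum (fun a _ => ?_)) (sum_pw_edge_le hc t (hHw z) x)
      exact (sq_pw_le hc a (J z) x).trans (pw_mono hc a (hJsq z) x)
    have h2 := sq_sum_le_card_mul_sum_sq (s := range t) (f := fun a => pw P a (J z) x)
    simp only [Finset.card_range] at h2
    have h3 : (∑ a ∈ range t, pw P a (J z) x) ^ 2 ≤ t * Qm P t w x :=
      h2.trans (mul_le_mul_of_nonneg_left h1 (by positivity))
    rw [← Real.sqrt_mul (by positivity)]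
    exact Real.le_sqrt_of_sq_le h3
  -- the bound for `I`
  have hIz : ∀ z, I z ≤ ∑ x, π x * kk z x * (√t * √(Qm P t w x)) := by
    intro z
    have h1 : I z = ∑ a ∈ range t, ∑ x, π x * kk z x * pw P a (J z) x := by
      have h2 : ∀ u, π u * gr P t (kk z) u * J z u =
          ∑ a ∈ range t, π u * pw P a (kk z) u * J z u := by
        intro u
        have e3 : π u * gr P t (kk z) u * J z u =
            π u * (∑ a ∈ range t, pw P a (kk z) u) * J z u := rfl
        rw [e3, Finset.mul_sum (range t), Finset.sum_mul (range t)]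
      simp only [hI, h2]
      rw [Finset.sum_comm]
      exact Finset.sum_congr rfl (fun a _ => pw_selfadj hc a (kk z) (J z))
    rw [h1, Finset.sum_comm]
    refine Finset.sum_le_sum (fun x _ => ?_)
    rw [← Finset.mul_sum]
    exact mul_le_mul_of_nonneg_left (hpt z x) (mul_nonneg (hc.pi_nonneg x) (hkk0 z x))
  have hsumI : ∑ z, I z ≤ √t * ∑ x, π x * (w x * √(Qm P t w x)) := by
    refine (Finset.sum_le_sum (fun z _ => hIz z)).trans (le_of_eq ?_)
    rw [Finset.sum_comm, Finset.mul_sum]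
    refine Finset.sum_congr rfl (fun x _ => ?_)
    have : w x = ∑ z, kk z x := rfl
    rw [this, Finset.sum_mul, Finset.mul_sum, Finset.mul_sum]
    refine Finset.sum_congr rfl (fun z _ => ?_)
    ring
  -- Cauchy-Schwarz in `x`
  have hM0 : 0 ≤ M := Finset.sum_nonneg (fun x _ => mul_nonneg (hc.pi_nonneg x) (sq_nonneg _))
  have hCS : ∑ x, π x * (w x * √(Qm P t w x)) ≤ (7 / 2) * t * M := by
    have h1 := sq_sum_weighted_le Finset.univ π w (fun x => √(Qm P t w x))
      (fun x _ => hc.pi_nonneg x)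
    have e1 : ∑ x, π x * √(Qm P t w x) ^ 2 = ∑ x, π x * Qm P t w x :=
      Finset.sum_congr rfl (fun x _ => by rw [Real.sq_sqrt (Qm_nonneg hc t w x)])
    rw [e1, sum_pi_Qm hc t w] at h1
    rcases Nat.eq_zero_or_pos t with rfl | htpos
    · simp [Qm]
    have ht1 : (1 : ℝ) ≤ t := by exact_mod_cast htpos
    have h2 : (∑ x, π x * (w x * √(Qm P t w x))) ^ 2 ≤ ((7 / 2) * t * M) ^ 2 := by
      refine h1.trans ?_
      have h3 : (4 * (t : ℝ) ^ 2 + 8 * t) ≤ (49 / 4) * t ^ 2 := by nlinarith
      have h4 := mul_le_mul_of_nonneg_right h3 (mul_nonneg hM0 hM0)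
      nlinarith
    exact abs_le_of_sq_le_sq' h2 (by positivity) |>.2
  have hst : 0 ≤ √(t : ℝ) := Real.sqrt_nonneg _
  calc ∑ u, ∑ v, π u * P u v * Φ (y u v) u v ^ 2 ≤ 4 * ∑ z, I z := hedge3
    _ ≤ 4 * (√t * ((7 / 2) * t * M)) := by
        have := mul_le_mul_of_nonneg_left hCS hst
        linarith
    _ = 14 * t * √t * M := by ring

/-- Reversed form of `green_two`, with final segments. -/
theorem green_two_rev (hc : Rev π P) (t : ℕ) (g : V → ι → ℝ) (y : V → V → ι) :
    ∑ u, ∑ v, π u * P u v *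
        (gr P t (fun x => ∑ z' with y u v ≤ z', g x z') v
          - gr P t (fun x => ∑ z' with y u v ≤ z', g x z') u) ^ 2
      ≤ 14 * t * √t * ∑ x, π x * (∑ z, |g x z|) ^ 2 :=
  green_two (ι := ιᵒᵈ) hc t g y

/-- The `L²` one point inequality for the summing operator, selection form. -/
theorem drift_two_sel (hc : Rev π P) (t : ℕ) (f : V → ι → ℝ) (y : V → ι) :
    ∑ x, π x * (∑ z with z ≤ y x, (f x z - pw P t (fun w => f w z) x)) ^ 2 ≤
      (7 / 2) * t * √t * ∑ u, ∑ v, π u * P u v * (∑ z, |f u z - f v z|) ^ 2 := by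
  classical
  rcases Nat.eq_zero_or_pos t with rfl | htpos
  · simp
  set s : V → ℝ := fun x => ∑ z with z ≤ y x, (f x z - pw P t (fun w => f w z) x) with hs
  set γ : V → ι → ℝ := fun x z => s x * (if z = y x then 1 else 0) with hγ
  set τ : ι → V → ℝ := fun z x => ∑ z' with z ≤ z', γ x z' with hτ
  have hτval : ∀ z x, τ z x = s x * (if z ≤ y x then 1 else 0) := by
    intro z x
    simp only [hτ, hγ]
    rw [← Finset.mul_sum]
    congr 1
    rw [Finset.sum_ite_eq']
    simp
  have hw : ∀ x, ∑ z, |γ x z| = |s x| := by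
    intro x
    simp only [hγ, abs_mul]
    rw [← Finset.mul_sum]
    have : ∀ z, |(if z = y x then (1 : ℝ) else 0)| = if z = y x then 1 else 0 := by
      intro z; split_ifs <;> simp
    simp only [this]
    rw [Finset.sum_ite_eq']
    simp
  set A := ∑ x, π x * s x ^ 2 with hA
  set g : V → V → ℝ := fun u v => ∑ z, |f u z - f v z| with hg
  set B := ∑ u, ∑ v, π u * P u v * g u v ^ 2 with hB
  -- Step 1
  have step1 : A = ∑ z, ∑ x, π x * τ z x * (f x z - pw P t (fun w => f w z) x) := by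
    rw [Finset.sum_comm]
    refine Finset.sum_congr rfl (fun x _ => ?_)
    simp only [hτval]
    have h2 : ∑ z, π x * (s x * (if z ≤ y x then 1 else 0)) *
        (f x z - pw P t (fun w => f w z) x) =
        π x * s x * ∑ z, (if z ≤ y x then 1 else 0) *
          (f x z - pw P t (fun w => f w z) x) := by
      rw [Finset.mul_sum]
      exact Finset.sum_congr rfl (fun z _ => by ring)
    rw [h2]
    have h3 : ∑ z, (if z ≤ y x then (1 : ℝ) else 0) * (f x z - pw P t (fun w => f w z) x) =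
        s x := by
      simp only [hs, ite_mul, one_mul, zero_mul]
      rw [Finset.sum_filter]
    rw [h3]
    ring
  -- Step 2
  have step2 : A = (1 / 2) * ∑ u, ∑ v, π u * P u v *
      ∑ z, ((gr P t (τ z) u - gr P t (τ z) v) * (f u z - f v z)) := by
    rw [step1]
    have h1 : ∀ z, ∑ x, π x * τ z x * (f x z - pw P t (fun w => f w z) x) =
        (1 / 2) * ∑ u, ∑ v, π u * P u v *
          ((gr P t (τ z) u - gr P t (τ z) v) * (f u z - f v z)) := by
      intro z
      rw [duality hc t (τ z) (fun w => f w z), dirichlet hc]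
    simp only [h1]
    rw [← Finset.mul_sum]
    congr 1
    rw [Finset.sum_comm]
    refine Finset.sum_congr rfl (fun u _ => ?_)
    rw [Finset.sum_comm]
    refine Finset.sum_congr rfl (fun v _ => ?_)
    rw [Finset.mul_sum]
  -- Step 3: choose maximising thresholds
  have hmax : ∀ u v : V, ∃ y' : ι, ∀ z, |gr P t (τ z) v - gr P t (τ z) u| ≤
      |gr P t (τ y') v - gr P t (τ y') u| := by
    intro u v
    obtain ⟨y', _, hy'⟩ := Finset.exists_max_image (Finset.univ : Finset ι)
      (fun z => |gr P t (τ z) v - gr P t (τ z) u|) ⟨y u, Finset.mem_univ _⟩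
    exact ⟨y', fun z => hy' z (Finset.mem_univ _)⟩
  choose y' hy' using hmax
  set K : V → V → ℝ := fun u v => |gr P t (τ (y' u v)) v - gr P t (τ (y' u v)) u| with hK
  have step3 : ∀ u v, ∑ z, ((gr P t (τ z) u - gr P t (τ z) v) * (f u z - f v z)) ≤
      g u v * K u v := by
    intro u v
    simp only [hg, Finset.sum_mul]
    refine Finset.sum_le_sum (fun z _ => ?_)
    calc (gr P t (τ z) u - gr P t (τ z) v) * (f u z - f v z)
        ≤ |(gr P t (τ z) u - gr P t (τ z) v) * (f u z - f v z)| := le_abs_self _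
      _ = |gr P t (τ z) v - gr P t (τ z) u| * |f u z - f v z| := by
          rw [abs_mul, abs_sub_comm]
      _ ≤ K u v * |f u z - f v z| :=
          mul_le_mul_of_nonneg_right (hy' u v z) (abs_nonneg _)
      _ = |f u z - f v z| * K u v := mul_comm _ _
  -- Step 4
  have step4 : ∑ u, ∑ v, π u * P u v * K u v ^ 2 ≤ 14 * t * √t * A := by
    have h := green_two_rev hc t γ y'
    have e1 : ∀ u v, (gr P t (fun x => ∑ z' with y' u v ≤ z', γ x z') v
        - gr P t (fun x => ∑ z' with y' u v ≤ z', γ x z') u) ^ 2 = K u v ^ 2 := by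
      intro u v
      simp only [hK, hτ]
      rw [sq_abs]
    simp only [e1, hw, sq_abs] at h
    exact h
  have htR : (0 : ℝ) < t := by exact_mod_cast htpos
  have hst : 0 < √(t : ℝ) := Real.sqrt_pos.mpr htR
  set L : ℝ := 7 * t * √t with hL
  have hL0 : 0 < L := by positivity
  -- Step 5: Young
  have step5 : A ≤ (L / 4) * B + (1 / (4 * L)) * ∑ u, ∑ v, π u * P u v * K u v ^ 2 := by
    have h1 : ∑ u, ∑ v, π u * P u v *
        ∑ z, ((gr P t (τ z) u - gr P t (τ z) v) * (f u z - f v z)) ≤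
        ∑ u, ∑ v, π u * P u v * ((L / 2) * g u v ^ 2 + (1 / (2 * L)) * K u v ^ 2) := by
      refine Finset.sum_le_sum (fun u _ => Finset.sum_le_sum (fun v _ => ?_))
      refine mul_le_mul_of_nonneg_left ?_ (mul_nonneg (hc.pi_nonneg u) (hc.nonneg u v))
      refine (step3 u v).trans ?_
      have h2 : 0 ≤ (L * g u v - K u v) ^ 2 / (2 * L) := by positivity
      have h3 : (L * g u v - K u v) ^ 2 / (2 * L) =
          (L / 2) * g u v ^ 2 + (1 / (2 * L)) * K u v ^ 2 - g u v * K u v := by
        field_simp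
        ring
      linarith
    have h2 : ∑ u, ∑ v, π u * P u v * ((L / 2) * g u v ^ 2 + (1 / (2 * L)) * K u v ^ 2) =
        (L / 2) * B + (1 / (2 * L)) * ∑ u, ∑ v, π u * P u v * K u v ^ 2 := by
      rw [hB, Finset.mul_sum, Finset.mul_sum, ← Finset.sum_add_distrib]
      refine Finset.sum_congr rfl (fun u _ => ?_)
      rw [Finset.mul_sum, Finset.mul_sum, ← Finset.sum_add_distrib]
      refine Finset.sum_congr rfl (fun v _ => ?_)
      ring
    rw [step2]
    rw [h2] at h1
    have h4 : (1 / (4 * L)) = (1 / 2) * (1 / (2 * L)) := by field_simp; norm_num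
    rw [h4]
    nlinarith
  have hfrac : (1 / (4 * L)) * ∑ u, ∑ v, π u * P u v * K u v ^ 2 ≤ (1 / 2) * A := by
    have h1 : (1 / (4 * L)) * ∑ u, ∑ v, π u * P u v * K u v ^ 2 ≤
        (1 / (4 * L)) * (14 * t * √t * A) :=
      mul_le_mul_of_nonneg_left step4 (by positivity)
    have h2 : (1 / (4 * L)) * (14 * t * √t * A) = (1 / 2) * A := by
      rw [hL]
      field_simp
      ring
    linarith
  have hfin : A ≤ (L / 2) * B := by linarith
  have : L / 2 = (7 / 2) * t * √t := by rw [hL]; ring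
  rw [← this]
  exact hfin

end green

end Vale.Agent.Lib.P125
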