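import Vale.Agent.Lib.P125.IP2Interp2

open Finset BigOperators

namespace Vale.Agent.Lib.P125.IP2

variable {V : Type*} [Fintype V] {π : V → ℝ} {P : V → V → ℝ}

lemma gr_sub_fun (t : ℕ) (g h : V → ℝ) (x : V) :
    gr P t (fun y => g y - h y) x = gr P t g x - gr P t h x := by
  unfold gr
  rw [← Finset.sum_sub_distrib]
  refine Finset.sum_congr rfl (fun b _ => ?_)
  rw [pw_sub_fun]

lemma gr_const (hc : Rev π P) (t : ℕ) (c : ℝ) (x : V) : gr P t (fun _ => c) x = t * c := by
  unfold gr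
  simp only [pw_const hc]
  simp

lemma gr_mono (hc : Rev π P) (t : ℕ) {g h : V → ℝ} (hgh : ∀ x, g x ≤ h x) (x : V) :
    gr P t g x ≤ gr P t h x :=
  Finset.sum_le_sum (fun b _ => pw_mono hc b hgh x)

lemma sum_pi_gr (hc : Rev π P) (t : ℕ) (k : V → ℝ) :
    ∑ u, π u * gr P t k u = t * ∑ u, π u * k u := by
  unfold gr
  simp only [Finset.mul_sum]
  rw [Finset.sum_comm]
  simp only [pw_stationary hc]
  simp [Finset.mul_sum]

/-- The Green difference of a sequence valued function along an edge. -/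
noncomputable def grd (P : V → V → ℝ) (t : ℕ) (Φ : V → ℕ → ℝ) (u v : V) (x : ℕ) : ℝ :=
  gr P t (fun y => Φ y x) u - gr P t (fun y => Φ y x) v

lemma pv_grd (hc : Rev π P) (t : ℕ) (Φ : V → ℕ → ℝ) (u v : V) (x : ℕ) :
    pv (grd P t Φ u v) x =
      gr P t (fun y => pv (Φ y) x) u - gr P t (fun y => pv (Φ y) x) v := by
  cases x with
  | zero =>
    simp only [pv_zero]
    rw [gr_const hc, gr_const hc]
    ring
  | succ x => rfl

lemma grd_step (hc : Rev π P) (t : ℕ) (Φ : V → ℕ → ℝ) (u v : V) (x : ℕ) :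
    |grd P t Φ u v x - pv (grd P t Φ u v) x| ≤
      gr P t (fun y => |Φ y x - pv (Φ y) x|) u + gr P t (fun y => |Φ y x - pv (Φ y) x|) v := by
  rw [pv_grd hc]
  unfold grd
  have h1 : gr P t (fun y => Φ y x) u - gr P t (fun y => Φ y x) v -
      (gr P t (fun y => pv (Φ y) x) u - gr P t (fun y => pv (Φ y) x) v) =
      gr P t (fun y => Φ y x - pv (Φ y) x) u - gr P t (fun y => Φ y x - pv (Φ y) x) v := by
    rw [gr_sub_fun, gr_sub_fun]; ring
  rw [h1]
  calc _ ≤ |gr P t (fun y => Φ y x - pv (Φ y) x) u| + |gr P t (fun y => Φ y x - pv (Φ y) x) v| :=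
        abs_sub _ _
    _ ≤ _ := add_le_add (abs_gr_le hc t _ u) (abs_gr_le hc t _ v)

/-- Sup bound for the Green difference. -/
lemma abs_grd_le (hc : Rev π P) (t : ℕ) (Φ : V → ℕ → ℝ) (u v : V) {x m : ℕ} (hx : x < m) {c : ℝ}
    (hΦ : ∀ y, ∀ x < m, |Φ y x| ≤ c) : |grd P t Φ u v x| ≤ 2 * t * c := by
  unfold grd
  have h1 : ∀ w, |gr P t (fun y => Φ y x) w| ≤ t * c := by
    intro w
    refine (abs_gr_le hc t _ w).trans ?_
    have := gr_mono hc t (g := fun y => |Φ y x|) (h := fun _ => c) (fun y => hΦ y x hx) w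
    rwa [gr_const hc] at this
  calc _ ≤ |gr P t (fun y => Φ y x) u| + |gr P t (fun y => Φ y x) v| := abs_sub _ _
    _ ≤ t * c + t * c := add_le_add (h1 u) (h1 v)
    _ = 2 * t * c := by ring

/-- Edge sum of a nonnegative quantity which is bounded by the two Green values. -/
lemma edge_gr_mass (hc : Rev π P) (t : ℕ) (k : V → ℝ) :
    ∑ u, ∑ v, π u * P u v * (gr P t k u + gr P t k v) = 2 * t * ∑ u, π u * k u := by
  have h1 : ∑ u, ∑ v, π u * P u v * gr P t k v = ∑ u, ∑ v, π u * P u v * gr P t k u :=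
    (edge_symm hc (fun u _ => gr P t k u)).symm
  have h2 : ∑ u, ∑ v, π u * P u v * gr P t k u = ∑ u, π u * gr P t k u := by
    refine Finset.sum_congr rfl (fun u _ => ?_)
    have : ∑ v, π u * P u v * gr P t k u = π u * gr P t k u * ∑ v, P u v := by
      rw [Finset.mul_sum]; exact Finset.sum_congr rfl (fun v _ => by ring)
    rw [this, hc.sum_one, mul_one]
  have h3 : ∑ u, ∑ v, π u * P u v * (gr P t k u + gr P t k v) =
      ∑ u, ∑ v, π u * P u v * gr P t k u + ∑ u, ∑ v, π u * P u v * gr P t k v := by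
    rw [← Finset.sum_add_distrib]
    refine Finset.sum_congr rfl (fun u _ => ?_)
    rw [← Finset.sum_add_distrib]
    exact Finset.sum_congr rfl (fun v _ => by ring)
  rw [h3, h1, h2, sum_pi_gr hc]
  ring

lemma sum3_comm {α : Type*} (s : Finset α) (F : α → V → V → ℝ) :
    ∑ u, ∑ v, ∑ x ∈ s, F x u v = ∑ x ∈ s, ∑ u, ∑ v, F x u v := by
  calc ∑ u, ∑ v, ∑ x ∈ s, F x u v = ∑ u, ∑ x ∈ s, ∑ v, F x u v :=
        Finset.sum_congr rfl (fun u _ => Finset.sum_comm)
    _ = ∑ x ∈ s, ∑ u, ∑ v, F x u v := Finset.sum_comm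

/-- The edge expectation of the variation of the Green difference. -/
lemma edge_tv_le (hc : Rev π P) (t m : ℕ) (Φ : V → ℕ → ℝ) :
    ∑ u, ∑ v, π u * P u v * tv m (grd P t Φ u v) ≤ 2 * t * ∑ y, π y * tv m (Φ y) := by
  have hpi : ∀ u v, 0 ≤ π u * P u v := fun u v => mul_nonneg (hc.pi_nonneg u) (hc.nonneg u v)
  calc ∑ u, ∑ v, π u * P u v * tv m (grd P t Φ u v)
      ≤ ∑ u, ∑ v, π u * P u v * ∑ x ∈ range m,
          (gr P t (fun y => |Φ y x - pv (Φ y) x|) u + gr P t (fun y => |Φ y x - pv (Φ y) x|) v) := by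
        refine Finset.sum_le_sum (fun u _ => Finset.sum_le_sum (fun v _ => ?_))
        refine mul_le_mul_of_nonneg_left ?_ (hpi u v)
        unfold tv
        exact Finset.sum_le_sum (fun x _ => grd_step hc t Φ u v x)
    _ = ∑ x ∈ range m, ∑ u, ∑ v, π u * P u v *
          (gr P t (fun y => |Φ y x - pv (Φ y) x|) u + gr P t (fun y => |Φ y x - pv (Φ y) x|) v) := by
        simp only [Finset.mul_sum (s := range m)]
        exact sum3_comm (range m) (fun x u v => π u * P u v *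
          (gr P t (fun y => |Φ y x - pv (Φ y) x|) u + gr P t (fun y => |Φ y x - pv (Φ y) x|) v))
    _ = ∑ x ∈ range m, 2 * t * ∑ y, π y * |Φ y x - pv (Φ y) x| :=
        Finset.sum_congr rfl (fun x _ => edge_gr_mass hc t _)
    _ = 2 * t * ∑ y, π y * tv m (Φ y) := by
        rw [← Finset.mul_sum, Finset.sum_comm]
        congr 1
        refine Finset.sum_congr rfl (fun y _ => ?_)
        unfold tv
        rw [Finset.mul_sum]

/-- Energy bound with a constant majorant. -/
lemma energy_const (hc : Rev π P) (t : ℕ) (ht1 : 1 ≤ t) {k h : V → ℝ} {c : ℝ} (hk : ∀ x, 0 ≤ k x)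
    (hc0 : 0 ≤ c) (hh : ∀ y, |h y| ≤ c) :
    ∑ u, π u * gr P t k u * ∑ v, P u v * (gr P t h v - gr P t h u) ^ 2 ≤
      12 * t ^ 2 * c ^ 2 * ∑ y, π y * k y := by
  have hhw : ∀ x, h x ^ 2 ≤ (fun _ : V => c) x ^ 2 := by
    intro x
    have := hh x
    simp only
    exact sq_le_sq' (by linarith [abs_le.mp this]) (abs_le.mp this).2
  have h1 := energy_bound hc t (w := fun _ => c) hk hhw
  have hY : ∀ T, Yk π P k (fun _ => c) T = c ^ 2 * ∑ y, π y * k y := by
    intro T
    unfold Yk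
    rw [pw_const hc, Finset.mul_sum]
    exact Finset.sum_congr rfl (fun y _ => by ring)
  simp only [hY] at h1
  simp only [Finset.sum_const, Finset.card_range, nsmul_eq_mul] at h1
  refine h1.trans ?_
  set Z := ∑ y, π y * k y with hZ
  have hZ0 : 0 ≤ Z := Finset.sum_nonneg (fun y _ => mul_nonneg (hc.pi_nonneg y) (hk y))
  have ht : (1 : ℝ) ≤ t := by exact_mod_cast ht1
  have h2 : 0 ≤ c ^ 2 * Z := mul_nonneg (sq_nonneg c) hZ0
  have h3 : (t : ℝ) ≤ t ^ 2 := by nlinarith
  have h4 : 2 * (t : ℝ) * (t * (c ^ 2 * Z) + t * (c ^ 2 * Z)) +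
      2 * (t * (2 * (c ^ 2 * Z) + 2 * (c ^ 2 * Z))) = (4 * t ^ 2 + 8 * t) * (c ^ 2 * Z) := by ring
  rw [h4]
  calc (4 * (t : ℝ) ^ 2 + 8 * t) * (c ^ 2 * Z) ≤ (12 * t ^ 2) * (c ^ 2 * Z) :=
        mul_le_mul_of_nonneg_right (by nlinarith) h2
    _ = 12 * t ^ 2 * c ^ 2 * Z := by ring

/-- The edge expectation of the cubic energy of the Green difference. -/
lemma edge_qu_le (hc : Rev π P) (t m : ℕ) (ht1 : 1 ≤ t) (Φ : V → ℕ → ℝ) {c : ℝ} (hc0 : 0 ≤ c)
    (hΦ : ∀ y, ∀ x < m, |Φ y x| ≤ c) :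
    ∑ u, ∑ v, π u * P u v * qu m (grd P t Φ u v) ≤
      48 * t ^ 2 * c ^ 2 * ∑ y, π y * tv m (Φ y) := by
  have hpi : ∀ u v, 0 ≤ π u * P u v := fun u v => mul_nonneg (hc.pi_nonneg u) (hc.nonneg u v)
  -- one coordinate
  have key : ∀ x ∈ range m, ∑ u, ∑ v, π u * P u v * (|grd P t Φ u v x - pv (grd P t Φ u v) x| *
      (grd P t Φ u v x ^ 2 + pv (grd P t Φ u v) x ^ 2)) ≤
      48 * t ^ 2 * c ^ 2 * ∑ y, π y * |Φ y x - pv (Φ y) x| := by
    intro x hx
    have hxm := Finset.mem_range.mp hx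
    set k : V → ℝ := fun y => |Φ y x - pv (Φ y) x| with hk
    have hk0 : ∀ y, 0 ≤ k y := fun y => abs_nonneg _
    set h : V → ℝ := fun y => Φ y x with hh
    set h' : V → ℝ := fun y => pv (Φ y) x with hh'
    have hb : ∀ y, |h y| ≤ c := fun y => hΦ y x hxm
    have hb' : ∀ y, |h' y| ≤ c := by
      intro y
      simp only [hh']
      cases x with
      | zero => simpa using hc0
      | succ x => exact hΦ y x (by omega)
    set S : V → V → ℝ := fun u v => (gr P t h u - gr P t h v) ^ 2 + (gr P t h' u - gr P t h' v) ^ 2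
      with hS
    have hS0 : ∀ u v, 0 ≤ S u v := fun u v => add_nonneg (sq_nonneg _) (sq_nonneg _)
    have hSsym : ∀ u v, S v u = S u v := by
      intro u v
      simp only [hS]
      ring
    have step1 : ∑ u, ∑ v, π u * P u v * (|grd P t Φ u v x - pv (grd P t Φ u v) x| *
        (grd P t Φ u v x ^ 2 + pv (grd P t Φ u v) x ^ 2)) ≤
        ∑ u, ∑ v, π u * P u v * ((gr P t k u + gr P t k v) * S u v) := by
      refine Finset.sum_le_sum (fun u _ => Finset.sum_le_sum (fun v _ => ?_))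
      refine mul_le_mul_of_nonneg_left ?_ (hpi u v)
      have e : grd P t Φ u v x ^ 2 + pv (grd P t Φ u v) x ^ 2 = S u v := by
        rw [pv_grd hc]; rfl
      rw [e]
      exact mul_le_mul_of_nonneg_right (grd_step hc t Φ u v x) (hS0 u v)
    have step2 : ∑ u, ∑ v, π u * P u v * ((gr P t k u + gr P t k v) * S u v) =
        2 * ∑ u, ∑ v, π u * P u v * (gr P t k u * S u v) := by
      have e1 : ∑ u, ∑ v, π u * P u v * (gr P t k v * S u v) =
          ∑ u, ∑ v, π u * P u v * (gr P t k u * S u v) := by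
        have := edge_symm hc (fun u v => gr P t k u * S u v)
        rw [this]
        refine Finset.sum_congr rfl (fun u _ => Finset.sum_congr rfl (fun v _ => ?_))
        rw [hSsym]
      have e2 : ∑ u, ∑ v, π u * P u v * ((gr P t k u + gr P t k v) * S u v) =
          ∑ u, ∑ v, π u * P u v * (gr P t k u * S u v) +
            ∑ u, ∑ v, π u * P u v * (gr P t k v * S u v) := by
        rw [← Finset.sum_add_distrib]
        refine Finset.sum_congr rfl (fun u _ => ?_)
        rw [← Finset.sum_add_distrib]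
        exact Finset.sum_congr rfl (fun v _ => by ring)
      rw [e2, e1]; ring
    have step3 : ∑ u, ∑ v, π u * P u v * (gr P t k u * S u v) =
        ∑ u, π u * gr P t k u * ∑ v, P u v * (gr P t h v - gr P t h u) ^ 2 +
          ∑ u, π u * gr P t k u * ∑ v, P u v * (gr P t h' v - gr P t h' u) ^ 2 := by
      rw [← Finset.sum_add_distrib]
      refine Finset.sum_congr rfl (fun u _ => ?_)
      rw [← mul_add, ← Finset.sum_add_distrib, Finset.mul_sum]
      refine Finset.sum_congr rfl (fun v _ => ?_)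
      simp only [hS]
      ring
    have e1 := energy_const hc t ht1 hk0 hc0 hb
    have e2 := energy_const hc t ht1 hk0 hc0 hb'
    rw [step2, step3] at step1
    calc _ ≤ _ := step1
      _ ≤ 2 * (12 * (t : ℝ) ^ 2 * c ^ 2 * ∑ y, π y * k y + 12 * t ^ 2 * c ^ 2 * ∑ y, π y * k y) := by
          linarith
      _ = 48 * t ^ 2 * c ^ 2 * ∑ y, π y * k y := by ring
  calc ∑ u, ∑ v, π u * P u v * qu m (grd P t Φ u v)
      = ∑ x ∈ range m, ∑ u, ∑ v, π u * P u v * (|grd P t Φ u v x - pv (grd P t Φ u v) x| *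
          (grd P t Φ u v x ^ 2 + pv (grd P t Φ u v) x ^ 2)) := by
        unfold qu
        simp only [Finset.mul_sum (s := range m)]
        exact sum3_comm (range m) (fun x u v => π u * P u v *
          (|grd P t Φ u v x - pv (grd P t Φ u v) x| *
            (grd P t Φ u v x ^ 2 + pv (grd P t Φ u v) x ^ 2)))
    _ ≤ ∑ x ∈ range m, 48 * t ^ 2 * c ^ 2 * ∑ y, π y * |Φ y x - pv (Φ y) x| :=
        Finset.sum_le_sum key
    _ = 48 * t ^ 2 * c ^ 2 * ∑ y, π y * tv m (Φ y) := by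
        rw [← Finset.mul_sum, Finset.sum_comm]
        congr 1
        refine Finset.sum_congr rfl (fun y _ => ?_)
        unfold tv
        rw [Finset.mul_sum]

end Vale.Agent.Lib.P125.IP2
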