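import Vale.Agent.Lib.P125.IP2Interp3

open Finset BigOperators

namespace Vale.Agent.Lib.P125.IP2

/-- The gauge inequality for ladders indexed by naturals. -/
lemma pair_le_of_ladder' (m : ℕ) (a : ℕ → ℝ) (b : ℤ) (N : ℕ) (U : ℕ → ℕ → ℝ) {Λ : ℝ}
    (hU : ∀ n < N, ∀ x < m, |U n x| ≤ 8 * ht (b + n))
    (hΛ : ∑ n ∈ range N, ht (b + n) * tv m (U n) ≤ Λ) :
    pair m a (fun x => ∑ n ∈ range N, U n x) ≤ 6 * √Λ * xn m a := by
  have hinj : Set.InjOn (fun n : ℕ => b + (n : ℤ)) ((range N : Finset ℕ) : Set ℕ) := by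
    intro p _ q _ hpq
    simp only at hpq
    omega
  have e : ∀ n : ℕ, ((b + (n : ℤ) - b).toNat) = n := by
    intro n; omega
  have key := pair_le_of_ladder m a ((range N).image (fun n : ℕ => b + (n : ℤ)))
    (fun i x => U (i - b).toNat x) (Λ := Λ) ?_ ?_
  · have e2 : ∀ x, ∑ i ∈ (range N).image (fun n : ℕ => b + (n : ℤ)), U (i - b).toNat x =
        ∑ n ∈ range N, U n x := by
      intro x
      rw [Finset.sum_image hinj]
      exact Finset.sum_congr rfl (fun n _ => by rw [e])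
    simpa only [e2] using key
  · intro i hi x hx
    obtain ⟨n, hn, rfl⟩ := Finset.mem_image.mp hi
    rw [e]
    exact hU n (Finset.mem_range.mp hn) x hx
  · rw [Finset.sum_image hinj]
    refine le_trans (le_of_eq ?_) hΛ
    exact Finset.sum_congr rfl (fun n _ => by rw [e])

section Ladder

variable (m : ℕ) (J : Finset ℤ) (Tj : ℤ → ℕ → ℝ) (τ : ℤ)

/-- Clipping thresholds. -/
noncomputable def cc (τ i j : ℤ) : ℝ := ht i * (3 / 4 : ℝ) ^ (j - i - τ).toNat

lemma cc_pos (i j : ℤ) : 0 < cc τ i j := mul_pos (ht_pos i) (by positivity)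

/-- The clipped part at output level `i`. -/
noncomputable def wl (i : ℤ) (x : ℕ) : ℝ := ∑ j ∈ J with i + τ < j, cl (cc τ i j) (Tj j x)

/-- The error budget at output level `i`. -/
noncomputable def Rr (i : ℤ) : ℝ :=
  ∑ j ∈ J with j ≤ i + τ, tv m (Tj j) + ∑ j ∈ J with i + τ < j, qu m (Tj j) / cc τ i j ^ 2

lemma Rr_nonneg (i : ℤ) : 0 ≤ Rr m J Tj τ i := by
  unfold Rr
  apply add_nonneg
  · exact Finset.sum_nonneg (fun j _ => tv_nonneg m _)
  · exact Finset.sum_nonneg (fun j _ => div_nonneg (qu_nonneg m _) (sq_nonneg _))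

lemma sum_cc_le (i : ℤ) : ∑ j ∈ J with i + τ < j, cc τ i j ≤ 4 * ht i := by
  have h1 : ∑ j ∈ J with i + τ < j, cc τ i j =
      ht i * ∑ j ∈ J with i + τ < j, (3 / 4 : ℝ) ^ (j - i - τ).toNat := by
    rw [Finset.mul_sum]; rfl
  rw [h1]
  have h2 := sum_geom_int (3 / 4 : ℝ) (by norm_num) (by norm_num) J (i + τ)
  have h3 : ∑ j ∈ J with i + τ < j, (3 / 4 : ℝ) ^ (j - i - τ).toNat ≤
      ∑ j ∈ J with i + τ ≤ j, (3 / 4 : ℝ) ^ (j - (i + τ)).toNat := by
    have e : ∀ j : ℤ, j - i - τ = j - (i + τ) := fun j => by ring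
    simp only [e]
    refine Finset.sum_le_sum_of_subset_of_nonneg ?_ (fun _ _ _ => by positivity)
    intro j hj
    simp only [Finset.mem_filter] at hj ⊢
    exact ⟨hj.1, hj.2.le⟩
  have h4 : (1 : ℝ) / (1 - 3 / 4) = 4 := by norm_num
  rw [h4] at h2
  have := ht_pos i
  nlinarith

lemma abs_wl_le (i : ℤ) (x : ℕ) : |wl J Tj τ i x| ≤ 4 * ht i := by
  unfold wl
  refine (Finset.abs_sum_le_sum_abs _ _).trans ((Finset.sum_le_sum (fun j _ => ?_)).trans
    (sum_cc_le J τ i))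
  exact abs_cl_le (cc_pos τ i j).le _

/-- The remainder after removing the clipped part. -/
lemma sub_wl (i : ℤ) (x : ℕ) :
    ∑ j ∈ J, Tj j x - wl J Tj τ i x =
      ∑ j ∈ J with j ≤ i + τ, Tj j x + ∑ j ∈ J with i + τ < j, ex (cc τ i j) (Tj j x) := by
  unfold wl
  have h1 : ∑ j ∈ J, Tj j x =
      ∑ j ∈ J with j ≤ i + τ, Tj j x + ∑ j ∈ J with i + τ < j, Tj j x := by
    rw [← Finset.sum_filter_add_sum_filter_not J (fun j => j ≤ i + τ)]
    congr 1
    refine Finset.sum_congr ?_ (fun _ _ => rfl)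
    ext j
    simp only [Finset.mem_filter, not_le]
  rw [h1]
  have h2 : ∑ j ∈ J with i + τ < j, ex (cc τ i j) (Tj j x) =
      ∑ j ∈ J with i + τ < j, Tj j x - ∑ j ∈ J with i + τ < j, cl (cc τ i j) (Tj j x) := by
    rw [← Finset.sum_sub_distrib]
    rfl
  rw [h2]
  ring

lemma tv_sub_wl_le (i : ℤ) :
    tv m (fun x => ∑ j ∈ J, Tj j x - wl J Tj τ i x) ≤ Rr m J Tj τ i := by
  have e : (fun x => ∑ j ∈ J, Tj j x - wl J Tj τ i x) =
      fun x => (∑ j ∈ J with j ≤ i + τ, Tj j x) +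
        ∑ j ∈ J with i + τ < j, ex (cc τ i j) (Tj j x) := by
    funext x
    exact sub_wl J Tj τ i x
  rw [e]
  refine (tv_add_le m _ _).trans ?_
  unfold Rr
  apply add_le_add
  · exact tv_sum_le m _ _
  · refine (tv_sum_le m _ _).trans (Finset.sum_le_sum (fun j _ => ?_))
    exact tv_ex_le (cc_pos τ i j) m _

/-- The ladder levels: level `n = 0` is the whole sum, level `n ≥ 1` the clipped part. -/
noncomputable def FF (i0 : ℤ) (n : ℕ) (x : ℕ) : ℝ :=
  if n = 0 then ∑ j ∈ J, Tj j x else wl J Tj τ (i0 - 1 + n) x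

lemma tv_sub_FF_le (i0 : ℤ) (n : ℕ) :
    tv m (fun x => ∑ j ∈ J, Tj j x - FF J Tj τ i0 n x) ≤ Rr m J Tj τ (i0 - 1 + n) := by
  by_cases hn : n = 0
  · subst hn
    have e : (fun x => ∑ j ∈ J, Tj j x - FF J Tj τ i0 0 x) = fun _ => 0 := by
      funext x
      simp [FF]
    rw [e]
    have : tv m (fun _ => (0 : ℝ)) = 0 := by
      unfold tv
      refine Finset.sum_eq_zero (fun x _ => ?_)
      cases x <;> simp
    rw [this]
    exact Rr_nonneg m J Tj τ _
  · have e : (fun x => ∑ j ∈ J, Tj j x - FF J Tj τ i0 n x) =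
        fun x => ∑ j ∈ J, Tj j x - wl J Tj τ (i0 - 1 + n) x := by
      funext x
      simp [FF, hn]
    rw [e]
    exact tv_sub_wl_le m J Tj τ _

lemma ht_l_succ (i0 : ℤ) (n : ℕ) : ht (i0 - 1 + n) = 2 * ht (i0 - 1 + (n + 1 : ℕ)) := by
  have : (i0 - 1 + ((n + 1 : ℕ) : ℤ)) = (i0 - 1 + n) + 1 := by push_cast; ring
  rw [this, ht_succ]; ring

lemma abs_FF_le (i0 : ℤ) (n : ℕ) (x : ℕ) (hB : |∑ j ∈ J, Tj j x| ≤ ht i0) :
    |FF J Tj τ i0 n x| ≤ 4 * ht (i0 - 1 + n) := by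
  by_cases hn : n = 0
  · subst hn
    simp only [FF, if_true, Nat.cast_zero, add_zero]
    rw [ht_pred]
    have := ht_pos i0
    linarith
  · simp only [FF, hn, if_false]
    exact abs_wl_le J Tj τ _ x

/-- The ladder inequality for one edge. -/
lemma ladder_pair (a : ℕ → ℝ) (i0 : ℤ) (N : ℕ) (hN1 : 1 ≤ N)
    (hB : ∀ x < m, |∑ j ∈ J, Tj j x| ≤ ht i0)
    (hN : ∀ j ∈ J, j ≤ i0 - 1 + N + τ) :
    pair m a (fun x => ∑ j ∈ J, Tj j x) ≤
      6 * √(3 * ∑ n ∈ range (N + 1), ht (i0 - 1 + n) * Rr m J Tj τ (i0 - 1 + n)) * xn m a := by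
  set U : ℕ → ℕ → ℝ := fun n x => FF J Tj τ i0 n x - FF J Tj τ i0 (n + 1) x with hU
  -- telescoping
  have htel : ∀ x, ∑ n ∈ range N, U n x = ∑ j ∈ J, Tj j x := by
    intro x
    simp only [hU]
    rw [Finset.sum_range_sub']
    have h0 : FF J Tj τ i0 0 x = ∑ j ∈ J, Tj j x := by simp [FF]
    have h1 : FF J Tj τ i0 N x = 0 := by
      have hne : N ≠ 0 := by omega
      simp only [FF, hne, if_false]
      unfold wl
      refine Finset.sum_eq_zero (fun j hj => ?_)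
      have h2 := Finset.mem_filter.mp hj
      have h3 := hN j h2.1
      have h4 := h2.2
      omega
    rw [h0, h1, sub_zero]
  have key := pair_le_of_ladder' m a (i0 - 1) N U
    (Λ := 3 * ∑ n ∈ range (N + 1), ht (i0 - 1 + n) * Rr m J Tj τ (i0 - 1 + n)) ?_ ?_
  · simpa only [htel] using key
  · intro n _ x hx
    simp only [hU]
    have h1 := abs_FF_le J Tj τ i0 n x (hB x hx)
    have h2 := abs_FF_le J Tj τ i0 (n + 1) x (hB x hx)
    have h3 := ht_l_succ i0 n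
    have h4 := ht_pos (i0 - 1 + n)
    calc |FF J Tj τ i0 n x - FF J Tj τ i0 (n + 1) x|
        ≤ |FF J Tj τ i0 n x| + |FF J Tj τ i0 (n + 1) x| := abs_sub _ _
      _ ≤ 8 * ht (i0 - 1 + n) := by
        have h5 := ht_pos (i0 - 1 + (n + 1 : ℕ))
        linarith
  · set g : ℕ → ℝ := fun n => ht (i0 - 1 + n) * Rr m J Tj τ (i0 - 1 + n) with hg
    have hg0 : ∀ n, 0 ≤ g n := fun n => mul_nonneg (ht_nonneg _) (Rr_nonneg m J Tj τ _)
    have h1 : ∀ n : ℕ, ht (i0 - 1 + n) * tv m (U n) ≤ g n + 2 * g (n + 1) := by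
      intro n
      have e : U n = fun x => (∑ j ∈ J, Tj j x - FF J Tj τ i0 (n + 1) x) -
          (∑ j ∈ J, Tj j x - FF J Tj τ i0 n x) := by
        funext x
        simp only [hU]
        ring
      have h2 : tv m (U n) ≤ Rr m J Tj τ (i0 - 1 + (n + 1 : ℕ)) + Rr m J Tj τ (i0 - 1 + n) := by
        rw [e]
        exact (tv_sub_le m _ _).trans (add_le_add (tv_sub_FF_le m J Tj τ i0 (n + 1))
          (tv_sub_FF_le m J Tj τ i0 n))
      have h3 := ht_l_succ i0 n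
      simp only [hg]
      calc ht (i0 - 1 + n) * tv m (U n)
          ≤ ht (i0 - 1 + n) * (Rr m J Tj τ (i0 - 1 + (n + 1 : ℕ)) + Rr m J Tj τ (i0 - 1 + n)) :=
            mul_le_mul_of_nonneg_left h2 (ht_nonneg _)
        _ = ht (i0 - 1 + n) * Rr m J Tj τ (i0 - 1 + n) +
            2 * (ht (i0 - 1 + (n + 1 : ℕ)) * Rr m J Tj τ (i0 - 1 + (n + 1 : ℕ))) := by
            rw [h3]; ring
    have h2 : ∑ n ∈ range N, ht (i0 - 1 + n) * tv m (U n) ≤
        ∑ n ∈ range N, g n + 2 * ∑ n ∈ range N, g (n + 1) := by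
      rw [Finset.mul_sum, ← Finset.sum_add_distrib]
      exact Finset.sum_le_sum (fun n _ => h1 n)
    have h3 : ∑ n ∈ range N, g n ≤ ∑ n ∈ range (N + 1), g n := by
      rw [Finset.sum_range_succ]
      linarith [hg0 N]
    have h4 : ∑ n ∈ range N, g (n + 1) ≤ ∑ n ∈ range (N + 1), g n := by
      rw [Finset.sum_range_succ']
      linarith [hg0 0]
    have h5 : ∑ n ∈ range (N + 1), g n =
        ∑ n ∈ range (N + 1), ht (i0 - 1 + n) * Rr m J Tj τ (i0 - 1 + n) := rfl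
    rw [← h5]
    linarith

end Ladder

end Vale.Agent.Lib.P125.IP2
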