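import Vale.Agent.Lib.P125.Mean

open Finset BigOperators

namespace Vale.Agent.Lib.P125

/-- Dyadic heights `2^(-k)`. -/
noncomputable def ht (k : ℤ) : ℝ := (2 : ℝ) ^ (-k)

lemma ht_pos (k : ℤ) : 0 < ht k := by unfold ht; positivity
lemma ht_nonneg (k : ℤ) : 0 ≤ ht k := (ht_pos k).le
lemma ht_ne (k : ℤ) : ht k ≠ 0 := (ht_pos k).ne'
@[simp] lemma ht_zero : ht 0 = 1 := by simp [ht]

lemma ht_add (a b : ℤ) : ht (a + b) = ht a * ht b := by
  unfold ht
  rw [neg_add, zpow_add₀ (by norm_num)]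

lemma ht_neg_mul (a : ℤ) : ht (-a) * ht a = 1 := by
  rw [← ht_add]; simp

lemma ht_succ (k : ℤ) : ht (k + 1) = ht k / 2 := by
  rw [ht_add]; simp [ht]; ring

lemma ht_pred (k : ℤ) : ht (k - 1) = 2 * ht k := by
  have := ht_succ (k - 1)
  simp only [sub_add_cancel] at this
  rw [this]; ring

lemma ht_nat (n : ℕ) : ht (n : ℤ) = (1 / 2 : ℝ) ^ n := by
  unfold ht
  rw [zpow_neg, zpow_natCast, one_div, inv_pow]

lemma ht_mono {a b : ℤ} (h : a ≤ b) : ht b ≤ ht a := by
  unfold ht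
  exact zpow_le_zpow_right₀ (by norm_num) (by omega)

/-- Geometric bound over a finite set of naturals. -/
lemma sum_geom_finset (q : ℝ) (h0 : 0 ≤ q) (h1 : q < 1) (S : Finset ℕ) :
    ∑ n ∈ S, q ^ n ≤ 1 / (1 - q) := by
  have hs : Summable (fun n : ℕ => q ^ n) := summable_geometric_of_lt_one h0 h1
  have := hs.sum_le_tsum S (fun n _ => pow_nonneg h0 n)
  rwa [tsum_geometric_of_lt_one h0 h1, ← one_div] at this

/-- Geometric bound over integers above a base. -/
lemma sum_geom_int (q : ℝ) (h0 : 0 ≤ q) (h1 : q < 1) (S : Finset ℤ) (a : ℤ) :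
    ∑ i ∈ S with a ≤ i, q ^ (i - a).toNat ≤ 1 / (1 - q) := by
  have hinj : Set.InjOn (fun i : ℤ => (i - a).toNat) ((S.filter (a ≤ ·) : Finset ℤ) : Set ℤ) := by
    intro x hx y hy hxy
    have hx' : a ≤ x := (Finset.mem_filter.mp (Finset.mem_coe.mp hx)).2
    have hy' : a ≤ y := (Finset.mem_filter.mp (Finset.mem_coe.mp hy)).2
    simp only at hxy
    omega
  calc ∑ i ∈ S with a ≤ i, q ^ (i - a).toNat
      = ∑ n ∈ (S.filter (a ≤ ·)).image (fun i : ℤ => (i - a).toNat), q ^ n := by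
        rw [Finset.sum_image hinj]
    _ ≤ 1 / (1 - q) := sum_geom_finset q h0 h1 _

/-- Geometric bound over integers below a base. -/
lemma sum_geom_int' (q : ℝ) (h0 : 0 ≤ q) (h1 : q < 1) (S : Finset ℤ) (a : ℤ) :
    ∑ i ∈ S with i ≤ a, q ^ (a - i).toNat ≤ 1 / (1 - q) := by
  have hinj : Set.InjOn (fun i : ℤ => (a - i).toNat) ((S.filter (· ≤ a) : Finset ℤ) : Set ℤ) := by
    intro x hx y hy hxy
    have hx' : x ≤ a := (Finset.mem_filter.mp (Finset.mem_coe.mp hx)).2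
    have hy' : y ≤ a := (Finset.mem_filter.mp (Finset.mem_coe.mp hy)).2
    simp only at hxy
    omega
  calc ∑ i ∈ S with i ≤ a, q ^ (a - i).toNat
      = ∑ n ∈ (S.filter (· ≤ a)).image (fun i : ℤ => (a - i).toNat), q ^ n := by
        rw [Finset.sum_image hinj]
    _ ≤ 1 / (1 - q) := sum_geom_finset q h0 h1 _

lemma ht_eq_of_le {a i : ℤ} (h : a ≤ i) : ht i = ht a * (1 / 2 : ℝ) ^ (i - a).toNat := by
  have h1 : i = a + ((i - a).toNat : ℤ) := by omega
  conv_lhs => rw [h1]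
  rw [ht_add, ht_nat]

/-- Sum of heights above a base. -/
lemma sum_ht_ge (S : Finset ℤ) (a : ℤ) : ∑ i ∈ S with a ≤ i, ht i ≤ 2 * ht a := by
  have h1 : ∑ i ∈ S with a ≤ i, ht i = ht a * ∑ i ∈ S with a ≤ i, (1 / 2 : ℝ) ^ (i - a).toNat := by
    rw [Finset.mul_sum]
    refine Finset.sum_congr rfl (fun i hi => ?_)
    exact ht_eq_of_le (Finset.mem_filter.mp hi).2
  rw [h1]
  have h2 := sum_geom_int (1 / 2 : ℝ) (by norm_num) (by norm_num) S a
  have h3 : (1 : ℝ) / (1 - 1 / 2) = 2 := by norm_num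
  rw [h3] at h2
  have := ht_pos a
  nlinarith

/-- Sum of reciprocal heights below a base. -/
lemma sum_ht_neg_le (S : Finset ℤ) (a : ℤ) : ∑ i ∈ S with i ≤ a, ht (-i) ≤ 2 * ht (-a) := by
  have h1 : ∑ i ∈ S with i ≤ a, ht (-i) =
      ht (-a) * ∑ i ∈ S with i ≤ a, (1 / 2 : ℝ) ^ (a - i).toNat := by
    rw [Finset.mul_sum]
    refine Finset.sum_congr rfl (fun i hi => ?_)
    have hia := (Finset.mem_filter.mp hi).2
    have := ht_eq_of_le (a := -a) (i := -i) (by omega)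
    rw [this]
    congr 2
    omega
  rw [h1]
  have h2 := sum_geom_int' (1 / 2 : ℝ) (by norm_num) (by norm_num) S a
  have h3 : (1 : ℝ) / (1 - 1 / 2) = 2 := by norm_num
  rw [h3] at h2
  have := ht_pos (-a)
  nlinarith

/-! ### Variation of sequences -/

/-- The previous value of a sequence, with the convention that the value before `0` is `0`. -/
def pv (h : ℕ → ℝ) : ℕ → ℝ
  | 0 => 0
  | x + 1 => h x

@[simp] lemma pv_zero (h : ℕ → ℝ) : pv h 0 = 0 := rfl
@[simp] lemma pv_succ (h : ℕ → ℝ) (x : ℕ) : pv h (x + 1) = h x := rfl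

lemma pv_add (g h : ℕ → ℝ) (x : ℕ) : pv (fun y => g y + h y) x = pv g x + pv h x := by
  cases x <;> simp

lemma pv_sub (g h : ℕ → ℝ) (x : ℕ) : pv (fun y => g y - h y) x = pv g x - pv h x := by
  cases x <;> simp

lemma pv_smul (c : ℝ) (h : ℕ → ℝ) (x : ℕ) : pv (fun y => c * h y) x = c * pv h x := by
  cases x <;> simp

lemma pv_sum {α : Type*} (s : Finset α) (F : α → ℕ → ℝ) (x : ℕ) :
    pv (fun y => ∑ i ∈ s, F i y) x = ∑ i ∈ s, pv (F i) x := by
  cases x <;> simp

lemma pv_comp (φ : ℝ → ℝ) (h0 : φ 0 = 0) (h : ℕ → ℝ) (x : ℕ) :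
    pv (fun y => φ (h y)) x = φ (pv h x) := by
  cases x <;> simp [h0]

/-- Total variation on the first `m` coordinates, from the base value `0`. -/
def tv (m : ℕ) (h : ℕ → ℝ) : ℝ := ∑ x ∈ range m, |h x - pv h x|

lemma tv_nonneg (m : ℕ) (h : ℕ → ℝ) : 0 ≤ tv m h :=
  Finset.sum_nonneg (fun _ _ => abs_nonneg _)

lemma tv_add_le (m : ℕ) (g h : ℕ → ℝ) : tv m (fun y => g y + h y) ≤ tv m g + tv m h := by
  unfold tv
  rw [← Finset.sum_add_distrib]
  refine Finset.sum_le_sum (fun x _ => ?_)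
  rw [pv_add]
  have : g x + h x - (pv g x + pv h x) = (g x - pv g x) + (h x - pv h x) := by ring
  rw [this]
  exact abs_add_le _ _

lemma tv_sub_le (m : ℕ) (g h : ℕ → ℝ) : tv m (fun y => g y - h y) ≤ tv m g + tv m h := by
  unfold tv
  rw [← Finset.sum_add_distrib]
  refine Finset.sum_le_sum (fun x _ => ?_)
  rw [pv_sub]
  have : g x - h x - (pv g x - pv h x) = (g x - pv g x) - (h x - pv h x) := by ring
  rw [this]
  exact abs_sub _ _

lemma tv_smul (m : ℕ) (c : ℝ) (h : ℕ → ℝ) : tv m (fun y => c * h y) = |c| * tv m h := by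
  unfold tv
  rw [Finset.mul_sum]
  refine Finset.sum_congr rfl (fun x _ => ?_)
  rw [pv_smul, ← mul_sub, abs_mul]

lemma tv_sum_le {α : Type*} (m : ℕ) (s : Finset α) (F : α → ℕ → ℝ) :
    tv m (fun y => ∑ i ∈ s, F i y) ≤ ∑ i ∈ s, tv m (F i) := by
  unfold tv
  rw [Finset.sum_comm]
  refine Finset.sum_le_sum (fun x _ => ?_)
  rw [pv_sum, ← Finset.sum_sub_distrib]
  exact Finset.abs_sum_le_sum_abs _ _

lemma tv_congr {m : ℕ} {g h : ℕ → ℝ} (hgh : ∀ x < m, g x = h x) : tv m g = tv m h := by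
  unfold tv
  refine Finset.sum_congr rfl (fun x hx => ?_)
  have hx' := Finset.mem_range.mp hx
  rw [hgh x hx']
  cases x with
  | zero => simp
  | succ x => simp [hgh x (by omega)]

lemma abs_le_tv {m : ℕ} (h : ℕ → ℝ) {x : ℕ} (hx : x < m) : |h x| ≤ tv m h := by
  induction m generalizing x with
  | zero => omega
  | succ m ih =>
    unfold tv at ih ⊢
    rw [Finset.sum_range_succ]
    have hn : 0 ≤ ∑ y ∈ range m, |h y - pv h y| := Finset.sum_nonneg (fun _ _ => abs_nonneg _)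
    rcases Nat.lt_succ_iff_lt_or_eq.mp hx with h1 | rfl
    · have := ih h1
      have h2 := abs_nonneg (h m - pv h m)
      linarith
    · cases x with
      | zero =>
        simp only [pv_zero, sub_zero]
        linarith
      | succ x =>
        have h1 := ih (x := x) (Nat.lt_succ_self x)
        simp only [pv_succ] at *
        have h2 : |h (x + 1)| ≤ |h (x + 1) - h x| + |h x| := by
          have := abs_add_le (h (x + 1) - h x) (h x)
          simpa using this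
        linarith

/-- Cubic energy of a sequence along its variation. -/
def qu (m : ℕ) (h : ℕ → ℝ) : ℝ := ∑ x ∈ range m, |h x - pv h x| * (h x ^ 2 + pv h x ^ 2)

lemma qu_nonneg (m : ℕ) (h : ℕ → ℝ) : 0 ≤ qu m h :=
  Finset.sum_nonneg (fun _ _ => mul_nonneg (abs_nonneg _) (add_nonneg (sq_nonneg _) (sq_nonneg _)))

/-! ### Clipping -/

/-- Clip to the interval `[-c, c]`. -/
noncomputable def cl (c u : ℝ) : ℝ := max (-c) (min u c)

/-- The part of `u` cut off by clipping. -/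
noncomputable def ex (c u : ℝ) : ℝ := u - cl c u

lemma abs_cl_le {c : ℝ} (hc : 0 ≤ c) (u : ℝ) : |cl c u| ≤ c := by
  unfold cl
  rw [abs_le]
  constructor
  · exact le_max_left _ _
  · exact max_le (by linarith) (min_le_right _ _)

lemma cl_eq_self {c u : ℝ} (hu : |u| ≤ c) : cl c u = u := by
  unfold cl
  have := abs_le.mp hu
  rw [min_eq_left this.2, max_eq_right this.1]

lemma ex_eq_zero {c u : ℝ} (hu : |u| ≤ c) : ex c u = 0 := by
  unfold ex; rw [cl_eq_self hu]; ring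

lemma ex_zero {c : ℝ} (hc : 0 ≤ c) : ex c 0 = 0 := ex_eq_zero (by simpa using hc)

lemma cl_cases {c : ℝ} (hc : 0 ≤ c) (u : ℝ) :
    (u ≤ -c ∧ cl c u = -c) ∨ (-c ≤ u ∧ u ≤ c ∧ cl c u = u) ∨ (c ≤ u ∧ cl c u = c) := by
  unfold cl
  rcases le_total u (-c) with h | h
  · left
    refine ⟨h, ?_⟩
    rw [min_eq_left (by linarith), max_eq_left h]
  · rcases le_total u c with h2 | h2
    · right; left
      exact ⟨h, h2, by rw [min_eq_left h2, max_eq_right h]⟩
    · right; right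
      exact ⟨h2, by rw [min_eq_right h2, max_eq_right (by linarith)]⟩

lemma abs_ex_sub_le {c : ℝ} (hc : 0 ≤ c) (a b : ℝ) : |ex c a - ex c b| ≤ |a - b| := by
  unfold ex
  have h1 := le_abs_self (a - b)
  have h2 := neg_abs_le (a - b)
  rw [abs_le]
  rcases cl_cases hc a with ⟨ha, ea⟩ | ⟨ha, ha', ea⟩ | ⟨ha, ea⟩ <;>
  rcases cl_cases hc b with ⟨hb, eb⟩ | ⟨hb, hb', eb⟩ | ⟨hb, eb⟩ <;>
  rw [ea, eb] <;>
  (rcases le_total a b with hab | hab
   · rw [abs_of_nonpos (by linarith)] at *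
     constructor <;> linarith
   · rw [abs_of_nonneg (by linarith)] at *
     constructor <;> linarith)

/-- Key inequality for the cut off part. -/
lemma ex_key {c : ℝ} (hc : 0 < c) (a b : ℝ) :
    |ex c a - ex c b| * c ^ 2 ≤ |a - b| * (a ^ 2 + b ^ 2) := by
  by_cases h : |a| ≤ c ∧ |b| ≤ c
  · rw [ex_eq_zero h.1, ex_eq_zero h.2]
    simp only [sub_self, abs_zero, zero_mul]
    positivity
  · have h1 : c ^ 2 ≤ a ^ 2 + b ^ 2 := by
      by_contra hcon
      push Not at hcon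
      apply h
      constructor
      · exact abs_le.mpr (abs_le_of_sq_le_sq' (by nlinarith [sq_nonneg b]) hc.le)
      · exact abs_le.mpr (abs_le_of_sq_le_sq' (by nlinarith [sq_nonneg a]) hc.le)
    calc |ex c a - ex c b| * c ^ 2 ≤ |a - b| * c ^ 2 :=
          mul_le_mul_of_nonneg_right (abs_ex_sub_le hc.le a b) (by positivity)
      _ ≤ |a - b| * (a ^ 2 + b ^ 2) := mul_le_mul_of_nonneg_left h1 (abs_nonneg _)

/-- Variation of the cut off part, bounded by the cubic energy. -/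
lemma tv_ex_le {c : ℝ} (hc : 0 < c) (m : ℕ) (T : ℕ → ℝ) :
    tv m (fun x => ex c (T x)) ≤ qu m T / c ^ 2 := by
  rw [le_div_iff₀ (by positivity)]
  unfold tv qu
  rw [Finset.sum_mul]
  refine Finset.sum_le_sum (fun x _ => ?_)
  rw [pv_comp (ex c) (ex_zero hc.le)]
  exact ex_key hc _ _

end Vale.Agent.Lib.P125
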