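import Vale.Agent.Lib.P125.Interp1

open Finset BigOperators

namespace Vale.Agent.Lib.P125

/-- A test sequence on the first `m` coordinates: a finite sum of pieces `U k` with
`|U k| ≤ 2^(-k)` and `∑ k, 2^(-k) * tv (U k) ≤ 1`. -/
def IsTest (m : ℕ) (h : ℕ → ℝ) : Prop :=
  ∃ (K : Finset ℤ) (U : ℤ → ℕ → ℝ),
    (∀ k ∈ K, ∀ x < m, |U k x| ≤ ht k) ∧
    (∑ k ∈ K, ht k * tv m (U k) ≤ 1) ∧
    ∀ x < m, h x = ∑ k ∈ K, U k x

/-- Coordinate pairing on the first `m` coordinates. -/
def pair (m : ℕ) (a h : ℕ → ℝ) : ℝ := ∑ x ∈ range m, a x * h x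

/-- The norm on `ℝ^m`: the supremum of the pairings with test sequences. -/
noncomputable def xn (m : ℕ) (a : ℕ → ℝ) : ℝ := sSup {r | ∃ h, IsTest m h ∧ r = pair m a h}

lemma isTest_zero (m : ℕ) : IsTest m (fun _ => 0) :=
  ⟨∅, fun _ _ => 0, by simp, by simp, by simp⟩

lemma isTest_neg {m : ℕ} {h : ℕ → ℝ} (hh : IsTest m h) : IsTest m (fun x => - h x) := by
  obtain ⟨K, U, h1, h2, h3⟩ := hh
  refine ⟨K, fun k x => - U k x, ?_, ?_, ?_⟩
  · intro k hk x hx
    rw [abs_neg]; exact h1 k hk x hx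
  · refine le_trans (le_of_eq ?_) h2
    refine Finset.sum_congr rfl (fun k _ => ?_)
    have : (fun x => - U k x) = fun x => (-1) * U k x := by funext x; ring
    show ht k * tv m (fun x => - U k x) = _
    rw [this, tv_smul]; simp
  · intro x hx
    show - h x = ∑ k ∈ K, - U k x
    rw [h3 x hx, Finset.sum_neg_distrib]

/-- Test sequences are bounded. -/
lemma isTest_abs_le {m : ℕ} {h : ℕ → ℝ} (hh : IsTest m h) {x : ℕ} (hx : x < m) : |h x| ≤ 4 := by
  obtain ⟨K, U, h1, h2, h3⟩ := hh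
  rw [h3 x hx]
  have hterm : ∀ k ∈ K, ht k * tv m (U k) ≤ 1 := by
    intro k hk
    refine le_trans ?_ h2
    exact Finset.single_le_sum (f := fun k => ht k * tv m (U k))
      (fun i _ => mul_nonneg (ht_nonneg i) (tv_nonneg m (U i))) hk
  have hneg : ∀ k ∈ K, |U k x| ≤ ht (-k) := by
    intro k hk
    have h4 : |U k x| ≤ tv m (U k) := abs_le_tv _ hx
    have h5 := hterm k hk
    have h6 : ht (-k) * ht k = 1 := ht_neg_mul k
    have h7 := ht_pos (-k)
    calc |U k x| ≤ tv m (U k) := h4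
      _ = ht (-k) * (ht k * tv m (U k)) := by rw [← mul_assoc, h6, one_mul]
      _ ≤ ht (-k) * 1 := mul_le_mul_of_nonneg_left h5 h7.le
      _ = ht (-k) := mul_one _
  have hsum : ∑ k ∈ K, |U k x| ≤ ∑ k ∈ K with 0 ≤ k, ht k + ∑ k ∈ K with k ≤ 0, ht (-k) := by
    rw [← Finset.sum_filter_add_sum_filter_not K (fun k => 0 ≤ k)]
    apply add_le_add
    · exact Finset.sum_le_sum (fun k hk => h1 k (Finset.mem_filter.mp hk).1 x hx)
    · have hs : (K.filter (fun k => ¬ 0 ≤ k)) ⊆ K.filter (fun k => k ≤ 0) := by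
        intro k hk
        simp only [Finset.mem_filter] at hk ⊢
        exact ⟨hk.1, by omega⟩
      calc ∑ k ∈ K with ¬ 0 ≤ k, |U k x| ≤ ∑ k ∈ K with ¬ 0 ≤ k, ht (-k) :=
            Finset.sum_le_sum (fun k hk => hneg k (Finset.mem_filter.mp hk).1)
        _ ≤ ∑ k ∈ K with k ≤ 0, ht (-k) :=
            Finset.sum_le_sum_of_subset_of_nonneg hs (fun _ _ _ => ht_nonneg _)
  have h8 := sum_ht_ge K 0
  have h9 := sum_ht_neg_le K 0
  simp only [ht_zero, neg_zero] at h8 h9
  calc |∑ k ∈ K, U k x| ≤ ∑ k ∈ K, |U k x| := Finset.abs_sum_le_sum_abs _ _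
    _ ≤ 4 := by linarith

lemma pair_le_of_test (m : ℕ) (a : ℕ → ℝ) {h : ℕ → ℝ} (hh : IsTest m h) :
    pair m a h ≤ 4 * ∑ x ∈ range m, |a x| := by
  unfold pair
  rw [Finset.mul_sum]
  refine Finset.sum_le_sum (fun x hx => ?_)
  have h1 := isTest_abs_le hh (Finset.mem_range.mp hx)
  calc a x * h x ≤ |a x * h x| := le_abs_self _
    _ = |a x| * |h x| := abs_mul _ _
    _ ≤ |a x| * 4 := mul_le_mul_of_nonneg_left h1 (abs_nonneg _)
    _ = 4 * |a x| := by ring

lemma xn_bdd (m : ℕ) (a : ℕ → ℝ) : BddAbove {r | ∃ h, IsTest m h ∧ r = pair m a h} := by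
  refine ⟨4 * ∑ x ∈ range m, |a x|, ?_⟩
  rintro r ⟨h, hh, rfl⟩
  exact pair_le_of_test m a hh

lemma xn_nonempty (m : ℕ) (a : ℕ → ℝ) : {r | ∃ h, IsTest m h ∧ r = pair m a h}.Nonempty :=
  ⟨_, fun _ => 0, isTest_zero m, rfl⟩

lemma pair_le_xn (m : ℕ) (a : ℕ → ℝ) {h : ℕ → ℝ} (hh : IsTest m h) : pair m a h ≤ xn m a :=
  le_csSup (xn_bdd m a) ⟨h, hh, rfl⟩

lemma xn_le_of {m : ℕ} {a : ℕ → ℝ} {C : ℝ} (hC : ∀ h, IsTest m h → pair m a h ≤ C) :
    xn m a ≤ C := by
  refine csSup_le (xn_nonempty m a) ?_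
  rintro r ⟨h, hh, rfl⟩
  exact hC h hh

lemma xn_nonneg (m : ℕ) (a : ℕ → ℝ) : 0 ≤ xn m a := by
  have := pair_le_xn m a (isTest_zero m)
  simpa [pair] using this

/-- The upper bound by the `ℓ¹` norm. -/
lemma xn_le_l1 (m : ℕ) (a : ℕ → ℝ) : xn m a ≤ 4 * ∑ x ∈ range m, |a x| :=
  xn_le_of (fun _ hh => pair_le_of_test m a hh)

lemma exists_near (m : ℕ) (a : ℕ → ℝ) {ε : ℝ} (hε : 0 < ε) :
    ∃ h, IsTest m h ∧ xn m a - ε < pair m a h := by
  obtain ⟨r, ⟨h, hh, rfl⟩, hr⟩ := exists_lt_of_lt_csSup (xn_nonempty m a)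
    (show xn m a - ε < xn m a by linarith)
  exact ⟨h, hh, hr⟩

/-- Triangle inequality. -/
lemma xn_add_le (m : ℕ) (a b : ℕ → ℝ) : xn m (fun x => a x + b x) ≤ xn m a + xn m b := by
  refine xn_le_of (fun h hh => ?_)
  have : pair m (fun x => a x + b x) h = pair m a h + pair m b h := by
    unfold pair
    rw [← Finset.sum_add_distrib]
    exact Finset.sum_congr rfl (fun x _ => by ring)
  rw [this]
  exact add_le_add (pair_le_xn m a hh) (pair_le_xn m b hh)

/-- Pairing with a scaled vector. -/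
lemma pair_smul (m : ℕ) (c : ℝ) (a h : ℕ → ℝ) :
    pair m (fun x => c * a x) h = c * pair m a h := by
  unfold pair
  rw [Finset.mul_sum]
  exact Finset.sum_congr rfl (fun x _ => by ring)

lemma pair_neg_right (m : ℕ) (a h : ℕ → ℝ) : pair m a (fun x => - h x) = - pair m a h := by
  unfold pair
  rw [← Finset.sum_neg_distrib]
  exact Finset.sum_congr rfl (fun x _ => by ring)

lemma xn_smul_le (m : ℕ) (c : ℝ) (a : ℕ → ℝ) : xn m (fun x => c * a x) ≤ |c| * xn m a := by
  refine xn_le_of (fun h hh => ?_)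
  rw [pair_smul]
  have hnn := abs_nonneg c
  rcases le_total 0 c with hc | hc
  · rw [abs_of_nonneg hc]
    exact mul_le_mul_of_nonneg_left (pair_le_xn m a hh) hc
  · rw [abs_of_nonpos hc]
    have h1 := pair_le_xn m a (isTest_neg hh)
    rw [pair_neg_right] at h1
    have h2 : -c * (- pair m a h) ≤ -c * xn m a :=
      mul_le_mul_of_nonneg_left h1 (by linarith)
    linarith

/-- Absolute homogeneity. -/
lemma xn_smul (m : ℕ) (c : ℝ) (a : ℕ → ℝ) : xn m (fun x => c * a x) = |c| * xn m a := by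
  apply le_antisymm (xn_smul_le m c a)
  by_cases hc : c = 0
  · subst hc
    simp only [abs_zero, zero_mul]
    exact xn_nonneg _ _
  · have h1 := xn_smul_le m c⁻¹ (fun x => c * a x)
    have h2 : (fun x => c⁻¹ * (c * a x)) = a := by
      funext x; field_simp
    rw [h2, abs_inv] at h1
    have h3 : 0 < |c| := abs_pos.mpr hc
    calc |c| * xn m a ≤ |c| * (|c|⁻¹ * xn m (fun x => c * a x)) :=
          mul_le_mul_of_nonneg_left h1 h3.le
      _ = xn m (fun x => c * a x) := by field_simp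

/-- Half the indicator of an initial segment. -/
noncomputable def seg (j : ℕ) (x : ℕ) : ℝ := if x < j then (1 / 2 : ℝ) else 0

lemma seg_step (j x : ℕ) :
    |seg j x - pv (seg j) x| ≤ (if x = 0 then (1 / 2 : ℝ) else 0) + (if x = j then (1 / 2 : ℝ) else 0) := by
  cases x with
  | zero =>
    simp only [pv_zero, sub_zero, if_true]
    unfold seg
    split_ifs <;> norm_num
  | succ x =>
    simp only [pv_succ, Nat.succ_ne_zero, if_false, zero_add]
    unfold seg
    by_cases h1 : x + 1 < j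
    · have h2 : x < j := by omega
      have h3 : x + 1 ≠ j := by omega
      simp [h1, h2, h3]
    · by_cases h3 : x + 1 = j
      · have h2 : x < j := by omega
        simp only [h2, h3, if_true, lt_self_iff_false, if_false]
        norm_num [abs_of_neg]
      · have h2 : ¬ x < j := by omega
        simp [h1, h2, h3]

lemma tv_seg (m j : ℕ) : tv m (seg j) ≤ 1 := by
  unfold tv
  calc ∑ x ∈ range m, |seg j x - pv (seg j) x|
      ≤ ∑ x ∈ range m, ((if x = 0 then (1 / 2 : ℝ) else 0) + (if x = j then (1 / 2 : ℝ) else 0)) :=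
        Finset.sum_le_sum (fun x _ => seg_step j x)
    _ = ∑ x ∈ range m, (if x = 0 then (1 / 2 : ℝ) else 0) +
          ∑ x ∈ range m, (if x = j then (1 / 2 : ℝ) else 0) := Finset.sum_add_distrib
    _ ≤ 1 / 2 + 1 / 2 := by
        apply add_le_add
        · rw [Finset.sum_ite_eq']; split_ifs <;> norm_num
        · rw [Finset.sum_ite_eq']; split_ifs <;> norm_num
    _ = 1 := by norm_num

lemma isTest_seg (m j : ℕ) : IsTest m (seg j) := by
  refine ⟨{0}, fun _ => seg j, ?_, ?_, ?_⟩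
  · intro k hk x _
    rw [Finset.mem_singleton.mp hk, ht_zero]
    show |seg j x| ≤ 1
    unfold seg
    split_ifs <;> norm_num
  · simp only [Finset.sum_singleton, ht_zero, one_mul]
    exact tv_seg m j
  · intro x _
    simp

lemma pair_seg (m j : ℕ) (hj : j ≤ m) (a : ℕ → ℝ) :
    pair m a (seg j) = (1 / 2) * ∑ x ∈ range j, a x := by
  unfold pair seg
  have h1 : ∀ x, a x * (if x < j then (1 / 2 : ℝ) else 0) = if x < j then (1 / 2) * a x else 0 := by
    intro x; split_ifs <;> ring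
  simp only [h1]
  rw [← Finset.sum_filter, Finset.mul_sum]
  have h2 : (range m).filter (· < j) = range j := by
    ext x
    simp only [Finset.mem_filter, Finset.mem_range]
    omega
  rw [h2]

/-- The lower bound by the summing norm. -/
lemma abs_sum_le_xn (m j : ℕ) (hj : j ≤ m) (a : ℕ → ℝ) :
    |∑ x ∈ range j, a x| ≤ 2 * xn m a := by
  have h1 := pair_le_xn m a (isTest_seg m j)
  have h2 := pair_le_xn m a (isTest_neg (isTest_seg m j))
  rw [pair_neg_right] at h2
  rw [pair_seg m j hj] at h1 h2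
  rw [abs_le]
  constructor <;> linarith

/-- Definiteness on the first `m` coordinates. -/
lemma eq_zero_of_xn_eq_zero {m : ℕ} {a : ℕ → ℝ} (h : xn m a = 0) {x : ℕ} (hx : x < m) :
    a x = 0 := by
  have h1 := abs_sum_le_xn m (x + 1) (by omega) a
  have h2 := abs_sum_le_xn m x (by omega) a
  rw [h, mul_zero] at h1 h2
  have h3 : ∑ y ∈ range (x + 1), a y = 0 := abs_nonpos_iff.mp h1
  have h4 : ∑ y ∈ range x, a y = 0 := abs_nonpos_iff.mp h2
  rw [Finset.sum_range_succ, h4, zero_add] at h3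
  exact h3

/-- The gauge inequality: a ladder of pieces with heights at most `8 * 2^(-i)` pairs with `a`
at most `6 √Λ ‖a‖`, where `Λ = ∑ 2^(-i) tv`. -/
lemma pair_le_of_ladder (m : ℕ) (a : ℕ → ℝ) (I : Finset ℤ) (W : ℤ → ℕ → ℝ) {Λ : ℝ}
    (hW : ∀ i ∈ I, ∀ x < m, |W i x| ≤ 8 * ht i)
    (hΛ : ∑ i ∈ I, ht i * tv m (W i) ≤ Λ) :
    pair m a (fun x => ∑ i ∈ I, W i x) ≤ 6 * √Λ * xn m a := by
  have hterm : ∀ i, 0 ≤ ht i * tv m (W i) := fun i => mul_nonneg (ht_nonneg i) (tv_nonneg m _)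
  have hΛ0 : 0 ≤ Λ := le_trans (Finset.sum_nonneg (fun i _ => hterm i)) hΛ
  have hR : 0 ≤ 6 * √Λ * xn m a :=
    mul_nonneg (mul_nonneg (by norm_num) (Real.sqrt_nonneg _)) (xn_nonneg m a)
  rcases hΛ0.eq_or_lt with h0 | hpos
  · -- zero case
    have hz : ∀ i ∈ I, ∀ x < m, W i x = 0 := by
      intro i hi x hx
      have h1 : ht i * tv m (W i) ≤ 0 := by
        refine le_trans (Finset.single_le_sum (f := fun i => ht i * tv m (W i))
          (fun i _ => hterm i) hi) ?_
        rw [← h0] at hΛ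
        exact hΛ
      have h2 : tv m (W i) ≤ 0 := by
        by_contra hcon
        push Not at hcon
        have := mul_pos (ht_pos i) hcon
        linarith
      have h3 := abs_le_tv (W i) hx
      exact abs_nonpos_iff.mp (le_trans h3 h2)
    have : pair m a (fun x => ∑ i ∈ I, W i x) = 0 := by
      unfold pair
      refine Finset.sum_eq_zero (fun x hx => ?_)
      show a x * ∑ i ∈ I, W i x = 0
      rw [Finset.sum_eq_zero (fun i hi => hz i hi x (Finset.mem_range.mp hx)), mul_zero]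
    rw [this]
    exact hR
  · -- positive case
    set y : ℝ := √(8 * Λ) with hy
    have hypos : 0 < y := Real.sqrt_pos.mpr (by linarith)
    obtain ⟨n, hn1, hn2⟩ := exists_mem_Ico_zpow (x := y) (y := (2 : ℝ)) hypos (by norm_num)
    set p : ℤ := n + 1 with hp
    set s : ℝ := ht (-p) with hs
    have hspos : 0 < s := ht_pos _
    have hs_eq : s = (2 : ℝ) ^ p := by simp [hs, ht]
    have hys : y ≤ s := by rw [hs_eq]; exact hn2.le
    have hs2y : s ≤ 2 * y := by
      rw [hs_eq, hp, zpow_add₀ (by norm_num), zpow_one]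
      linarith
    have hsinv : ht p * s = 1 := by rw [hs, mul_comm]; exact ht_neg_mul p
    -- the rescaled test
    have htest : IsTest m (fun x => ht p * ∑ i ∈ I, W i x) := by
      refine ⟨I.image (fun i => i + (p - 3)), fun k x => ht p * W (k - (p - 3)) x, ?_, ?_, ?_⟩
      · intro k hk x hx
        obtain ⟨i, hi, rfl⟩ := Finset.mem_image.mp hk
        have e : i + (p - 3) - (p - 3) = i := by ring
        simp only [e]
        rw [abs_mul, abs_of_nonneg (ht_nonneg p)]
        have h1 := hW i hi x hx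
        have h2 : ht (i + (p - 3)) = ht i * ht p * 8 := by
          rw [show i + (p - 3) = i + p + (-3) by ring, ht_add, ht_add]
          congr 1
          simp [ht]; norm_num
        rw [h2]
        calc ht p * |W i x| ≤ ht p * (8 * ht i) :=
              mul_le_mul_of_nonneg_left h1 (ht_nonneg p)
          _ = ht i * ht p * 8 := by ring
      · rw [Finset.sum_image (fun a _ b _ hab => by simpa using hab)]
        have h3 : ∀ i ∈ I, ht (i + (p - 3)) * tv m (fun x => ht p * W (i + (p - 3) - (p - 3)) x) =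
            (8 * ht p ^ 2) * (ht i * tv m (W i)) := by
          intro i _
          have e : i + (p - 3) - (p - 3) = i := by ring
          simp only [e]
          rw [tv_smul, abs_of_nonneg (ht_nonneg p)]
          have h2 : ht (i + (p - 3)) = ht i * ht p * 8 := by
            rw [show i + (p - 3) = i + p + (-3) by ring, ht_add, ht_add]
            congr 1
            simp [ht]; norm_num
          rw [h2]; ring
        rw [Finset.sum_congr rfl h3, ← Finset.mul_sum]
        have h4 : y ^ 2 = 8 * Λ := Real.sq_sqrt (by linarith)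
        have h5 : y ^ 2 ≤ s ^ 2 := pow_le_pow_left₀ hypos.le hys 2
        have h6 : (ht p * s) ^ 2 = 1 := by rw [hsinv]; norm_num
        have h7 : 0 ≤ ht p ^ 2 := sq_nonneg _
        calc 8 * ht p ^ 2 * ∑ i ∈ I, ht i * tv m (W i) ≤ 8 * ht p ^ 2 * Λ :=
              mul_le_mul_of_nonneg_left hΛ (by positivity)
          _ = ht p ^ 2 * y ^ 2 := by rw [h4]; ring
          _ ≤ ht p ^ 2 * s ^ 2 := mul_le_mul_of_nonneg_left h5 h7
          _ = 1 := by rw [← mul_pow]; exact h6
      · intro x _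
        show ht p * ∑ i ∈ I, W i x = _
        rw [Finset.sum_image (fun a _ b _ hab => by simpa using hab), Finset.mul_sum]
        refine Finset.sum_congr rfl (fun i _ => ?_)
        have e : i + (p - 3) - (p - 3) = i := by ring
        simp only [e]
    have h8 := pair_le_xn m a htest
    have h9 : pair m a (fun x => ∑ i ∈ I, W i x) =
        s * pair m a (fun x => ht p * ∑ i ∈ I, W i x) := by
      unfold pair
      rw [Finset.mul_sum]
      refine Finset.sum_congr rfl (fun x _ => ?_)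
      show a x * ∑ i ∈ I, W i x = s * (a x * (ht p * ∑ i ∈ I, W i x))
      calc a x * ∑ i ∈ I, W i x = (ht p * s) * (a x * ∑ i ∈ I, W i x) := by rw [hsinv, one_mul]
        _ = s * (a x * (ht p * ∑ i ∈ I, W i x)) := by ring
    rw [h9]
    have h10 : y = √8 * √Λ := by
      rw [hy, Real.sqrt_mul (by norm_num)]
    have h11 : √8 ≤ 3 := by
      rw [show (3 : ℝ) = √9 by
        rw [show (9 : ℝ) = 3 ^ 2 by norm_num, Real.sqrt_sq (by norm_num)]]
      exact Real.sqrt_le_sqrt (by norm_num)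
    have h12 : s ≤ 6 * √Λ := by
      calc s ≤ 2 * y := hs2y
        _ = 2 * (√8 * √Λ) := by rw [h10]
        _ ≤ 2 * (3 * √Λ) := by
            have := Real.sqrt_nonneg Λ
            nlinarith
        _ = 6 * √Λ := by ring
    calc s * pair m a (fun x => ht p * ∑ i ∈ I, W i x) ≤ s * xn m a :=
          mul_le_mul_of_nonneg_left h8 hspos.le
      _ ≤ 6 * √Λ * xn m a := mul_le_mul_of_nonneg_right h12 (xn_nonneg m a)

end Vale.Agent.Lib.P125
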