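import Vale.Agent.Lib.P125.Interp4

open Finset BigOperators

namespace Vale.Agent.Lib.P125

/-- Upper levels: sum of heights at or above `j - τ`. -/
lemma level_sum1 (S : Finset ℤ) (j τ : ℤ) : ∑ i ∈ S with j ≤ i + τ, ht i ≤ 2 * ht (j - τ) := by
  have h := sum_ht_ge S (j - τ)
  refine le_trans (le_of_eq ?_) h
  refine Finset.sum_congr ?_ (fun _ _ => rfl)
  ext i
  simp only [Finset.mem_filter]
  constructor <;> rintro ⟨h1, h2⟩ <;> exact ⟨h1, by omega⟩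

/-- The key algebraic identity of the lower levels. -/
lemma level_term (τ i j : ℤ) (hij : i + τ < j) :
    ht i * (ht j ^ 2 / cc τ i j ^ 2) =
      ht j * ht τ * (8 / 9 : ℝ) ^ (j - τ - i).toNat := by
  set n : ℕ := (j - τ - i).toNat with hn
  have e1 : (j - i - τ).toNat = n := by rw [hn]; congr 1; ring
  have e2 : j = i + τ + (n : ℤ) := by omega
  have e3 : ht j = ht i * ht τ * (1 / 2 : ℝ) ^ n := by
    rw [e2, ht_add, ht_add, ht_nat]
  have hi := ht_pos i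
  have h34 : (0 : ℝ) < (3 / 4 : ℝ) ^ n := by positivity
  unfold cc
  rw [e1]
  have e4 : (8 / 9 : ℝ) ^ n = (1 / 2 : ℝ) ^ n / ((3 / 4 : ℝ) ^ n) ^ 2 := by
    rw [← pow_mul, mul_comm n 2, pow_mul, ← div_pow]
    norm_num
  rw [e4]
  conv_lhs => rw [pow_two (ht j), e3]
  conv_rhs => rw [e3]
  field_simp

/-- Lower levels: the geometric sum. -/
lemma level_sum2 (S : Finset ℤ) (j τ : ℤ) :
    ∑ i ∈ S with i + τ < j, ht i * (ht j ^ 2 / cc τ i j ^ 2) ≤ 9 * (ht j * ht τ) := by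
  have h1 : ∑ i ∈ S with i + τ < j, ht i * (ht j ^ 2 / cc τ i j ^ 2) =
      ht j * ht τ * ∑ i ∈ S with i + τ < j, (8 / 9 : ℝ) ^ (j - τ - i).toNat := by
    rw [Finset.mul_sum]
    refine Finset.sum_congr rfl (fun i hi => ?_)
    exact level_term τ i j (Finset.mem_filter.mp hi).2
  rw [h1]
  have h2 := sum_geom_int' (8 / 9 : ℝ) (by norm_num) (by norm_num) S (j - τ)
  have h3 : ∑ i ∈ S with i + τ < j, (8 / 9 : ℝ) ^ (j - τ - i).toNat ≤
      ∑ i ∈ S with i ≤ j - τ, (8 / 9 : ℝ) ^ (j - τ - i).toNat := by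
    refine Finset.sum_le_sum_of_subset_of_nonneg ?_ (fun _ _ _ => by positivity)
    intro i hi
    simp only [Finset.mem_filter] at hi ⊢
    exact ⟨hi.1, by omega⟩
  have h4 : (1 : ℝ) / (1 - 8 / 9) = 9 := by norm_num
  rw [h4] at h2
  have h5 : 0 ≤ ht j * ht τ := mul_nonneg (ht_nonneg _) (ht_nonneg _)
  calc ht j * ht τ * ∑ i ∈ S with i + τ < j, (8 / 9 : ℝ) ^ (j - τ - i).toNat
      ≤ ht j * ht τ * 9 := mul_le_mul_of_nonneg_left (h3.trans h2) h5
    _ = 9 * (ht j * ht τ) := by ring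

/-- Double sum over the levels: the Schur estimate. -/
lemma schur_levels (S J : Finset ℤ) (τ : ℤ) (t : ℝ) (ht0 : 0 ≤ t) (htτ : t ≤ ht (-τ) ^ 2)
    (A : ℤ → ℝ) (hA : ∀ j, 0 ≤ A j) :
    ∑ i ∈ S, ht i * (∑ j ∈ J with j ≤ i + τ, 2 * t * A j +
        ∑ j ∈ J with i + τ < j, (48 * t ^ 2 * ht j ^ 2 * A j) / cc τ i j ^ 2) ≤
      436 * t * ht (-τ) * ∑ j ∈ J, ht j * A j := by
  -- rewrite the filters on `J` as conditionals
  have e1 : ∀ i, ht i * (∑ j ∈ J with j ≤ i + τ, 2 * t * A j +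
        ∑ j ∈ J with i + τ < j, (48 * t ^ 2 * ht j ^ 2 * A j) / cc τ i j ^ 2) =
      ∑ j ∈ J, ((if j ≤ i + τ then ht i else 0) * (2 * t * A j) +
        (if i + τ < j then ht i * (ht j ^ 2 / cc τ i j ^ 2) else 0) * (48 * t ^ 2 * A j)) := by
    intro i
    rw [Finset.sum_filter, Finset.sum_filter, mul_add, Finset.mul_sum, Finset.mul_sum,
      ← Finset.sum_add_distrib]
    refine Finset.sum_congr rfl (fun j _ => ?_)
    by_cases h1 : j ≤ i + τ
    · have h2 : ¬ i + τ < j := by omega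
      simp [h1, h2]
    · have h2 : i + τ < j := by omega
      simp only [h1, h2, if_true, if_false]
      field_simp
      ring
  simp only [e1]
  rw [Finset.sum_comm, Finset.mul_sum]
  refine Finset.sum_le_sum (fun j _ => ?_)
  have e2 : ∑ i ∈ S, ((if j ≤ i + τ then ht i else 0) * (2 * t * A j) +
        (if i + τ < j then ht i * (ht j ^ 2 / cc τ i j ^ 2) else 0) * (48 * t ^ 2 * A j)) =
      (∑ i ∈ S with j ≤ i + τ, ht i) * (2 * t * A j) +
        (∑ i ∈ S with i + τ < j, ht i * (ht j ^ 2 / cc τ i j ^ 2)) * (48 * t ^ 2 * A j) := by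
    rw [Finset.sum_filter, Finset.sum_filter, Finset.sum_mul, Finset.sum_mul,
      ← Finset.sum_add_distrib]
  rw [e2]
  have h1 := level_sum1 S j τ
  have h2 := level_sum2 S j τ
  have hAj := hA j
  have h3 : 0 ≤ 2 * t * A j := by positivity
  have h4 : 0 ≤ 48 * t ^ 2 * A j := by positivity
  have h5 : ht (j - τ) = ht j * ht (-τ) := by rw [sub_eq_add_neg, ht_add]
  have h6 : ht (-τ) * ht τ = 1 := ht_neg_mul τ
  have h7 : t ^ 2 * ht τ ≤ t * ht (-τ) := by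
    have h8 : t * ht τ ≤ ht (-τ) := by
      calc t * ht τ ≤ ht (-τ) ^ 2 * ht τ := mul_le_mul_of_nonneg_right htτ (ht_nonneg τ)
        _ = ht (-τ) * (ht (-τ) * ht τ) := by ring
        _ = ht (-τ) := by rw [h6, mul_one]
    calc t ^ 2 * ht τ = t * (t * ht τ) := by ring
      _ ≤ t * ht (-τ) := mul_le_mul_of_nonneg_left h8 ht0
  have hj := ht_pos j
  calc (∑ i ∈ S with j ≤ i + τ, ht i) * (2 * t * A j) +
        (∑ i ∈ S with i + τ < j, ht i * (ht j ^ 2 / cc τ i j ^ 2)) * (48 * t ^ 2 * A j)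
      ≤ (2 * ht (j - τ)) * (2 * t * A j) + (9 * (ht j * ht τ)) * (48 * t ^ 2 * A j) :=
        add_le_add (mul_le_mul_of_nonneg_right h1 h3) (mul_le_mul_of_nonneg_right h2 h4)
    _ = 4 * t * ht (-τ) * (ht j * A j) + 432 * (t ^ 2 * ht τ) * (ht j * A j) := by
        rw [h5]; ring
    _ ≤ 4 * t * ht (-τ) * (ht j * A j) + 432 * (t * ht (-τ)) * (ht j * A j) := by
        have h9 : 0 ≤ ht j * A j := mul_nonneg hj.le hAj
        have := mul_le_mul_of_nonneg_right h7 h9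
        linarith
    _ = 436 * t * ht (-τ) * (ht j * A j) := by ring

variable {V : Type*} [Fintype V] {π : V → ℝ} {P : V → V → ℝ}

/-- Edge expectation of the error budget. -/
lemma edge_Rr_le (hc : Rev π P) (t m : ℕ) (ht1 : 1 ≤ t) (J : Finset ℤ) (Φ : ℤ → V → ℕ → ℝ) (τ i : ℤ)
    (hb : ∀ j ∈ J, ∀ y, ∀ x < m, |Φ j y x| ≤ ht j) :
    ∑ u, ∑ v, π u * P u v * Rr m J (fun j => grd P t (Φ j) u v) τ i ≤
      ∑ j ∈ J with j ≤ i + τ, 2 * (t : ℝ) * ∑ y, π y * tv m (Φ j y) +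
        ∑ j ∈ J with i + τ < j,
          (48 * (t : ℝ) ^ 2 * ht j ^ 2 * ∑ y, π y * tv m (Φ j y)) / cc τ i j ^ 2 := by
  have h1 : ∑ u, ∑ v, π u * P u v * Rr m J (fun j => grd P t (Φ j) u v) τ i =
      ∑ j ∈ J with j ≤ i + τ, ∑ u, ∑ v, π u * P u v * tv m (grd P t (Φ j) u v) +
        ∑ j ∈ J with i + τ < j, (∑ u, ∑ v, π u * P u v * qu m (grd P t (Φ j) u v)) / cc τ i j ^ 2 := by
    unfold Rr
    simp only [mul_add, Finset.mul_sum, Finset.sum_add_distrib, Finset.sum_div]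
    congr 1
    · exact sum3_comm _ _
    · rw [sum3_comm]
      refine Finset.sum_congr rfl (fun j _ => Finset.sum_congr rfl (fun u _ =>
        Finset.sum_congr rfl (fun v _ => ?_)))
      ring
  rw [h1]
  apply add_le_add
  · exact Finset.sum_le_sum (fun j _ => edge_tv_le hc t m (Φ j))
  · refine Finset.sum_le_sum (fun j hj => ?_)
    have hc0 := cc_pos τ i j
    refine div_le_div_of_nonneg_right ?_ (by positivity)
    exact edge_qu_le hc t m ht1 (Φ j) (ht_nonneg j) (hb j (Finset.mem_filter.mp hj).1)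

/-- Cauchy-Schwarz for edge sums. -/
lemma edge_cs {w Λ b : V → V → ℝ} (hw : ∀ u v, 0 ≤ w u v) (hΛ : ∀ u v, 0 ≤ Λ u v) :
    ∑ u, ∑ v, w u v * (√(Λ u v) * b u v) ≤
      √(∑ u, ∑ v, w u v * Λ u v) * √(∑ u, ∑ v, w u v * b u v ^ 2) := by
  have h := Real.sum_mul_le_sqrt_mul_sqrt (Finset.univ : Finset (V × V))
    (fun e => √(w e.1 e.2) * √(Λ e.1 e.2)) (fun e => √(w e.1 e.2) * b e.1 e.2)
  simp only [Fintype.sum_prod_type] at h
  have e1 : ∀ u v, (√(w u v) * √(Λ u v)) * (√(w u v) * b u v) = w u v * (√(Λ u v) * b u v) := by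
    intro u v
    have := Real.mul_self_sqrt (hw u v)
    calc _ = (√(w u v) * √(w u v)) * (√(Λ u v) * b u v) := by ring
      _ = _ := by rw [this]
  have e2 : ∀ u v, (√(w u v) * √(Λ u v)) ^ 2 = w u v * Λ u v := by
    intro u v
    rw [mul_pow, Real.sq_sqrt (hw u v), Real.sq_sqrt (hΛ u v)]
  have e3 : ∀ u v, (√(w u v) * b u v) ^ 2 = w u v * b u v ^ 2 := by
    intro u v
    rw [mul_pow, Real.sq_sqrt (hw u v)]
  simp only [e1, e2, e3] at h
  exact h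

/-- Existence of the dyadic scale of `t`. -/
lemma exists_tau (t : ℕ) (ht1 : 1 ≤ t) :
    ∃ τ : ℤ, (t : ℝ) ≤ ht (-τ) ^ 2 ∧ ht (-τ) ≤ 2 * √(t : ℝ) := by
  have h0 : (0 : ℝ) < √(t : ℝ) := Real.sqrt_pos.mpr (by exact_mod_cast ht1)
  obtain ⟨n, hn1, hn2⟩ := exists_mem_Ico_zpow (x := √(t : ℝ)) (y := (2 : ℝ)) h0 (by norm_num)
  refine ⟨n + 1, ?_, ?_⟩
  · have e : ht (-(n + 1)) = (2 : ℝ) ^ (n + 1) := by simp [ht]
    rw [e]
    have h3 : √(t : ℝ) ^ 2 = t := Real.sq_sqrt (by positivity)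
    calc (t : ℝ) = √(t : ℝ) ^ 2 := h3.symm
      _ ≤ ((2 : ℝ) ^ (n + 1)) ^ 2 := pow_le_pow_left₀ h0.le hn2.le 2
  · have e : ht (-(n + 1)) = (2 : ℝ) ^ (n + 1) := by simp [ht]
    rw [e, zpow_add₀ (by norm_num), zpow_one]
    linarith

/-- The bilinear estimate in level form. -/
theorem bilinear_levels (hc : Rev π P) (t m : ℕ) (ht1 : 1 ≤ t) (J : Finset ℤ) (Φ : ℤ → V → ℕ → ℝ)
    (hb : ∀ j ∈ J, ∀ y, ∀ x < m, |Φ j y x| ≤ ht j) (g : V → V → ℕ → ℝ) {W : ℝ}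
    (hW : ∑ j ∈ J, ht j * ∑ y, π y * tv m (Φ j y) ≤ W) :
    ∑ u, ∑ v, π u * P u v * pair m (g u v) (fun x => ∑ j ∈ J, grd P t (Φ j) u v x) ≤
      6 * √(2616 * (t * √(t : ℝ)) * W) * √(∑ u, ∑ v, π u * P u v * xn m (g u v) ^ 2) := by
  have hpi : ∀ u v, 0 ≤ π u * P u v := fun u v => mul_nonneg (hc.pi_nonneg u) (hc.nonneg u v)
  obtain ⟨τ, hτ1, hτ2⟩ := exists_tau t ht1
  -- the top level
  set B : ℝ := ∑ j ∈ J, 2 * (t : ℝ) * ht j with hB
  obtain ⟨n0, hn0⟩ := pow_unbounded_of_one_lt B (one_lt_two : (1 : ℝ) < 2)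
  set i0 : ℤ := -(n0 : ℤ) with hi0
  have hi0' : B ≤ ht i0 := by
    have : ht i0 = (2 : ℝ) ^ n0 := by simp [ht, hi0]
    rw [this]; exact hn0.le
  -- the bottom level
  obtain ⟨M, hM⟩ := J.exists_le
  set N : ℕ := (M - i0 + 1 - τ).toNat + 1 with hNdef
  have hN1 : 1 ≤ N := by omega
  have hN : ∀ j ∈ J, j ≤ i0 - 1 + N + τ := by
    intro j hj
    have := hM j hj
    omega
  -- the per edge ladder
  set Λ : V → V → ℝ := fun u v => 3 * ∑ n ∈ range (N + 1),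
    ht (i0 - 1 + n) * Rr m J (fun j => grd P t (Φ j) u v) τ (i0 - 1 + n) with hΛ
  have hΛ0 : ∀ u v, 0 ≤ Λ u v := fun u v => mul_nonneg (by norm_num)
    (Finset.sum_nonneg (fun n _ => mul_nonneg (ht_nonneg _) (Rr_nonneg m J _ τ _)))
  have hsup : ∀ u v, ∀ x < m, |∑ j ∈ J, grd P t (Φ j) u v x| ≤ ht i0 := by
    intro u v x hx
    refine le_trans ?_ hi0'
    refine (Finset.abs_sum_le_sum_abs _ _).trans (Finset.sum_le_sum (fun j hj => ?_))
    exact abs_grd_le hc t (Φ j) u v hx (hb j hj)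
  have hedge : ∀ u v, pair m (g u v) (fun x => ∑ j ∈ J, grd P t (Φ j) u v x) ≤
      6 * (√(Λ u v) * xn m (g u v)) := by
    intro u v
    have := ladder_pair m J (fun j => grd P t (Φ j) u v) τ (g u v) i0 N hN1 (hsup u v) hN
    calc _ ≤ _ := this
      _ = 6 * (√(Λ u v) * xn m (g u v)) := by ring
  have hstep1 : ∑ u, ∑ v, π u * P u v * pair m (g u v) (fun x => ∑ j ∈ J, grd P t (Φ j) u v x) ≤
      6 * ∑ u, ∑ v, π u * P u v * (√(Λ u v) * xn m (g u v)) := by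
    rw [Finset.mul_sum]
    refine Finset.sum_le_sum (fun u _ => ?_)
    rw [Finset.mul_sum]
    refine Finset.sum_le_sum (fun v _ => ?_)
    calc π u * P u v * pair m (g u v) (fun x => ∑ j ∈ J, grd P t (Φ j) u v x)
        ≤ π u * P u v * (6 * (√(Λ u v) * xn m (g u v))) :=
          mul_le_mul_of_nonneg_left (hedge u v) (hpi u v)
      _ = 6 * (π u * P u v * (√(Λ u v) * xn m (g u v))) := by ring
  have hcs := edge_cs (w := fun u v => π u * P u v) (Λ := Λ)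
    (b := fun u v => xn m (g u v)) hpi hΛ0
  -- expectation of the budget
  set A : ℤ → ℝ := fun j => ∑ y, π y * tv m (Φ j y) with hA
  have hA0 : ∀ j, 0 ≤ A j := fun j =>
    Finset.sum_nonneg (fun y _ => mul_nonneg (hc.pi_nonneg y) (tv_nonneg m _))
  have hExp : ∑ u, ∑ v, π u * P u v * Λ u v ≤ 2616 * (t * √(t : ℝ)) * W := by
    have hS : Set.InjOn (fun n : ℕ => i0 - 1 + (n : ℤ)) ((range (N + 1) : Finset ℕ) : Set ℕ) := by
      intro p _ q _ hpq
      simp only at hpq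
      omega
    have e1 : ∑ u, ∑ v, π u * P u v * Λ u v =
        3 * ∑ i ∈ (range (N + 1)).image (fun n : ℕ => i0 - 1 + (n : ℤ)),
          ht i * ∑ u, ∑ v, π u * P u v * Rr m J (fun j => grd P t (Φ j) u v) τ i := by
      rw [Finset.sum_image hS]
      simp only [hΛ, Finset.mul_sum]
      have := sum3_comm (range (N + 1)) (fun n u v => π u * P u v *
        (3 * (ht (i0 - 1 + n) * Rr m J (fun j => grd P t (Φ j) u v) τ (i0 - 1 + n))))
      rw [this]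
      refine Finset.sum_congr rfl (fun n _ => Finset.sum_congr rfl (fun u _ =>
        Finset.sum_congr rfl (fun v _ => ?_)))
      ring
    rw [e1]
    have ht0 : (0 : ℝ) ≤ t := by positivity
    have e2 := schur_levels ((range (N + 1)).image (fun n : ℕ => i0 - 1 + (n : ℤ))) J τ (t : ℝ)
      ht0 hτ1 A hA0
    have e3 : ∑ i ∈ (range (N + 1)).image (fun n : ℕ => i0 - 1 + (n : ℤ)),
        ht i * ∑ u, ∑ v, π u * P u v * Rr m J (fun j => grd P t (Φ j) u v) τ i ≤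
        436 * (t : ℝ) * ht (-τ) * ∑ j ∈ J, ht j * A j := by
      refine le_trans (Finset.sum_le_sum (fun i _ => ?_)) e2
      exact mul_le_mul_of_nonneg_left (edge_Rr_le hc t m ht1 J Φ τ i hb) (ht_nonneg i)
    have hWA : ∑ j ∈ J, ht j * A j ≤ W := hW
    have hA1 : 0 ≤ ∑ j ∈ J, ht j * A j :=
      Finset.sum_nonneg (fun j _ => mul_nonneg (ht_nonneg j) (hA0 j))
    have hW0 : 0 ≤ W := hA1.trans hWA
    have hτ0 := ht_pos (-τ)
    have hs0 : 0 ≤ √(t : ℝ) := Real.sqrt_nonneg _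
    calc 3 * ∑ i ∈ (range (N + 1)).image (fun n : ℕ => i0 - 1 + (n : ℤ)),
          ht i * ∑ u, ∑ v, π u * P u v * Rr m J (fun j => grd P t (Φ j) u v) τ i
        ≤ 3 * (436 * (t : ℝ) * ht (-τ) * ∑ j ∈ J, ht j * A j) := by linarith
      _ ≤ 3 * (436 * (t : ℝ) * (2 * √(t : ℝ)) * W) := by
          have h1 : 436 * (t : ℝ) * ht (-τ) ≤ 436 * (t : ℝ) * (2 * √(t : ℝ)) :=
            mul_le_mul_of_nonneg_left hτ2 (by positivity)
          have h2 : 436 * (t : ℝ) * ht (-τ) * ∑ j ∈ J, ht j * A j ≤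
              436 * (t : ℝ) * (2 * √(t : ℝ)) * W :=
            mul_le_mul h1 hWA hA1 (by positivity)
          linarith
      _ = 2616 * (t * √(t : ℝ)) * W := by ring
  have hfin : √(∑ u, ∑ v, π u * P u v * Λ u v) ≤ √(2616 * (t * √(t : ℝ)) * W) :=
    Real.sqrt_le_sqrt hExp
  calc _ ≤ _ := hstep1
    _ ≤ 6 * (√(∑ u, ∑ v, π u * P u v * Λ u v) *
          √(∑ u, ∑ v, π u * P u v * xn m (g u v) ^ 2)) :=
        mul_le_mul_of_nonneg_left hcs (by norm_num)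
    _ ≤ 6 * (√(2616 * (t * √(t : ℝ)) * W) * √(∑ u, ∑ v, π u * P u v * xn m (g u v) ^ 2)) := by
        apply mul_le_mul_of_nonneg_left _ (by norm_num)
        exact mul_le_mul_of_nonneg_right hfin (Real.sqrt_nonneg _)
    _ = _ := by ring

end Vale.Agent.Lib.P125
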