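import Vale.Agent.Lib.P125.Interp5
import Vale.Agent.Lib.P125.Bridge

open Finset BigOperators

namespace Vale.Agent.Lib.P125

/-- Reindexing of levels by a shift. -/
lemma sum_shift (K J : Finset ℤ) (a : ℤ) (hJ : ∀ k ∈ K, k - a ∈ J) (G : ℤ → ℝ) :
    ∑ j ∈ J, (if j + a ∈ K then G (j + a) else 0) = ∑ k ∈ K, G k := by
  rw [← Finset.sum_filter]
  refine Finset.sum_nbij' (fun j => j + a) (fun k => k - a) ?_ ?_ ?_ ?_ ?_
  · intro j hj
    exact (Finset.mem_filter.mp hj).2
  · intro k hk
    refine Finset.mem_filter.mpr ⟨hJ k hk, ?_⟩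
    simpa using hk
  · intro j _
    ring
  · intro k _
    ring
  · intro j _
    rfl

/-- The dyadic size of a nonnegative number. -/
lemma exists_scale {ρ : ℝ} (hρ : 0 ≤ ρ) : ∃ a : ℤ, ρ ≤ ht (-a) ∧ ρ * ht (-a) ≤ 2 * ρ ^ 2 := by
  rcases hρ.eq_or_lt with h | h
  · refine ⟨0, ?_, ?_⟩
    · rw [← h]; simp
    · rw [← h]; simp
  · obtain ⟨n, hn1, hn2⟩ := exists_mem_Ico_zpow (x := ρ) (y := (2 : ℝ)) h (by norm_num)
    have e : ht (-(n + 1)) = (2 : ℝ) ^ (n + 1) := by simp [ht]
    refine ⟨n + 1, ?_, ?_⟩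
    · rw [e]; exact hn2.le
    · rw [e, zpow_add₀ (by norm_num), zpow_one]
      nlinarith

/-- A limit argument. -/
lemma le_of_forall_eps {a b c : ℝ} (hc : 0 ≤ c) (h : ∀ ε : ℝ, 0 < ε → a ≤ b + ε * c) : a ≤ b := by
  by_contra hcon
  push Not at hcon
  have h1 : 0 < a - b := by linarith
  have h2 := h ((a - b) / (2 * (c + 1))) (by positivity)
  have h3 : (a - b) / (2 * (c + 1)) * c ≤ (a - b) / 2 := by
    rw [div_mul_eq_mul_div, div_le_div_iff₀ (by positivity) (by norm_num)]
    nlinarith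
  linarith

variable {V : Type*} [Fintype V] {π : V → ℝ} {P : V → V → ℝ}

/-- Duality for a sequence valued function, coordinate by coordinate. -/
lemma pair_duality (hc : Rev π P) (t m : ℕ) (φ : V → ℕ → ℝ) (f : V → ℕ → ℝ) :
    ∑ x, π x * pair m (fun z => f x z - pw P t (fun w => f w z) x) (φ x) =
      (1 / 2) * ∑ u, ∑ v, π u * P u v * pair m (fun z => f u z - f v z) (grd P t φ u v) := by
  unfold pair
  simp only [Finset.mul_sum]
  have e1 : ∑ x, ∑ z ∈ range m, π x * ((f x z - pw P t (fun w => f w z) x) * φ x z) =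
      ∑ z ∈ range m, ∑ x, π x * φ x z * (f x z - pw P t (fun w => f w z) x) := by
    rw [Finset.sum_comm]
    exact Finset.sum_congr rfl (fun z _ => Finset.sum_congr rfl (fun x _ => by ring))
  rw [e1]
  have e2 : ∑ u, ∑ v, ∑ z ∈ range m, (1 / 2 : ℝ) * (π u * P u v * ((f u z - f v z) * grd P t φ u v z)) =
      ∑ z ∈ range m, ∑ u, ∑ v, (1 / 2 : ℝ) * (π u * P u v * ((f u z - f v z) * grd P t φ u v z)) :=
    sum3_comm _ _
  rw [e2]
  refine Finset.sum_congr rfl (fun z _ => ?_)
  rw [duality hc t (fun y => φ y z) (fun y => f y z),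
    dirichlet hc (gr P t (fun y => φ y z)) (fun y => f y z), Finset.mul_sum]
  refine Finset.sum_congr rfl (fun u _ => ?_)
  rw [Finset.mul_sum]
  refine Finset.sum_congr rfl (fun v _ => ?_)
  unfold grd
  ring

/-- Pairing only depends on the first `m` coordinates. -/
lemma pair_congr {m : ℕ} {a h h' : ℕ → ℝ} (e : ∀ x < m, h x = h' x) : pair m a h = pair m a h' := by
  unfold pair
  exact Finset.sum_congr rfl (fun x hx => by rw [e x (Finset.mem_range.mp hx)])

/-- The mean inequality in the interpolation norm, with `√`. -/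
theorem mean_interp_pos (hc : Rev π P) (t m : ℕ) (ht1 : 1 ≤ t) (f : V → ℕ → ℝ) :
    ∑ x, π x * xn m (fun z => f x z - pw P t (fun w => f w z) x) ^ 2 ≤
      47088 * (t * √(t : ℝ)) *
        ∑ u, ∑ v, π u * P u v * xn m (fun z => f u z - f v z) ^ 2 := by
  set D : V → ℕ → ℝ := fun x z => f x z - pw P t (fun w => f w z) x with hD
  set g : V → V → ℕ → ℝ := fun u v z => f u z - f v z with hg
  set ρ : V → ℝ := fun x => xn m (D x) with hρ
  have hρ0 : ∀ x, 0 ≤ ρ x := fun x => xn_nonneg m _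
  set R : ℝ := ∑ x, π x * ρ x ^ 2 with hR
  have hR0 : 0 ≤ R := Finset.sum_nonneg (fun x _ => mul_nonneg (hc.pi_nonneg x) (sq_nonneg _))
  set E : ℝ := ∑ u, ∑ v, π u * P u v * xn m (g u v) ^ 2 with hE
  have hE0 : 0 ≤ E := Finset.sum_nonneg (fun u _ => Finset.sum_nonneg (fun v _ =>
    mul_nonneg (mul_nonneg (hc.pi_nonneg u) (hc.nonneg u v)) (sq_nonneg _)))
  have hc0 : 0 ≤ ∑ x, π x * ρ x :=
    Finset.sum_nonneg (fun x _ => mul_nonneg (hc.pi_nonneg x) (hρ0 x))
  set b : ℝ := 3 * √(2616 * (t * √(t : ℝ)) * (2 * R)) * √E with hb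
  -- the main inequality with an error
  have main : R ≤ b := by
    refine le_of_forall_eps hc0 (fun ε hε => ?_)
    -- selection of near optimal test sequences
    have hsel : ∀ x, ∃ h, IsTest m h ∧ xn m (D x) - ε < pair m (D x) h :=
      fun x => exists_near m (D x) hε
    choose h hh hnear using hsel
    have hh' : ∀ x, ∃ (K : Finset ℤ) (U : ℤ → ℕ → ℝ),
        (∀ k ∈ K, ∀ z < m, |U k z| ≤ ht k) ∧
        (∑ k ∈ K, ht k * tv m (U k) ≤ 1) ∧
        ∀ z < m, h x z = ∑ k ∈ K, U k z := hh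
    choose K U hU1 hU2 hU3 using hh'
    have hsc : ∀ x, ∃ a : ℤ, ρ x ≤ ht (-a) ∧ ρ x * ht (-a) ≤ 2 * ρ x ^ 2 :=
      fun x => exists_scale (hρ0 x)
    choose a ha1 ha2 using hsc
    -- the levels
    set Φ : ℤ → V → ℕ → ℝ := fun j y z => if j + a y ∈ K y then ρ y * U y (j + a y) z else 0
      with hΦ
    set J : Finset ℤ := Finset.univ.biUnion (fun y => (K y).image (fun k => k - a y)) with hJdef
    have hJ : ∀ y, ∀ k ∈ K y, k - a y ∈ J := by
      intro y k hk
      exact Finset.mem_biUnion.mpr ⟨y, Finset.mem_univ _, Finset.mem_image.mpr ⟨k, hk, rfl⟩⟩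
    have hbd : ∀ j ∈ J, ∀ y, ∀ z < m, |Φ j y z| ≤ ht j := by
      intro j _ y z hz
      simp only [hΦ]
      split_ifs with hk
      · rw [abs_mul, abs_of_nonneg (hρ0 y)]
        have h1 := hU1 y (j + a y) hk z hz
        rw [ht_add] at h1
        have h2 : ρ y * ht (a y) ≤ 1 := by
          have h3 := mul_le_mul_of_nonneg_right (ha1 y) (ht_nonneg (a y))
          rwa [ht_neg_mul] at h3
        calc ρ y * |U y (j + a y) z| ≤ ρ y * (ht j * ht (a y)) :=
              mul_le_mul_of_nonneg_left h1 (hρ0 y)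
          _ = ht j * (ρ y * ht (a y)) := by ring
          _ ≤ ht j * 1 := mul_le_mul_of_nonneg_left h2 (ht_nonneg j)
          _ = ht j := mul_one _
      · rw [abs_zero]; exact ht_nonneg j
    -- the cost of one vertex
    have hcost : ∀ y, ∑ j ∈ J, ht j * tv m (Φ j y) ≤ 2 * ρ y ^ 2 := by
      intro y
      have e1 : ∀ j ∈ J, ht j * tv m (Φ j y) =
          if j + a y ∈ K y then (ht (-a y) * ρ y) * (ht (j + a y) * tv m (U y (j + a y))) else 0 := by
        intro j _
        simp only [hΦ]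
        split_ifs with hk
        · rw [tv_smul, abs_of_nonneg (hρ0 y)]
          have e3 : ht j = ht (-a y) * ht (j + a y) := by
            rw [← ht_add]; congr 1; ring
          rw [e3]; ring
        · have : tv m (fun _ => (0 : ℝ)) = 0 := by
            unfold tv
            refine Finset.sum_eq_zero (fun x _ => ?_)
            cases x <;> simp
          rw [this, mul_zero]
      rw [Finset.sum_congr rfl e1,
        sum_shift (K y) J (a y) (hJ y) (fun k => (ht (-a y) * ρ y) * (ht k * tv m (U y k))),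
        ← Finset.mul_sum]
      have h1 := hU2 y
      have h2 : 0 ≤ ht (-a y) * ρ y := mul_nonneg (ht_nonneg _) (hρ0 y)
      calc ht (-a y) * ρ y * ∑ k ∈ K y, ht k * tv m (U y k) ≤ ht (-a y) * ρ y * 1 :=
            mul_le_mul_of_nonneg_left h1 h2
        _ = ρ y * ht (-a y) := by ring
        _ ≤ 2 * ρ y ^ 2 := ha2 y
    -- the values
    have hval : ∀ y, ∀ z < m, ρ y * h y z = ∑ j ∈ J, Φ j y z := by
      intro y z hz
      rw [hU3 y z hz]
      have := sum_shift (K y) J (a y) (hJ y) (fun k => ρ y * U y k z)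
      simp only [hΦ]
      rw [this, Finset.mul_sum]
    -- total cost
    have hW : ∑ j ∈ J, ht j * ∑ y, π y * tv m (Φ j y) ≤ 2 * R := by
      have e1 : ∑ j ∈ J, ht j * ∑ y, π y * tv m (Φ j y) =
          ∑ y, π y * ∑ j ∈ J, ht j * tv m (Φ j y) := by
        simp only [Finset.mul_sum]
        rw [Finset.sum_comm]
        exact Finset.sum_congr rfl (fun y _ => Finset.sum_congr rfl (fun j _ => by ring))
      rw [e1, hR, Finset.mul_sum]
      refine Finset.sum_le_sum (fun y _ => ?_)
      calc π y * ∑ j ∈ J, ht j * tv m (Φ j y) ≤ π y * (2 * ρ y ^ 2) :=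
            mul_le_mul_of_nonneg_left (hcost y) (hc.pi_nonneg y)
        _ = 2 * (π y * ρ y ^ 2) := by ring
    have hbil := bilinear_levels hc t m ht1 J Φ hbd g hW
    -- lower bound of the pairing
    set φ : V → ℕ → ℝ := fun y z => ρ y * h y z with hφ
    have hlow : R - ε * ∑ x, π x * ρ x ≤ ∑ x, π x * pair m (D x) (φ x) := by
      have e1 : R - ε * ∑ x, π x * ρ x = ∑ x, π x * (ρ x * (ρ x - ε)) := by
        rw [hR, Finset.mul_sum, ← Finset.sum_sub_distrib]
        exact Finset.sum_congr rfl (fun x _ => by ring)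
      rw [e1]
      refine Finset.sum_le_sum (fun x _ => ?_)
      refine mul_le_mul_of_nonneg_left ?_ (hc.pi_nonneg x)
      have e2 : pair m (D x) (φ x) = ρ x * pair m (D x) (h x) := by
        unfold pair
        rw [Finset.mul_sum]
        exact Finset.sum_congr rfl (fun z _ => by simp only [hφ]; ring)
      rw [e2]
      exact mul_le_mul_of_nonneg_left (hnear x).le (hρ0 x)
    have hdual := pair_duality hc t m φ f
    have hgrd : ∀ u v, pair m (g u v) (grd P t φ u v) =
        pair m (g u v) (fun z => ∑ j ∈ J, grd P t (Φ j) u v z) := by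
      intro u v
      refine pair_congr (fun z hz => ?_)
      unfold grd
      have e3 : (fun y => φ y z) = fun y => ∑ j ∈ J, Φ j y z := by
        funext y
        exact hval y z hz
      rw [e3, gr_sum, gr_sum, ← Finset.sum_sub_distrib]
    have hfin : ∑ x, π x * pair m (D x) (φ x) =
        (1 / 2) * ∑ u, ∑ v, π u * P u v *
          pair m (g u v) (fun z => ∑ j ∈ J, grd P t (Φ j) u v z) := by
      have e5 : ∑ u, ∑ v, π u * P u v * pair m (g u v) (fun z => ∑ j ∈ J, grd P t (Φ j) u v z) =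
          ∑ u, ∑ v, π u * P u v * pair m (g u v) (grd P t φ u v) :=
        Finset.sum_congr rfl (fun u _ => Finset.sum_congr rfl (fun v _ => by rw [hgrd u v]))
      rw [e5]
      exact hdual
    have : R - ε * ∑ x, π x * ρ x ≤ b := by
      calc R - ε * ∑ x, π x * ρ x ≤ _ := hlow
        _ = _ := hfin
        _ ≤ (1 / 2) * (6 * √(2616 * (t * √(t : ℝ)) * (2 * R)) * √E) :=
            mul_le_mul_of_nonneg_left hbil (by norm_num)
        _ = b := by rw [hb]; ring
    linarith
  -- conclusion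
  have ht0 : 0 ≤ (t : ℝ) * √(t : ℝ) := by positivity
  rcases hR0.eq_or_lt with h0 | hpos
  · rw [← h0]
    positivity
  · set X : ℝ := √(2616 * (t * √(t : ℝ)) * (2 * R)) with hX
    set Y : ℝ := √E with hY
    have hX2 : X ^ 2 = 2616 * (t * √(t : ℝ)) * (2 * R) := Real.sq_sqrt (by positivity)
    have hY2 : Y ^ 2 = E := Real.sq_sqrt hE0
    have h1 : R ^ 2 ≤ (3 * X * Y) ^ 2 := pow_le_pow_left₀ hR0 main 2
    have h2 : (3 * X * Y) ^ 2 = 9 * X ^ 2 * Y ^ 2 := by ring
    rw [h2, hX2, hY2] at h1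
    have h3 : R * R ≤ R * (47088 * (t * √(t : ℝ)) * E) := by nlinarith
    exact le_of_mul_le_mul_left h3 hpos

/-- The mean inequality in the interpolation norm, all `t`. -/
theorem mean_interp (hc : Rev π P) (t m : ℕ) (f : V → ℕ → ℝ) :
    ∑ x, π x * xn m (fun z => f x z - pw P t (fun w => f w z) x) ^ 2 ≤
      47088 * (t * √(t : ℝ)) *
        ∑ u, ∑ v, π u * P u v * xn m (fun z => f u z - f v z) ^ 2 := by
  rcases Nat.eq_zero_or_pos t with h | h
  · subst h
    have hz : xn m (fun _ => 0) = 0 := by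
      have h1 := xn_le_l1 m (fun _ => 0)
      simp only [abs_zero, Finset.sum_const_zero, mul_zero] at h1
      exact le_antisymm h1 (xn_nonneg _ _)
    simp [hz]
  · exact mean_interp_pos hc t m h f

end Vale.Agent.Lib.P125
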