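import Vale.Agent.Lib.P125.Green

open Finset BigOperators

namespace Vale.Agent.Lib.P125

variable {V : Type*} [Fintype V] {π : V → ℝ} {P : V → V → ℝ}

/-- Dirichlet form identity. -/
lemma dirichlet (hc : Rev π P) (k f : V → ℝ) :
    ∑ x, π x * k x * (f x - op P f x) =
      (1 / 2) * ∑ u, ∑ v, π u * P u v * ((k u - k v) * (f u - f v)) := by
  have h1 : ∑ x, π x * k x * (f x - op P f x) =
      ∑ u, ∑ v, π u * P u v * (k u * (f u - f v)) := by
    refine Finset.sum_congr rfl (fun u _ => ?_)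
    have h2 : f u - op P f u = ∑ v, P u v * (f u - f v) := by
      have h3 : ∑ v, P u v * (f u - f v) = f u * ∑ v, P u v - op P f u := by
        unfold op
        rw [Finset.mul_sum, ← Finset.sum_sub_distrib]
        exact Finset.sum_congr rfl (fun v _ => by ring)
      rw [h3, hc.sum_one, mul_one]
    rw [h2, Finset.mul_sum]
    exact Finset.sum_congr rfl (fun v _ => by ring)
  have h4 : ∑ u, ∑ v, π u * P u v * (k u * (f u - f v)) =
      ∑ u, ∑ v, π u * P u v * (k v * (f v - f u)) := edge_symm hc _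
  have h5 : ∑ u, ∑ v, π u * P u v * ((k u - k v) * (f u - f v)) =
      ∑ u, ∑ v, π u * P u v * (k u * (f u - f v)) +
        ∑ u, ∑ v, π u * P u v * (k v * (f v - f u)) := by
    rw [← Finset.sum_add_distrib]
    refine Finset.sum_congr rfl (fun u _ => ?_)
    rw [← Finset.sum_add_distrib]
    exact Finset.sum_congr rfl (fun v _ => by ring)
  rw [h5, ← h4, h1]
  ring

/-- Duality: pairing with `I - P^t` transfers to the Green function. -/
lemma duality (hc : Rev π P) (t : ℕ) (τ f : V → ℝ) :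
    ∑ x, π x * τ x * (f x - pw P t f x) = ∑ x, π x * gr P t τ x * (f x - op P f x) := by
  have h1 : ∀ x, f x - pw P t f x = ∑ b ∈ range t, pw P b (fun y => f y - op P f y) x := by
    intro x
    have h2 : ∀ b, pw P b (fun y => f y - op P f y) x = pw P b f x - pw P (b + 1) f x := by
      intro b
      rw [pw_sub_fun, ← pw_succ']
    simp only [h2]
    rw [Finset.sum_range_sub' (fun b => pw P b f x) t]
    rfl
  simp only [h1, Finset.mul_sum]
  rw [Finset.sum_comm]
  have h3 : ∀ x, π x * gr P t τ x * (f x - op P f x) =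
      ∑ b ∈ range t, π x * pw P b τ x * (f x - op P f x) := by
    intro x
    unfold gr
    rw [Finset.mul_sum, Finset.sum_mul]
  simp only [h3]
  conv_rhs => rw [Finset.sum_comm]
  refine Finset.sum_congr rfl (fun b _ => ?_)
  exact (pw_selfadj hc b τ _).symm

/-- Young inequality with the optimal weights. -/
lemma young_cube (t r K : ℝ) (ht : 0 < t) (hr : 0 ≤ r) (hK : 0 ≤ K) :
    r ^ 2 * K ≤ 4 * t * r ^ 3 + K ^ 3 / (108 * t ^ 2) := by
  have h1 : 0 ≤ (K - 6 * t * r) ^ 2 * (K + 12 * t * r) := by positivity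
  have h2 : K ^ 3 - 108 * t ^ 2 * r ^ 2 * K + 432 * t ^ 3 * r ^ 3 =
      (K - 6 * t * r) ^ 2 * (K + 12 * t * r) := by ring
  have h3 : 0 < 108 * t ^ 2 := by positivity
  have h4 : r ^ 2 * K * (108 * t ^ 2) ≤ (4 * t * r ^ 3) * (108 * t ^ 2) + K ^ 3 := by nlinarith
  rw [← sub_nonneg]
  have h5 : 4 * t * r ^ 3 + K ^ 3 / (108 * t ^ 2) - r ^ 2 * K =
      ((4 * t * r ^ 3) * (108 * t ^ 2) + K ^ 3 - r ^ 2 * K * (108 * t ^ 2)) / (108 * t ^ 2) := by
    field_simp
  rw [h5]
  apply div_nonneg _ h3.le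
  linarith

variable {ι : Type*} [LinearOrder ι] [Fintype ι]

/-- Reversed form of `green_ks`, with final segments. -/
theorem green_ks_rev (hc : Rev π P) (t : ℕ) (ht : 1 ≤ t) (g : V → ι → ℝ) (y : V → V → ι) :
    ∑ u, ∑ v, π u * P u v *
        |gr P t (fun x => ∑ z' with y u v ≤ z', g x z') v
          - gr P t (fun x => ∑ z' with y u v ≤ z', g x z') u| ^ 3
      ≤ 72 * t ^ 2 * ∑ x, π x * (∑ z, |g x z|) ^ 3 :=
  green_ks (ι := ιᵒᵈ) hc t ht g y

/-- Mean Markov inequality for the summing operator, selection form. -/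
theorem mean_summing_sel (hc : Rev π P) (t : ℕ) (f : V → ι → ℝ) (y : V → ι) :
    ∑ x, π x * (√|∑ z with z ≤ y x, (f x z - pw P t (fun w => f w z) x)|) ^ 3 ≤
      3 * t * ∑ u, ∑ v, π u * P u v * (√(∑ z, |f u z - f v z|)) ^ 3 := by
  classical
  rcases Nat.eq_zero_or_pos t with rfl | htpos
  · simp
  set s : V → ℝ := fun x => ∑ z with z ≤ y x, (f x z - pw P t (fun w => f w z) x) with hs
  set ρ : V → ℝ := fun x => √|s x| with hρ
  set σ : V → ℝ := fun x => if 0 ≤ s x then 1 else -1 with hσ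
  have hσabs : ∀ x, |σ x| = 1 := by
    intro x
    simp only [hσ]
    split_ifs <;> simp
  have hσs : ∀ x, σ x * s x = |s x| := by
    intro x
    simp only [hσ]
    split_ifs with h
    · rw [abs_of_nonneg h]; ring
    · rw [abs_of_neg (not_le.mp h)]; ring
  have hρ0 : ∀ x, 0 ≤ ρ x := fun x => Real.sqrt_nonneg _
  have hρsq : ∀ x, ρ x ^ 2 = |s x| := fun x => Real.sq_sqrt (abs_nonneg _)
  -- the dual elements
  set γ : V → ι → ℝ := fun x z => ρ x * σ x * (if z = y x then 1 else 0) with hγ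
  set τ : ι → V → ℝ := fun z x => ∑ z' with z ≤ z', γ x z' with hτ
  have hτval : ∀ z x, τ z x = ρ x * σ x * (if z ≤ y x then 1 else 0) := by
    intro z x
    simp only [hτ, hγ]
    rw [← Finset.mul_sum]
    congr 1
    rw [Finset.sum_ite_eq' ]
    simp
  have hw : ∀ x, ∑ z, |γ x z| = ρ x := by
    intro x
    simp only [hγ, abs_mul, abs_of_nonneg (hρ0 x), hσabs, mul_one]
    rw [← Finset.mul_sum]
    have : ∀ z, |(if z = y x then (1 : ℝ) else 0)| = if z = y x then 1 else 0 := by
      intro z; split_ifs <;> simp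
    simp only [this]
    rw [Finset.sum_ite_eq']
    simp
  set A := ∑ x, π x * ρ x ^ 3 with hA
  set g : V → V → ℝ := fun u v => ∑ z, |f u z - f v z| with hg
  set r : V → V → ℝ := fun u v => √(g u v) with hr
  set B := ∑ u, ∑ v, π u * P u v * r u v ^ 3 with hB
  -- Step 1
  have step1 : A = ∑ z, ∑ x, π x * τ z x * (f x z - pw P t (fun w => f w z) x) := by
    rw [Finset.sum_comm]
    refine Finset.sum_congr rfl (fun x _ => ?_)
    have h1 : ρ x ^ 3 = ρ x * σ x * s x := by
      rw [mul_assoc, hσs, ← hρsq]; ring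
    rw [h1]
    simp only [hτval]
    have h2 : ∑ z, π x * (ρ x * σ x * (if z ≤ y x then 1 else 0)) *
        (f x z - pw P t (fun w => f w z) x) =
        π x * (ρ x * σ x) * ∑ z, (if z ≤ y x then 1 else 0) *
          (f x z - pw P t (fun w => f w z) x) := by
      rw [Finset.mul_sum]
      exact Finset.sum_congr rfl (fun z _ => by ring)
    rw [h2]
    have h3 : ∑ z, (if z ≤ y x then (1 : ℝ) else 0) * (f x z - pw P t (fun w => f w z) x) =
        s x := by
      simp only [hs, ite_mul, one_mul, zero_mul]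
      rw [Finset.sum_filter]
    rw [h3]
    ring
  -- Step 2
  have step2 : A = (1 / 2) * ∑ u, ∑ v, π u * P u v *
      ∑ z, ((gr P t (τ z) u - gr P t (τ z) v) * (f u z - f v z)) := by
    rw [step1]
    have h1 : ∀ z, ∑ x, π x * τ z x * (f x z - pw P t (fun w => f w z) x) =
        (1 / 2) * ∑ u, ∑ v, π u * P u v *
          ((gr P t (τ z) u - gr P t (τ z) v) * (f u z - f v z)) := by
      intro z
      rw [duality hc t (τ z) (fun w => f w z), dirichlet hc]
    simp only [h1]
    rw [← Finset.mul_sum]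
    congr 1
    rw [Finset.sum_comm]
    refine Finset.sum_congr rfl (fun u _ => ?_)
    rw [Finset.sum_comm]
    refine Finset.sum_congr rfl (fun v _ => ?_)
    rw [Finset.mul_sum]
  -- Step 3: choose maximising thresholds
  have hmax : ∀ u v : V, ∃ y' : ι, ∀ z, |gr P t (τ z) v - gr P t (τ z) u| ≤
      |gr P t (τ y') v - gr P t (τ y') u| := by
    intro u v
    obtain ⟨y', _, hy'⟩ := Finset.exists_max_image (Finset.univ : Finset ι)
      (fun z => |gr P t (τ z) v - gr P t (τ z) u|) ⟨y u, Finset.mem_univ _⟩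
    exact ⟨y', fun z => hy' z (Finset.mem_univ _)⟩
  choose y' hy' using hmax
  set K : V → V → ℝ := fun u v => |gr P t (τ (y' u v)) v - gr P t (τ (y' u v)) u| with hK
  have step3 : ∀ u v, ∑ z, ((gr P t (τ z) u - gr P t (τ z) v) * (f u z - f v z)) ≤
      g u v * K u v := by
    intro u v
    simp only [hg, Finset.sum_mul]
    refine Finset.sum_le_sum (fun z _ => ?_)
    calc (gr P t (τ z) u - gr P t (τ z) v) * (f u z - f v z)
        ≤ |(gr P t (τ z) u - gr P t (τ z) v) * (f u z - f v z)| := le_abs_self _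
      _ = |gr P t (τ z) v - gr P t (τ z) u| * |f u z - f v z| := by
          rw [abs_mul, abs_sub_comm]
      _ ≤ K u v * |f u z - f v z| :=
          mul_le_mul_of_nonneg_right (hy' u v z) (abs_nonneg _)
      _ = |f u z - f v z| * K u v := mul_comm _ _
  -- Step 4: Theorem A in reversed form
  have step4 : ∑ u, ∑ v, π u * P u v * K u v ^ 3 ≤ 72 * t ^ 2 * A := by
    have h := green_ks_rev hc t htpos γ y'
    have e1 : ∀ u v, |gr P t (fun x => ∑ z' with y' u v ≤ z', γ x z') v
        - gr P t (fun x => ∑ z' with y' u v ≤ z', γ x z') u| = K u v := fun u v => rfl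
    simp only [e1, hw] at h
    exact h
  have hg0 : ∀ u v, 0 ≤ g u v := fun u v => Finset.sum_nonneg (fun z _ => abs_nonneg _)
  have hK0 : ∀ u v, 0 ≤ K u v := fun u v => abs_nonneg _
  have htR : (0 : ℝ) < t := by exact_mod_cast htpos
  -- Step 5: Young
  have step5 : A ≤ 2 * t * B + (1 / 2) * ((∑ u, ∑ v, π u * P u v * K u v ^ 3) / (108 * t ^ 2)) := by
    have h1 : ∑ u, ∑ v, π u * P u v *
        ∑ z, ((gr P t (τ z) u - gr P t (τ z) v) * (f u z - f v z)) ≤
        ∑ u, ∑ v, π u * P u v * (4 * t * r u v ^ 3 + K u v ^ 3 / (108 * t ^ 2)) := by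
      refine Finset.sum_le_sum (fun u _ => Finset.sum_le_sum (fun v _ => ?_))
      refine mul_le_mul_of_nonneg_left ?_ (mul_nonneg (hc.pi_nonneg u) (hc.nonneg u v))
      refine (step3 u v).trans ?_
      have h2 := young_cube t (r u v) (K u v) htR (Real.sqrt_nonneg _) (hK0 u v)
      have h3 : r u v ^ 2 = g u v := Real.sq_sqrt (hg0 u v)
      rwa [h3] at h2
    have h2 : ∑ u, ∑ v, π u * P u v * (4 * t * r u v ^ 3 + K u v ^ 3 / (108 * t ^ 2)) =
        4 * t * B + (∑ u, ∑ v, π u * P u v * K u v ^ 3) / (108 * t ^ 2) := by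
      rw [hB, Finset.mul_sum, Finset.sum_div, ← Finset.sum_add_distrib]
      refine Finset.sum_congr rfl (fun u _ => ?_)
      rw [Finset.mul_sum, Finset.sum_div, ← Finset.sum_add_distrib]
      refine Finset.sum_congr rfl (fun v _ => ?_)
      ring
    rw [step2]
    linarith
  have hfrac : (∑ u, ∑ v, π u * P u v * K u v ^ 3) / (108 * t ^ 2) ≤ (2 / 3) * A := by
    rw [div_le_iff₀ (by positivity)]
    calc ∑ u, ∑ v, π u * P u v * K u v ^ 3 ≤ 72 * t ^ 2 * A := step4
      _ = (2 / 3) * A * (108 * t ^ 2) := by ring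
  have : A ≤ 3 * t * B := by linarith
  exact this

end Vale.Agent.Lib.P125
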