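import Vale.Agent.Lib.P125.MgGap

open Finset BigOperators

namespace Vale.Agent.Lib.P125

set_option linter.unusedSectionVars false

universe u v

/-- A geometric sum along an injective map of exponents. -/
lemma geom_inj_sum (T : Finset ℤ) (g : ℤ → ℕ) (hinj : Set.InjOn g T) {r : ℝ} (hr0 : 0 < r)
    (hr1 : r < 1) : ∑ k ∈ T, (1 - r) * r ^ (g k) ≤ 1 := by
  have e := Finset.sum_image (f := fun i : ℕ => (1 - r) * r ^ i) hinj
  rw [← e]
  set I := T.image g with hI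
  obtain ⟨N, hN⟩ : ∃ N, I ⊆ range N := by
    refine ⟨I.sup id + 1, fun i hi => ?_⟩
    have : i ≤ I.sup id := Finset.le_sup (f := id) hi
    simp only [Finset.mem_range]
    omega
  have h1r : 0 < 1 - r := by linarith
  calc ∑ i ∈ I, (1 - r) * r ^ i ≤ ∑ i ∈ range N, (1 - r) * r ^ i :=
        Finset.sum_le_sum_of_subset_of_nonneg hN (fun i _ _ => by positivity)
    _ = 1 - r ^ N := by
        rw [← Finset.mul_sum, mul_comm, geom_sum_mul_neg]
    _ ≤ 1 := by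
        have : 0 ≤ r ^ N := by positivity
        linarith

/-- A Marcinkiewicz type inequality: from the `L^p` levels to `L^2`, for bounded level sums. -/
theorem marc2 {p : ℝ} (hp1 : 1 < p) (hp2 : p < 2) : ∃ C : ℝ, 0 < C ∧
    ∀ (s : Finset ℤ) (W : ℤ → ℝ) (N₀ : ℝ), (∀ k, 0 ≤ W k) → 0 < N₀ →
      (∀ k ∈ s, W k ≤ N₀ * (2 : ℝ) ^ (k : ℝ)) →
      (∑ k ∈ s, W k) ^ 2 ≤ C * N₀ ^ (2 - p) * ∑ k ∈ s, (2 : ℝ) ^ ((2 - p) * (k : ℝ)) * W k ^ p := by
  have hp10 : 0 < p - 1 := by linarith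
  have hp20 : 0 < 2 - p := by linarith
  have hp0 : 0 < p := by linarith
  set r : ℝ := (2 : ℝ) ^ (-((2 - p) / (p - 1))) with hr
  have hr0 : 0 < r := Real.rpow_pos_of_pos (by norm_num) _
  have hr1 : r < 1 := Real.rpow_lt_one_of_one_lt_of_neg (by norm_num) (by
    have : 0 < (2 - p) / (p - 1) := by positivity
    linarith)
  have h1r : 0 < 1 - r := by linarith
  have hrq : r ^ (1 - p) = (2 : ℝ) ^ (2 - p) := by
    rw [hr, ← Real.rpow_mul (by norm_num)]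
    congr 1
    field_simp
    ring
  set A : ℝ := (1 - r) ^ (1 - p) with hA
  have hA0 : 0 < A := Real.rpow_pos_of_pos h1r _
  refine ⟨(2 : ℝ) ^ p * A * (2 : ℝ) ^ (2 * (2 - p)), by positivity, ?_⟩
  intro s W N₀ hW hN₀ hbd
  set S := ∑ k ∈ s, (2 : ℝ) ^ ((2 - p) * (k : ℝ)) * W k ^ p with hSdef
  have hterm : ∀ k : ℤ, 0 ≤ (2 : ℝ) ^ ((2 - p) * (k : ℝ)) * W k ^ p := fun k =>
    mul_nonneg (Real.rpow_nonneg (by norm_num) _) (Real.rpow_nonneg (hW k) _)
  have hS0 : 0 ≤ S := Finset.sum_nonneg (fun k _ => hterm k)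
  set Y := ∑ k ∈ s, W k with hY
  have hY0 : 0 ≤ Y := Finset.sum_nonneg (fun k _ => hW k)
  rcases hY0.eq_or_lt with h0 | hYpos
  · rw [← h0]
    have : 0 ≤ (2 : ℝ) ^ p * A * (2 : ℝ) ^ (2 * (2 - p)) * N₀ ^ (2 - p) * S := by positivity
    simpa using this
  have hq : 0 < Y / N₀ := div_pos hYpos hN₀
  obtain ⟨hJ1, hJ2⟩ := exists_scale hq
  set J : ℤ := Int.log 2 (Y / N₀) with hJ
  have hJ1' : N₀ * (2 : ℝ) ^ (J : ℝ) ≤ Y := by
    rw [le_div_iff₀ hN₀] at hJ1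
    linarith
  have hJ2' : Y ≤ N₀ * (2 : ℝ) ^ ((J : ℝ) + 1) := by
    rw [div_lt_iff₀ hN₀] at hJ2
    linarith
  set Lo := s.filter (fun k => k < J - 1) with hLo
  set T := s.filter (fun k => ¬ k < J - 1) with hT
  have hsplit : Y = ∑ k ∈ Lo, W k + ∑ k ∈ T, W k := by
    rw [hY, hLo, hT, Finset.sum_filter_add_sum_filter_not]
  -- low levels
  have hlo : ∑ k ∈ Lo, W k ≤ Y / 2 := by
    have hg : ∑ k ∈ Lo, (1 - (1 / 2 : ℝ)) * (1 / 2 : ℝ) ^ ((J - 2 - k).toNat) ≤ 1 := by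
      refine geom_inj_sum Lo _ ?_ (by norm_num) (by norm_num)
      intro a ha b hb hab
      have h1 : a < J - 1 := (Finset.mem_filter.mp ha).2
      have h2 : b < J - 1 := (Finset.mem_filter.mp hb).2
      dsimp only at hab
      omega
    have he : ∀ k ∈ Lo, W k ≤ N₀ * (2 : ℝ) ^ ((J : ℝ) - 1) *
        ((1 - (1 / 2 : ℝ)) * (1 / 2 : ℝ) ^ ((J - 2 - k).toNat)) := by
      intro k hk
      have hks := (Finset.mem_filter.mp hk).1
      have hkJ : k < J - 1 := (Finset.mem_filter.mp hk).2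
      refine (hbd k hks).trans (le_of_eq ?_)
      have e1 : (((J - 2 - k).toNat : ℕ) : ℝ) = (J : ℝ) - 2 - k := by
        have h1 : (((J - 2 - k).toNat : ℕ) : ℤ) = J - 2 - k := Int.toNat_of_nonneg (by omega)
        have h2 := congrArg (Int.cast : ℤ → ℝ) h1
        push_cast at h2
        exact h2
      have e2 : (1 / 2 : ℝ) ^ ((J - 2 - k).toNat) = (2 : ℝ) ^ (-((J : ℝ) - 2 - k)) := by
        rw [Real.rpow_neg (by norm_num), ← e1, Real.rpow_natCast, one_div, inv_pow]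
      rw [e2]
      have e3 : (1 - (1 / 2 : ℝ)) = (2 : ℝ) ^ (-1 : ℝ) := by
        rw [Real.rpow_neg_one]
        norm_num
      rw [e3, mul_assoc, ← Real.rpow_add (by norm_num), ← Real.rpow_add (by norm_num)]
      congr 2
      ring
    have h1 := Finset.sum_le_sum he
    rw [← Finset.mul_sum] at h1
    have h2 : N₀ * (2 : ℝ) ^ ((J : ℝ) - 1) = N₀ * (2 : ℝ) ^ (J : ℝ) / 2 := by
      rw [Real.rpow_sub (by norm_num), Real.rpow_one]
      ring
    have h3 : 0 ≤ N₀ * (2 : ℝ) ^ ((J : ℝ) - 1) := by positivity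
    have h4 := mul_le_mul_of_nonneg_left hg h3
    rw [mul_one] at h4
    have h5 := h1.trans h4
    rw [h2] at h5
    linarith
  have hhigh : Y ≤ 2 * ∑ k ∈ T, W k := by linarith
  have hTpos : ∀ k ∈ T, J - 1 ≤ k := fun k hk => not_lt.mp (Finset.mem_filter.mp hk).2
  have hpow := rpow_sum_le T (fun k => (1 - r) * r ^ (k - J + 1).toNat) W
    (fun k _ => by positivity) (geom_inj_sum T _ (by
      intro a ha b hb hab
      have h1 := hTpos a ha
      have h2 := hTpos b hb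
      dsimp only at hab
      omega) hr0 hr1) (fun k _ => hW k) hp1.le
  have hw : ∀ k ∈ T, ((1 - r) * r ^ (k - J + 1).toNat) ^ (1 - p) * W k ^ p =
      A * (W k ^ p * (2 : ℝ) ^ ((2 - p) * ((k : ℝ) - J + 1))) := by
    intro k hk
    have hkJ := hTpos k hk
    rw [Real.mul_rpow h1r.le (by positivity), ← Real.rpow_natCast r, ← Real.rpow_mul hr0.le,
      mul_comm (((k - J + 1).toNat : ℕ) : ℝ), Real.rpow_mul hr0.le, hrq,
      ← Real.rpow_mul (by norm_num)]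
    have e : (((k - J + 1).toNat : ℕ) : ℝ) = (k : ℝ) - J + 1 := by
      have h1 : (((k - J + 1).toNat : ℕ) : ℤ) = k - J + 1 := Int.toNat_of_nonneg (by omega)
      have h2 := congrArg (Int.cast : ℤ → ℝ) h1
      push_cast at h2
      exact h2
    rw [e]
    ring
  rw [Finset.sum_congr rfl hw, ← Finset.mul_sum] at hpow
  have hT0 : 0 ≤ ∑ k ∈ T, W k := Finset.sum_nonneg (fun k _ => hW k)
  have h1 : Y ^ p ≤ (2 : ℝ) ^ p * (A * ∑ k ∈ T, W k ^ p * (2 : ℝ) ^ ((2 - p) * ((k : ℝ) - J + 1))) := by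
    have h2 := Real.rpow_le_rpow hY0 hhigh hp0.le
    rw [Real.mul_rpow (by norm_num) hT0] at h2
    exact h2.trans (mul_le_mul_of_nonneg_left hpow (by positivity))
  have h2 : Y ^ (2 - p) ≤ N₀ ^ (2 - p) * (2 : ℝ) ^ (((J : ℝ) + 1) * (2 - p)) := by
    have h3 := Real.rpow_le_rpow hY0 hJ2' hp20.le
    rw [Real.mul_rpow hN₀.le (by positivity), ← Real.rpow_mul (by norm_num)] at h3
    exact h3
  have e1 : Y ^ 2 = Y ^ p * Y ^ (2 - p) := by
    rw [← Real.rpow_add hYpos, ← Real.rpow_natCast]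
    congr 1
    push_cast
    ring
  have hS1 : 0 ≤ ∑ k ∈ T, W k ^ p * (2 : ℝ) ^ ((2 - p) * ((k : ℝ) - J + 1)) :=
    Finset.sum_nonneg (fun k _ => mul_nonneg (Real.rpow_nonneg (hW k) _)
      (Real.rpow_nonneg (by norm_num) _))
  have h3 : Y ^ 2 ≤ (2 : ℝ) ^ p * (A * ∑ k ∈ T, W k ^ p * (2 : ℝ) ^ ((2 - p) * ((k : ℝ) - J + 1))) *
      (N₀ ^ (2 - p) * (2 : ℝ) ^ (((J : ℝ) + 1) * (2 - p))) := by
    rw [e1]
    exact mul_le_mul h1 h2 (Real.rpow_nonneg hY0 _) (by positivity)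
  have h4 : (∑ k ∈ T, W k ^ p * (2 : ℝ) ^ ((2 - p) * ((k : ℝ) - J + 1))) *
      (2 : ℝ) ^ (((J : ℝ) + 1) * (2 - p)) ≤ (2 : ℝ) ^ (2 * (2 - p)) * S := by
    rw [Finset.sum_mul, hSdef, Finset.mul_sum]
    have hsub : T ⊆ s := Finset.filter_subset _ _
    refine le_trans (Finset.sum_le_sum (fun k _ => ?_))
      (Finset.sum_le_sum_of_subset_of_nonneg hsub (fun k _ _ => mul_nonneg
        (Real.rpow_nonneg (by norm_num) _) (hterm k)))
    refine le_of_eq ?_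
    rw [mul_assoc, ← Real.rpow_add (by norm_num), mul_comm (W k ^ p), ← mul_assoc,
      ← Real.rpow_add (by norm_num)]
    congr 2
    ring
  have e2 : (2 : ℝ) ^ p * (A * ∑ k ∈ T, W k ^ p * (2 : ℝ) ^ ((2 - p) * ((k : ℝ) - J + 1))) *
      (N₀ ^ (2 - p) * (2 : ℝ) ^ (((J : ℝ) + 1) * (2 - p))) =
      (2 : ℝ) ^ p * A * N₀ ^ (2 - p) * ((∑ k ∈ T, W k ^ p * (2 : ℝ) ^ ((2 - p) * ((k : ℝ) - J + 1))) *
      (2 : ℝ) ^ (((J : ℝ) + 1) * (2 - p))) := by ring
  rw [e2] at h3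
  refine h3.trans ?_
  have h5 := mul_le_mul_of_nonneg_left h4 (by positivity : 0 ≤ (2 : ℝ) ^ p * A * N₀ ^ (2 - p))
  refine h5.trans (le_of_eq ?_)
  ring

section
variable {X : Type v} [AddCommGroup X] [Module ℝ X]

/-- The Markov type inequality for a seminorm. -/
def MT (Q : Seminorm ℝ X) (p K : ℝ) : Prop :=
  ∀ (V : Type u) [Fintype V] [DecidableEq V] (π : V → ℝ) (P : V → V → ℝ), Rev π P → ∑ x, π x = 1 →
    ∀ (f : V → X) (t : ℕ), 1 ≤ t →
      ∑ x, π x * pw P t (fun w => Q (f w - f x) ^ p) x ≤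
        K * t * ∑ a, ∑ b, π a * P a b * Q (f b - f a) ^ p

/-- The Markov type inequality for antisymmetric forms. -/
lemma form_of_type {Q : Seminorm ℝ X} {p K : ℝ} (hp : 0 < p) (hK : 0 ≤ K) (hMT : MT.{u} Q p K)
    {V : Type u} [Fintype V] [DecidableEq V] {π : V → ℝ} {P : V → V → ℝ} (hc : Rev π P)
    (hπ1 : ∑ x, π x = 1) (c : V → V → X) (hanti : ∀ x y, c y x = - c x y) (t : ℕ) (ht : 1 ≤ t) :
    ∑ x, π x * Ex (fun _ => (1 : ℝ)) P t x
      (fun ys _ => Q (∑ i ∈ range t, c (ys i) (ys (i + 1))) ^ p) ≤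
      K * t * ∑ x, ∑ y, π x * P x y * Q (c x y) ^ p := by
  classical
  refine lift_form hc Q hanti t (fun n hn => ?_)
  have hn0 : 0 < n := by omega
  have hm := Phat_momentx (n := n) hc hn0 Q hanti hp
  have h1 := hMT (V × Bx V n) (pihat π) (Phat P) (Phat_rev hc hn0) (pihat_sum hπ1 hn0) (fhx c) t ht
  refine h1.trans (mul_le_mul_of_nonneg_left hm (by positivity))

/-- The Markov type inequality gives a two point inequality with exponent `3 - p`. -/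
theorem two_point_of_type {Q : Seminorm ℝ X} (hzero : ∀ a, Q a = 0 → a = 0) {p K : ℝ}
    (hp1 : 1 < p) (hp2 : p < 2) (hK : 0 ≤ K) (hMT : MT.{u} Q p K) :
    ∃ C₀ : ℝ, 0 < C₀ ∧ TwoPt.{u} Q Q C₀ (3 - p) := by
  have hp0 : 0 < p := by linarith
  obtain ⟨CM, hCM0, hCM⟩ := marc2 hp1 hp2
  refine ⟨4 * CM * (K + 1), by positivity, ?_⟩
  intro V _ _ π P hc hπ1 f t ht
  classical
  have hs : Spd hc (fun _ => (1 : ℝ)) := ⟨fun _ => zero_le_one, fun _ => le_rfl⟩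
  have hlz : lz (fun _ => (1 : ℝ)) P = P := by
    funext x y
    simp [lz]
  have hμ : Rev π (lz (fun _ => (1 : ℝ)) P) := by
    rw [hlz]
    exact hc
  set h1 : V → ℝ := fun _ => (1 : ℝ) with hh1
  have htR : (1 : ℝ) ≤ t := by exact_mod_cast ht
  have ht0 : (0 : ℝ) < t := by linarith
  have hleft : ∑ x, π x * pw P t (fun w => Q (f w - f x) ^ 2) x =
      EE h1 P π t (fun ys _ => Q (f (ys t) - f (ys 0)) ^ 2) := by
    unfold EE
    refine Finset.sum_congr rfl (fun x _ => ?_)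
    congr 1
    have e1 := Ex_pos hs t t le_rfl x (fun w => Q (f w - f x) ^ 2)
    rw [hlz] at e1
    rw [← e1]
    exact Ex_congr hs t x (fun ys ms hy => by rw [hy])
  rw [hleft]
  set N₀ : ℝ := 2 * t with hN₀
  have hN₀0 : 0 < N₀ := by positivity
  have hAkx : ∀ (k : ℤ) (ys : ℕ → V), Q (Akx Q f k t ys) ≤ t := by
    intro k ys
    unfold Akx
    refine (sn_sum_le Q _ _).trans ?_
    calc ∑ i ∈ range t, Q (cfx Q f k (ys i) (ys (i + 1))) ≤ ∑ _i ∈ range t, (1 : ℝ) :=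
          Finset.sum_le_sum (fun i _ => cfx_L1' Q f k _ _)
      _ = t := by simp
  have hpt : ∀ (ys : ℕ → V) (ms : ℕ → Bool), Q (f (ys t) - f (ys 0)) ^ 2 ≤
      CM * N₀ ^ (2 - p) * ∑ k ∈ Lvx Q f, ((2 : ℝ) ^ p * (2 : ℝ) ^ (2 * (k : ℝ))) *
        Q (Akx Q f k t ys) ^ p := by
    intro ys _
    have hW : ∀ k : ℤ, 0 ≤ (2 : ℝ) ^ ((k : ℝ) + 1) * Q (Akx Q f k t ys) := fun k =>
      mul_nonneg (Real.rpow_nonneg (by norm_num) _) (apply_nonneg Q _)
    have hb : ∀ k ∈ Lvx Q f, (2 : ℝ) ^ ((k : ℝ) + 1) * Q (Akx Q f k t ys) ≤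
        N₀ * (2 : ℝ) ^ (k : ℝ) := by
      intro k _
      rw [Real.rpow_add (by norm_num), Real.rpow_one, hN₀]
      have h2k : (0 : ℝ) < (2 : ℝ) ^ (k : ℝ) := Real.rpow_pos_of_pos (by norm_num) _
      have := mul_le_mul_of_nonneg_left (hAkx k ys) (by positivity : 0 ≤ (2 : ℝ) ^ (k : ℝ) * 2)
      linarith
    have h2 := hCM (Lvx Q f) (fun k => (2 : ℝ) ^ ((k : ℝ) + 1) * Q (Akx Q f k t ys)) N₀ hW hN₀0 hb
    have h3 := pow_le_pow_left₀ (apply_nonneg Q _) (N_le_levels Q Q hzero f t ys) 2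
    refine h3.trans (h2.trans (le_of_eq ?_))
    congr 1
    refine Finset.sum_congr rfl (fun k _ => ?_)
    rw [Real.mul_rpow (Real.rpow_nonneg (by norm_num) _) (apply_nonneg Q _),
      ← Real.rpow_mul (by norm_num), ← mul_assoc, ← Real.rpow_add (by norm_num),
      ← Real.rpow_add (by norm_num)]
    congr 2
    ring
  refine (EE_mono hs hμ t hpt).trans ?_
  rw [EE_cm, EE_sm hs]
  have hQp : ∀ (k : ℤ) (x y : V), Q (cfx Q f k x y) ^ p ≤ if actx Q f k x y then (1 : ℝ) else 0 := by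
    intro k x y
    have h1 := cfx_L1 Q f k x y
    split_ifs at h1 ⊢ with h
    · exact Real.rpow_le_one (apply_nonneg Q _) h1 hp0.le
    · have h0 : Q (cfx Q f k x y) = 0 := le_antisymm h1 (apply_nonneg Q _)
      rw [h0, Real.zero_rpow hp0.ne']
  have hterm : ∀ k ∈ Lvx Q f, EE h1 P π t (fun ys _ => ((2 : ℝ) ^ p * (2 : ℝ) ^ (2 * (k : ℝ))) *
        Q (Akx Q f k t ys) ^ p) ≤
      ((2 : ℝ) ^ p * (K * t)) * ((2 : ℝ) ^ (2 * (k : ℝ)) * Pkx π P Q f k) := by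
    intro k _
    rw [EE_cm]
    have hF : EE h1 P π t (fun ys _ => Q (Akx Q f k t ys) ^ p) ≤ K * t * Pkx π P Q f k := by
      have h5 := form_of_type hp0 hK hMT hc hπ1 (cfx Q f k) (cfx_anti Q f k) t ht
      refine h5.trans (mul_le_mul_of_nonneg_left ?_ (by positivity))
      unfold Pkx
      refine Finset.sum_le_sum (fun x _ => Finset.sum_le_sum (fun y _ => ?_))
      exact mul_le_mul_of_nonneg_left (hQp k x y) (mul_nonneg (hc.pi_nonneg x) (hc.nonneg x y))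
    have h2p : (0 : ℝ) ≤ (2 : ℝ) ^ p * (2 : ℝ) ^ (2 * (k : ℝ)) := by positivity
    have := mul_le_mul_of_nonneg_left hF h2p
    refine this.trans (le_of_eq ?_)
    ring
  have hsum : ∑ k ∈ Lvx Q f, (2 : ℝ) ^ (2 * (k : ℝ)) * Pkx π P Q f k ≤
      ∑ u, ∑ v, π u * P u v * Q (f v - f u) ^ 2 := by
    unfold Pkx
    simp only [Finset.mul_sum]
    rw [Finset.sum_comm]
    refine Finset.sum_le_sum (fun x _ => ?_)
    rw [Finset.sum_comm]
    refine Finset.sum_le_sum (fun y _ => ?_)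
    have hedge := mul_nonneg (hc.pi_nonneg x) (hc.nonneg x y)
    have e : ∑ k ∈ Lvx Q f, (2 : ℝ) ^ (2 * (k : ℝ)) *
        (π x * P x y * (if actx Q f k x y then (1 : ℝ) else 0)) =
        π x * P x y * ∑ k ∈ Lvx Q f, (2 : ℝ) ^ (2 * (k : ℝ)) *
          (if actx Q f k x y then (1 : ℝ) else 0) := by
      rw [Finset.mul_sum]
      exact Finset.sum_congr rfl (fun k _ => by ring)
    rw [e]
    refine mul_le_mul_of_nonneg_left ?_ hedge
    by_cases h0 : Q (f y - f x) = 0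
    · have : ∀ k ∈ Lvx Q f, (2 : ℝ) ^ (2 * (k : ℝ)) * (if actx Q f k x y then (1 : ℝ) else 0) = 0 := by
        intro k _
        rw [if_neg (fun ha => ha.1 h0), mul_zero]
      rw [Finset.sum_eq_zero this]
      positivity
    · rw [Finset.sum_eq_single (lvx Q f x y)]
      · rw [if_pos ⟨h0, rfl⟩, mul_one]
        have hpos : 0 < Q (f y - f x) := lt_of_le_of_ne (apply_nonneg Q _) (Ne.symm h0)
        have h2 := (exists_scale hpos).1
        have h3 : (2 : ℝ) ^ (2 * ((lvx Q f x y : ℤ) : ℝ)) =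
            ((2 : ℝ) ^ ((lvx Q f x y : ℤ) : ℝ)) ^ 2 := by
          rw [← Real.rpow_natCast, ← Real.rpow_mul (by norm_num)]
          congr 1
          push_cast
          ring
        rw [h3]
        exact pow_le_pow_left₀ (Real.rpow_nonneg (by norm_num) _) h2 2
      · intro k _ hk
        rw [if_neg (fun ha => hk ha.2.symm), mul_zero]
      · intro hn
        exact absurd (lvx_mem Q f x y) hn
  have hE0 : 0 ≤ ∑ u, ∑ v, π u * P u v * Q (f v - f u) ^ 2 :=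
    Finset.sum_nonneg (fun a _ => Finset.sum_nonneg (fun b _ =>
      mul_nonneg (mul_nonneg (hc.pi_nonneg a) (hc.nonneg a b)) (sq_nonneg _)))
  have hfin : ∑ k ∈ Lvx Q f, EE h1 P π t (fun ys _ => ((2 : ℝ) ^ p * (2 : ℝ) ^ (2 * (k : ℝ))) *
        Q (Akx Q f k t ys) ^ p) ≤
      ((2 : ℝ) ^ p * (K * t)) * ∑ u, ∑ v, π u * P u v * Q (f v - f u) ^ 2 := by
    refine (Finset.sum_le_sum hterm).trans ?_
    rw [← Finset.mul_sum]
    exact mul_le_mul_of_nonneg_left hsum (by positivity)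
  have h6 := mul_le_mul_of_nonneg_left hfin (by positivity : 0 ≤ CM * N₀ ^ (2 - p))
  refine h6.trans ?_
  have e3 : CM * N₀ ^ (2 - p) * ((2 : ℝ) ^ p * (K * t)) = 4 * CM * K * (t : ℝ) ^ (3 - p) := by
    rw [hN₀, Real.mul_rpow (by norm_num) ht0.le]
    have e4 : (t : ℝ) ^ (3 - p) = (t : ℝ) ^ (2 - p) * t := by
      rw [← Real.rpow_add_one ht0.ne']
      congr 1
      ring
    have e5 : (2 : ℝ) ^ (2 - p) * (2 : ℝ) ^ p = 4 := by
      rw [← Real.rpow_add (by norm_num)]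
      norm_num
    rw [e4]
    calc CM * ((2 : ℝ) ^ (2 - p) * (t : ℝ) ^ (2 - p)) * ((2 : ℝ) ^ p * (K * t))
        = ((2 : ℝ) ^ (2 - p) * (2 : ℝ) ^ p) * (CM * K * ((t : ℝ) ^ (2 - p) * t)) := by ring
      _ = 4 * CM * K * ((t : ℝ) ^ (2 - p) * t) := by
          rw [e5]
          ring
  rw [← mul_assoc, e3]
  refine mul_le_mul_of_nonneg_right ?_ hE0
  have ht3 : 0 ≤ (t : ℝ) ^ (3 - p) := Real.rpow_nonneg ht0.le _
  have h4CM : 0 ≤ 4 * CM := by positivity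
  have : 4 * CM * K ≤ 4 * CM * (K + 1) := by nlinarith
  exact mul_le_mul_of_nonneg_right this ht3

end

end Vale.Agent.Lib.P125
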