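import Vale.Agent.Lib.P125.MgConv
import Vale.Agent.Lib.P125.Bridge

open Finset BigOperators

namespace Vale.Agent.Lib.P125

set_option linter.unusedSectionVars false

universe v

section
variable (X : Type v) [NormedAddCommGroup X] [NormedSpace ℝ X]

/-- Markov type `p` with constant `K`, spelled out. -/
def MTm (p K : ℝ) : Prop :=
  ∀ (V : Type) [Fintype V] [DecidableEq V] (π : V → ℝ) (P : Matrix V V ℝ),
    (∀ x, 0 ≤ π x) → ∑ x, π x = 1 → (∀ x y, 0 ≤ P x y) → (∀ x, ∑ y, P x y = 1) →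
    (∀ x y, π x * P x y = π y * P y x) → ∀ (f : V → X) (t : ℕ), 1 ≤ t →
      ∑ x, ∑ w, π x * (P ^ t) x w * ‖f w - f x‖ ^ p ≤
        K * t * ∑ u, ∑ v, π u * P u v * ‖f v - f u‖ ^ p

/-- The quadratic inequality at one time, spelled out. -/
def GPm (t₀ : ℕ) (c : ℝ) : Prop :=
  ∀ (V : Type) [Fintype V] [DecidableEq V] (π : V → ℝ) (P : Matrix V V ℝ),
    (∀ x, 0 ≤ π x) → ∑ x, π x = 1 → (∀ x y, 0 ≤ P x y) → (∀ x, ∑ y, P x y = 1) →
    (∀ x y, π x * P x y = π y * P y x) → ∀ f : V → X,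
      ∑ x, ∑ w, π x * (P ^ t₀) x w * ‖f w - f x‖ ^ 2 ≤
        c * ∑ u, ∑ v, π u * P u v * ‖f v - f u‖ ^ 2

/-- The quadratic inequality at all times with a power, spelled out. -/
def TPm (α C : ℝ) : Prop :=
  ∀ (V : Type) [Fintype V] [DecidableEq V] (π : V → ℝ) (P : Matrix V V ℝ),
    (∀ x, 0 ≤ π x) → ∑ x, π x = 1 → (∀ x y, 0 ≤ P x y) → (∀ x, ∑ y, P x y = 1) →
    (∀ x y, π x * P x y = π y * P y x) → ∀ (f : V → X) (t : ℕ), 1 ≤ t →
      ∑ x, ∑ w, π x * (P ^ t) x w * ‖f w - f x‖ ^ 2 ≤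
        C * (t : ℝ) ^ α * ∑ u, ∑ v, π u * P u v * ‖f v - f u‖ ^ 2

variable {X}

lemma sum_pw_eq {V : Type} [Fintype V] [DecidableEq V] (π : V → ℝ) (P : Matrix V V ℝ) (t : ℕ)
    (g : V → V → ℝ) :
    ∑ x, π x * pw (fun a b => P a b) t (g x) x = ∑ x, ∑ w, π x * (P ^ t) x w * g x w := by
  refine Finset.sum_congr rfl (fun x _ => ?_)
  rw [pw_eq_matrix, Finset.mul_sum]
  exact Finset.sum_congr rfl (fun w _ => by ring)

lemma MT_of_MTm {p K : ℝ} (h : MTm X p K) : MT.{0} (normSeminorm ℝ X) p K := by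
  intro V _ _ π P hc hπ1 f t ht
  have h1 := h V π P hc.pi_nonneg hπ1 hc.nonneg hc.sum_one hc.rev f t ht
  have h2 := sum_pw_eq π P t (fun x w => ‖f w - f x‖ ^ p)
  simp only [coe_normSeminorm]
  exact (le_of_eq h2).trans h1

lemma MTm_of_MT {p K : ℝ} (h : MT.{0} (normSeminorm ℝ X) p K) : MTm X p K := by
  intro V _ _ π P h1 h2 h3 h4 h5 f t ht
  have hc : Rev π (fun a b => P a b) := ⟨h1, h3, h4, h5⟩
  have h6 := h V π P hc h2 f t ht
  have h7 := sum_pw_eq π P t (fun x w => ‖f w - f x‖ ^ p)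
  simp only [coe_normSeminorm] at h6
  exact (le_of_eq h7.symm).trans h6

lemma Gap_of_GPm {t₀ : ℕ} {a : ℝ} (h : GPm X t₀ (a ^ 2)) : Gap.{0} (normSeminorm ℝ X) t₀ a := by
  intro V _ _ π P hc hπ1 f
  have h1 := h V π P hc.pi_nonneg hπ1 hc.nonneg hc.sum_one hc.rev f
  have h2 := sum_pw_eq π P t₀ (fun x w => ‖f w - f x‖ ^ 2)
  simp only [coe_normSeminorm]
  exact (le_of_eq h2).trans h1

lemma TPm_of_TwoPt {α C : ℝ} (h : TwoPt.{0} (normSeminorm ℝ X) (normSeminorm ℝ X) C α) :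
    TPm X α C := by
  intro V _ _ π P h1 h2 h3 h4 h5 f t ht
  have hc : Rev π (fun a b => P a b) := ⟨h1, h3, h4, h5⟩
  have h6 := h V π P hc h2 f t ht
  have h7 := sum_pw_eq π P t (fun x w => ‖f w - f x‖ ^ 2)
  simp only [coe_normSeminorm] at h6
  exact (le_of_eq h7.symm).trans h6

/-- The one time inequality implies Markov type, quantitatively. -/
theorem type_of_gapm {t₀ : ℕ} {c p : ℝ} (ht₀ : 2 ≤ t₀) (hc1 : 1 < c) (hct : c < (t₀ : ℝ) ^ 2)
    (hp1 : 1 ≤ p) (hp2 : p < 2) (hpc : c ^ (p / 2) < t₀) (h : GPm X t₀ c) :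
    ∃ K : ℝ, 0 < K ∧ MTm X p K := by
  have ht₀R : (2 : ℝ) ≤ t₀ := by exact_mod_cast ht₀
  have ht₀0 : (0 : ℝ) < t₀ := by linarith
  have ht₀1 : (1 : ℝ) < t₀ := by linarith
  have hc0 : 0 < c := by linarith
  set a : ℝ := Real.sqrt c with ha
  have ha2 : a ^ 2 = c := Real.sq_sqrt hc0.le
  have ha1 : 1 < a := by
    rw [ha, Real.lt_sqrt (by norm_num)]
    linarith
  have hat : a < t₀ := by
    rw [ha, Real.sqrt_lt' ht₀0]
    exact hct
  have hG : Gap.{0} (normSeminorm ℝ X) t₀ a := by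
    apply Gap_of_GPm
    rw [ha2]
    exact h
  obtain ⟨β, C₀, hβ, hpow, hC₀, hTP⟩ := twoPt_of_gap ht₀ ha1 hat hG
  have hp0 : 0 < p := by linarith
  have hβp : 2 * β * p < 2 := by
    have e1 : c ^ (p / 2) = (t₀ : ℝ) ^ (β * p) := by
      rw [← ha2, ← hpow, ← Real.rpow_natCast, ← Real.rpow_mul (by positivity), ← Real.rpow_mul ht₀0.le]
      congr 1
      push_cast
      ring
    rw [e1] at hpc
    have h2 : (t₀ : ℝ) ^ (β * p) < (t₀ : ℝ) ^ (1 : ℝ) := by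
      rw [Real.rpow_one]
      exact hpc
    have h3 := (Real.rpow_lt_rpow_left_iff ht₀1).mp h2
    linarith
  obtain ⟨K, hK0, hK⟩ := type_of_two_point.{0} (N := normSeminorm ℝ X) (L := normSeminorm ℝ X)
    (fun _ => le_rfl) (fun a ha => by simpa using ha) hC₀ (by positivity) hp1 hp2 hβp hTP
  refine ⟨K, hK0, MTm_of_MT ?_⟩
  intro V _ _ π P hc hπ1 f t ht
  exact hK hc hπ1 f t ht

/-- Markov type gives the quadratic inequality with a power below two. -/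
theorem tp_of_typem {p K : ℝ} (hp1 : 1 < p) (hp2 : p ≤ 2) (h : MTm X p K) :
    ∃ α C : ℝ, α < 2 ∧ TPm X α C := by
  rcases hp2.eq_or_lt with rfl | hlt
  · refine ⟨1, K, by norm_num, ?_⟩
    intro V _ _ π P h1 h2 h3 h4 h5 f t ht
    have h6 := h V π P h1 h2 h3 h4 h5 f t ht
    simp only [Real.rpow_two] at h6
    rw [Real.rpow_one]
    exact h6
  · have hK' : MT.{0} (normSeminorm ℝ X) p (max K 0) := by
      intro V _ _ π P hc hπ1 f t ht
      refine (MT_of_MTm h V π P hc hπ1 f t ht).trans ?_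
      have hE : 0 ≤ ∑ a, ∑ b, π a * P a b * (normSeminorm ℝ X) (f b - f a) ^ p :=
        Finset.sum_nonneg (fun a _ => Finset.sum_nonneg (fun b _ =>
          mul_nonneg (mul_nonneg (hc.pi_nonneg a) (hc.nonneg a b))
            (Real.rpow_nonneg (apply_nonneg _ _) _)))
      refine mul_le_mul_of_nonneg_right ?_ hE
      exact mul_le_mul_of_nonneg_right (le_max_left _ _) (Nat.cast_nonneg _)
    obtain ⟨C₀, _, hC⟩ := two_point_of_type (fun a ha => by simpa using ha) hp1 hlt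
      (le_max_right _ _) hK'
    exact ⟨3 - p, C₀, by linarith, TPm_of_TwoPt hC⟩

/-- A power below two gives the inequality at one time with constant below the square. -/
theorem gp_of_tpm {α C : ℝ} (hα : α < 2) (h : TPm X α C) :
    ∃ (t₀ : ℕ) (c : ℝ), 2 ≤ t₀ ∧ c < (t₀ : ℝ) ^ 2 ∧ GPm X t₀ c := by
  have hd : 0 < 2 - α := by linarith
  set C' : ℝ := max C 1 with hC'
  have hC'1 : 1 ≤ C' := le_max_right _ _
  set t₀ : ℕ := ⌈C' ^ (1 / (2 - α))⌉₊ + 2 with ht₀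
  have ht₀0 : (0 : ℝ) < t₀ := by
    rw [ht₀]
    positivity
  have hlt : C' ^ (1 / (2 - α)) < t₀ := by
    have h1 := Nat.le_ceil (C' ^ (1 / (2 - α)))
    rw [ht₀]
    push_cast
    linarith
  have hpow : C' < (t₀ : ℝ) ^ (2 - α) := by
    have h1 := Real.rpow_lt_rpow (by positivity) hlt hd
    rw [← Real.rpow_mul (by linarith)] at h1
    rw [show 1 / (2 - α) * (2 - α) = 1 from by field_simp, Real.rpow_one] at h1
    exact h1
  refine ⟨t₀, C * (t₀ : ℝ) ^ α, by omega, ?_, ?_⟩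
  · have h1 : (t₀ : ℝ) ^ (2 : ℕ) = (t₀ : ℝ) ^ (2 - α) * (t₀ : ℝ) ^ α := by
      rw [← Real.rpow_add ht₀0, ← Real.rpow_natCast]
      congr 1
      push_cast
      ring
    rw [h1]
    have h2 : 0 < (t₀ : ℝ) ^ α := Real.rpow_pos_of_pos ht₀0 _
    exact mul_lt_mul_of_pos_right (lt_of_le_of_lt (le_max_left _ _) hpow) h2
  · intro V _ _ π P h1 h2 h3 h4 h5 f
    exact h V π P h1 h2 h3 h4 h5 f t₀ (by omega)

lemma GPm_mono {t₀ : ℕ} {c c' : ℝ} (hcc : c ≤ c') (h : GPm X t₀ c) : GPm X t₀ c' := by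
  intro V _ _ π P h1 h2 h3 h4 h5 f
  refine (h V π P h1 h2 h3 h4 h5 f).trans (mul_le_mul_of_nonneg_right hcc ?_)
  exact Finset.sum_nonneg (fun a _ => Finset.sum_nonneg (fun b _ =>
    mul_nonneg (mul_nonneg (h1 a) (h3 a b)) (sq_nonneg _)))

/-- The inequality at one time implies nontrivial Markov type. -/
theorem typem_of_gpm {t₀ : ℕ} {c : ℝ} (ht₀ : 2 ≤ t₀) (hct : c < (t₀ : ℝ) ^ 2) (h : GPm X t₀ c) :
    ∃ p K : ℝ, 1 < p ∧ p ≤ 2 ∧ MTm X p K := by
  have ht₀R : (2 : ℝ) ≤ t₀ := by exact_mod_cast ht₀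
  have ht₀0 : (0 : ℝ) < t₀ := by linarith
  set c' : ℝ := max c (((1 + t₀) / 2) ^ 2) with hc'
  have hc'1 : 1 < c' := by
    refine lt_of_lt_of_le ?_ (le_max_right _ _)
    nlinarith
  have hc't : c' < (t₀ : ℝ) ^ 2 := by
    refine max_lt hct ?_
    nlinarith
  have hG : GPm X t₀ c' := GPm_mono (le_max_left c _) h
  set L : ℝ := Real.log c' with hL
  set T : ℝ := Real.log t₀ with hT
  have hL0 : 0 < L := Real.log_pos hc'1
  have hLT : L < 2 * T := by
    have h1 := Real.log_lt_log (by linarith) hc't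
    rw [Real.log_pow] at h1
    push_cast at h1
    exact h1
  have hT0 : 0 < T := by linarith
  set p : ℝ := min (3 / 2) ((1 + 2 * T / L) / 2) with hp
  have hq1 : 1 < 2 * T / L := by
    rw [lt_div_iff₀ hL0]
    linarith
  have hp1 : 1 < p := lt_min (by norm_num) (by linarith)
  have hp2 : p < 2 := lt_of_le_of_lt (min_le_left _ _) (by norm_num)
  have hpT : L * (p / 2) < T := by
    have h1 : p ≤ (1 + 2 * T / L) / 2 := min_le_right _ _
    have h2 : p < 2 * T / L := by linarith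
    rw [lt_div_iff₀ hL0] at h2
    linarith
  have hpc : c' ^ (p / 2) < t₀ := by
    rw [Real.rpow_def_of_pos (by linarith)]
    calc Real.exp (Real.log c' * (p / 2)) < Real.exp T := Real.exp_lt_exp.mpr hpT
      _ = t₀ := Real.exp_log ht₀0
  obtain ⟨K, _, hK⟩ := type_of_gapm ht₀ hc'1 hc't hp1.le hp2 hpc hG
  exact ⟨p, K, hp1, hp2.le, hK⟩

end

end Vale.Agent.Lib.P125
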