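import Vale.Agent.Lib.P125.MtFlat3

open Finset BigOperators

namespace Vale.Agent.Lib.P125

set_option linter.unusedSectionVars false

section gblock
variable {V : Type*} [Fintype V] [DecidableEq V] {μ : V → ℝ} {K : V → V → ℝ}
variable {N L : V → V → ℝ}

/-- The two point hypothesis for a fixed pair of pseudo metrics on `V`. -/
def TwoOn (N L : V → V → ℝ) (C₀ α : ℝ) : Prop :=
  ∀ (K : V → V → ℝ) (μ : V → ℝ), Rev μ K → ∑ x, μ x = 1 → ∀ n : ℕ, 1 ≤ n →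
    ∑ x, μ x * pw K n (fun w => N x w ^ 2) x ≤ C₀ * (n : ℝ) ^ α * ∑ u, ∑ v, μ u * K u v * L u v ^ 2

/-- The two point inequality on a power of the chain, in moment form. -/
lemma gblock (hμ : Rev μ K) (hμ1 : ∑ x, μ x = 1) (hN : ∀ a b, 0 ≤ N a b) {C₀ α : ℝ} (hC₀ : 0 < C₀)
    (hyp : TwoOn N L C₀ α) (M l : ℕ)
    (hE : ∑ u, ∑ v, μ u * pk K M u v * L u v ^ 2 ≤ 6) {p : ℝ} (hp0 : 0 < p) (hp2 : p ≤ 2) :
    ∑ x, μ x * pw K (M * 2 ^ l) (fun w => N x w ^ p) x ≤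
      (6 * C₀) ^ (p / 2) * ((2 : ℝ) ^ (α * p / 2)) ^ l := by
  have hn : 1 ≤ 2 ^ l := Nat.one_le_two_pow
  have h := hyp (pk K M) μ (pk_rev hμ M) hμ1 (2 ^ l) hn
  simp only [pw_pk] at h
  set n : ℝ := ((2 ^ l : ℕ) : ℝ) with hn'
  have hn0 : 0 < n := by
    rw [hn']
    positivity
  have hrp : 0 < n ^ α := Real.rpow_pos_of_pos hn0 _
  have h2 : ∑ x, μ x * pw K (M * 2 ^ l) (fun w => N x w ^ 2) x ≤ 6 * C₀ * n ^ α := by
    refine h.trans ?_
    have := mul_le_mul_of_nonneg_left hE (by positivity : 0 ≤ C₀ * n ^ α)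
    linarith
  have h3 := moment_le hμ hμ1 hp0 hp2 (by positivity : 0 < 6 * C₀ * n ^ α) (M * 2 ^ l)
    (fun x w => N x w) (fun x w => hN x w) h2
  refine h3.trans (le_of_eq ?_)
  rw [Real.mul_rpow (by positivity) hrp.le, ← Real.rpow_mul hn0.le]
  congr 1
  rw [hn']
  push_cast
  rw [← Real.rpow_natCast (2 : ℝ) l, ← Real.rpow_mul (by norm_num), ← Real.rpow_natCast (_ : ℝ) l,
    ← Real.rpow_mul (by norm_num)]
  congr 1
  ring

end gblock

section core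
variable {V : Type*} [Fintype V] [DecidableEq V] {π : V → ℝ} {P : V → V → ℝ} {hc : Rev π P}
  {h : V → ℝ} {μ : V → ℝ} {N L : V → V → ℝ}

/-- The energy of the power chain of the lazy chain is bounded. -/
lemma gEn_pk_le (hs : Spd hc h) (hμ : Rev μ (lz h P)) (hμ1 : ∑ x, μ x = 1) (hLL : PM L L) {κ : ℝ}
    (hL1 : ∀ a b, P a b ≠ 0 → L a b ≤ 1)
    (hrate : ∀ x, h x * ∑ y, P x y * L x y ≤ κ) (hκ : 0 ≤ κ) (M : ℕ) (hM : (M : ℝ) * κ ≤ 2) :
    ∑ u, ∑ v, μ u * pk (lz h P) M u v * L u v ^ 2 ≤ 6 := by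
  have hb : ∀ u, pw (lz h P) M (fun w => L u w ^ 2) u ≤ 6 := by
    intro u
    rw [← Ex_pos hs M M le_rfl u]
    have h1 : Ex h P M u (fun ys _ => L u (ys M) ^ 2) ≤ Ex h P M u (fun ys _ => Len L M ys ^ 2) := by
      refine Ex_mono hs M u (fun ys ms hy => ?_)
      have h2 := tele_le hLL ys (Nat.zero_le M)
      rw [hy] at h2
      have h3 : ∑ s ∈ Finset.Ico 0 M, L (ys s) (ys (s + 1)) = Len L M ys := by
        unfold Len
        rw [Finset.range_eq_Ico]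
      rw [h3] at h2
      exact pow_le_pow_left₀ (hLL.nn _ _) h2 2
    have h3 := Ex_len2 hs hLL.nn hLL.self hL1 hrate hκ M M le_rfl u
    have h4 : ((M : ℝ) * κ) ^ 2 ≤ 4 := by
      have : 0 ≤ (M : ℝ) * κ := by positivity
      nlinarith
    linarith
  have e : ∑ u, ∑ v, μ u * pk (lz h P) M u v * L u v ^ 2 =
      ∑ u, μ u * pw (lz h P) M (fun w => L u w ^ 2) u := by
    refine Finset.sum_congr rfl (fun u _ => ?_)
    rw [← op_pk, op, Finset.mul_sum]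
    exact Finset.sum_congr rfl (fun v _ => by ring)
  rw [e]
  calc ∑ u, μ u * pw (lz h P) M (fun w => L u w ^ 2) u
      ≤ ∑ u, μ u * 6 := Finset.sum_le_sum (fun x _ => mul_le_mul_of_nonneg_left (hb x) (hμ.pi_nonneg x))
    _ = 6 := by rw [← Finset.sum_mul, hμ1, one_mul]

/-- Upper bound for the expected sum over all windows. -/
lemma gEG_upper (hs : Spd hc h) (hμ : Rev μ (lz h P)) (hμ1 : ∑ x, μ x = 1) (hN : PM N L) (hLL : PM L L)
    {C₀ α : ℝ} (hC₀ : 0 < C₀) (hyp : TwoOn N L C₀ α) {κ : ℝ}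
    (hL1 : ∀ a b, P a b ≠ 0 → L a b ≤ 1)
    (hrate : ∀ x, h x * ∑ y, P x y * L x y ≤ κ) (hκ : 0 ≤ κ) (M : ℕ) (hM1 : 1 ≤ M)
    (hM : (M : ℝ) * κ ≤ 2) {p b C : ℝ} (hp : 1 < p) (hp2 : p ≤ 2) (hb : 1 < b) (hC0 : 0 < C)
    (hC : ∀ (K : ℕ) (x : ℕ → ℝ), (∀ i, 0 ≤ x i) →
      (∑ i ∈ range K, x i) ^ p ≤ C * ∑ i ∈ range K, b ^ i * x i ^ p) (t K : ℕ) :
    EG h P μ (N) p t (M * 2 ^ K) ≤
      3 ^ (p - 1) * (2 * (t * ((2 : ℝ) ^ K * 8)) + 2 ^ p * C * ∑ l ∈ range (K + 1),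
        b ^ l * (t * ((2 : ℝ) ^ (K - l) * ((6 * C₀) ^ (p / 2) * ((2 : ℝ) ^ (α * p / 2)) ^ l)))) := by
  have hp0 : 0 < p := by linarith
  have hb0 : 0 < b := by linarith
  set Λ := M * 2 ^ K with hΛ
  have hstep1 : EG h P μ (N) p t Λ ≤ EE h P μ Λ (fun ys ms =>
      3 ^ (p - 1) * (2 * (t * ∑ i ∈ range (2 ^ K), Ln (L) ys M i ^ p) +
        2 ^ p * C * ∑ l ∈ range (K + 1), b ^ l * (t * ∑ i ∈ range (2 ^ (K - l)),
          Db (N) p ys M l i))) :=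
    EE_mono hs hμ Λ (fun ys ms => window_pathwise hN hp hb hC0 hC ys t ms M K hM1)
  refine hstep1.trans ?_
  rw [EE_cm, EE_ad, EE_cm, EE_cm, EE_cm, EE_sm hs, EE_sm hs]
  have e2 : ∀ l, EE h P μ Λ (fun ys ms => b ^ l * (t * ∑ i ∈ range (2 ^ (K - l)),
      Db (N) p ys M l i)) = b ^ l * (t * ∑ i ∈ range (2 ^ (K - l)),
        EE h P μ Λ (fun ys _ => Db (N) p ys M l i)) := by
    intro l
    rw [EE_cm, EE_cm, EE_sm hs]
  simp only [e2]
  have hT1 : ∑ i ∈ range (2 ^ K), EE h P μ Λ (fun ys _ => Ln (L) ys M i ^ p) ≤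
      (2 : ℝ) ^ K * 8 := by
    have hb1 : ∀ i ∈ range (2 ^ K), EE h P μ Λ (fun ys _ => Ln (L) ys M i ^ p) ≤ 8 := by
      intro i hi
      simp only [Finset.mem_range] at hi
      have h1 : (i + 1) * M ≤ Λ := by
        rw [hΛ, mul_comm M]
        exact Nat.mul_le_mul_right M hi
      have h2 : (i + 1) * M = i * M + M := by ring
      obtain ⟨n, hn1, hn2⟩ : ∃ n, Λ = n + i * M ∧ M ≤ n := ⟨Λ - i * M, by omega, by omega⟩
      rw [hn1]
      exact Ln_moment hs hμ hμ1 hLL.nn hLL.self hL1 hrate hκ M hM hp.le hp2 i n hn2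
    calc ∑ i ∈ range (2 ^ K), EE h P μ Λ (fun ys _ => Ln (L) ys M i ^ p)
        ≤ ∑ i ∈ range (2 ^ K), (8 : ℝ) := Finset.sum_le_sum hb1
      _ = (2 : ℝ) ^ K * 8 := by simp
  have hT2 : ∀ l ∈ range (K + 1), ∑ i ∈ range (2 ^ (K - l)),
      EE h P μ Λ (fun ys _ => Db (N) p ys M l i) ≤
      (2 : ℝ) ^ (K - l) * ((6 * C₀) ^ (p / 2) * ((2 : ℝ) ^ (α * p / 2)) ^ l) := by
    intro l hl
    have hlK : l ≤ K := by
      simp only [Finset.mem_range] at hl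
      omega
    have hb1 : ∀ i ∈ range (2 ^ (K - l)), EE h P μ Λ (fun ys _ => Db (N) p ys M l i) ≤
        (6 * C₀) ^ (p / 2) * ((2 : ℝ) ^ (α * p / 2)) ^ l := by
      intro i hi
      simp only [Finset.mem_range] at hi
      have h1 : (i + 1) * 2 ^ l * M ≤ Λ := by
        have h2 : (i + 1) * 2 ^ l ≤ 2 ^ (K - l) * 2 ^ l := Nat.mul_le_mul_right _ hi
        rw [← pow_add, Nat.sub_add_cancel hlK] at h2
        rw [hΛ, mul_comm M]
        exact Nat.mul_le_mul_right M h2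
      have h2 : (i + 1) * 2 ^ l * M = i * 2 ^ l * M + M * 2 ^ l := by ring
      obtain ⟨n, hn1, hn2⟩ : ∃ n, Λ = n + i * 2 ^ l * M ∧ M * 2 ^ l ≤ n :=
        ⟨Λ - i * 2 ^ l * M, by omega, by omega⟩
      have h3 := Ex_two hs hμ (i * 2 ^ l * M) (M * 2 ^ l) n hn2 (fun a b => N a b ^ p)
      have h4 : EE h P μ Λ (fun ys _ => Db (N) p ys M l i) =
          ∑ x, μ x * pw (lz h P) (M * 2 ^ l) (fun w => N x w ^ p) x := by
        rw [← h3, hn1]
        unfold EE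
        refine Finset.sum_congr rfl (fun x _ => ?_)
        congr 1
        refine Ex_congr hs _ x (fun ys ms _ => ?_)
        unfold Db
        rw [show M * 2 ^ l + i * 2 ^ l * M = (i + 1) * 2 ^ l * M by ring]
      rw [h4]
      exact gblock hμ hμ1 hN.nn hC₀ hyp M l (gEn_pk_le hs hμ hμ1 hLL hL1 hrate hκ M hM) hp0 hp2
    calc ∑ i ∈ range (2 ^ (K - l)), EE h P μ Λ (fun ys _ => Db (N) p ys M l i)
        ≤ ∑ i ∈ range (2 ^ (K - l)), ((6 * C₀) ^ (p / 2) * ((2 : ℝ) ^ (α * p / 2)) ^ l) :=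
          Finset.sum_le_sum hb1
      _ = (2 : ℝ) ^ (K - l) * ((6 * C₀) ^ (p / 2) * ((2 : ℝ) ^ (α * p / 2)) ^ l) := by simp
  refine mul_le_mul_of_nonneg_left ?_ (by positivity)
  refine add_le_add (mul_le_mul_of_nonneg_left (mul_le_mul_of_nonneg_left hT1 (by positivity))
    (by norm_num)) (mul_le_mul_of_nonneg_left ?_ (by positivity))
  refine Finset.sum_le_sum (fun l hl => mul_le_mul_of_nonneg_left ?_ (by positivity))
  exact mul_le_mul_of_nonneg_left (hT2 l hl) (by positivity)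

end core

section final
universe u v

/-- The constant of the flat theorem, with its source data. -/
theorem gflat_core {p b C C₀ α : ℝ} (hp : 1 < p) (hp2 : p ≤ 2) (hb : 1 < b) (hC₀ : 0 < C₀)
    (hbt : b * ((2 : ℝ) ^ (α * p / 2) / 2) < 1) (hC0 : 0 < C)
    (hC : ∀ (K : ℕ) (x : ℕ → ℝ), (∀ i, 0 ≤ x i) →
      (∑ i ∈ range K, x i) ^ p ≤ C * ∑ i ∈ range K, b ^ i * x i ^ p)
    {V : Type u} [Fintype V] [DecidableEq V]
    {π : V → ℝ} {P : V → V → ℝ} (hc : Rev π P) (hπ1 : ∑ x, π x = 1) {N L : V → V → ℝ}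
    (hN : PM N L) (hLL : PM L L) (hyp : TwoOn N L C₀ α)
    (hL1 : ∀ a b, P a b ≠ 0 → L a b ≤ 1) {κ : ℝ} (hκ0 : 0 < κ) (hκ1 : κ ≤ 1)
    (hκ : ∑ u, ∑ v, π u * P u v * L u v ≤ κ) (t : ℕ) (ht : 1 ≤ t) :
    ∑ x, π x * pw P t (fun w => N x w ^ p) x ≤
      8 * (3 ^ (p - 1) * (16 + 2 ^ p * C * ((6 * C₀) ^ (p / 2) /
        (1 - b * ((2 : ℝ) ^ (α * p / 2) / 2))))) * t * κ := by
  have hp0 : 0 < p := by linarith
  have hb0 : 0 < b := by linarith
  set a : V → ℝ := fun x => ∑ y, P x y * L x y with ha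
  have ha0 : ∀ x, 0 ≤ a x := fun x =>
    Finset.sum_nonneg (fun y _ => mul_nonneg (hc.nonneg x y) (hLL.nn x y))
  have ha1 : ∀ x, a x ≤ 1 := by
    intro x
    calc a x ≤ ∑ y, P x y := by
          refine Finset.sum_le_sum (fun y _ => ?_)
          by_cases hne : P x y = 0
          · simp [hne]
          · have := mul_le_mul_of_nonneg_left (hL1 x y hne) (hc.nonneg x y)
            linarith
      _ = 1 := hc.sum_one x
  set mx : V → ℝ := fun x => max κ (a x) with hmxdef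
  have hmx0 : ∀ x, κ ≤ mx x := fun x => le_max_left _ _
  have hmx1 : ∀ x, mx x ≤ 1 := fun x => max_le hκ1 (ha1 x)
  have hmxpos : ∀ x, 0 < mx x := fun x => lt_of_lt_of_le hκ0 (hmx0 x)
  have hmxa : ∀ x, a x ≤ mx x := fun x => le_max_right _ _
  have hmxle : ∀ x, mx x ≤ κ + a x := fun x =>
    max_le (by linarith [ha0 x]) (by linarith)
  set h : V → ℝ := fun x => κ / mx x with hhdef
  have hs : Spd hc h := ⟨fun x => (div_pos hκ0 (hmxpos x)).le,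
    fun x => (div_le_one (hmxpos x)).mpr (hmx0 x)⟩
  have hlow : ∀ x, κ ≤ h x := by
    intro x
    rw [hhdef]
    dsimp only
    rw [le_div_iff₀ (hmxpos x)]
    nlinarith [hmx1 x]
  have hrate : ∀ x, h x * ∑ y, P x y * L x y ≤ κ := by
    intro x
    change κ / mx x * a x ≤ κ
    rw [div_mul_eq_mul_div, div_le_iff₀ (hmxpos x)]
    exact mul_le_mul_of_nonneg_left (hmxa x) hκ0.le
  set W : ℝ := ∑ x, π x * mx x with hWdef
  have hW1 : κ ≤ W := by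
    calc κ = ∑ x, π x * κ := by rw [← Finset.sum_mul, hπ1, one_mul]
      _ ≤ W := Finset.sum_le_sum (fun x _ =>
          mul_le_mul_of_nonneg_left (hmx0 x) (hc.pi_nonneg x))
  have hW2 : W ≤ 2 * κ := by
    have h1 : ∑ x, π x * a x ≤ κ := by
      refine le_trans (le_of_eq ?_) hκ
      refine Finset.sum_congr rfl (fun x _ => ?_)
      rw [ha]
      dsimp only
      rw [Finset.mul_sum]
      exact Finset.sum_congr rfl (fun y _ => by ring)
    calc W ≤ ∑ x, π x * (κ + a x) := Finset.sum_le_sum (fun x _ =>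
          mul_le_mul_of_nonneg_left (hmxle x) (hc.pi_nonneg x))
      _ = κ + ∑ x, π x * a x := by
          simp only [mul_add, Finset.sum_add_distrib]
          rw [← Finset.sum_mul, hπ1, one_mul]
      _ ≤ 2 * κ := by linarith
  have hWpos : 0 < W := lt_of_lt_of_le hκ0 hW1
  set μ : V → ℝ := fun x => π x * mx x / W with hμdef
  have hμ0 : ∀ x, 0 ≤ μ x := fun x =>
    div_nonneg (mul_nonneg (hc.pi_nonneg x) (hmxpos x).le) hWpos.le
  have hμ1 : ∑ x, μ x = 1 := by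
    rw [hμdef]
    dsimp only
    rw [← Finset.sum_div, div_self hWpos.ne']
  set c : ℝ := κ / W with hcdef
  have hc12 : 1 / 2 ≤ c := by
    rw [hcdef, div_le_div_iff₀ (by norm_num) hWpos]
    linarith
  have hc0 : 0 ≤ c := by linarith
  have hμh : ∀ x, μ x * h x = c * π x := by
    intro x
    rw [hμdef, hhdef, hcdef]
    dsimp only
    have := (hmxpos x).ne'
    field_simp
  have hμ : Rev μ (lz h P) := lz_rev hs hμ0 hμh
  -- the block length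
  set M : ℕ := ⌈1 / κ⌉₊ with hMdef
  have hMge : 1 / κ ≤ M := Nat.le_ceil _
  have hMlt : (M : ℝ) < 1 / κ + 1 := Nat.ceil_lt_add_one (by positivity)
  have h1κ : 1 ≤ 1 / κ := by
    rw [le_div_iff₀ hκ0]
    linarith
  have hM1 : 1 ≤ M := by
    have : (1 : ℝ) ≤ M := le_trans h1κ hMge
    exact_mod_cast this
  have hMκ1 : 1 ≤ (M : ℝ) * κ := by
    rw [div_le_iff₀ hκ0] at hMge
    exact hMge
  have hMκ2 : (M : ℝ) * κ ≤ 2 := by
    have h1 : (M : ℝ) * κ < (1 / κ + 1) * κ := mul_lt_mul_of_pos_right hMlt hκ0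
    have h2 : (1 / κ + 1) * κ = 1 + κ := by
      field_simp
    rw [h2] at h1
    linarith
  -- the horizon
  set K' : ℕ := 2 * t with hK'
  have hpow : (2 * (t : ℝ)) ≤ (2 : ℝ) ^ K' := by
    have h1 : K' < 2 ^ K' := Nat.lt_two_pow_self
    have h2 : ((K' : ℕ) : ℝ) ≤ ((2 ^ K' : ℕ) : ℝ) := by exact_mod_cast h1.le
    rw [hK'] at h2 ⊢
    push_cast at h2
    exact h2
  set n : ℕ := M * 2 ^ K' with hn
  have hnR : (n : ℝ) = M * (2 : ℝ) ^ K' := by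
    rw [hn]
    push_cast
    ring
  have hn0 : 0 < n := by
    rw [hn]
    positivity
  have hn2 : 2 * ((t : ℝ) - 1) ≤ κ * n := by
    rw [hnR]
    have h2K : (0 : ℝ) < (2 : ℝ) ^ K' := by positivity
    have h3 : κ * (M * (2 : ℝ) ^ K') = ((M : ℝ) * κ) * (2 : ℝ) ^ K' := by ring
    rw [h3]
    have h4 := mul_le_mul_of_nonneg_right hMκ1 h2K.le
    linarith
  have hlower := EG_lower hs hN hμ hκ0 hκ1 hlow hc0 hμh p t n ht hn0 hn2 n
  have hupper := gEG_upper hs hμ hμ1 hN hLL hC₀ hyp hL1 hrate hκ0.le M hM1 hMκ2 hp hp2 hb hC0 hC t (K' + 1)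
  have hnn : n + n = M * 2 ^ (K' + 1) := by
    rw [hn, pow_succ]
    ring
  rw [hnn] at hlower
  -- simplifying the upper bound
  set ν : ℝ := (2 : ℝ) ^ (α * p / 2) with hν
  set θ : ℝ := b * (ν / 2) with hθ
  have hν0 : 0 < ν := Real.rpow_pos_of_pos (by norm_num) _
  have hθ0 : 0 < θ := by positivity
  have h1θ : 0 < 1 - θ := by linarith
  set D : ℝ := (6 * C₀) ^ (p / 2) with hD
  have hD0 : 0 < D := Real.rpow_pos_of_pos (by positivity) _
  set K := K' + 1 with hK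
  have hgeom : ∑ l ∈ range (K + 1), θ ^ l ≤ 1 / (1 - θ) := by
    rw [le_div_iff₀ h1θ, geom_sum_mul_neg]
    have : 0 ≤ θ ^ (K + 1) := by positivity
    linarith
  have hsum : ∑ l ∈ range (K + 1), b ^ l * (t * ((2 : ℝ) ^ (K - l) * (D * ν ^ l))) ≤
      t * (2 : ℝ) ^ K * (D / (1 - θ)) := by
    have e : ∀ l ∈ range (K + 1), b ^ l * (t * ((2 : ℝ) ^ (K - l) * (D * ν ^ l))) =
        (t * (2 : ℝ) ^ K * D) * θ ^ l := by
      intro l hl
      have hl' : l ≤ K := by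
        simp only [Finset.mem_range] at hl
        omega
      have e1 : (2 : ℝ) ^ K = (2 : ℝ) ^ (K - l) * (2 : ℝ) ^ l := by
        rw [← pow_add, Nat.sub_add_cancel hl']
      rw [hθ, mul_pow, div_pow, e1]
      have h2l : (2 : ℝ) ^ l ≠ 0 := by positivity
      field_simp
    rw [Finset.sum_congr rfl e, ← Finset.mul_sum]
    have := mul_le_mul_of_nonneg_left hgeom (by positivity : 0 ≤ (t : ℝ) * (2 : ℝ) ^ K * D)
    refine this.trans (le_of_eq ?_)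
    ring
  set C5 : ℝ := 3 ^ (p - 1) * (16 + 2 ^ p * C * (D / (1 - θ))) with hC5
  have hC50 : 0 < C5 := by positivity
  have hup2 : EG h P μ (N) p t (M * 2 ^ K) ≤ t * (2 : ℝ) ^ K * C5 := by
    refine hupper.trans ?_
    have h3 : 2 ^ p * C * ∑ l ∈ range (K + 1), b ^ l * (t * ((2 : ℝ) ^ (K - l) * (D * ν ^ l))) ≤
        2 ^ p * C * (t * (2 : ℝ) ^ K * (D / (1 - θ))) :=
      mul_le_mul_of_nonneg_left hsum (by positivity)
    have h4 : (3 : ℝ) ^ (p - 1) * (2 * (t * ((2 : ℝ) ^ K * 8)) + 2 ^ p * C *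
        ∑ l ∈ range (K + 1), b ^ l * (t * ((2 : ℝ) ^ (K - l) * (D * ν ^ l)))) ≤
        3 ^ (p - 1) * (2 * (t * ((2 : ℝ) ^ K * 8)) +
          2 ^ p * C * (t * (2 : ℝ) ^ K * (D / (1 - θ)))) :=
      mul_le_mul_of_nonneg_left (by linarith) (by positivity)
    refine h4.trans (le_of_eq ?_)
    rw [hC5]
    ring
  set Φ := ∑ x, π x * pw P t (fun w => N x w ^ p) x with hΦ
  have hΦ0 : 0 ≤ Φ := Finset.sum_nonneg (fun x _ => mul_nonneg (hc.pi_nonneg x)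
    (pw_nonneg hc t (fun w => Real.rpow_nonneg (hN.nn x w) p) x))
  have hfin : (n : ℝ) * (c / 2 * Φ) ≤ t * (2 : ℝ) ^ K * C5 := hlower.trans hup2
  have h2K' : (0 : ℝ) < (2 : ℝ) ^ K' := by positivity
  have hfin2 : (2 : ℝ) ^ K' * ((M : ℝ) * (1 / 4) * Φ) ≤ (2 : ℝ) ^ K' * (2 * t * C5) := by
    have h3 : (n : ℝ) * (1 / 4 * Φ) ≤ (n : ℝ) * (c / 2 * Φ) := by
      refine mul_le_mul_of_nonneg_left ?_ (Nat.cast_nonneg n)
      exact mul_le_mul_of_nonneg_right (by linarith) hΦ0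
    have h4 : (t : ℝ) * (2 : ℝ) ^ K * C5 = (2 : ℝ) ^ K' * (2 * t * C5) := by
      rw [hK, pow_succ]
      ring
    rw [h4] at hfin
    rw [hnR] at h3 hfin
    calc (2 : ℝ) ^ K' * ((M : ℝ) * (1 / 4) * Φ) = (M : ℝ) * (2 : ℝ) ^ K' * (1 / 4 * Φ) := by ring
      _ ≤ (M : ℝ) * (2 : ℝ) ^ K' * (c / 2 * Φ) := h3
      _ ≤ _ := hfin
  have hfin3 : (M : ℝ) * (1 / 4) * Φ ≤ 2 * t * C5 := le_of_mul_le_mul_left hfin2 h2K'
  have hfin4 : Φ ≤ (M : ℝ) * κ * Φ := by nlinarith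
  have hfin5 : (M : ℝ) * κ * Φ = κ * ((M : ℝ) * Φ) := by ring
  have hfin6 : κ * ((M : ℝ) * Φ) ≤ κ * (8 * t * C5) :=
    mul_le_mul_of_nonneg_left (by linarith) hκ0.le
  calc Φ ≤ κ * (8 * t * C5) := by linarith
    _ = 8 * C5 * t * κ := by ring

/-- The flat theorem from a two point hypothesis on the same pair of pseudo metrics. -/
theorem gflat_exact {p C₀ α : ℝ} (hp : 1 < p) (hp2 : p ≤ 2) (hαp : α * p < 2) (hC₀ : 0 < C₀) :
    ∃ C : ℝ, 0 < C ∧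
    ∀ {V : Type u} [Fintype V] [DecidableEq V]
    {π : V → ℝ} {P : V → V → ℝ} (_ : Rev π P) (_ : ∑ x, π x = 1) {N L : V → V → ℝ}
    (_ : PM N L) (_ : PM L L) (_ : TwoOn N L C₀ α)
    (_ : ∀ a b, P a b ≠ 0 → L a b ≤ 1) {κ : ℝ} (_ : 0 < κ) (_ : κ ≤ 1)
    (_ : ∑ u, ∑ v, π u * P u v * L u v ≤ κ) (t : ℕ) (_ : 1 ≤ t),
    ∑ x, π x * pw P t (fun w => N x w ^ p) x ≤ C * t * κ := by
  set ν : ℝ := (2 : ℝ) ^ (α * p / 2) with hν
  have hν0 : 0 < ν := Real.rpow_pos_of_pos (by norm_num) _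
  have hν2 : ν < 2 := by
    have h1 : α * p / 2 < 1 := by linarith
    have := Real.rpow_lt_rpow_of_exponent_lt (by norm_num : (1 : ℝ) < 2) h1
    rwa [Real.rpow_one] at this
  set ϑ : ℝ := ν / 2 with hϑ
  have hϑ0 : 0 < ϑ := by positivity
  have hϑ1 : ϑ < 1 := by
    rw [hϑ]
    linarith
  set b : ℝ := (1 + ϑ⁻¹) / 2 with hb
  have hinv : 1 < ϑ⁻¹ := one_lt_inv₀ hϑ0 |>.mpr hϑ1
  have hb1 : 1 < b := by
    rw [hb]
    linarith
  have hbt : b * ϑ < 1 := by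
    have e : b * ϑ = (ϑ + 1) / 2 := by
      rw [hb]
      field_simp
    rw [e]
    linarith
  obtain ⟨C, hC0, hC⟩ := rpow_geom_sum_le hp hb1
  have hθ : 0 < 1 - b * ϑ := by linarith
  have hb0 : 0 < b := by linarith
  refine ⟨8 * (3 ^ (p - 1) * (16 + 2 ^ p * C * ((6 * C₀) ^ (p / 2) / (1 - b * ϑ)))),
    by positivity, ?_⟩
  intro V _ _ π P hc hπ1 N L hN hLL hyp hL1 κ hκ0 hκ1 hκ t ht
  exact gflat_core hp hp2 hb1 hC₀ hbt hC0 hC hc hπ1 hN hLL hyp hL1 hκ0 hκ1 hκ t ht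

end final

end Vale.Agent.Lib.P125
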