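import Vale.Agent.Lib.P125.MgLift

open Finset BigOperators

namespace Vale.Agent.Lib.P125

set_option linter.unusedSectionVars false

universe u v

/-- The flat theorem for antisymmetric forms with values in a space with two seminorms. -/
theorem gflat_form {X : Type v} [AddCommGroup X] [Module ℝ X] {N L : Seminorm ℝ X}
    (hNL : ∀ a, N a ≤ L a) {C₀ α p : ℝ} (hC₀ : 0 < C₀) (hp : 1 < p) (hp2 : p ≤ 2)
    (hαp : α * p < 2) (hyp : TwoPt.{u} N L C₀ α) : ∃ C : ℝ, 0 < C ∧
    ∀ {V : Type u} [Fintype V] [DecidableEq V]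
    {π : V → ℝ} {P : V → V → ℝ} (_ : Rev π P) (_ : ∑ x, π x = 1) (c : V → V → X)
    (_ : ∀ x y, c y x = - c x y) (_ : ∀ x y, P x y ≠ 0 → L (c x y) ≤ 1)
    {κ : ℝ} (_ : 0 ≤ κ) (_ : κ ≤ 1)
    (_ : ∑ x, ∑ y, π x * P x y * L (c x y) ≤ κ) (t : ℕ) (_ : 1 ≤ t),
    ∑ x, π x * Ex (fun _ => (1 : ℝ)) P t x
      (fun ys _ => N (∑ i ∈ range t, c (ys i) (ys (i + 1))) ^ p) ≤ C * t * κ := by
  obtain ⟨C, hC0, hC⟩ := gflat_exact.{u} hp hp2 hαp hC₀
  have main : ∀ {V : Type u} [Fintype V] [DecidableEq V]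
      {π : V → ℝ} {P : V → V → ℝ} (_ : Rev π P) (_ : ∑ x, π x = 1) (c : V → V → X)
      (_ : ∀ x y, c y x = - c x y) (_ : ∀ x y, P x y ≠ 0 → L (c x y) ≤ 1)
      {κ : ℝ} (_ : 0 < κ) (_ : κ ≤ 1)
      (_ : ∑ x, ∑ y, π x * P x y * L (c x y) ≤ κ) (t : ℕ) (_ : 1 ≤ t),
      ∑ x, π x * Ex (fun _ => (1 : ℝ)) P t x
        (fun ys _ => N (∑ i ∈ range t, c (ys i) (ys (i + 1))) ^ p) ≤ C * t * κ := by
    intro V _ _ π P hc hπ1 c hanti hL1 κ hκ0 hκ1 hκ t ht
    classical
    refine lift_form hc N hanti t (fun n hn => ?_)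
    have hn0 : 0 < n := by omega
    have hm := Phat_momentx (n := n) hc hn0 L hanti (r := 1) one_pos
    simp only [Real.rpow_one] at hm
    refine hC (Phat_rev hc hn0) (pihat_sum hπ1 hn0) (pm_dm N L hNL (fhx c)) (pm_dm L L (fun _ => le_rfl) (fhx c))
      (fun K μ hK hμ1 m hm' => ?_) (Phat_L1x L hanti hL1) hκ0 hκ1 (hm.trans hκ) t ht
    exact hyp (V × Bx V n) μ K hK hμ1 (fhx c) m hm'
  refine ⟨C, hC0, ?_⟩
  intro V _ _ π P hc hπ1 c hanti hL1 κ hκ0 hκ1 hκ t ht
  rcases hκ0.eq_or_lt with h0 | hpos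
  · rw [← h0] at hκ ⊢
    simp only [mul_zero]
    by_contra hcon
    push Not at hcon
    set Φ := ∑ x, π x * Ex (fun _ => (1 : ℝ)) P t x
      (fun ys _ => N (∑ i ∈ range t, c (ys i) (ys (i + 1))) ^ p) with hΦ
    have htR : (1 : ℝ) ≤ t := by exact_mod_cast ht
    set ε : ℝ := min 1 (Φ / (2 * (C * t))) with hε
    have hεpos : 0 < ε := lt_min one_pos (by positivity)
    have h1 := main hc hπ1 c hanti hL1 hεpos (min_le_left _ _) (hκ.trans hεpos.le) t ht
    have h2 : C * t * ε ≤ C * t * (Φ / (2 * (C * t))) :=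
      mul_le_mul_of_nonneg_left (min_le_right _ _) (by positivity)
    have h3 : C * t * (Φ / (2 * (C * t))) = Φ / 2 := by
      field_simp
    rw [h3] at h2
    linarith
  · exact main hc hπ1 c hanti hL1 hpos hκ1 hκ t ht

section levels
variable {X : Type*} [AddCommGroup X] [Module ℝ X]
variable {V : Type*} [Fintype V] [DecidableEq V]

/-- Dyadic level of an edge. -/
noncomputable def lvx (L : Seminorm ℝ X) (f : V → X) (x y : V) : ℤ := Int.log 2 (L (f y - f x))

/-- The edge `(x, y)` has level `k`. -/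
def actx (L : Seminorm ℝ X) (f : V → X) (k : ℤ) (x y : V) : Prop :=
  L (f y - f x) ≠ 0 ∧ lvx L f x y = k

open Classical in
/-- The part of the gradient on level `k`, scaled to have norm at most one. -/
noncomputable def cfx (L : Seminorm ℝ X) (f : V → X) (k : ℤ) (x y : V) : X :=
  if actx L f k x y then ((2 : ℝ) ^ ((k : ℝ) + 1))⁻¹ • (f y - f x) else 0

lemma L_symm (L : Seminorm ℝ X) (f : V → X) (x y : V) : L (f x - f y) = L (f y - f x) := by
  rw [← map_neg_eq_map L, neg_sub]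

lemma actx_symm (L : Seminorm ℝ X) (f : V → X) (k : ℤ) (x y : V) :
    actx L f k y x ↔ actx L f k x y := by
  unfold actx lvx
  rw [L_symm L f y x]

lemma cfx_anti (L : Seminorm ℝ X) (f : V → X) (k : ℤ) (x y : V) :
    cfx L f k y x = - cfx L f k x y := by
  classical
  unfold cfx
  by_cases h : actx L f k x y
  · rw [if_pos h, if_pos ((actx_symm L f k x y).mpr h), ← smul_neg, neg_sub]
  · rw [if_neg h, if_neg (fun h' => h ((actx_symm L f k x y).mp h'))]
    simp

open Classical in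
lemma cfx_L1 (L : Seminorm ℝ X) (f : V → X) (k : ℤ) (x y : V) :
    L (cfx L f k x y) ≤ if actx L f k x y then 1 else 0 := by
  unfold cfx
  by_cases h : actx L f k x y
  · simp only [if_pos h]
    have hpos : 0 < L (f y - f x) := lt_of_le_of_ne (apply_nonneg L _) (Ne.symm h.1)
    have hsp := (exists_scale hpos).2
    have hk : Int.log 2 (L (f y - f x)) = k := h.2
    rw [hk] at hsp
    have hd : (0 : ℝ) < (2 : ℝ) ^ ((k : ℝ) + 1) := Real.rpow_pos_of_pos (by norm_num) _
    rw [map_smul_eq_mul, Real.norm_eq_abs, abs_of_pos (inv_pos.mpr hd), inv_mul_le_iff₀ hd]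
    linarith
  · simp [h]

lemma cfx_L1' (L : Seminorm ℝ X) (f : V → X) (k : ℤ) (x y : V) : L (cfx L f k x y) ≤ 1 := by
  classical
  refine (cfx_L1 L f k x y).trans ?_
  split_ifs <;> norm_num

open Classical in
/-- The probability of level `k`. -/
noncomputable def Pkx (π : V → ℝ) (P : V → V → ℝ) (L : Seminorm ℝ X) (f : V → X) (k : ℤ) : ℝ :=
  ∑ x, ∑ y, π x * P x y * (if actx L f k x y then 1 else 0)

variable {π : V → ℝ} {P : V → V → ℝ}

lemma Pkx_nonneg (hc : Rev π P) (L : Seminorm ℝ X) (f : V → X) (k : ℤ) : 0 ≤ Pkx π P L f k := by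
  classical
  unfold Pkx
  refine Finset.sum_nonneg (fun x _ => Finset.sum_nonneg (fun y _ => ?_))
  refine mul_nonneg (mul_nonneg (hc.pi_nonneg x) (hc.nonneg x y)) ?_
  split_ifs <;> norm_num

lemma Pkx_le_one (hc : Rev π P) (hπ1 : ∑ x, π x = 1) (L : Seminorm ℝ X) (f : V → X) (k : ℤ) :
    Pkx π P L f k ≤ 1 := by
  classical
  unfold Pkx
  calc ∑ x, ∑ y, π x * P x y * (if actx L f k x y then (1 : ℝ) else 0)
      ≤ ∑ x, ∑ y, π x * P x y := by
        refine Finset.sum_le_sum (fun x _ => Finset.sum_le_sum (fun y _ => ?_))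
        have h := mul_nonneg (hc.pi_nonneg x) (hc.nonneg x y)
        split_ifs
        · simp
        · simpa using h
    _ = 1 := by
        have : ∀ x, ∑ y, π x * P x y = π x := by
          intro x
          rw [← Finset.mul_sum, hc.sum_one, mul_one]
        simp only [this, hπ1]

lemma cfx_moment (hc : Rev π P) (L : Seminorm ℝ X) (f : V → X) (k : ℤ) :
    ∑ x, ∑ y, π x * P x y * L (cfx L f k x y) ≤ Pkx π P L f k := by
  classical
  unfold Pkx
  refine Finset.sum_le_sum (fun x _ => Finset.sum_le_sum (fun y _ => ?_))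
  exact mul_le_mul_of_nonneg_left (cfx_L1 L f k x y) (mul_nonneg (hc.pi_nonneg x) (hc.nonneg x y))

/-- The set of levels. -/
noncomputable def Lvx (L : Seminorm ℝ X) (f : V → X) : Finset ℤ :=
  (univ : Finset (V × V)).image (fun q => lvx L f q.1 q.2)

lemma lvx_mem (L : Seminorm ℝ X) (f : V → X) (x y : V) : lvx L f x y ∈ Lvx L f :=
  Finset.mem_image.mpr ⟨(x, y), Finset.mem_univ _, rfl⟩

/-- Decomposition of the gradient into levels. -/
lemma edge_decompx (L : Seminorm ℝ X) (f : V → X) (x y : V) (hzero : L (f y - f x) = 0 → f y - f x = 0) :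
    f y - f x = ∑ k ∈ Lvx L f, (2 : ℝ) ^ ((k : ℝ) + 1) • cfx L f k x y := by
  classical
  by_cases h : L (f y - f x) = 0
  · have e : ∀ k ∈ Lvx L f, (2 : ℝ) ^ ((k : ℝ) + 1) • cfx L f k x y = 0 := by
      intro k _
      unfold cfx
      rw [if_neg (fun ha => ha.1 h), smul_zero]
    rw [Finset.sum_eq_zero e]
    exact hzero h
  · rw [Finset.sum_eq_single (lvx L f x y)]
    · unfold cfx
      rw [if_pos ⟨h, rfl⟩, smul_smul]
      have hd : (2 : ℝ) ^ (((lvx L f x y : ℤ) : ℝ) + 1) ≠ 0 :=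
        (Real.rpow_pos_of_pos (by norm_num) _).ne'
      rw [mul_inv_cancel₀ hd, one_smul]
    · intro k _ hk
      unfold cfx
      rw [if_neg (fun ha => hk ha.2.symm), smul_zero]
    · intro hn
      exact absurd (lvx_mem L f x y) hn

/-- The level `k` part of the path increment. -/
noncomputable def Akx (L : Seminorm ℝ X) (f : V → X) (k : ℤ) (t : ℕ) (ys : ℕ → V) : X :=
  ∑ i ∈ range t, cfx L f k (ys i) (ys (i + 1))

end levels

end Vale.Agent.Lib.P125
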