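import Vale.Agent.Lib.P125.MgType

open Finset BigOperators

namespace Vale.Agent.Lib.P125

set_option linter.unusedSectionVars false

universe u v

section
variable {X : Type v} [AddCommGroup X] [Module ℝ X]

/-- The inequality at one time scale, with constant `A ^ 2`. -/
def Gap (N : Seminorm ℝ X) (n : ℕ) (A : ℝ) : Prop :=
  ∀ (V : Type u) [Fintype V] [DecidableEq V] (π : V → ℝ) (P : V → V → ℝ), Rev π P → ∑ x, π x = 1 →
    ∀ f : V → X, ∑ x, π x * pw P n (fun w => N (f w - f x) ^ 2) x ≤
      A ^ 2 * ∑ a, ∑ b, π a * P a b * N (f b - f a) ^ 2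

variable {N : Seminorm ℝ X}

lemma en_nonneg {V : Type*} [Fintype V] {π : V → ℝ} {P : V → V → ℝ} (hc : Rev π P) (f : V → X) :
    0 ≤ ∑ a, ∑ b, π a * P a b * N (f b - f a) ^ 2 :=
  Finset.sum_nonneg (fun a _ => Finset.sum_nonneg (fun b _ =>
    mul_nonneg (mul_nonneg (hc.pi_nonneg a) (hc.nonneg a b)) (sq_nonneg _)))

lemma Gap.mono {n : ℕ} {A B : ℝ} (h : Gap.{u} N n A) (hA : 0 ≤ A) (hAB : A ≤ B) : Gap.{u} N n B := by
  intro V _ _ π P hc hπ1 f
  refine (h V π P hc hπ1 f).trans ?_
  exact mul_le_mul_of_nonneg_right (pow_le_pow_left₀ hA hAB 2) (en_nonneg hc f)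

lemma gap_one : Gap.{u} N 1 1 := by
  intro V _ _ π P hc hπ1 f
  rw [one_pow, one_mul]
  refine le_of_eq (Finset.sum_congr rfl (fun x _ => ?_))
  change π x * op P (fun w => N (f w - f x) ^ 2) x = _
  unfold op
  rw [Finset.mul_sum]
  exact Finset.sum_congr rfl (fun y _ => by ring)

lemma gap_mul {m n : ℕ} {A B : ℝ} (h1 : Gap.{u} N m A) (h2 : Gap.{u} N n B) :
    Gap.{u} N (m * n) (A * B) := by
  intro V _ _ π P hc hπ1 f
  have h3 := h2 V π (pk P m) (pk_rev hc m) hπ1 f
  simp only [pw_pk] at h3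
  refine h3.trans ?_
  have e : ∑ a, ∑ b, π a * pk P m a b * N (f b - f a) ^ 2 =
      ∑ x, π x * pw P m (fun w => N (f w - f x) ^ 2) x := by
    refine Finset.sum_congr rfl (fun u _ => ?_)
    rw [← op_pk, op, Finset.mul_sum]
    exact Finset.sum_congr rfl (fun v _ => by ring)
  rw [e, mul_pow, mul_comm (A ^ 2), mul_assoc]
  exact mul_le_mul_of_nonneg_left (h1 V π P hc hπ1 f) (sq_nonneg _)

lemma gap_add {m n : ℕ} {A B : ℝ} (hA : 0 < A) (hB : 0 < B) (h1 : Gap.{u} N m A)
    (h2 : Gap.{u} N n B) : Gap.{u} N (m + n) (A + B) := by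
  intro V _ _ π P hc hπ1 f
  set θ : ℝ := B / A with hθ
  have hθ0 : 0 < θ := div_pos hB hA
  set E := ∑ a, ∑ b, π a * P a b * N (f b - f a) ^ 2 with hE
  have hE0 : 0 ≤ E := en_nonneg hc f
  set ψ : V → ℝ := fun y => pw P n (fun w => N (f w - f y) ^ 2) y with hψ
  have hpt : ∀ x, pw P (m + n) (fun w => N (f w - f x) ^ 2) x ≤
      (1 + θ) * pw P m (fun w => N (f w - f x) ^ 2) x + (1 + 1 / θ) * pw P m ψ x := by
    intro x
    rw [pw_add]
    have h3 : ∀ y, pw P n (fun w => N (f w - f x) ^ 2) y ≤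
        (1 + θ) * N (f y - f x) ^ 2 + (1 + 1 / θ) * ψ y := by
      intro y
      have h4 := pw_mono hc n (g := fun w => N (f w - f x) ^ 2)
        (h := fun w => (1 + θ) * N (f y - f x) ^ 2 + (1 + 1 / θ) * N (f w - f y) ^ 2) (fun w => ?_) y
      · rw [pw_add_fun, pw_const hc, pw_const_mul] at h4
        exact h4
      · have e : f w - f x = (f y - f x) + (f w - f y) := by abel
        have h5 : N (f w - f x) ≤ N (f y - f x) + N (f w - f y) := by
          rw [e]
          exact map_add_le_add N _ _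
        have h6 : N (f w - f x) ^ 2 ≤ (N (f y - f x) + N (f w - f y)) ^ 2 :=
          pow_le_pow_left₀ (apply_nonneg N _) h5 2
        refine h6.trans ?_
        set a := N (f y - f x)
        set b := N (f w - f y)
        have h7 : 2 * a * b ≤ θ * a ^ 2 + (1 / θ) * b ^ 2 := by
          have h8 : 0 ≤ (θ * a - b) ^ 2 / θ := by positivity
          have h9 : (θ * a - b) ^ 2 / θ = θ * a ^ 2 + (1 / θ) * b ^ 2 - 2 * a * b := by
            field_simp
            ring
          linarith
        nlinarith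
    have h10 := pw_mono hc m h3 x
    rw [pw_add_fun, pw_const_mul, pw_const_mul] at h10
    exact h10
  have hsum : ∑ x, π x * pw P (m + n) (fun w => N (f w - f x) ^ 2) x ≤
      (1 + θ) * ∑ x, π x * pw P m (fun w => N (f w - f x) ^ 2) x +
        (1 + 1 / θ) * ∑ x, π x * pw P m ψ x := by
    rw [Finset.mul_sum, Finset.mul_sum, ← Finset.sum_add_distrib]
    refine Finset.sum_le_sum (fun x _ => ?_)
    have := mul_le_mul_of_nonneg_left (hpt x) (hc.pi_nonneg x)
    refine this.trans (le_of_eq ?_)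
    ring
  rw [pw_stationary hc] at hsum
  have h3 := h1 V π P hc hπ1 f
  have h4 := h2 V π P hc hπ1 f
  have h5 := mul_le_mul_of_nonneg_left h3 (by positivity : 0 ≤ 1 + θ)
  have h6 := mul_le_mul_of_nonneg_left h4 (by positivity : 0 ≤ 1 + 1 / θ)
  refine hsum.trans ((add_le_add h5 h6).trans (le_of_eq ?_))
  rw [hθ]
  field_simp
  ring

lemma gap_self (n : ℕ) (hn : 1 ≤ n) : Gap.{u} N n n := by
  induction n, hn using Nat.le_induction with
  | base =>
    have := gap_one.{u} (N := N)
    simpa using this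
  | succ n hn ih =>
    have hn0 : (0 : ℝ) < n := by exact_mod_cast hn
    have := gap_add hn0 one_pos ih (gap_one.{u} (N := N))
    push_cast
    exact this

/-- From one time scale to all time scales. -/
theorem gap_all {t₀ : ℕ} {a : ℝ} (ht₀ : 2 ≤ t₀) (ha : 1 < a) (hat : a < t₀) (h : Gap.{u} N t₀ a) :
    ∃ β C : ℝ, 0 < β ∧ (t₀ : ℝ) ^ β = a ∧ 0 < C ∧ ∀ n : ℕ, 1 ≤ n → Gap.{u} N n (C * (n : ℝ) ^ β) := by
  have ht₀R : (2 : ℝ) ≤ t₀ := by exact_mod_cast ht₀
  have ht₀1 : (1 : ℝ) < t₀ := by linarith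
  have hlog : 0 < Real.log t₀ := Real.log_pos ht₀1
  have hloga : 0 < Real.log a := Real.log_pos ha
  set β : ℝ := Real.log a / Real.log t₀ with hβ
  have hβ0 : 0 < β := div_pos hloga hlog
  have hpow : (t₀ : ℝ) ^ β = a := by
    rw [Real.rpow_def_of_pos (by linarith), hβ, mul_div_cancel₀ _ hlog.ne', Real.exp_log (by linarith)]
  set D : ℝ := t₀ / (a - 1) with hD
  have ha1 : 0 < a - 1 := by linarith
  have hD0 : 0 < D := by positivity
  have hDa : (a - 1) * D = t₀ := by
    rw [hD]
    field_simp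
  set C : ℝ := t₀ + D with hC
  have hC0 : 0 < C := by positivity
  have hge : ∀ n : ℕ, 1 ≤ n → (1 : ℝ) ≤ (n : ℝ) ^ β := fun n hn =>
    Real.one_le_rpow (by exact_mod_cast hn) hβ0.le
  have key : ∀ n : ℕ, 1 ≤ n → Gap.{u} N n (C * (n : ℝ) ^ β - D) := by
    intro n
    induction n using Nat.strong_induction_on with
    | _ n ih =>
      intro hn
      have hnβ := hge n hn
      by_cases hlt : n < t₀
      · refine (gap_self n hn).mono (by positivity) ?_
        have h1 : (n : ℝ) ≤ t₀ := by exact_mod_cast hlt.le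
        have h2 : C ≤ C * (n : ℝ) ^ β := le_mul_of_one_le_right hC0.le hnβ
        linarith
      · push Not at hlt
        set q := n / t₀ with hq
        set r := n % t₀ with hr
        have hdiv : t₀ * q + r = n := Nat.div_add_mod n t₀
        have hq1 : 1 ≤ q := Nat.div_pos hlt (by omega)
        have hqn : q < n := Nat.div_lt_self (by omega) (by omega)
        have hrt : r < t₀ := Nat.mod_lt _ (by omega)
        have hBq := ih q hqn hq1
        have hqβ := hge q hq1
        set B := C * (q : ℝ) ^ β - D with hB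
        have hBpos : 0 < B := by
          have h2 : C ≤ C * (q : ℝ) ^ β := le_mul_of_one_le_right hC0.le hqβ
          have h3 : (0 : ℝ) < t₀ := by linarith
          rw [hB]
          linarith
        have hmul : Gap.{u} N (t₀ * q) (a * B) := gap_mul h hBq
        have hpw : a * (q : ℝ) ^ β ≤ (n : ℝ) ^ β := by
          rw [← hpow, ← Real.mul_rpow (by linarith) (Nat.cast_nonneg q)]
          refine Real.rpow_le_rpow (by positivity) ?_ hβ0.le
          have : t₀ * q ≤ n := by omega
          exact_mod_cast this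
        have hbound : a * B + r ≤ C * (n : ℝ) ^ β - D := by
          have h4 : (r : ℝ) ≤ t₀ := by exact_mod_cast hrt.le
          have h5 := mul_le_mul_of_nonneg_left hpw hC0.le
          rw [hB]
          nlinarith
        have hab : 0 < a * B := by positivity
        rcases Nat.eq_zero_or_pos r with hr0 | hr0
        · have e : n = t₀ * q := by omega
          have h6 : a * B ≤ C * (n : ℝ) ^ β - D := by
            rw [hr0] at hbound
            simpa using hbound
          rw [e] at h6 ⊢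
          exact hmul.mono hab.le h6
        · have hrR : (0 : ℝ) < r := by exact_mod_cast hr0
          have h7 := gap_add hab hrR hmul (gap_self r hr0)
          rw [hdiv] at h7
          exact h7.mono (by positivity) hbound
  refine ⟨β, C, hβ0, hpow, hC0, fun n hn => ?_⟩
  refine (key n hn).mono ?_ (by linarith)
  have h2 : C ≤ C * (n : ℝ) ^ β := le_mul_of_one_le_right hC0.le (hge n hn)
  have h3 : (0 : ℝ) < t₀ := by linarith
  linarith

/-- The two point hypothesis with a power from a gap at one time scale. -/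
theorem twoPt_of_gap {t₀ : ℕ} {a : ℝ} (ht₀ : 2 ≤ t₀) (ha : 1 < a) (hat : a < t₀) (h : Gap.{u} N t₀ a) :
    ∃ β C₀ : ℝ, 0 < β ∧ (t₀ : ℝ) ^ β = a ∧ 0 < C₀ ∧ TwoPt.{u} N N C₀ (2 * β) := by
  obtain ⟨β, C, hβ, hpow, hC, hall⟩ := gap_all ht₀ ha hat h
  refine ⟨β, C ^ 2, hβ, hpow, by positivity, ?_⟩
  intro V _ _ π P hc hπ1 f n hn
  refine (hall n hn V π P hc hπ1 f).trans (le_of_eq ?_)
  have hnR : (0 : ℝ) < n := by exact_mod_cast hn
  rw [mul_pow, ← Real.rpow_natCast ((n : ℝ) ^ β) 2, ← Real.rpow_mul hnR.le]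
  congr 3
  push_cast
  ring

end

end Vale.Agent.Lib.P125
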