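import Vale.Agent.Lib.P125.MtMarc

open Finset BigOperators

namespace Vale.Agent.Lib.P125

set_option linter.unusedSectionVars false

universe u v

/-- The flat theorem with a nonnegative bound. -/
theorem flat_form' {q : ℝ} (hq : 1 < q) (hq87 : q < 8 / 7) : ∃ C : ℝ, 0 < C ∧
    ∀ {V : Type u} {ι : Type v} [Fintype V] [DecidableEq V] [Fintype ι] [LinearOrder ι]
    {π : V → ℝ} {P : V → V → ℝ} (_ : Rev π P) (_ : ∑ x, π x = 1) (c : V → V → ι → ℝ)
    (_ : ∀ x y z, c y x z = - c x y z) (_ : ∀ x y, P x y ≠ 0 → ∑ z, |c x y z| ≤ 1)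
    {κ : ℝ} (_ : 0 ≤ κ) (_ : κ ≤ 1)
    (_ : ∑ x, ∑ y, π x * P x y * ∑ z, |c x y z| ≤ κ) (t : ℕ) (_ : 1 ≤ t),
    ∑ x, π x * Ex (fun _ => (1 : ℝ)) P t x
      (fun ys _ => Sp (∑ i ∈ range t, c (ys i) (ys (i + 1))) ^ q) ≤ C * t * κ := by
  obtain ⟨C, hC0, hC⟩ := flat_form.{u, v} hq hq87
  refine ⟨C, hC0, ?_⟩
  intro V ι _ _ _ _ π P hc hπ1 c hanti hL1 κ hκ0 hκ1 hκ t ht
  rcases hκ0.eq_or_lt with h0 | hpos
  · -- the bound zero: use every small positive bound
    rw [← h0] at hκ ⊢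
    simp only [mul_zero]
    by_contra hcon
    push Not at hcon
    set Φ := ∑ x, π x * Ex (fun _ => (1 : ℝ)) P t x
      (fun ys _ => Sp (∑ i ∈ range t, c (ys i) (ys (i + 1))) ^ q) with hΦ
    have htR : (1 : ℝ) ≤ t := by exact_mod_cast ht
    set ε : ℝ := min 1 (Φ / (2 * (C * t))) with hε
    have hεpos : 0 < ε := lt_min one_pos (by positivity)
    have h1 := hC hc hπ1 c hanti hL1 hεpos (min_le_left _ _) (hκ.trans hεpos.le) t ht
    have h2 : C * t * ε ≤ C * t * (Φ / (2 * (C * t))) :=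
      mul_le_mul_of_nonneg_left (min_le_right _ _) (by positivity)
    have h3 : C * t * (Φ / (2 * (C * t))) = Φ / 2 := by
      field_simp
    rw [h3] at h2
    linarith
  · exact hC hc hπ1 c hanti hL1 hpos hκ1 hκ t ht

section levels
variable {V : Type*} [Fintype V] [DecidableEq V] {ι : Type*} [Fintype ι] [LinearOrder ι]

/-- Dyadic level of an edge. -/
noncomputable def lv (f : V → ι → ℝ) (x y : V) : ℤ := Int.log 2 (gd f x y)

/-- The edge `(x, y)` has level `k`. -/
def act (f : V → ι → ℝ) (k : ℤ) (x y : V) : Prop := gd f x y ≠ 0 ∧ lv f x y = k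

open Classical in
/-- The part of the gradient on level `k`, scaled to have norm at most one. -/
noncomputable def cf (f : V → ι → ℝ) (k : ℤ) (x y : V) (z : ι) : ℝ :=
  if act f k x y then (f y z - f x z) / (2 : ℝ) ^ ((k : ℝ) + 1) else 0

lemma act_symm (f : V → ι → ℝ) (k : ℤ) (x y : V) : act f k y x ↔ act f k x y := by
  unfold act lv
  rw [gd_comm f y x]

lemma cf_anti (f : V → ι → ℝ) (k : ℤ) (x y : V) (z : ι) : cf f k y x z = - cf f k x y z := by
  classical
  unfold cf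
  by_cases h : act f k x y
  · rw [if_pos h, if_pos ((act_symm f k x y).mpr h)]
    ring
  · rw [if_neg h, if_neg (fun h' => h ((act_symm f k x y).mp h'))]
    simp

lemma gd_pos_iff (f : V → ι → ℝ) (x y : V) (h : gd f x y ≠ 0) : 0 < gd f x y :=
  lt_of_le_of_ne (gd_nonneg f x y) (Ne.symm h)

open Classical in
lemma cf_L1 (f : V → ι → ℝ) (k : ℤ) (x y : V) :
    ∑ z, |cf f k x y z| ≤ if act f k x y then 1 else 0 := by
  unfold cf
  by_cases h : act f k x y
  · simp only [if_pos h]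
    have hpos := gd_pos_iff f x y h.1
    have hsp := (exists_scale hpos).2
    have hk : Int.log 2 (gd f x y) = k := h.2
    rw [hk] at hsp
    have hd : (0 : ℝ) < (2 : ℝ) ^ ((k : ℝ) + 1) := Real.rpow_pos_of_pos (by norm_num) _
    have e : ∑ z, |(f y z - f x z) / (2 : ℝ) ^ ((k : ℝ) + 1)| =
        gd f x y / (2 : ℝ) ^ ((k : ℝ) + 1) := by
      unfold gd
      rw [Finset.sum_div]
      refine Finset.sum_congr rfl (fun z _ => ?_)
      rw [abs_div, abs_of_pos hd, abs_sub_comm]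
    rw [e, div_le_one hd]
    exact hsp.le
  · simp [h]

lemma cf_L1' (f : V → ι → ℝ) (k : ℤ) (x y : V) : ∑ z, |cf f k x y z| ≤ 1 := by
  classical
  refine (cf_L1 f k x y).trans ?_
  split_ifs <;> norm_num

open Classical in
/-- The probability of level `k`. -/
noncomputable def Pk (π : V → ℝ) (P : V → V → ℝ) (f : V → ι → ℝ) (k : ℤ) : ℝ :=
  ∑ x, ∑ y, π x * P x y * (if act f k x y then 1 else 0)

variable {π : V → ℝ} {P : V → V → ℝ}

lemma Pk_nonneg (hc : Rev π P) (f : V → ι → ℝ) (k : ℤ) : 0 ≤ Pk π P f k := by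
  classical
  unfold Pk
  refine Finset.sum_nonneg (fun x _ => Finset.sum_nonneg (fun y _ => ?_))
  refine mul_nonneg (mul_nonneg (hc.pi_nonneg x) (hc.nonneg x y)) ?_
  split_ifs <;> norm_num

lemma Pk_le_one (hc : Rev π P) (hπ1 : ∑ x, π x = 1) (f : V → ι → ℝ) (k : ℤ) : Pk π P f k ≤ 1 := by
  classical
  unfold Pk
  calc ∑ x, ∑ y, π x * P x y * (if act f k x y then (1 : ℝ) else 0)
      ≤ ∑ x, ∑ y, π x * P x y := by
        refine Finset.sum_le_sum (fun x _ => Finset.sum_le_sum (fun y _ => ?_))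
        have h := mul_nonneg (hc.pi_nonneg x) (hc.nonneg x y)
        split_ifs
        · simp
        · simpa using h
    _ = 1 := by
        have : ∀ x, ∑ y, π x * P x y = π x := by
          intro x
          rw [← Finset.mul_sum, hc.sum_one, mul_one]
        simp only [this, hπ1]

lemma cf_moment (hc : Rev π P) (f : V → ι → ℝ) (k : ℤ) :
    ∑ x, ∑ y, π x * P x y * ∑ z, |cf f k x y z| ≤ Pk π P f k := by
  classical
  unfold Pk
  refine Finset.sum_le_sum (fun x _ => Finset.sum_le_sum (fun y _ => ?_))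
  exact mul_le_mul_of_nonneg_left (cf_L1 f k x y) (mul_nonneg (hc.pi_nonneg x) (hc.nonneg x y))

/-- The set of levels. -/
noncomputable def Lvs (f : V → ι → ℝ) : Finset ℤ := (univ : Finset (V × V)).image (fun q => lv f q.1 q.2)

lemma lv_mem (f : V → ι → ℝ) (x y : V) : lv f x y ∈ Lvs f :=
  Finset.mem_image.mpr ⟨(x, y), Finset.mem_univ _, rfl⟩

/-- Decomposition of the gradient into levels. -/
lemma edge_decomp (f : V → ι → ℝ) (x y : V) (z : ι) :
    f y z - f x z = ∑ k ∈ Lvs f, (2 : ℝ) ^ ((k : ℝ) + 1) * cf f k x y z := by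
  classical
  by_cases h : gd f x y = 0
  · have hz : f x z - f y z = 0 := by
      have h1 : |f x z - f y z| ≤ gd f x y :=
        Finset.single_le_sum (f := fun z => |f x z - f y z|) (fun _ _ => abs_nonneg _)
          (Finset.mem_univ z)
      rw [h] at h1
      exact abs_eq_zero.mp (le_antisymm h1 (abs_nonneg _))
    have e : ∀ k ∈ Lvs f, (2 : ℝ) ^ ((k : ℝ) + 1) * cf f k x y z = 0 := by
      intro k _
      unfold cf
      rw [if_neg (fun ha => ha.1 h), mul_zero]
    rw [Finset.sum_eq_zero e]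
    linarith
  · rw [Finset.sum_eq_single (lv f x y)]
    · unfold cf
      rw [if_pos ⟨h, rfl⟩]
      have hd : (2 : ℝ) ^ (((lv f x y : ℤ) : ℝ) + 1) ≠ 0 :=
        (Real.rpow_pos_of_pos (by norm_num) _).ne'
      field_simp
    · intro k _ hk
      unfold cf
      rw [if_neg (fun ha => hk ha.2.symm), mul_zero]
    · intro hn
      exact absurd (lv_mem f x y) hn

/-- The level `k` part of the path increment. -/
noncomputable def Ak (f : V → ι → ℝ) (k : ℤ) (t : ℕ) (ys : ℕ → V) : ι → ℝ :=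
  ∑ i ∈ range t, cf f k (ys i) (ys (i + 1))

lemma path_decomp (f : V → ι → ℝ) (t : ℕ) (ys : ℕ → V) (z : ι) :
    f (ys t) z - f (ys 0) z = ∑ k ∈ Lvs f, (2 : ℝ) ^ ((k : ℝ) + 1) * Ak f k t ys z := by
  have h1 : f (ys t) z - f (ys 0) z = ∑ i ∈ range t, (f (ys (i + 1)) z - f (ys i) z) :=
    (Finset.sum_range_sub (fun i => f (ys i) z) t).symm
  rw [h1]
  simp only [edge_decomp f (ys _) (ys _) z]
  rw [Finset.sum_comm]
  refine Finset.sum_congr rfl (fun k _ => ?_)
  unfold Ak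
  rw [Finset.sum_apply, Finset.mul_sum]

lemma cc_le_levels (f : V → ι → ℝ) (t : ℕ) (ys : ℕ → V) :
    cc f (ys 0) (ys t) ≤ ∑ k ∈ Lvs f, (2 : ℝ) ^ ((k : ℝ) + 1) * Sp (Ak f k t ys) := by
  have hnn : 0 ≤ ∑ k ∈ Lvs f, (2 : ℝ) ^ ((k : ℝ) + 1) * Sp (Ak f k t ys) :=
    Finset.sum_nonneg (fun k _ => mul_nonneg (Real.rpow_nonneg (by norm_num) _) (Sp_nonneg _))
  by_cases hι : Nonempty ι
  · refine ciSup_le (fun y => ?_)
    have e : ∑ z with z ≤ y, (f (ys t) z - f (ys 0) z) =
        ∑ k ∈ Lvs f, (2 : ℝ) ^ ((k : ℝ) + 1) * ∑ z with z ≤ y, Ak f k t ys z := by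
      simp only [path_decomp f t ys]
      rw [Finset.sum_comm]
      refine Finset.sum_congr rfl (fun k _ => ?_)
      rw [Finset.mul_sum]
    rw [e]
    refine (Finset.abs_sum_le_sum_abs _ _).trans (Finset.sum_le_sum (fun k _ => ?_))
    rw [abs_mul, abs_of_nonneg (Real.rpow_nonneg (by norm_num) _)]
    refine mul_le_mul_of_nonneg_left ?_ (Real.rpow_nonneg (by norm_num) _)
    exact le_ciSup (f := fun y : ι => |∑ z with z ≤ y, Ak f k t ys z|)
      (Set.finite_range _).bddAbove y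
  · have : IsEmpty ι := not_nonempty_iff.mp hι
    simpa [cc] using hnn

open Classical in
lemma indicator_le (f : V → ι → ℝ) (k : ℤ) (t : ℕ) (ys : ℕ → V) :
    (if (2 : ℝ) ^ ((k : ℝ) + 1) * Sp (Ak f k t ys) = 0 then (0 : ℝ) else 1) ≤
      ∑ i ∈ range t, if act f k (ys i) (ys (i + 1)) then (1 : ℝ) else 0 := by
  have hnn : ∀ i ∈ range t, (0 : ℝ) ≤ if act f k (ys i) (ys (i + 1)) then (1 : ℝ) else 0 :=
    fun i _ => by split_ifs <;> norm_num
  by_cases hall : ∀ i ∈ range t, ¬ act f k (ys i) (ys (i + 1))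
  · have hA : Ak f k t ys = 0 := by
      unfold Ak
      refine Finset.sum_eq_zero (fun i hi => ?_)
      funext z
      unfold cf
      rw [if_neg (hall i hi)]
      rfl
    have hS : Sp (Ak f k t ys) = 0 := by
      rw [hA]
      unfold Sp
      simp
    rw [hS, mul_zero, if_pos rfl]
    exact Finset.sum_nonneg hnn
  · push Not at hall
    obtain ⟨i, hi, hact⟩ := hall
    have h1 := Finset.single_le_sum (f := fun i =>
      if act f k (ys i) (ys (i + 1)) then (1 : ℝ) else 0) hnn hi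
    simp only [if_pos hact] at h1
    refine le_trans ?_ h1
    split_ifs <;> norm_num

end levels

/-- The summing operators have Markov type `p` for all `p < 8 / 7`, with a uniform constant. -/
theorem markov_type_sum {p : ℝ} (hp1 : 1 ≤ p) (hp87 : p < 8 / 7) : ∃ K : ℝ, 0 < K ∧
    ∀ {V : Type u} {ι : Type v} [Fintype V] [DecidableEq V] [Fintype ι] [LinearOrder ι]
    {π : V → ℝ} {P : V → V → ℝ} (_ : Rev π P) (_ : ∑ x, π x = 1) (f : V → ι → ℝ) (t : ℕ)
    (_ : 1 ≤ t),
    ∑ x, π x * pw P t (fun w => cc f x w ^ p) x ≤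
      K * t * ∑ u, ∑ v, π u * P u v * gd f u v ^ p := by
  set q : ℝ := (p + 8 / 7) / 2 with hq
  have hq1 : 1 < q := by rw [hq]; linarith
  have hpq : p < q := by rw [hq]; linarith
  have hq87 : q < 8 / 7 := by rw [hq]; linarith
  have hp0 : 0 < p := by linarith
  obtain ⟨C, hC0, hC⟩ := flat_form'.{u, v} hq1 hq87
  obtain ⟨CM, hCM0, hCM⟩ := marc hp0 hpq hq1
  refine ⟨CM * (1 + 2 ^ q * C), by positivity, ?_⟩
  intro V ι _ _ _ _ π P hc hπ1 f t ht
  classical
  have hs : Spd hc (fun _ => (1 : ℝ)) := ⟨fun _ => zero_le_one, fun _ => le_rfl⟩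
  have hlz : lz (fun _ => (1 : ℝ)) P = P := by
    funext x y
    simp [lz]
  have hμ : Rev π (lz (fun _ => (1 : ℝ)) P) := by
    rw [hlz]
    exact hc
  set h1 : V → ℝ := fun _ => (1 : ℝ) with hh1
  -- the left side as a path expectation
  have hleft : ∑ x, π x * pw P t (fun w => cc f x w ^ p) x =
      EE h1 P π t (fun ys _ => cc f (ys 0) (ys t) ^ p) := by
    unfold EE
    refine Finset.sum_congr rfl (fun x _ => ?_)
    congr 1
    have e1 := Ex_pos hs t t le_rfl x (fun w => cc f x w ^ p)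
    rw [hlz] at e1
    rw [← e1]
    exact Ex_congr hs t x (fun ys ms hy => by rw [hy])
  rw [hleft]
  -- the pointwise inequality
  have hpt : ∀ (ys : ℕ → V) (ms : ℕ → Bool), cc f (ys 0) (ys t) ^ p ≤
      CM * ∑ k ∈ Lvs f, ((2 : ℝ) ^ ((k : ℝ) * p) *
          (∑ i ∈ range t, if act f k (ys i) (ys (i + 1)) then (1 : ℝ) else 0) +
        ((2 : ℝ) ^ (((k : ℝ) + 1) * q) * (2 : ℝ) ^ (-((k : ℝ) * (q - p)))) *
          Sp (Ak f k t ys) ^ q) := by
    intro ys _
    have hW : ∀ k : ℤ, 0 ≤ (2 : ℝ) ^ ((k : ℝ) + 1) * Sp (Ak f k t ys) := fun k =>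
      mul_nonneg (Real.rpow_nonneg (by norm_num) _) (Sp_nonneg _)
    have h2 := hCM (Lvs f) (fun k => (2 : ℝ) ^ ((k : ℝ) + 1) * Sp (Ak f k t ys)) hW
    have h3 := Real.rpow_le_rpow (cc_nonneg f _ _) (cc_le_levels f t ys) hp0.le
    refine h3.trans (h2.trans (mul_le_mul_of_nonneg_left ?_ hCM0.le))
    refine Finset.sum_le_sum (fun k _ => ?_)
    refine add_le_add (mul_le_mul_of_nonneg_left (indicator_le f k t ys)
      (Real.rpow_nonneg (by norm_num) _)) (le_of_eq ?_)
    rw [Real.mul_rpow (Real.rpow_nonneg (by norm_num) _) (Sp_nonneg _),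
      ← Real.rpow_mul (by norm_num)]
    ring
  refine (EE_mono hs hμ t hpt).trans ?_
  rw [EE_cm, EE_sm hs]
  -- expectation of each term
  have hterm : ∀ k ∈ Lvs f, EE h1 P π t (fun ys ms => (2 : ℝ) ^ ((k : ℝ) * p) *
          (∑ i ∈ range t, if act f k (ys i) (ys (i + 1)) then (1 : ℝ) else 0) +
        ((2 : ℝ) ^ (((k : ℝ) + 1) * q) * (2 : ℝ) ^ (-((k : ℝ) * (q - p)))) *
          Sp (Ak f k t ys) ^ q) ≤ (1 + 2 ^ q * C) * t * ((2 : ℝ) ^ ((k : ℝ) * p) * Pk π P f k) := by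
    intro k _
    rw [EE_ad, EE_cm, EE_cm, EE_sm hs]
    have hI : ∀ i ∈ range t, EE h1 P π t (fun ys _ =>
        if act f k (ys i) (ys (i + 1)) then (1 : ℝ) else 0) = Pk π P f k := by
      intro i hi
      simp only [Finset.mem_range] at hi
      obtain ⟨n, hn1, hn2⟩ : ∃ n, t = n + i ∧ 1 ≤ n := ⟨t - i, by omega, by omega⟩
      have h3 := Ex_two hs hμ i 1 n hn2 (fun a b => if act f k a b then (1 : ℝ) else 0)
      have h4 : EE h1 P π t (fun ys _ =>
          if act f k (ys i) (ys (i + 1)) then (1 : ℝ) else 0) =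
          ∑ x, π x * Ex h1 P (n + i) x (fun ys _ =>
            if act f k (ys i) (ys (1 + i)) then (1 : ℝ) else 0) := by
        rw [hn1, add_comm 1 i]
        rfl
      rw [h4]
      refine h3.trans ?_
      unfold Pk
      refine Finset.sum_congr rfl (fun x _ => ?_)
      rw [show pw (lz (fun _ => (1 : ℝ)) P) 1 (fun b => if act f k x b then (1 : ℝ) else 0) x =
        op (lz (fun _ => (1 : ℝ)) P) (fun b => if act f k x b then (1 : ℝ) else 0) x from rfl,
        hlz]
      unfold op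
      rw [Finset.mul_sum]
      exact Finset.sum_congr rfl (fun y _ => by ring)
    rw [Finset.sum_congr rfl hI, Finset.sum_const, Finset.card_range, nsmul_eq_mul]
    have hF : EE h1 P π t (fun ys _ => Sp (Ak f k t ys) ^ q) ≤ C * t * Pk π P f k :=
      hC hc hπ1 (cf f k) (cf_anti f k) (fun x y _ => cf_L1' f k x y) (Pk_nonneg hc f k)
        (Pk_le_one hc hπ1 f k) (cf_moment hc f k) t ht
    have hexp : (2 : ℝ) ^ (((k : ℝ) + 1) * q) * (2 : ℝ) ^ (-((k : ℝ) * (q - p))) =
        2 ^ q * (2 : ℝ) ^ ((k : ℝ) * p) := by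
      rw [← Real.rpow_add (by norm_num), ← Real.rpow_add (by norm_num)]
      congr 1
      ring
    rw [hexp]
    have h2p : (0 : ℝ) ≤ 2 ^ q * (2 : ℝ) ^ ((k : ℝ) * p) := by positivity
    have := mul_le_mul_of_nonneg_left hF h2p
    refine (add_le_add_right this _).trans (le_of_eq ?_)
    ring
  have hsum : ∑ k ∈ Lvs f, (2 : ℝ) ^ ((k : ℝ) * p) * Pk π P f k ≤
      ∑ u, ∑ v, π u * P u v * gd f u v ^ p := by
    unfold Pk
    simp only [Finset.mul_sum]
    rw [Finset.sum_comm]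
    refine Finset.sum_le_sum (fun x _ => ?_)
    rw [Finset.sum_comm]
    refine Finset.sum_le_sum (fun y _ => ?_)
    have hedge := mul_nonneg (hc.pi_nonneg x) (hc.nonneg x y)
    have e : ∑ k ∈ Lvs f, (2 : ℝ) ^ ((k : ℝ) * p) *
        (π x * P x y * (if act f k x y then (1 : ℝ) else 0)) =
        π x * P x y * ∑ k ∈ Lvs f, (2 : ℝ) ^ ((k : ℝ) * p) * (if act f k x y then (1 : ℝ) else 0) := by
      rw [Finset.mul_sum]
      exact Finset.sum_congr rfl (fun k _ => by ring)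
    rw [e]
    refine mul_le_mul_of_nonneg_left ?_ hedge
    by_cases h0 : gd f x y = 0
    · have : ∀ k ∈ Lvs f, (2 : ℝ) ^ ((k : ℝ) * p) * (if act f k x y then (1 : ℝ) else 0) = 0 := by
        intro k _
        rw [if_neg (fun ha => ha.1 h0), mul_zero]
      rw [Finset.sum_eq_zero this]
      exact Real.rpow_nonneg (gd_nonneg f x y) p
    · rw [Finset.sum_eq_single (lv f x y)]
      · rw [if_pos ⟨h0, rfl⟩, mul_one, Real.rpow_mul (by norm_num)]
        exact Real.rpow_le_rpow (Real.rpow_nonneg (by norm_num) _)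
          (exists_scale (gd_pos_iff f x y h0)).1 hp0.le
      · intro k _ hk
        rw [if_neg (fun ha => hk ha.2.symm), mul_zero]
      · intro hn
        exact absurd (lv_mem f x y) hn
  have hfin : ∑ k ∈ Lvs f, EE h1 P π t (fun ys ms => (2 : ℝ) ^ ((k : ℝ) * p) *
          (∑ i ∈ range t, if act f k (ys i) (ys (i + 1)) then (1 : ℝ) else 0) +
        ((2 : ℝ) ^ (((k : ℝ) + 1) * q) * (2 : ℝ) ^ (-((k : ℝ) * (q - p)))) *
          Sp (Ak f k t ys) ^ q) ≤
      (1 + 2 ^ q * C) * t * ∑ u, ∑ v, π u * P u v * gd f u v ^ p := by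
    refine (Finset.sum_le_sum hterm).trans ?_
    rw [← Finset.mul_sum]
    exact mul_le_mul_of_nonneg_left hsum (by positivity)
  have := mul_le_mul_of_nonneg_left hfin hCM0.le
  refine this.trans (le_of_eq ?_)
  ring

end Vale.Agent.Lib.P125
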