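import Vale.Agent.Lib.P125.MgFlat
import Vale.Agent.Lib.P125.MtFinal

open Finset BigOperators Filter Topology

namespace Vale.Agent.Lib.P125

set_option linter.unusedSectionVars false

section dm
variable {X : Type*} [AddCommGroup X] [Module ℝ X] {V : Type*}

/-- The pseudo metric of a seminorm along a map. -/
def dm (Q : Seminorm ℝ X) (f : V → X) (x y : V) : ℝ := Q (f y - f x)

lemma pm_dm (N L : Seminorm ℝ X) (hNL : ∀ a, N a ≤ L a) (f : V → X) : PM (dm N f) (dm L f) := by
  refine ⟨fun a b => apply_nonneg N _, fun a => ?_, fun a b c => ?_, fun a b => hNL _,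
    fun a b => apply_nonneg L _⟩
  · simp [dm]
  · unfold dm
    have e : f c - f a = (f b - f a) + (f c - f b) := by abel
    rw [e]
    exact map_add_le_add N _ _

lemma dm_symm (Q : Seminorm ℝ X) (f : V → X) (x y : V) : dm Q f x y = dm Q f y x := by
  unfold dm
  rw [← map_neg_eq_map Q, neg_sub]

end dm

universe u

/-- The two point hypothesis for a pair of seminorms. -/
def TwoPt {X : Type*} [AddCommGroup X] [Module ℝ X] (N L : Seminorm ℝ X) (C₀ α : ℝ) : Prop :=
  ∀ (V : Type u) [Fintype V] [DecidableEq V] (π : V → ℝ) (P : V → V → ℝ), Rev π P → ∑ x, π x = 1 →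
    ∀ (f : V → X) (n : ℕ), 1 ≤ n →
      ∑ x, π x * pw P n (fun w => N (f w - f x) ^ 2) x ≤
        C₀ * (n : ℝ) ^ α * ∑ a, ∑ b, π a * P a b * L (f b - f a) ^ 2

section lift
variable {X : Type*} [AddCommGroup X] [Module ℝ X]
variable {V : Type*} [Fintype V] [DecidableEq V] {n : ℕ} {π : V → ℝ} {P : V → V → ℝ}

/-- The map on the product with the box. -/
noncomputable def fhx (c : V → V → X) (u : V × Bx V n) : X :=
  (1 / 2 : ℝ) • ∑ l : V × V, ((u.2 l : ℕ) : ℝ) • c l.1 l.2

lemma sum_ggx (x y : V) (C : V × V → X) :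
    ∑ l, (gg x y l : ℝ) • C l = C (x, y) - C (y, x) := by
  classical
  unfold gg
  push_cast
  simp only [sub_smul, Finset.sum_sub_distrib, ite_smul, one_smul, zero_smul]
  congr 1
  · simp
  · simp

lemma fhx_rel {c : V → V → X} (hanti : ∀ x y, c y x = - c x y) {x y : V}
    {k k' : Bx V n} (h : rel x y k k') :
    fhx c (y, k') = fhx c (x, k) + c x y := by
  unfold fhx
  dsimp only
  have e : ∀ l, ((k' l : ℕ) : ℝ) = ((k l : ℕ) : ℝ) + (gg x y l : ℝ) := by
    intro l
    have := congrArg (Int.cast : ℤ → ℝ) (h l)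
    push_cast at this
    exact this
  simp only [e, add_smul, Finset.sum_add_distrib]
  rw [sum_ggx x y (fun l => c l.1 l.2)]
  dsimp only
  rw [hanti x y, smul_add]
  congr 1
  rw [sub_neg_eq_add, ← two_smul ℝ, smul_smul]
  norm_num

lemma dm_hat_rel (Q : Seminorm ℝ X) {c : V → V → X} (hanti : ∀ x y, c y x = - c x y) {x y : V}
    {k k' : Bx V n} (h : rel x y k k') :
    dm Q (fhx c) (x, k) (y, k') = Q (c x y) := by
  unfold dm
  rw [fhx_rel hanti h, add_sub_cancel_left]

lemma Phat_L1x (Q : Seminorm ℝ X) {c : V → V → X} (hanti : ∀ x y, c y x = - c x y)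
    (hL1 : ∀ x y, P x y ≠ 0 → Q (c x y) ≤ 1) (u v : V × Bx V n) (hne : Phat P u v ≠ 0) :
    dm Q (fhx c) u v ≤ 1 := by
  classical
  obtain ⟨x, k⟩ := u
  obtain ⟨y, k'⟩ := v
  by_cases huv : (x, k) = (y, k')
  · rw [← huv]
    simp [dm]
  · unfold Phat at hne
    simp only [if_neg huv, add_zero] at hne
    have hr : rel x y k k' := by
      by_contra hr
      simp [hr] at hne
    have hP : P x y ≠ 0 := by
      intro h0
      simp [h0] at hne
    rw [dm_hat_rel Q hanti hr]
    exact hL1 x y hP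

lemma Phat_momentx (hc : Rev π P) (hn : 0 < n) (Q : Seminorm ℝ X) {c : V → V → X}
    (hanti : ∀ x y, c y x = - c x y) {r : ℝ} (hr : 0 < r) :
    ∑ u : V × Bx V n, ∑ v, pihat π u * Phat P u v * dm Q (fhx c) u v ^ r ≤
      ∑ x, ∑ y, π x * P x y * Q (c x y) ^ r := by
  classical
  have : Nonempty (Fin n) := ⟨⟨0, hn⟩⟩
  have hcard : (Fintype.card (Bx V n) : ℝ) ≠ 0 := by
    exact_mod_cast (Fintype.card_pos (α := Bx V n)).ne'
  have hb : ∀ (x : V) (k : Bx V n), ∑ v, pihat π (x, k) * Phat P (x, k) v * dm Q (fhx c) (x, k) v ^ r ≤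
      (π x / (Fintype.card (Bx V n) : ℝ)) * ∑ y, P x y * Q (c x y) ^ r := by
    intro x k
    have e : ∑ v, pihat π (x, k) * Phat P (x, k) v * dm Q (fhx c) (x, k) v ^ r =
        (π x / (Fintype.card (Bx V n) : ℝ)) *
          op (Phat P) (fun v => dm Q (fhx c) (x, k) v ^ r) (x, k) := by
      unfold op pihat
      rw [Finset.mul_sum]
      refine Finset.sum_congr rfl (fun v _ => ?_)
      ring
    rw [e, op_Phat]
    have e0 : dm Q (fhx c) (x, k) (x, k) ^ r = 0 := by
      have : dm Q (fhx c) (x, k) (x, k) = 0 := by simp [dm]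
      rw [this, Real.zero_rpow hr.ne']
    rw [e0, mul_zero, add_zero]
    refine mul_le_mul_of_nonneg_left ?_ (div_nonneg (hc.pi_nonneg x) (Nat.cast_nonneg _))
    refine Finset.sum_le_sum (fun y _ => mul_le_mul_of_nonneg_left ?_ (hc.nonneg x y))
    by_cases hex : ∃ k', rel x y k k'
    · obtain ⟨k₀, hk₀⟩ := hex
      rw [sum_rel x y k _ k₀ hk₀, dm_hat_rel Q hanti hk₀]
    · rw [sum_rel_none x y k _ hex]
      exact Real.rpow_nonneg (apply_nonneg Q _) _
  rw [Fintype.sum_prod_type]
  refine le_trans (Finset.sum_le_sum (fun x _ => Finset.sum_le_sum (fun k _ => hb x k))) (le_of_eq ?_)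
  refine Finset.sum_congr rfl (fun x _ => ?_)
  rw [Finset.sum_const, Finset.card_univ, nsmul_eq_mul, ← mul_assoc, mul_div_cancel₀ _ hcard,
    Finset.mul_sum]
  exact Finset.sum_congr rfl (fun y _ => by ring)

lemma pw_hat_eqx (hc : Rev π P) {c : V → V → X} (hanti : ∀ x y, c y x = - c x y)
    (G : X → ℝ) (m : ℕ) (x : V) (k : Bx V n) (hk : Mg n m k) :
    pw (Phat P) m (fun v => G (fhx c v)) (x, k) =
      Ex (fun _ => (1 : ℝ)) P m x (fun ys _ =>
        G (fhx c (x, k) + ∑ i ∈ range m, c (ys i) (ys (i + 1)))) := by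
  classical
  have hs : Spd hc (fun _ => (1 : ℝ)) := ⟨fun _ => zero_le_one, fun _ => le_rfl⟩
  induction m generalizing x k with
  | zero =>
    simp [Ex_zero]
  | succ m ih =>
    rw [pw_succ, op_Phat, Ex_succ]
    have hmv := fun y => exists_move hk x y
    choose kn hkn hmg using hmv
    have hblk : blk P x k = 0 := by
      unfold blk
      refine Finset.sum_eq_zero (fun y _ => ?_)
      rw [if_pos ⟨kn y, hkn y⟩, mul_zero]
    rw [hblk, zero_mul, add_zero]
    simp only [one_mul, sub_self, zero_mul, add_zero]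
    refine Finset.sum_congr rfl (fun y _ => ?_)
    rw [sum_rel x y k _ (kn y) (hkn y), ih y (kn y) (hmg y)]
    congr 1
    refine Ex_congr hs m y (fun ys ms hy => ?_)
    congr 1
    rw [Finset.sum_range_succ']
    simp only [scons_succ, scons_zero]
    rw [fhx_rel hanti (hkn y), hy]
    abel

/-- From the lifted exact map to the form: the interior of the box has almost full measure. -/
theorem lift_form (hc : Rev π P) (N : Seminorm ℝ X) {c : V → V → X}
    (hanti : ∀ x y, c y x = - c x y) {r R : ℝ} (t : ℕ)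
    (hR : ∀ n : ℕ, 2 * t + 1 ≤ n → ∑ u : V × Bx V n, pihat π u *
      pw (Phat P) t (fun w => N (fhx c w - fhx c u) ^ r) u ≤ R) :
    ∑ x, π x * Ex (fun _ => (1 : ℝ)) P t x
      (fun ys _ => N (∑ i ∈ range t, c (ys i) (ys (i + 1))) ^ r) ≤ R := by
  classical
  have hs : Spd hc (fun _ => (1 : ℝ)) := ⟨fun _ => zero_le_one, fun _ => le_rfl⟩
  set Θ : V → ℝ := fun x => Ex (fun _ => (1 : ℝ)) P t x
      (fun ys _ => N (∑ i ∈ range t, c (ys i) (ys (i + 1))) ^ r) with hΘ
  have hΘ0 : ∀ x, 0 ≤ Θ x := fun x =>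
    Ex_nonneg hs t x (fun _ _ => Real.rpow_nonneg (apply_nonneg N _) _)
  set Φ : ℝ := ∑ x, π x * Θ x with hΦ
  have hΦ0 : 0 ≤ Φ := Finset.sum_nonneg (fun x _ => mul_nonneg (hc.pi_nonneg x) (hΘ0 x))
  set L : ℕ := Fintype.card (V × V) with hL
  have key : ∀ n : ℕ, 2 * t + 1 ≤ n →
      (1 - ((L : ℝ) * (2 * t)) / (n : ℝ)) * Φ ≤ R := by
    intro n hn
    have hn0 : 0 < n := by omega
    have hnR : (0 : ℝ) < n := by exact_mod_cast hn0
    refine le_trans ?_ (hR n hn)
    rw [Fintype.sum_prod_type]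
    set mid : Finset (Fin n) := (univ : Finset (Fin n)).filter
      (fun i : Fin n => t ≤ i.val ∧ i.val + t < n) with hmid
    set marg : Finset (Bx V n) := Fintype.piFinset (fun _ => mid) with hmarg
    have hcardmid : mid.card = n - 2 * t := card_mid n t (by omega)
    have hcardmarg : marg.card = (n - 2 * t) ^ L := by
      rw [hmarg, Fintype.card_piFinset, Finset.prod_const, hcardmid, Finset.card_univ]
    have hN : Fintype.card (Bx V n) = n ^ L := by
      rw [Fintype.card_fun, Fintype.card_fin]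
    have hNpos : (0 : ℝ) < (Fintype.card (Bx V n) : ℝ) := by
      rw [hN]
      positivity
    have hper : ∀ x, (marg.card : ℝ) / (Fintype.card (Bx V n) : ℝ) * (π x * Θ x) ≤
        ∑ k : Bx V n, pihat π (x, k) *
          pw (Phat P) t (fun w => N (fhx c w - fhx c (x, k)) ^ r) (x, k) := by
      intro x
      have hterm : ∀ k : Bx V n, 0 ≤ pihat π (x, k) *
          pw (Phat P) t (fun w => N (fhx c w - fhx c (x, k)) ^ r) (x, k) := fun k =>
        mul_nonneg (div_nonneg (hc.pi_nonneg x) hNpos.le)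
          (pw_nonneg (Phat_rev hc hn0) t (fun w => Real.rpow_nonneg (apply_nonneg N _) _) _)
      have h1 : ∑ k ∈ marg, pihat π (x, k) *
          pw (Phat P) t (fun w => N (fhx c w - fhx c (x, k)) ^ r) (x, k) ≤
          ∑ k : Bx V n, pihat π (x, k) *
            pw (Phat P) t (fun w => N (fhx c w - fhx c (x, k)) ^ r) (x, k) :=
        Finset.sum_le_sum_of_subset_of_nonneg (Finset.subset_univ _) (fun k _ _ => hterm k)
      refine le_trans (le_of_eq ?_) h1
      have h2 : ∀ k ∈ marg, pihat π (x, k) *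
          pw (Phat P) t (fun w => N (fhx c w - fhx c (x, k)) ^ r) (x, k) =
          (π x / (Fintype.card (Bx V n) : ℝ)) * Θ x := by
        intro k hk
        have hkm : Mg n t k := by
          intro l
          have := (Fintype.mem_piFinset.mp hk) l
          rw [hmid] at this
          simp only [Finset.mem_filter, Finset.mem_univ, true_and] at this
          exact this
        have h3 := pw_hat_eqx hc hanti
          (fun v => N (v - fhx c (x, k)) ^ r) t x k hkm
        rw [h3]
        unfold pihat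
        dsimp only
        congr 1
        refine Ex_congr hs t x (fun ys ms _ => ?_)
        rw [add_sub_cancel_left]
      rw [Finset.sum_congr rfl h2, Finset.sum_const, nsmul_eq_mul]
      ring
    have h2 : (marg.card : ℝ) / (Fintype.card (Bx V n) : ℝ) * Φ ≤
        ∑ x, ∑ k : Bx V n, pihat π (x, k) *
          pw (Phat P) t (fun w => N (fhx c w - fhx c (x, k)) ^ r) (x, k) := by
      rw [hΦ, Finset.mul_sum]
      exact Finset.sum_le_sum (fun x _ => hper x)
    refine le_trans (mul_le_mul_of_nonneg_right ?_ hΦ0) h2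
    have hfrac : (marg.card : ℝ) / (Fintype.card (Bx V n) : ℝ) =
        (1 + (-(2 * (t : ℝ)) / n)) ^ L := by
      rw [hcardmarg, hN]
      have hle : 2 * t ≤ n := by omega
      push_cast [Nat.cast_sub hle]
      rw [← div_pow]
      congr 1
      field_simp
      ring
    rw [hfrac]
    have hbern := one_add_mul_le_pow (a := -(2 * (t : ℝ)) / n) (by
      rw [le_div_iff₀ hnR]
      have : (2 * t + 1 : ℝ) ≤ n := by exact_mod_cast hn
      nlinarith) L
    refine le_trans (le_of_eq ?_) hbern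
    ring
  have hT : Tendsto (fun n : ℕ => (1 - ((L : ℝ) * (2 * t)) / (n : ℝ)) * Φ) atTop
      (𝓝 ((1 - 0) * Φ)) :=
    ((tendsto_const_nhds).sub (tendsto_const_div_atTop_nhds_zero_nat _)).mul_const Φ
  have := le_of_tendsto hT (eventually_atTop.mpr ⟨2 * t + 1, key⟩)
  simpa using this

end lift

end Vale.Agent.Lib.P125
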