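import Vale.Agent.Lib.P125.MgForm

open Finset BigOperators

namespace Vale.Agent.Lib.P125

set_option linter.unusedSectionVars false

universe u v

section
variable {X : Type*} [AddCommGroup X] [Module ℝ X]
variable {V : Type*} [Fintype V] [DecidableEq V]

lemma sn_sum_le {α : Type*} (N : Seminorm ℝ X) (s : Finset α) (g : α → X) :
    N (∑ k ∈ s, g k) ≤ ∑ k ∈ s, N (g k) := by
  classical
  induction s using Finset.induction_on with
  | empty => simp
  | insert a s ha ih =>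
    rw [Finset.sum_insert ha, Finset.sum_insert ha]
    exact (map_add_le_add N _ _).trans (add_le_add le_rfl ih)

lemma path_decompx (L : Seminorm ℝ X) (hzero : ∀ a, L a = 0 → a = 0) (f : V → X) (t : ℕ)
    (ys : ℕ → V) :
    f (ys t) - f (ys 0) = ∑ k ∈ Lvx L f, (2 : ℝ) ^ ((k : ℝ) + 1) • Akx L f k t ys := by
  have h1 : f (ys t) - f (ys 0) = ∑ i ∈ range t, (f (ys (i + 1)) - f (ys i)) :=
    (Finset.sum_range_sub (fun i => f (ys i)) t).symm
  rw [h1]
  have e : ∀ i ∈ range t, f (ys (i + 1)) - f (ys i) =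
      ∑ k ∈ Lvx L f, (2 : ℝ) ^ ((k : ℝ) + 1) • cfx L f k (ys i) (ys (i + 1)) :=
    fun i _ => edge_decompx L f _ _ (hzero _)
  rw [Finset.sum_congr rfl e, Finset.sum_comm]
  refine Finset.sum_congr rfl (fun k _ => ?_)
  unfold Akx
  rw [Finset.smul_sum]

lemma N_le_levels (N L : Seminorm ℝ X) (hzero : ∀ a, L a = 0 → a = 0) (f : V → X) (t : ℕ)
    (ys : ℕ → V) :
    N (f (ys t) - f (ys 0)) ≤ ∑ k ∈ Lvx L f, (2 : ℝ) ^ ((k : ℝ) + 1) * N (Akx L f k t ys) := by
  rw [path_decompx L hzero f t ys]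
  refine (sn_sum_le N _ _).trans (Finset.sum_le_sum (fun k _ => ?_))
  rw [map_smul_eq_mul, Real.norm_eq_abs, abs_of_pos (Real.rpow_pos_of_pos (by norm_num) _)]

open Classical in
lemma indicator_lex (N L : Seminorm ℝ X) (f : V → X) (k : ℤ) (t : ℕ) (ys : ℕ → V) :
    (if (2 : ℝ) ^ ((k : ℝ) + 1) * N (Akx L f k t ys) = 0 then (0 : ℝ) else 1) ≤
      ∑ i ∈ range t, if actx L f k (ys i) (ys (i + 1)) then (1 : ℝ) else 0 := by
  have hnn : ∀ i ∈ range t, (0 : ℝ) ≤ if actx L f k (ys i) (ys (i + 1)) then (1 : ℝ) else 0 :=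
    fun i _ => by split_ifs <;> norm_num
  by_cases hall : ∀ i ∈ range t, ¬ actx L f k (ys i) (ys (i + 1))
  · have hA : Akx L f k t ys = 0 := by
      unfold Akx
      refine Finset.sum_eq_zero (fun i hi => ?_)
      unfold cfx
      rw [if_neg (hall i hi)]
    have hS : N (Akx L f k t ys) = 0 := by
      rw [hA, map_zero]
    rw [hS, mul_zero, if_pos rfl]
    exact Finset.sum_nonneg hnn
  · push Not at hall
    obtain ⟨i, hi, hact⟩ := hall
    have h1 := Finset.single_le_sum (f := fun i =>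
      if actx L f k (ys i) (ys (i + 1)) then (1 : ℝ) else 0) hnn hi
    simp only [if_pos hact] at h1
    refine le_trans ?_ h1
    split_ifs <;> norm_num

end

/-- A two point inequality with exponent `α < 2` for a pair of seminorms implies the Markov type
inequalities for all `p < 2 / α`. -/
theorem type_of_two_point {X : Type v} [AddCommGroup X] [Module ℝ X] {N L : Seminorm ℝ X}
    (hNL : ∀ a, N a ≤ L a) (hzero : ∀ a, L a = 0 → a = 0) {C₀ α p : ℝ} (hC₀ : 0 < C₀) (hα : 0 < α)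
    (hp1 : 1 ≤ p) (hp2 : p < 2) (hαp : α * p < 2) (hyp : TwoPt.{u} N L C₀ α) : ∃ K : ℝ, 0 < K ∧
    ∀ {V : Type u} [Fintype V] [DecidableEq V]
    {π : V → ℝ} {P : V → V → ℝ} (_ : Rev π P) (_ : ∑ x, π x = 1) (f : V → X) (t : ℕ)
    (_ : 1 ≤ t),
    ∑ x, π x * pw P t (fun w => N (f w - f x) ^ p) x ≤
      K * t * ∑ a, ∑ b, π a * P a b * L (f b - f a) ^ p := by
  set m : ℝ := min 2 (2 / α) with hm
  have hpm : p < m := lt_min hp2 (by
    rw [lt_div_iff₀ hα]
    linarith)
  set q : ℝ := (p + m) / 2 with hq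
  have hpq : p < q := by rw [hq]; linarith
  have hqm : q < m := by rw [hq]; linarith
  have hq1 : 1 < q := by linarith
  have hq2 : q ≤ 2 := by
    have := min_le_left 2 (2 / α)
    linarith
  have hqα : α * q < 2 := by
    have h1 : q < 2 / α := lt_of_lt_of_le hqm (min_le_right _ _)
    rw [lt_div_iff₀ hα] at h1
    linarith
  have hp0 : 0 < p := by linarith
  obtain ⟨C, hC0, hC⟩ := gflat_form hNL hC₀ hq1 hq2 hqα hyp
  obtain ⟨CM, hCM0, hCM⟩ := marc hp0 hpq hq1
  refine ⟨CM * (1 + 2 ^ q * C), by positivity, ?_⟩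
  intro V _ _ π P hc hπ1 f t ht
  classical
  have hs : Spd hc (fun _ => (1 : ℝ)) := ⟨fun _ => zero_le_one, fun _ => le_rfl⟩
  have hlz : lz (fun _ => (1 : ℝ)) P = P := by
    funext x y
    simp [lz]
  have hμ : Rev π (lz (fun _ => (1 : ℝ)) P) := by
    rw [hlz]
    exact hc
  set h1 : V → ℝ := fun _ => (1 : ℝ) with hh1
  have hleft : ∑ x, π x * pw P t (fun w => N (f w - f x) ^ p) x =
      EE h1 P π t (fun ys _ => N (f (ys t) - f (ys 0)) ^ p) := by
    unfold EE
    refine Finset.sum_congr rfl (fun x _ => ?_)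
    congr 1
    have e1 := Ex_pos hs t t le_rfl x (fun w => N (f w - f x) ^ p)
    rw [hlz] at e1
    rw [← e1]
    exact Ex_congr hs t x (fun ys ms hy => by rw [hy])
  rw [hleft]
  have hpt : ∀ (ys : ℕ → V) (ms : ℕ → Bool), N (f (ys t) - f (ys 0)) ^ p ≤
      CM * ∑ k ∈ Lvx L f, ((2 : ℝ) ^ ((k : ℝ) * p) *
          (∑ i ∈ range t, if actx L f k (ys i) (ys (i + 1)) then (1 : ℝ) else 0) +
        ((2 : ℝ) ^ (((k : ℝ) + 1) * q) * (2 : ℝ) ^ (-((k : ℝ) * (q - p)))) *
          N (Akx L f k t ys) ^ q) := by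
    intro ys _
    have hW : ∀ k : ℤ, 0 ≤ (2 : ℝ) ^ ((k : ℝ) + 1) * N (Akx L f k t ys) := fun k =>
      mul_nonneg (Real.rpow_nonneg (by norm_num) _) (apply_nonneg N _)
    have h2 := hCM (Lvx L f) (fun k => (2 : ℝ) ^ ((k : ℝ) + 1) * N (Akx L f k t ys)) hW
    have h3 := Real.rpow_le_rpow (apply_nonneg N _) (N_le_levels N L hzero f t ys) hp0.le
    refine h3.trans (h2.trans (mul_le_mul_of_nonneg_left ?_ hCM0.le))
    refine Finset.sum_le_sum (fun k _ => ?_)
    refine add_le_add (mul_le_mul_of_nonneg_left (indicator_lex N L f k t ys)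
      (Real.rpow_nonneg (by norm_num) _)) (le_of_eq ?_)
    rw [Real.mul_rpow (Real.rpow_nonneg (by norm_num) _) (apply_nonneg N _),
      ← Real.rpow_mul (by norm_num)]
    ring
  refine (EE_mono hs hμ t hpt).trans ?_
  rw [EE_cm, EE_sm hs]
  have hterm : ∀ k ∈ Lvx L f, EE h1 P π t (fun ys ms => (2 : ℝ) ^ ((k : ℝ) * p) *
          (∑ i ∈ range t, if actx L f k (ys i) (ys (i + 1)) then (1 : ℝ) else 0) +
        ((2 : ℝ) ^ (((k : ℝ) + 1) * q) * (2 : ℝ) ^ (-((k : ℝ) * (q - p)))) *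
          N (Akx L f k t ys) ^ q) ≤
      (1 + 2 ^ q * C) * t * ((2 : ℝ) ^ ((k : ℝ) * p) * Pkx π P L f k) := by
    intro k _
    rw [EE_ad, EE_cm, EE_cm, EE_sm hs]
    have hI : ∀ i ∈ range t, EE h1 P π t (fun ys _ =>
        if actx L f k (ys i) (ys (i + 1)) then (1 : ℝ) else 0) = Pkx π P L f k := by
      intro i hi
      simp only [Finset.mem_range] at hi
      obtain ⟨n, hn1, hn2⟩ : ∃ n, t = n + i ∧ 1 ≤ n := ⟨t - i, by omega, by omega⟩
      have h3 := Ex_two hs hμ i 1 n hn2 (fun a b => if actx L f k a b then (1 : ℝ) else 0)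
      have h4 : EE h1 P π t (fun ys _ =>
          if actx L f k (ys i) (ys (i + 1)) then (1 : ℝ) else 0) =
          ∑ x, π x * Ex h1 P (n + i) x (fun ys _ =>
            if actx L f k (ys i) (ys (1 + i)) then (1 : ℝ) else 0) := by
        rw [hn1, add_comm 1 i]
        rfl
      rw [h4]
      refine h3.trans ?_
      unfold Pkx
      refine Finset.sum_congr rfl (fun x _ => ?_)
      rw [show pw (lz (fun _ => (1 : ℝ)) P) 1 (fun b => if actx L f k x b then (1 : ℝ) else 0) x =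
        op (lz (fun _ => (1 : ℝ)) P) (fun b => if actx L f k x b then (1 : ℝ) else 0) x from rfl,
        hlz]
      unfold op
      rw [Finset.mul_sum]
      exact Finset.sum_congr rfl (fun y _ => by ring)
    rw [Finset.sum_congr rfl hI, Finset.sum_const, Finset.card_range, nsmul_eq_mul]
    have hF : EE h1 P π t (fun ys _ => N (Akx L f k t ys) ^ q) ≤ C * t * Pkx π P L f k :=
      hC hc hπ1 (cfx L f k) (cfx_anti L f k) (fun x y _ => cfx_L1' L f k x y) (Pkx_nonneg hc L f k)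
        (Pkx_le_one hc hπ1 L f k) (cfx_moment hc L f k) t ht
    have hexp : (2 : ℝ) ^ (((k : ℝ) + 1) * q) * (2 : ℝ) ^ (-((k : ℝ) * (q - p))) =
        2 ^ q * (2 : ℝ) ^ ((k : ℝ) * p) := by
      rw [← Real.rpow_add (by norm_num), ← Real.rpow_add (by norm_num)]
      congr 1
      ring
    rw [hexp]
    have h2p : (0 : ℝ) ≤ 2 ^ q * (2 : ℝ) ^ ((k : ℝ) * p) := by positivity
    have := mul_le_mul_of_nonneg_left hF h2p
    refine (add_le_add_right this _).trans (le_of_eq ?_)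
    ring
  have hsum : ∑ k ∈ Lvx L f, (2 : ℝ) ^ ((k : ℝ) * p) * Pkx π P L f k ≤
      ∑ u, ∑ v, π u * P u v * L (f v - f u) ^ p := by
    unfold Pkx
    simp only [Finset.mul_sum]
    rw [Finset.sum_comm]
    refine Finset.sum_le_sum (fun x _ => ?_)
    rw [Finset.sum_comm]
    refine Finset.sum_le_sum (fun y _ => ?_)
    have hedge := mul_nonneg (hc.pi_nonneg x) (hc.nonneg x y)
    have e : ∑ k ∈ Lvx L f, (2 : ℝ) ^ ((k : ℝ) * p) *
        (π x * P x y * (if actx L f k x y then (1 : ℝ) else 0)) =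
        π x * P x y * ∑ k ∈ Lvx L f, (2 : ℝ) ^ ((k : ℝ) * p) *
          (if actx L f k x y then (1 : ℝ) else 0) := by
      rw [Finset.mul_sum]
      exact Finset.sum_congr rfl (fun k _ => by ring)
    rw [e]
    refine mul_le_mul_of_nonneg_left ?_ hedge
    by_cases h0 : L (f y - f x) = 0
    · have : ∀ k ∈ Lvx L f, (2 : ℝ) ^ ((k : ℝ) * p) * (if actx L f k x y then (1 : ℝ) else 0) = 0 := by
        intro k _
        rw [if_neg (fun ha => ha.1 h0), mul_zero]
      rw [Finset.sum_eq_zero this]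
      exact Real.rpow_nonneg (apply_nonneg L _) p
    · rw [Finset.sum_eq_single (lvx L f x y)]
      · rw [if_pos ⟨h0, rfl⟩, mul_one, Real.rpow_mul (by norm_num)]
        have hpos : 0 < L (f y - f x) := lt_of_le_of_ne (apply_nonneg L _) (Ne.symm h0)
        exact Real.rpow_le_rpow (Real.rpow_nonneg (by norm_num) _) (exists_scale hpos).1 hp0.le
      · intro k _ hk
        rw [if_neg (fun ha => hk ha.2.symm), mul_zero]
      · intro hn
        exact absurd (lvx_mem L f x y) hn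
  have hfin : ∑ k ∈ Lvx L f, EE h1 P π t (fun ys ms => (2 : ℝ) ^ ((k : ℝ) * p) *
          (∑ i ∈ range t, if actx L f k (ys i) (ys (i + 1)) then (1 : ℝ) else 0) +
        ((2 : ℝ) ^ (((k : ℝ) + 1) * q) * (2 : ℝ) ^ (-((k : ℝ) * (q - p)))) *
          N (Akx L f k t ys) ^ q) ≤
      (1 + 2 ^ q * C) * t * ∑ u, ∑ v, π u * P u v * L (f v - f u) ^ p := by
    refine (Finset.sum_le_sum hterm).trans ?_
    rw [← Finset.mul_sum]
    exact mul_le_mul_of_nonneg_left hsum (by positivity)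
  have := mul_le_mul_of_nonneg_left hfin hCM0.le
  refine this.trans (le_of_eq ?_)
  ring

end Vale.Agent.Lib.P125
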