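import Vale.Agent.Lib.P125.MtPath

open Finset BigOperators

namespace Vale.Agent.Lib.P125

set_option linter.unusedSectionVars false

/-- Weighted power mean with a defect. -/
lemma rpow_sum_le {α : Type*} (s : Finset α) (w x : α → ℝ) (hw : ∀ i ∈ s, 0 < w i)
    (hW : ∑ i ∈ s, w i ≤ 1) (hx : ∀ i ∈ s, 0 ≤ x i) {p : ℝ} (hp : 1 ≤ p) :
    (∑ i ∈ s, x i) ^ p ≤ ∑ i ∈ s, (w i) ^ (1 - p) * x i ^ p := by
  classical
  have hp0 : 0 < p := by linarith
  rcases s.eq_empty_or_nonempty with rfl | hne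
  · simp [Real.zero_rpow hp0.ne']
  have hWpos : 0 < ∑ i ∈ s, w i := Finset.sum_pos hw hne
  set W := ∑ i ∈ s, w i with hWdef
  have h1 := Real.rpow_arith_mean_le_arith_mean_rpow s (fun i => w i / W) (fun i => x i / (w i / W))
    (fun i hi => (div_pos (hw i hi) hWpos).le)
    (by rw [← Finset.sum_div, div_self hWpos.ne'])
    (fun i hi => div_nonneg (hx i hi) (div_pos (hw i hi) hWpos).le) hp
  have e1 : ∑ i ∈ s, (w i / W) * (x i / (w i / W)) = ∑ i ∈ s, x i := by
    refine Finset.sum_congr rfl (fun i hi => ?_)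
    have h0 := (div_pos (hw i hi) hWpos).ne'
    exact mul_div_cancel₀ (x i) h0
  rw [e1] at h1
  refine h1.trans (Finset.sum_le_sum (fun i hi => ?_))
  have hwi := hw i hi
  have hq := div_pos hwi hWpos
  have hxi := hx i hi
  have e2 : (w i / W) * (x i / (w i / W)) ^ p = (w i / W) ^ (1 - p) * x i ^ p := by
    rw [Real.div_rpow hxi hq.le, Real.rpow_sub hq, Real.rpow_one]
    field_simp
  rw [e2]
  refine mul_le_mul_of_nonneg_right ?_ (Real.rpow_nonneg hxi p)
  have hle : w i ≤ w i / W := by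
    rw [le_div_iff₀ hWpos]
    nlinarith
  rcases hp.eq_or_lt with rfl | hp1
  · simp
  · exact (Real.rpow_le_rpow_iff_of_neg hq hwi (by linarith)).mpr hle

/-- The sum of a geometric family with large weights. -/
lemma rpow_geom_sum_le {p b : ℝ} (hp : 1 < p) (hb : 1 < b) :
    ∃ C : ℝ, 0 < C ∧ ∀ (K : ℕ) (x : ℕ → ℝ), (∀ i, 0 ≤ x i) →
      (∑ i ∈ range K, x i) ^ p ≤ C * ∑ i ∈ range K, b ^ i * x i ^ p := by
  have hb0 : 0 < b := by linarith
  set r : ℝ := b ^ (-(1 / (p - 1))) with hr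
  have hp1 : 0 < p - 1 := by linarith
  have hr0 : 0 < r := Real.rpow_pos_of_pos hb0 _
  have hr1 : r < 1 := Real.rpow_lt_one_of_one_lt_of_neg hb (by
    have : 0 < 1 / (p - 1) := by positivity
    linarith)
  have hrb : r ^ (1 - p) = b := by
    rw [hr, ← Real.rpow_mul hb0.le]
    have : -(1 / (p - 1)) * (1 - p) = 1 := by
      field_simp
      ring
    rw [this, Real.rpow_one]
  have h1r : 0 < 1 - r := by linarith
  refine ⟨(1 - r) ^ (1 - p), Real.rpow_pos_of_pos h1r _, ?_⟩
  intro K x hx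
  have hsum : ∑ i ∈ range K, (1 - r) * r ^ i ≤ 1 := by
    rw [← Finset.mul_sum, mul_comm, geom_sum_mul_neg]
    have : 0 ≤ r ^ K := by positivity
    linarith
  have h2 := rpow_sum_le (range K) (fun i => (1 - r) * r ^ i) x
    (fun i _ => by positivity) hsum (fun i _ => hx i) hp.le
  refine h2.trans (le_of_eq ?_)
  rw [Finset.mul_sum]
  refine Finset.sum_congr rfl (fun i _ => ?_)
  have e : ((1 - r) * r ^ i) ^ (1 - p) = (1 - r) ^ (1 - p) * b ^ i := by
    rw [Real.mul_rpow h1r.le (by positivity), ← Real.rpow_natCast r i, ← Real.rpow_mul hr0.le,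
      mul_comm (i : ℝ), Real.rpow_mul hr0.le, hrb, Real.rpow_natCast]
  rw [e]
  ring

section
variable {V : Type*}

/-- Pseudo metric bounded by an edge length. -/
structure PM (N L : V → V → ℝ) : Prop where
  nn : ∀ a b, 0 ≤ N a b
  self : ∀ a, N a a = 0
  tri : ∀ a b c, N a c ≤ N a b + N b c
  le : ∀ a b, N a b ≤ L a b
  L_nn : ∀ a b, 0 ≤ L a b

variable {N L : V → V → ℝ}

/-- Sum over the grid blocks of level `l` inside `[a, b]`. -/
noncomputable def Sl (N : V → V → ℝ) (p : ℝ) (z : ℕ → V) (l a b : ℕ) : ℝ :=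
  ∑ i ∈ range b, if a ≤ i * 2 ^ l ∧ (i + 1) * 2 ^ l ≤ b then
    N (z (i * 2 ^ l)) (z ((i + 1) * 2 ^ l)) ^ p else 0

lemma Sl_nonneg (hN : PM N L) (p : ℝ) (z : ℕ → V) (l a b : ℕ) : 0 ≤ Sl N p z l a b := by
  unfold Sl
  refine Finset.sum_nonneg (fun i _ => ?_)
  split_ifs
  · exact Real.rpow_nonneg (hN.nn _ _) p
  · exact le_rfl

lemma block_le (hN : PM N L) {p : ℝ} (hp : 0 < p) (z : ℕ → V) (l a b i : ℕ) (h1 : a ≤ i * 2 ^ l)
    (h2 : (i + 1) * 2 ^ l ≤ b) :
    N (z (i * 2 ^ l)) (z ((i + 1) * 2 ^ l)) ≤ (Sl N p z l a b) ^ (1 / p) := by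
  have hi : i ∈ range b := by
    have : 1 ≤ 2 ^ l := Nat.one_le_two_pow
    have : i + 1 ≤ (i + 1) * 2 ^ l := Nat.le_mul_of_pos_right _ (by positivity)
    simp only [Finset.mem_range]
    omega
  have hterm : N (z (i * 2 ^ l)) (z ((i + 1) * 2 ^ l)) ^ p ≤ Sl N p z l a b := by
    unfold Sl
    have := Finset.single_le_sum (f := fun i => if a ≤ i * 2 ^ l ∧ (i + 1) * 2 ^ l ≤ b then
      N (z (i * 2 ^ l)) (z ((i + 1) * 2 ^ l)) ^ p else 0)
      (fun j _ => by
        split_ifs
        · exact Real.rpow_nonneg (hN.nn _ _) p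
        · exact le_rfl) hi
    simpa [h1, h2] using this
  have h3 := Real.rpow_le_rpow (Real.rpow_nonneg (hN.nn _ _) p) hterm (by positivity : 0 ≤ 1 / p)
  rw [← Real.rpow_mul (hN.nn _ _), mul_one_div, div_self hp.ne', Real.rpow_one] at h3
  exact h3

/-- Dyadic chaining. -/
lemma dyadic_chain (hN : PM N L) {p : ℝ} (hp : 0 < p) (K : ℕ) (z : ℕ → V) (a b : ℕ) (hab : a ≤ b)
    (hb : b ≤ 2 ^ K) :
    N (z a) (z b) ≤ 2 * ∑ l ∈ range (K + 1), (Sl N p z l a b) ^ (1 / p) := by
  have hpos : ∀ (z : ℕ → V) (K a b : ℕ), 0 ≤ ∑ l ∈ range K, (Sl N p z l a b) ^ (1 / p) :=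
    fun z K a b => Finset.sum_nonneg (fun l _ => Real.rpow_nonneg (Sl_nonneg hN p z l a b) _)
  induction K generalizing z a b with
  | zero =>
    by_cases hEq : a = b
    · subst hEq
      rw [hN.self]
      have := hpos z 1 a a
      simpa using this
    · have ha : a = 0 := by simp at hb; omega
      have hb1 : b = 1 := by simp at hb; omega
      subst ha hb1
      have := block_le hN hp z 0 0 1 0 (by simp) (by simp)
      simp only [pow_zero, mul_one, zero_add] at this
      simp only [zero_add, Finset.sum_range_one]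
      have h0 : 0 ≤ (Sl N p z 0 0 1) ^ (1 / p) := Real.rpow_nonneg (Sl_nonneg hN p z _ _ _) _
      linarith
  | succ K ih =>
    by_cases hEq : a = b
    · subst hEq
      rw [hN.self]
      have := hpos z (K + 1 + 1) a a
      linarith
    have hlt : a < b := lt_of_le_of_ne hab hEq
    set a' := (a + 1) / 2 with ha'
    set b' := b / 2 with hb'
    have h1 : a' ≤ b' := by omega
    have h2 : b' ≤ 2 ^ K := by
      rw [pow_succ] at hb
      omega
    have h3 := ih (fun i => z (2 * i)) a' b' h1 h2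
    have h4 : ∀ l, Sl N p (fun i => z (2 * i)) l a' b' ≤ Sl N p z (l + 1) a b := by
      intro l
      unfold Sl
      have hsub : range b' ⊆ range b := by
        intro i hi
        simp only [Finset.mem_range] at hi ⊢
        omega
      refine le_trans (Finset.sum_le_sum (fun i _ => ?_))
        (Finset.sum_le_sum_of_subset_of_nonneg hsub (fun j _ _ => ?_))
      · dsimp only
        have e1 : 2 * (i * 2 ^ l) = i * 2 ^ (l + 1) := by rw [pow_succ]; ring
        have e2 : 2 * ((i + 1) * 2 ^ l) = (i + 1) * 2 ^ (l + 1) := by rw [pow_succ]; ring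
        rw [e1, e2]
        split_ifs with c1 c2 c2
        · exact le_rfl
        · exfalso
          apply c2
          constructor
          · rw [← e1]; omega
          · rw [← e2]; omega
        · exact Real.rpow_nonneg (hN.nn _ _) p
        · exact le_rfl
      · split_ifs
        · exact Real.rpow_nonneg (hN.nn _ _) p
        · exact le_rfl
    have h5 : ∑ l ∈ range (K + 1), (Sl N p (fun i => z (2 * i)) l a' b') ^ (1 / p) ≤
        ∑ l ∈ range (K + 1), (Sl N p z (l + 1) a b) ^ (1 / p) := by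
      refine Finset.sum_le_sum (fun l _ => ?_)
      exact Real.rpow_le_rpow (Sl_nonneg hN p _ _ _ _) (h4 l) (by positivity)
    have h6 : N (z a) (z (2 * a')) ≤ (Sl N p z 0 a b) ^ (1 / p) := by
      by_cases hodd : a % 2 = 0
      · have : 2 * a' = a := by omega
        rw [this, hN.self]
        exact Real.rpow_nonneg (Sl_nonneg hN p _ _ _ _) _
      · have e : 2 * a' = a + 1 := by omega
        have := block_le hN hp z 0 a b a (by simp) (by simp; omega)
        simp only [pow_zero, mul_one] at this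
        rw [e]
        exact this
    have h7 : N (z (2 * b')) (z b) ≤ (Sl N p z 0 a b) ^ (1 / p) := by
      by_cases hodd : b % 2 = 0
      · have : 2 * b' = b := by omega
        rw [this, hN.self]
        exact Real.rpow_nonneg (Sl_nonneg hN p _ _ _ _) _
      · have e : 2 * b' = b - 1 := by omega
        have e3 : b - 1 + 1 = b := by omega
        have := block_le hN hp z 0 a b (b - 1) (by simp; omega) (by simp; omega)
        simp only [pow_zero, mul_one, e3] at this
        rw [e]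
        exact this
    have h8 := hN.tri (z a) (z (2 * a')) (z b)
    have h9 := hN.tri (z (2 * a')) (z (2 * b')) (z b)
    rw [Finset.sum_range_succ' _ (K + 1)]
    linarith

/-- A window: from a mark at `j`, up to just after the `t`-th mark counted from `j`. -/
def isWin (t : ℕ) (m : ℕ → Bool) (j R : ℕ) : Prop :=
  m j = true ∧ j < R ∧ m (R - 1) = true ∧ rk m R = rk m j + t

instance (t : ℕ) (m : ℕ → Bool) (j R : ℕ) : Decidable (isWin t m j R) :=
  inferInstanceAs (Decidable (_ ∧ _ ∧ _ ∧ _))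

/-- All windows inside `[0, Λ]`. -/
def Wset (t : ℕ) (m : ℕ → Bool) (Λ : ℕ) : Finset (ℕ × ℕ) :=
  ((range Λ) ×ˢ (range (Λ + 1))).filter (fun q => isWin t m q.1 q.2)

lemma mem_Wset {t : ℕ} {m : ℕ → Bool} {Λ : ℕ} {q : ℕ × ℕ} (hq : q ∈ Wset t m Λ) :
    q.1 < q.2 ∧ q.2 ≤ Λ ∧ isWin t m q.1 q.2 := by
  unfold Wset at hq
  simp only [Finset.mem_filter, Finset.mem_product, Finset.mem_range] at hq
  exact ⟨hq.2.2.1, by omega, hq.2⟩

lemma rk_lt_of_mark (m : ℕ → Bool) {a b : ℕ} (hab : a < b) (h : m a = true) : rk m a < rk m b := by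
  have h1 : rk m (a + 1) ≤ rk m b := rk_mono m hab
  rw [rk_succ] at h1
  simp only [h, if_true] at h1
  omega

lemma win_rk {t : ℕ} {m : ℕ → Bool} {j R u : ℕ} (hw : isWin t m j R) (h1 : j ≤ u) (h2 : u < R) :
    rk m j ≤ rk m u ∧ rk m u + 1 ≤ rk m j + t := by
  obtain ⟨_, _, h3, h4⟩ := hw
  refine ⟨rk_mono m h1, ?_⟩
  have h5 : rk m (R - 1 + 1) = rk m (R - 1) + 1 := by
    rw [rk_succ]
    simp [h3]
  have h6 : R - 1 + 1 = R := by omega
  rw [h6] at h5
  have h7 : rk m u ≤ rk m (R - 1) := rk_mono m (by omega)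
  omega

/-- At most `t` windows contain a given time. -/
lemma win_count (t : ℕ) (m : ℕ → Bool) (Λ u : ℕ) :
    ((Wset t m Λ).filter (fun q => q.1 ≤ u ∧ u < q.2)).card ≤ t := by
  have hcard : (Finset.Ico (rk m u + 1 - t) (rk m u + 1)).card ≤ t := by
    rw [Nat.card_Ico]
    omega
  refine le_trans (Finset.card_le_card_of_injOn (fun q => rk m q.1) ?_ ?_) hcard
  · intro q hq
    simp only [Finset.coe_filter, Set.mem_setOf_eq] at hq
    have hw := (mem_Wset hq.1).2.2
    have := win_rk hw hq.2.1 hq.2.2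
    simp only [Finset.coe_Ico, Set.mem_Ico]
    omega
  · intro q hq q' hq' hrk
    simp only [Finset.coe_filter, Set.mem_setOf_eq] at hq hq'
    have hw := (mem_Wset hq.1).2.2
    have hw' := (mem_Wset hq'.1).2.2
    dsimp only at hrk
    have hj : q.1 = q'.1 := by
      rcases lt_trichotomy q.1 q'.1 with h | h | h
      · have := rk_lt_of_mark m h hw.1
        omega
      · exact h
      · have := rk_lt_of_mark m h hw'.1
        omega
    have hR : q.2 = q'.2 := by
      have e1 := hw.2.2.2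
      have e2 := hw'.2.2.2
      rcases lt_trichotomy q.2 q'.2 with h | h | h
      · have h3 := hw'.2.2.1
        have h4 : q.2 ≤ q'.2 - 1 := by omega
        have h5 := rk_mono m h4
        have h6 : rk m (q'.2 - 1) < rk m q'.2 := by
          refine rk_lt_of_mark m ?_ h3
          have := hw'.2.1
          omega
        omega
      · exact h
      · have h3 := hw.2.2.1
        have h4 : q'.2 ≤ q.2 - 1 := by omega
        have h5 := rk_mono m h4
        have h6 : rk m (q.2 - 1) < rk m q.2 := by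
          refine rk_lt_of_mark m ?_ h3
          have := hw.2.1
          omega
        omega
    exact Prod.ext hj hR

lemma win_sum_le (t : ℕ) (m : ℕ → Bool) (Λ u : ℕ) {c : ℝ} (hc : 0 ≤ c) :
    ∑ q ∈ Wset t m Λ, (if q.1 ≤ u ∧ u < q.2 then c else 0) ≤ t * c := by
  rw [← Finset.sum_filter, Finset.sum_const, nsmul_eq_mul]
  exact mul_le_mul_of_nonneg_right (by exact_mod_cast win_count t m Λ u) hc

/-- Telescoping along a path. -/
lemma tele_le (hN : PM N L) (y : ℕ → V) {u v : ℕ} (huv : u ≤ v) :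
    N (y u) (y v) ≤ ∑ s ∈ Finset.Ico u v, L (y s) (y (s + 1)) := by
  induction v, huv using Nat.le_induction with
  | base => simp [hN.self]
  | succ v huv ih =>
    rw [Finset.sum_Ico_succ_top huv]
    have := hN.tri (y u) (y v) (y (v + 1))
    have := hN.le (y v) (y (v + 1))
    linarith

/-- Length of the part of the block `i` inside `[j, R)`. -/
noncomputable def cp (L : V → V → ℝ) (y : ℕ → V) (M i j R : ℕ) : ℝ :=
  ∑ s ∈ Finset.Ico (i * M) ((i + 1) * M), if j ≤ s ∧ s < R then L (y s) (y (s + 1)) else 0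

/-- Length of the block `i`. -/
noncomputable def Ln (L : V → V → ℝ) (y : ℕ → V) (M i : ℕ) : ℝ :=
  ∑ s ∈ Finset.Ico (i * M) ((i + 1) * M), L (y s) (y (s + 1))

/-- The block `i` of level `l`. -/
noncomputable def Db (N : V → V → ℝ) (p : ℝ) (y : ℕ → V) (M l i : ℕ) : ℝ :=
  N (y (i * 2 ^ l * M)) (y ((i + 1) * 2 ^ l * M)) ^ p

/-- All blocks of level `l` inside `[j, R]`. -/
noncomputable def Sc (N : V → V → ℝ) (p : ℝ) (y : ℕ → V) (M K l j R : ℕ) : ℝ :=
  ∑ i ∈ range (2 ^ (K - l)),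
    if j ≤ i * 2 ^ l * M ∧ (i + 1) * 2 ^ l * M ≤ R then Db N p y M l i else 0

lemma cp_nonneg (hN : PM N L) (y : ℕ → V) (M i j R : ℕ) : 0 ≤ cp L y M i j R :=
  Finset.sum_nonneg (fun s _ => by
    split_ifs
    · exact hN.L_nn _ _
    · exact le_rfl)

lemma cp_le_Ln (hN : PM N L) (y : ℕ → V) (M i j R : ℕ) : cp L y M i j R ≤ Ln L y M i :=
  Finset.sum_le_sum (fun s _ => by
    split_ifs
    · exact le_rfl
    · exact hN.L_nn _ _)

lemma Ln_nonneg (hN : PM N L) (y : ℕ → V) (M i : ℕ) : 0 ≤ Ln L y M i :=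
  Finset.sum_nonneg (fun s _ => hN.L_nn _ _)

lemma Db_nonneg (hN : PM N L) (p : ℝ) (y : ℕ → V) (M l i : ℕ) : 0 ≤ Db N p y M l i :=
  Real.rpow_nonneg (hN.nn _ _) p

lemma Sc_nonneg (hN : PM N L) (p : ℝ) (y : ℕ → V) (M K l j R : ℕ) : 0 ≤ Sc N p y M K l j R :=
  Finset.sum_nonneg (fun s _ => by
    split_ifs
    · exact Db_nonneg hN p y M l s
    · exact le_rfl)

/-- A piece inside a block is bounded by the part of that block inside the window. -/
lemma piece_le (hN : PM N L) (y : ℕ → V) (M i j R u v : ℕ) (huv : u ≤ v) (h1 : i * M ≤ u)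
    (h2 : v ≤ (i + 1) * M) (h3 : j ≤ u) (h4 : v ≤ R) : N (y u) (y v) ≤ cp L y M i j R := by
  refine (tele_le hN y huv).trans ?_
  have hsub : Finset.Ico u v ⊆ Finset.Ico (i * M) ((i + 1) * M) := by
    intro s hs
    simp only [Finset.mem_Ico] at hs ⊢
    omega
  have e : ∑ s ∈ Finset.Ico u v, L (y s) (y (s + 1)) =
      ∑ s ∈ Finset.Ico u v, if j ≤ s ∧ s < R then L (y s) (y (s + 1)) else 0 := by
    refine Finset.sum_congr rfl (fun s hs => ?_)
    simp only [Finset.mem_Ico] at hs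
    rw [if_pos]
    omega
  rw [e]
  refine Finset.sum_le_sum_of_subset_of_nonneg hsub (fun s _ _ => ?_)
  split_ifs
  · exact hN.L_nn _ _
  · exact le_rfl

/-- The grid blocks inside the rounded window are blocks inside the window. -/
lemma Sl_le_Sc (hN : PM N L) {p : ℝ} (y : ℕ → V) (M K l a b j R : ℕ) (hl : l ≤ K) (hb : b ≤ 2 ^ K)
    (h1 : j ≤ a * M) (h2 : b * M ≤ R) :
    Sl N p (fun i => y (i * M)) l a b ≤ Sc N p y M K l j R := by
  unfold Sl Sc
  rw [← Finset.sum_filter, ← Finset.sum_filter]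
  have e : ∀ i ∈ (range b).filter (fun i => a ≤ i * 2 ^ l ∧ (i + 1) * 2 ^ l ≤ b),
      N (y (i * 2 ^ l * M)) (y ((i + 1) * 2 ^ l * M)) ^ p = Db N p y M l i := fun i _ => rfl
  rw [Finset.sum_congr rfl e]
  refine Finset.sum_le_sum_of_subset_of_nonneg ?_ (fun i _ _ => Db_nonneg hN p y M l i)
  intro i hi
  simp only [Finset.mem_filter, Finset.mem_range] at hi ⊢
  obtain ⟨_, h3, h4⟩ := hi
  have h5 : (i + 1) * 2 ^ l ≤ 2 ^ (K - l) * 2 ^ l := by
    rw [← pow_add, Nat.sub_add_cancel hl]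
    omega
  have h6 : i + 1 ≤ 2 ^ (K - l) := Nat.le_of_mul_le_mul_right h5 (by positivity)
  refine ⟨by omega, ?_, ?_⟩
  · exact le_trans h1 (Nat.mul_le_mul_right M h3)
  · exact le_trans (Nat.mul_le_mul_right M h4) h2

/-- Decomposition of one window. -/
lemma window_decomp (hN : PM N L) {p : ℝ} (hp : 0 < p) (y : ℕ → V) (M K j R : ℕ) (hM : 1 ≤ M)
    (hjR : j < R) (hR : R ≤ M * 2 ^ K) :
    ∃ i₁ i₂, i₁ < 2 ^ K ∧ i₂ < 2 ^ K ∧
      N (y j) (y R) ≤ cp L y M i₁ j R + cp L y M i₂ j R +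
        2 * ∑ l ∈ range (K + 1), (Sc N p y M K l j R) ^ (1 / p) := by
  have hMpos : 0 < M := hM
  have hK : 0 < 2 ^ K := by positivity
  have hpos : 0 ≤ ∑ l ∈ range (K + 1), (Sc N p y M K l j R) ^ (1 / p) :=
    Finset.sum_nonneg (fun l _ => Real.rpow_nonneg (Sc_nonneg hN p y M K l j R) _)
  set a := (j + M - 1) / M with ha
  set b := R / M with hb
  have ha1 : j ≤ a * M := by
    have := Nat.div_add_mod (j + M - 1) M
    have h2 := Nat.mod_lt (j + M - 1) hMpos
    rw [← ha] at this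
    rw [mul_comm] at this
    omega
  have ha2 : a * M ≤ j + M - 1 := Nat.div_mul_le_self _ _
  have hb1 : b * M ≤ R := Nat.div_mul_le_self _ _
  have hb2 : R < (b + 1) * M := by
    have := Nat.div_add_mod R M
    have h2 := Nat.mod_lt R hMpos
    rw [← hb] at this
    have e : (b + 1) * M = M * b + M := by ring
    rw [e]
    omega
  have hb3 : b ≤ 2 ^ K := by
    rw [hb]
    exact Nat.div_le_of_le_mul hR
  by_cases hab : a ≤ b
  · -- the window contains a grid point
    have hmid : N (y (a * M)) (y (b * M)) ≤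
        2 * ∑ l ∈ range (K + 1), (Sc N p y M K l j R) ^ (1 / p) := by
      have h1 := dyadic_chain hN hp K (fun i => y (i * M)) a b hab hb3
      refine h1.trans (mul_le_mul_of_nonneg_left ?_ (by norm_num))
      refine Finset.sum_le_sum (fun l hl => ?_)
      refine Real.rpow_le_rpow (Sl_nonneg hN p _ _ _ _) ?_ (by positivity)
      have hl' : l ≤ K := by
        simp only [Finset.mem_range] at hl
        omega
      exact Sl_le_Sc hN y M K l a b j R hl' hb3 ha1 hb1
    have hamb : a * M ≤ b * M := Nat.mul_le_mul_right M hab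
    refine ⟨a - 1, if b * M = R then 0 else b, ?_, ?_, ?_⟩
    · omega
    · split_ifs with hEq
      · exact hK
      · have : b * M < M * 2 ^ K := by omega
        have h3 : b < 2 ^ K := by
          rw [mul_comm] at this
          exact Nat.lt_of_mul_lt_mul_left this
        exact h3
    · have h1 : N (y j) (y (a * M)) ≤ cp L y M (a - 1) j R := by
        by_cases ha0 : a = 0
        · have : j = 0 := by
            rw [ha0] at ha1
            simpa using ha1
          rw [ha0, this, zero_mul, hN.self]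
          exact cp_nonneg hN y M _ _ _
        · have e : (a - 1 + 1) * M = a * M := by
            rw [Nat.sub_add_cancel (Nat.pos_of_ne_zero ha0)]
          have e2 : (a - 1) * M + M = a * M := by
            rw [← e]
            ring
          refine piece_le hN y M (a - 1) j R j (a * M) ha1 ?_ ?_ le_rfl (by omega)
          · omega
          · rw [e]
      have h2 : N (y (b * M)) (y R) ≤ cp L y M (if b * M = R then 0 else b) j R := by
        split_ifs with hEq
        · rw [hEq, hN.self]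
          exact cp_nonneg hN y M _ _ _
        · exact piece_le hN y M b j R (b * M) R hb1 le_rfl hb2.le (by omega) le_rfl
      have h3 := hN.tri (y j) (y (a * M)) (y R)
      have h4 := hN.tri (y (a * M)) (y (b * M)) (y R)
      linarith
  · -- the window lies inside one block
    have hlt : b * M < j := by
      have h1 : b + 1 ≤ a := by omega
      have h2 : (b + 1) * M ≤ a * M := Nat.mul_le_mul_right M h1
      have h3 : (b + 1) * M = b * M + M := by ring
      omega
    have hbK : b < 2 ^ K := by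
      have : b * M < M * 2 ^ K := by omega
      rw [mul_comm] at this
      exact Nat.lt_of_mul_lt_mul_left this
    refine ⟨b, b, hbK, hbK, ?_⟩
    have h1 := piece_le hN y M b j R j R hjR.le hlt.le hb2.le le_rfl le_rfl
    have h2 := cp_nonneg hN y M b j R
    linarith

lemma cp_sum_le (hN : PM N L) {p : ℝ} (hp : 1 ≤ p) (y : ℕ → V) (t : ℕ) (m : ℕ → Bool) (Λ M i : ℕ) :
    ∑ q ∈ Wset t m Λ, cp L y M i q.1 q.2 ^ p ≤ t * Ln L y M i ^ p := by
  have hp0 : 0 < p := by linarith
  have hp1 : 0 ≤ p - 1 := by linarith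
  set A := Ln L y M i with hA
  have hA0 : 0 ≤ A := Ln_nonneg hN y M i
  have h1 : ∀ q ∈ Wset t m Λ, cp L y M i q.1 q.2 ^ p ≤ A ^ (p - 1) * cp L y M i q.1 q.2 := by
    intro q _
    set c := cp L y M i q.1 q.2 with hc
    have hc0 : 0 ≤ c := cp_nonneg hN y M i _ _
    have hcA : c ≤ A := cp_le_Ln hN y M i _ _
    rcases hc0.eq_or_lt with h0 | h0
    · rw [← h0, Real.zero_rpow hp0.ne']
      simp
    · have e : c ^ p = c ^ (p - 1) * c := by
        nth_rewrite 3 [← Real.rpow_one c]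
        rw [← Real.rpow_add h0]
        norm_num
      rw [e]
      exact mul_le_mul_of_nonneg_right (Real.rpow_le_rpow hc0 hcA hp1) hc0
  have h2 : ∑ q ∈ Wset t m Λ, cp L y M i q.1 q.2 ≤ t * A := by
    unfold cp
    rw [Finset.sum_comm, hA, Ln, Finset.mul_sum]
    exact Finset.sum_le_sum (fun s _ => win_sum_le t m Λ s (hN.L_nn _ _))
  calc ∑ q ∈ Wset t m Λ, cp L y M i q.1 q.2 ^ p
      ≤ ∑ q ∈ Wset t m Λ, A ^ (p - 1) * cp L y M i q.1 q.2 := Finset.sum_le_sum h1
    _ = A ^ (p - 1) * ∑ q ∈ Wset t m Λ, cp L y M i q.1 q.2 := by rw [Finset.mul_sum]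
    _ ≤ A ^ (p - 1) * (t * A) := mul_le_mul_of_nonneg_left h2 (Real.rpow_nonneg hA0 _)
    _ = t * A ^ p := by
        rcases hA0.eq_or_lt with h0 | h0
        · rw [← h0, Real.zero_rpow hp0.ne']
          simp
        · have e : A ^ p = A ^ (p - 1) * A := by
            nth_rewrite 3 [← Real.rpow_one A]
            rw [← Real.rpow_add h0]
            norm_num
          rw [e]
          ring

lemma Sc_sum_le (hN : PM N L) {p : ℝ} (y : ℕ → V) (t : ℕ) (m : ℕ → Bool) (Λ M K l : ℕ) (hM : 1 ≤ M) :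
    ∑ q ∈ Wset t m Λ, Sc N p y M K l q.1 q.2 ≤ t * ∑ i ∈ range (2 ^ (K - l)), Db N p y M l i := by
  unfold Sc
  rw [Finset.sum_comm, Finset.mul_sum]
  refine Finset.sum_le_sum (fun i _ => ?_)
  set u := i * 2 ^ l * M with hu
  set v := (i + 1) * 2 ^ l * M with hv
  have huv : u < v := by
    have h1 : 0 < 2 ^ l * M := by positivity
    have e1 : u = i * (2 ^ l * M) := by rw [hu]; ring
    have e2 : v = i * (2 ^ l * M) + 2 ^ l * M := by rw [hv]; ring
    omega
  refine le_trans (Finset.sum_le_sum (fun q _ => ?_))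
    (win_sum_le t m Λ u (Db_nonneg hN p y M l i))
  by_cases c : q.1 ≤ u ∧ v ≤ q.2
  · rw [if_pos c, if_pos ⟨c.1, by omega⟩]
  · rw [if_neg c]
    split_ifs
    · exact Db_nonneg hN p y M l i
    · exact le_rfl

lemma rpow_add3 {a b c p : ℝ} (ha : 0 ≤ a) (hb : 0 ≤ b) (hc : 0 ≤ c) (hp : 1 ≤ p) :
    (a + b + c) ^ p ≤ 3 ^ (p - 1) * (a ^ p + b ^ p + c ^ p) := by
  have h := rpow_sum_le (univ : Finset (Fin 3)) (fun _ => (1 / 3 : ℝ)) ![a, b, c]
    (fun _ _ => by norm_num) (by simp)
    (by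
      intro i _
      fin_cases i
      · exact ha
      · exact hb
      · exact hc) hp
  simp only [Fin.sum_univ_three] at h
  have e : ((1 / 3 : ℝ)) ^ (1 - p) = 3 ^ (p - 1) := by
    rw [one_div, Real.inv_rpow (by norm_num), ← Real.rpow_neg (by norm_num)]
    congr 1
    ring
  rw [e] at h
  simp only [Matrix.cons_val_zero, Matrix.cons_val_one, Matrix.cons_val] at h
  refine h.trans (le_of_eq ?_)
  ring

/-- The pathwise inequality for the sum over all windows. -/
theorem window_pathwise (hN : PM N L) {p b C : ℝ} (hp : 1 < p) (hb : 1 < b) (hC0 : 0 < C)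
    (hC : ∀ (K : ℕ) (x : ℕ → ℝ), (∀ i, 0 ≤ x i) →
      (∑ i ∈ range K, x i) ^ p ≤ C * ∑ i ∈ range K, b ^ i * x i ^ p)
    (y : ℕ → V) (t : ℕ) (m : ℕ → Bool) (M K : ℕ) (hM : 1 ≤ M) :
    ∑ q ∈ Wset t m (M * 2 ^ K), N (y q.1) (y q.2) ^ p ≤
      3 ^ (p - 1) * (2 * (t * ∑ i ∈ range (2 ^ K), Ln L y M i ^ p) +
        2 ^ p * C * ∑ l ∈ range (K + 1), b ^ l * (t * ∑ i ∈ range (2 ^ (K - l)), Db N p y M l i)) := by
  have hp0 : 0 < p := by linarith
  have hb0 : 0 < b := by linarith
  have hper : ∀ q ∈ Wset t m (M * 2 ^ K), N (y q.1) (y q.2) ^ p ≤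
      3 ^ (p - 1) * (2 * ∑ i ∈ range (2 ^ K), cp L y M i q.1 q.2 ^ p +
        2 ^ p * C * ∑ l ∈ range (K + 1), b ^ l * Sc N p y M K l q.1 q.2) := by
    intro q hq
    obtain ⟨h1, h2, _⟩ := mem_Wset hq
    obtain ⟨i₁, i₂, hi₁, hi₂, h3⟩ := window_decomp hN hp0 y M K q.1 q.2 hM h1 h2
    set X := ∑ l ∈ range (K + 1), (Sc N p y M K l q.1 q.2) ^ (1 / p) with hX
    have hX0 : 0 ≤ X := Finset.sum_nonneg (fun l _ => Real.rpow_nonneg (Sc_nonneg hN p y M K l _ _) _)
    have c1 := cp_nonneg hN y M i₁ q.1 q.2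
    have c2 := cp_nonneg hN y M i₂ q.1 q.2
    have h4 : N (y q.1) (y q.2) ^ p ≤
        (cp L y M i₁ q.1 q.2 + cp L y M i₂ q.1 q.2 + 2 * X) ^ p :=
      Real.rpow_le_rpow (hN.nn _ _) h3 hp0.le
    have h5 := rpow_add3 c1 c2 (mul_nonneg zero_le_two hX0) hp.le
    have h6 : (2 * X) ^ p = 2 ^ p * X ^ p := Real.mul_rpow zero_le_two hX0
    have h7 : X ^ p ≤ C * ∑ l ∈ range (K + 1), b ^ l * Sc N p y M K l q.1 q.2 := by
      have := hC (K + 1) (fun l => (Sc N p y M K l q.1 q.2) ^ (1 / p))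
        (fun l => Real.rpow_nonneg (Sc_nonneg hN p y M K l _ _) _)
      refine this.trans (le_of_eq ?_)
      congr 1
      refine Finset.sum_congr rfl (fun l _ => ?_)
      rw [← Real.rpow_mul (Sc_nonneg hN p y M K l _ _), one_div_mul_cancel hp0.ne', Real.rpow_one]
    have hnn : ∀ i, 0 ≤ cp L y M i q.1 q.2 ^ p := fun i =>
      Real.rpow_nonneg (cp_nonneg hN y M i _ _) _
    have h8 : cp L y M i₁ q.1 q.2 ^ p ≤ ∑ i ∈ range (2 ^ K), cp L y M i q.1 q.2 ^ p :=
      Finset.single_le_sum (f := fun i => cp L y M i q.1 q.2 ^ p) (fun i _ => hnn i)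
        (Finset.mem_range.mpr hi₁)
    have h9 : cp L y M i₂ q.1 q.2 ^ p ≤ ∑ i ∈ range (2 ^ K), cp L y M i q.1 q.2 ^ p :=
      Finset.single_le_sum (f := fun i => cp L y M i q.1 q.2 ^ p) (fun i _ => hnn i)
        (Finset.mem_range.mpr hi₂)
    refine h4.trans (h5.trans (mul_le_mul_of_nonneg_left ?_ (by positivity)))
    rw [h6]
    have h10 : 2 ^ p * X ^ p ≤ 2 ^ p * (C * ∑ l ∈ range (K + 1), b ^ l * Sc N p y M K l q.1 q.2) :=
      mul_le_mul_of_nonneg_left h7 (by positivity)
    have e : (2 : ℝ) ^ p * C * ∑ l ∈ range (K + 1), b ^ l * Sc N p y M K l q.1 q.2 =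
        2 ^ p * (C * ∑ l ∈ range (K + 1), b ^ l * Sc N p y M K l q.1 q.2) := by ring
    rw [e]
    linarith
  refine (Finset.sum_le_sum hper).trans ?_
  rw [← Finset.mul_sum]
  refine mul_le_mul_of_nonneg_left ?_ (by positivity)
  rw [Finset.sum_add_distrib, ← Finset.mul_sum, ← Finset.mul_sum]
  refine add_le_add (mul_le_mul_of_nonneg_left ?_ zero_le_two)
    (mul_le_mul_of_nonneg_left ?_ (by positivity))
  · rw [Finset.sum_comm, Finset.mul_sum]
    exact Finset.sum_le_sum (fun i _ => cp_sum_le hN hp.le y t m _ M i)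
  · rw [Finset.sum_comm]
    refine Finset.sum_le_sum (fun l _ => ?_)
    rw [← Finset.mul_sum]
    exact mul_le_mul_of_nonneg_left (Sc_sum_le hN y t m _ M K l hM) (by positivity)

end

end Vale.Agent.Lib.P125
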