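import Vale.Agent.Lib.P125.MtDyadic

open Finset BigOperators

namespace Vale.Agent.Lib.P125

set_option linter.unusedSectionVars false

section metric
variable {V : Type*} [Fintype V] {ι : Type*} [LinearOrder ι] [Fintype ι]

lemma cc_le_gd (f : V → ι → ℝ) (x w : V) : cc f x w ≤ gd f x w := by
  by_cases hι : Nonempty ι
  · refine ciSup_le (fun y => ?_)
    calc |∑ z with z ≤ y, (f w z - f x z)| ≤ ∑ z with z ≤ y, |f w z - f x z| :=
          Finset.abs_sum_le_sum_abs _ _
      _ ≤ ∑ z, |f w z - f x z| :=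
          Finset.sum_le_sum_of_subset_of_nonneg (Finset.filter_subset _ _)
            (fun _ _ _ => abs_nonneg _)
      _ = gd f x w := Finset.sum_congr rfl (fun z _ => abs_sub_comm _ _)
  · have : IsEmpty ι := not_nonempty_iff.mp hι
    simp [cc, gd]

lemma cc_self (f : V → ι → ℝ) (x : V) : cc f x x = 0 := by
  simp [cc]

lemma gd_self (f : V → ι → ℝ) (x : V) : gd f x x = 0 := by
  simp [gd]

lemma gd_comm (f : V → ι → ℝ) (x y : V) : gd f x y = gd f y x :=
  Finset.sum_congr rfl (fun z _ => abs_sub_comm _ _)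

lemma gd_tri (f : V → ι → ℝ) (a b c : V) : gd f a c ≤ gd f a b + gd f b c := by
  unfold gd
  rw [← Finset.sum_add_distrib]
  refine Finset.sum_le_sum (fun z _ => ?_)
  exact abs_sub_le _ _ _

lemma term_le_cc (f : V → ι → ℝ) (x w : V) (y : ι) :
    |∑ z with z ≤ y, (f w z - f x z)| ≤ cc f x w :=
  le_ciSup (f := fun y : ι => |∑ z with z ≤ y, (f w z - f x z)|) (Set.finite_range _).bddAbove y

lemma cc_tri (f : V → ι → ℝ) (a b c : V) : cc f a c ≤ cc f a b + cc f b c := by
  by_cases hι : Nonempty ι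
  · refine ciSup_le (fun y => ?_)
    have e : ∑ z with z ≤ y, (f c z - f a z) =
        ∑ z with z ≤ y, (f b z - f a z) + ∑ z with z ≤ y, (f c z - f b z) := by
      rw [← Finset.sum_add_distrib]
      exact Finset.sum_congr rfl (fun z _ => by ring)
    rw [e]
    exact (abs_add_le _ _).trans (add_le_add (term_le_cc f a b y) (term_le_cc f b c y))
  · have : IsEmpty ι := not_nonempty_iff.mp hι
    simp [cc]

lemma pm_cc (f : V → ι → ℝ) : PM (cc f) (gd f) :=
  ⟨cc_nonneg f, cc_self f, cc_tri f, cc_le_gd f, gd_nonneg f⟩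

end metric

section chainpower
variable {V : Type*} [Fintype V] [DecidableEq V]

/-- The `d`-step kernel as a kernel. -/
noncomputable def pk (K : V → V → ℝ) (d : ℕ) (x y : V) : ℝ :=
  pw K d (fun w => if w = y then 1 else 0) x

variable {μ : V → ℝ} {K : V → V → ℝ}

lemma op_pk (d : ℕ) (g : V → ℝ) (x : V) : op (pk K d) g x = pw K d g x := by
  unfold op pk
  have e : g = fun w => ∑ y, g y * (if w = y then 1 else 0) := by
    funext w
    rw [Finset.sum_eq_single w]
    · simp
    · intro b _ hb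
      simp [Ne.symm hb]
    · simp
  conv_rhs => rw [e]
  rw [pw_sum]
  refine Finset.sum_congr rfl (fun y _ => ?_)
  rw [congrFun (pw_const_mul d (g y) (fun w => if w = y then (1 : ℝ) else 0)) x]
  ring

lemma pk_rev (hc : Rev μ K) (d : ℕ) : Rev μ (pk K d) := by
  refine ⟨hc.pi_nonneg, ?_, ?_, ?_⟩
  · intro x y
    exact pw_nonneg hc d (fun w => by split_ifs <;> norm_num) x
  · intro x
    have := op_pk (K := K) d (fun _ => (1 : ℝ)) x
    unfold op at this
    simp only [mul_one] at this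
    rw [this, pw_const hc]
  · intro x y
    have h := pw_selfadj hc d (fun w => if w = y then (1 : ℝ) else 0)
      (fun w => if w = x then (1 : ℝ) else 0)
    rw [Finset.sum_eq_single x, Finset.sum_eq_single y] at h
    · simpa [pk] using h
    · intro b _ hb
      simp [hb]
    · simp
    · intro b _ hb
      simp [hb]
    · simp

lemma pw_pk (d n : ℕ) (g : V → ℝ) : pw (pk K d) n g = pw K (d * n) g := by
  induction n with
  | zero => simp
  | succ n ih =>
    rw [pw_succ, ih, Nat.mul_succ, add_comm, pw_add]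
    funext x
    exact op_pk d _ x

end chainpower

section jensen
variable {V : Type*} [Fintype V] {μ : V → ℝ} {K : V → V → ℝ}

/-- Tangent line of the power function. -/
lemma rpow_tangent {p c s : ℝ} (hp0 : 0 < p) (hp2 : p ≤ 2) (hc : 0 ≤ c) (hs : 0 < s) :
    c ^ p ≤ (p / 2) * s ^ (p - 2) * c ^ 2 + (1 - p / 2) * s ^ p := by
  have h := Real.geom_mean_le_arith_mean2_weighted (by positivity : 0 ≤ p / 2)
    (by linarith : 0 ≤ 1 - p / 2) (by positivity : 0 ≤ s ^ (p - 2) * c ^ 2)
    (Real.rpow_nonneg hs.le p) (by ring)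
  have e : (s ^ (p - 2) * c ^ 2) ^ (p / 2) * (s ^ p) ^ (1 - p / 2) = c ^ p := by
    rw [Real.mul_rpow (Real.rpow_nonneg hs.le _) (by positivity), ← Real.rpow_mul hs.le,
      ← Real.rpow_mul hs.le, ← Real.rpow_natCast c 2, ← Real.rpow_mul hc]
    have e1 : ((2 : ℕ) : ℝ) * (p / 2) = p := by push_cast; ring
    rw [e1]
    have e2 : s ^ ((p - 2) * (p / 2)) * c ^ p * s ^ (p * (1 - p / 2)) =
        c ^ p * (s ^ ((p - 2) * (p / 2)) * s ^ (p * (1 - p / 2))) := by ring
    rw [e2, ← Real.rpow_add hs]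
    have e3 : (p - 2) * (p / 2) + p * (1 - p / 2) = 0 := by ring
    rw [e3, Real.rpow_zero, mul_one]
  rw [e] at h
  refine h.trans (le_of_eq ?_)
  ring

/-- Moment comparison for two point functionals of a stochastic kernel. -/
lemma moment_le (hc : Rev μ K) (hμ1 : ∑ x, μ x = 1) {p B : ℝ} (hp0 : 0 < p) (hp2 : p ≤ 2)
    (hB : 0 < B) (d : ℕ) (φ : V → V → ℝ) (hφ : ∀ x w, 0 ≤ φ x w)
    (h2 : ∑ x, μ x * pw K d (fun w => φ x w ^ 2) x ≤ B) :
    ∑ x, μ x * pw K d (fun w => φ x w ^ p) x ≤ B ^ (p / 2) := by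
  set s : ℝ := B ^ (1 / 2 : ℝ) with hs
  have hs0 : 0 < s := Real.rpow_pos_of_pos hB _
  set A : ℝ := (p / 2) * s ^ (p - 2) with hA
  have hA0 : 0 ≤ A := by positivity
  have h1 : ∀ x, pw K d (fun w => φ x w ^ p) x ≤
      A * pw K d (fun w => φ x w ^ 2) x + (1 - p / 2) * s ^ p := by
    intro x
    have h3 := pw_mono hc d (g := fun w => φ x w ^ p)
      (h := fun w => A * φ x w ^ 2 + (1 - p / 2) * s ^ p)
      (fun w => rpow_tangent hp0 hp2 (hφ x w) hs0) x
    rw [pw_add_fun, pw_const_mul, pw_const hc] at h3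
    exact h3
  have e1 : ∑ x, μ x * (A * pw K d (fun w => φ x w ^ 2) x + (1 - p / 2) * s ^ p) =
      A * ∑ x, μ x * pw K d (fun w => φ x w ^ 2) x + (1 - p / 2) * s ^ p := by
    have : ∀ x, μ x * (A * pw K d (fun w => φ x w ^ 2) x + (1 - p / 2) * s ^ p) =
        A * (μ x * pw K d (fun w => φ x w ^ 2) x) + μ x * ((1 - p / 2) * s ^ p) := by
      intro x; ring
    simp only [this, Finset.sum_add_distrib, ← Finset.mul_sum, ← Finset.sum_mul, hμ1, one_mul]
  have h4 : ∑ x, μ x * pw K d (fun w => φ x w ^ p) x ≤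
      A * ∑ x, μ x * pw K d (fun w => φ x w ^ 2) x + (1 - p / 2) * s ^ p := by
    rw [← e1]
    exact Finset.sum_le_sum (fun x _ => mul_le_mul_of_nonneg_left (h1 x) (hc.pi_nonneg x))
  have h5 : A * ∑ x, μ x * pw K d (fun w => φ x w ^ 2) x ≤ A * B :=
    mul_le_mul_of_nonneg_left h2 hA0
  have e2 : s ^ 2 = B := by
    rw [hs, ← Real.rpow_natCast, ← Real.rpow_mul hB.le]
    norm_num
  have e3 : s ^ p = B ^ (p / 2) := by
    rw [hs, ← Real.rpow_mul hB.le]
    congr 1
    ring
  have e4 : s ^ (p - 2) * B = s ^ p := by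
    rw [← e2, ← Real.rpow_natCast s 2, ← Real.rpow_add hs0]
    norm_num
  have e5 : A * B = (p / 2) * s ^ p := by
    rw [hA, mul_assoc, e4]
  rw [e5] at h5
  rw [← e3]
  nlinarith

/-- Small powers are controlled by the first two moments. -/
lemma rpow_le_add_sq {p c : ℝ} (hp : 1 ≤ p) (hp2 : p ≤ 2) (hc : 0 ≤ c) : c ^ p ≤ c + c ^ 2 := by
  rcases le_total c 1 with h | h
  · have := Real.rpow_le_rpow_of_exponent_ge' hc h (by norm_num) hp
    rw [Real.rpow_one] at this
    nlinarith [sq_nonneg c]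
  · have := Real.rpow_le_rpow_of_exponent_le h hp2
    rw [Real.rpow_two] at this
    linarith

end jensen

end Vale.Agent.Lib.P125
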