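import Vale.Agent.Lib.P125.MtFlat1

open Finset BigOperators

namespace Vale.Agent.Lib.P125

set_option linter.unusedSectionVars false

section
variable {V : Type*}

/-- Sum over all windows along a marked path. -/
noncomputable def Gw (N : V → V → ℝ) (p : ℝ) (t n : ℕ) (ys : ℕ → V) (ms : ℕ → Bool) : ℝ :=
  ∑ q ∈ Wset t ms n, N (ys q.1) (ys q.2) ^ p

lemma Gw_eq (N : V → V → ℝ) (p : ℝ) (t n : ℕ) (ys : ℕ → V) (ms : ℕ → Bool) :
    Gw N p t n ys ms = ∑ j ∈ range n, ∑ R ∈ range (n + 1),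
      if isWin t ms j R then N (ys j) (ys R) ^ p else 0 := by
  unfold Gw Wset
  rw [Finset.sum_filter, Finset.sum_product]

lemma isWin_succ_succ (t : ℕ) (b : Bool) (m : ℕ → Bool) (j R : ℕ) :
    isWin t (scons b m) (j + 1) (R + 1) ↔ isWin t m j R := by
  unfold isWin
  simp only [scons_succ, Nat.add_sub_cancel, rk_scons]
  constructor
  · rintro ⟨h1, h2, h3, h4⟩
    have hR : j < R := by omega
    obtain ⟨R', rfl⟩ : ∃ R', R = R' + 1 := ⟨R - 1, by omega⟩
    simp only [scons_succ] at h3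
    refine ⟨h1, hR, by simpa using h3, by omega⟩
  · rintro ⟨h1, h2, h3, h4⟩
    obtain ⟨R', rfl⟩ : ∃ R', R = R' + 1 := ⟨R - 1, by omega⟩
    refine ⟨h1, by omega, by simpa using h3, by omega⟩

lemma isWin_succ_zero (t : ℕ) (m : ℕ → Bool) (j : ℕ) : ¬ isWin t m j 0 := by
  rintro ⟨_, h, _⟩
  omega

lemma isWin_zero_succ (t : ℕ) (ht : 1 ≤ t) (b : Bool) (m : ℕ → Bool) (R : ℕ) :
    isWin t (scons b m) 0 (R + 1) ↔ (b = true ∧ scons true m R = true ∧ rk m R = t - 1) := by
  unfold isWin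
  simp only [scons_zero, Nat.add_sub_cancel, rk_scons, rk_zero, zero_add]
  constructor
  · rintro ⟨h1, _, h3, h4⟩
    subst h1
    simp only [if_true] at h4
    exact ⟨rfl, h3, by omega⟩
  · rintro ⟨h1, h3, h4⟩
    subst h1
    simp only [if_true]
    exact ⟨trivial, by omega, h3, by omega⟩

lemma Gw_cons (N : V → V → ℝ) (p : ℝ) (t n : ℕ) (ht : 1 ≤ t) (x : V) (b : Bool) (ys : ℕ → V)
    (ms : ℕ → Bool) :
    Gw N p t (n + 1) (scons x ys) (scons b ms) =
      (if b = true then Wv (fun w => N x w ^ p) (t - 1) n ys ms else 0) + Gw N p t n ys ms := by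
  rw [Gw_eq, Gw_eq, Finset.sum_range_succ']
  have e1 : ∀ j ∈ range n, ∑ R ∈ range (n + 1 + 1),
      (if isWin t (scons b ms) (j + 1) R then
        N (scons x ys (j + 1)) (scons x ys R) ^ p else 0) =
      ∑ R ∈ range (n + 1), if isWin t ms j R then N (ys j) (ys R) ^ p else 0 := by
    intro j _
    rw [Finset.sum_range_succ']
    rw [if_neg (isWin_succ_zero t _ _), add_zero]
    refine Finset.sum_congr rfl (fun R _ => ?_)
    simp only [isWin_succ_succ, scons_succ]
  rw [Finset.sum_congr rfl e1, add_comm]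
  congr 1
  rw [Finset.sum_range_succ', if_neg (isWin_succ_zero t _ _), add_zero]
  by_cases hb : b = true
  · subst hb
    simp only [if_true]
    unfold Wv
    refine Finset.sum_congr rfl (fun R _ => ?_)
    simp only [isWin_zero_succ t ht, true_and, scons_zero, scons_succ]
  · rw [if_neg hb]
    refine Finset.sum_eq_zero (fun R _ => ?_)
    rw [if_neg]
    rw [isWin_zero_succ t ht]
    exact fun h => hb h.1

end

section
variable {V : Type*} [Fintype V] [DecidableEq V] {π : V → ℝ} {P : V → V → ℝ} {hc : Rev π P}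
  {h : V → ℝ} {μ : V → ℝ} {N L : V → V → ℝ}

/-- The expected window sum at the stationary law of the lazy chain. -/
noncomputable def EG (h : V → ℝ) (P : V → V → ℝ) (μ : V → ℝ) (N : V → V → ℝ) (p : ℝ) (t n : ℕ) : ℝ :=
  ∑ x, μ x * Ex h P n x (Gw N p t n)

lemma Gw_nonneg (hN : PM N L) (p : ℝ) (t n : ℕ) (ys : ℕ → V) (ms : ℕ → Bool) :
    0 ≤ Gw N p t n ys ms :=
  Finset.sum_nonneg (fun _ _ => Real.rpow_nonneg (hN.nn _ _) _)

lemma EG_succ (hs : Spd hc h) (hμ : Rev μ (lz h P)) (p : ℝ) (t n : ℕ) (ht : 1 ≤ t) :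
    EG h P μ N p t (n + 1) = EG h P μ N p t n +
      ∑ x, μ x * (h x * ∑ y, P x y * Ex h P n y (Wv (fun w => N x w ^ p) (t - 1) n)) := by
  unfold EG
  have e : ∀ x, Ex h P (n + 1) x (Gw N p t (n + 1)) =
      op (lz h P) (fun y => Ex h P n y (Gw N p t n)) x +
      h x * ∑ y, P x y * Ex h P n y (Wv (fun w => N x w ^ p) (t - 1) n) := by
    intro x
    rw [Ex_succ, op_lz]
    have e1 : ∀ y, Ex h P n y (fun ys ms => Gw N p t (n + 1) (scons x ys) (scons true ms)) =
        Ex h P n y (Wv (fun w => N x w ^ p) (t - 1) n) + Ex h P n y (Gw N p t n) := by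
      intro y
      rw [← Ex_add]
      refine Ex_congr hs n y (fun ys ms _ => ?_)
      rw [Gw_cons N p t n ht]
      simp
    have e2 : Ex h P n x (fun ys ms => Gw N p t (n + 1) (scons x ys) (scons false ms)) =
        Ex h P n x (Gw N p t n) := by
      refine Ex_congr hs n x (fun ys ms _ => ?_)
      rw [Gw_cons N p t n ht]
      simp
    simp only [e1, e2, mul_add, Finset.sum_add_distrib]
    ring
  simp only [e, mul_add, Finset.sum_add_distrib]
  congr 1
  exact pw_stationary hμ 1 (fun y => Ex h P n y (Gw N p t n))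

/-- Lower bound for the expected window sum. -/
lemma EG_lower (hs : Spd hc h) (hN : PM N L) (hμ : Rev μ (lz h P)) {κ c : ℝ} (hκ : 0 < κ) (hκ1 : κ ≤ 1)
    (hlow : ∀ x, κ ≤ h x) (hc0 : 0 ≤ c) (hμh : ∀ x, μ x * h x = c * π x) (p : ℝ) (t n : ℕ)
    (ht : 1 ≤ t) (hn : 0 < n) (hn2 : 2 * ((t : ℝ) - 1) ≤ κ * n) (k : ℕ) :
    k * (c / 2 * ∑ x, π x * pw P t (fun w => N x w ^ p) x) ≤ EG h P μ N p t (n + k) := by
  have hgnn : ∀ x w, 0 ≤ N x w ^ p := fun x w => Real.rpow_nonneg (hN.nn _ _) _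
  set Φ := ∑ x, π x * pw P t (fun w => N x w ^ p) x with hΦ
  induction k with
  | zero =>
    simp only [Nat.cast_zero, zero_mul, add_zero]
    unfold EG
    exact Finset.sum_nonneg (fun x _ => mul_nonneg (hμ.pi_nonneg x)
      (Ex_nonneg hs n x (fun ys ms => Gw_nonneg hN p t n ys ms)))
  | succ k ih =>
    rw [← add_assoc, EG_succ hs hμ p t (n + k) ht]
    push_cast
    have hmpos : (0 : ℝ) < ((n + k : ℕ) : ℝ) := by
      have : 0 < n + k := by omega
      exact_mod_cast this
    have hm2 : 2 * ((t : ℝ) - 1) ≤ κ * ((n + k : ℕ) : ℝ) := by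
      refine hn2.trans (mul_le_mul_of_nonneg_left ?_ hκ.le)
      exact_mod_cast Nat.le_add_right n k
    obtain ⟨s, rfl⟩ : ∃ s, t = s + 1 := ⟨t - 1, by omega⟩
    have hkey : ∀ x y, pw P s (fun w => N x w ^ p) y ≤
        2 * Ex h P (n + k) y (Wv (fun w => N x w ^ p) s (n + k)) := by
      intro x y
      have h1 := Ex_Wv hs hκ hκ1 hlow (fun w => hgnn x w) (n + k) s y
      have hpw : 0 ≤ pw P s (fun w => N x w ^ p) y := pw_nonneg hc s (hgnn x) y
      have hcast : ((s + 1 : ℕ) : ℝ) - 1 = s := by push_cast; ring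
      rw [hcast] at hm2
      set A := κ * ((n + k : ℕ) : ℝ) with hA
      have hApos : 0 < A := mul_pos hκ hmpos
      have h2 : A / 2 * pw P s (fun w => N x w ^ p) y ≤ (A - s) * pw P s (fun w => N x w ^ p) y :=
        mul_le_mul_of_nonneg_right (by linarith) hpw
      have h3 : A * pw P s (fun w => N x w ^ p) y ≤
          A * (2 * Ex h P (n + k) y (Wv (fun w => N x w ^ p) s (n + k))) := by
        nlinarith
      exact le_of_mul_le_mul_left h3 hApos
    have hB : c / 2 * Φ ≤ ∑ x, μ x * (h x * ∑ y, P x y *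
        Ex h P (n + k) y (Wv (fun w => N x w ^ p) s (n + k))) := by
      rw [hΦ, Finset.mul_sum]
      refine Finset.sum_le_sum (fun x _ => ?_)
      have e1 : μ x * (h x * ∑ y, P x y *
          Ex h P (n + k) y (Wv (fun w => N x w ^ p) s (n + k))) =
          (c * π x) * ∑ y, P x y * Ex h P (n + k) y (Wv (fun w => N x w ^ p) s (n + k)) := by
        rw [← hμh]; ring
      rw [e1]
      have e2 : pw P (s + 1) (fun w => N x w ^ p) x = ∑ y, P x y * pw P s (fun w => N x w ^ p) y :=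
        rfl
      rw [e2]
      have h3 : ∑ y, P x y * pw P s (fun w => N x w ^ p) y ≤
          2 * ∑ y, P x y * Ex h P (n + k) y (Wv (fun w => N x w ^ p) s (n + k)) := by
        rw [Finset.mul_sum]
        refine Finset.sum_le_sum (fun y _ => ?_)
        have := mul_le_mul_of_nonneg_left (hkey x y) (hc.nonneg x y)
        linarith
      have h4 := mul_le_mul_of_nonneg_left h3 (mul_nonneg hc0 (hc.pi_nonneg x))
      nlinarith
    have hs1 : s + 1 - 1 = s := by omega
    rw [hs1]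
    linarith

end

end Vale.Agent.Lib.P125
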