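import Vale.Agent.Lib.P125.MtLift

open Finset BigOperators Filter Topology

namespace Vale.Agent.Lib.P125

set_option linter.unusedSectionVars false

/-- The norm of the summing operator applied to a vector. -/
noncomputable def Sp {ι : Type*} [LinearOrder ι] [Fintype ι] (a : ι → ℝ) : ℝ :=
  ⨆ y : ι, |∑ z with z ≤ y, a z|

lemma Sp_nonneg {ι : Type*} [LinearOrder ι] [Fintype ι] (a : ι → ℝ) : 0 ≤ Sp a :=
  Real.iSup_nonneg (fun _ => abs_nonneg _)

universe u v

/-- The flat theorem for antisymmetric forms on the edges. -/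
theorem flat_form {p : ℝ} (hp : 1 < p) (hp87 : p < 8 / 7) : ∃ C : ℝ, 0 < C ∧
    ∀ {V : Type u} {ι : Type v} [Fintype V] [DecidableEq V] [Fintype ι] [LinearOrder ι]
    {π : V → ℝ} {P : V → V → ℝ} (_ : Rev π P) (_ : ∑ x, π x = 1) (c : V → V → ι → ℝ)
    (_ : ∀ x y z, c y x z = - c x y z) (_ : ∀ x y, P x y ≠ 0 → ∑ z, |c x y z| ≤ 1)
    {κ : ℝ} (_ : 0 < κ) (_ : κ ≤ 1)
    (_ : ∑ x, ∑ y, π x * P x y * ∑ z, |c x y z| ≤ κ) (t : ℕ) (_ : 1 ≤ t),
    ∑ x, π x * Ex (fun _ => (1 : ℝ)) P t x
      (fun ys _ => Sp (∑ i ∈ range t, c (ys i) (ys (i + 1))) ^ p) ≤ C * t * κ := by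
  obtain ⟨C, hC0, hC⟩ := flat_exact.{u, v} hp hp87
  refine ⟨C, hC0, ?_⟩
  intro V ι _ _ _ _ π P hc hπ1 c hanti hL1 κ hκ0 hκ1 hκ t ht
  classical
  have hp0 : 0 < p := by linarith
  have hs : Spd hc (fun _ => (1 : ℝ)) := ⟨fun _ => zero_le_one, fun _ => le_rfl⟩
  set Θ : V → ℝ := fun x => Ex (fun _ => (1 : ℝ)) P t x
      (fun ys _ => Sp (∑ i ∈ range t, c (ys i) (ys (i + 1))) ^ p) with hΘ
  have hΘ0 : ∀ x, 0 ≤ Θ x := fun x =>
    Ex_nonneg hs t x (fun _ _ => Real.rpow_nonneg (Sp_nonneg _) _)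
  set Φ : ℝ := ∑ x, π x * Θ x with hΦ
  have hΦ0 : 0 ≤ Φ := Finset.sum_nonneg (fun x _ => mul_nonneg (hc.pi_nonneg x) (hΘ0 x))
  set L : ℕ := Fintype.card (V × V) with hL
  have key : ∀ n : ℕ, 2 * t + 1 ≤ n →
      (1 - ((L : ℝ) * (2 * t)) / (n : ℝ)) * Φ ≤ C * t * κ := by
    intro n hn
    have hn0 : 0 < n := by omega
    have hnR : (0 : ℝ) < n := by exact_mod_cast hn0
    have h := hC (Phat_rev (n := n) hc hn0) (pihat_sum hπ1 hn0) (fhat c)
      (Phat_L1 hc hanti hL1) hκ0 hκ1 ((Phat_moment hc hn0 hanti).trans hκ) t ht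
    refine le_trans ?_ h
    rw [Fintype.sum_prod_type]
    -- the set of interior counters
    set mid : Finset (Fin n) := (univ : Finset (Fin n)).filter
      (fun i : Fin n => t ≤ i.val ∧ i.val + t < n) with hmid
    set marg : Finset (Bx V n) := Fintype.piFinset (fun _ => mid) with hmarg
    have hcardmid : mid.card = n - 2 * t := card_mid n t (by omega)
    have hcardmarg : marg.card = (n - 2 * t) ^ L := by
      rw [hmarg, Fintype.card_piFinset, Finset.prod_const, hcardmid, Finset.card_univ]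
    have hN : Fintype.card (Bx V n) = n ^ L := by
      rw [Fintype.card_fun, Fintype.card_fin]
    have hNpos : (0 : ℝ) < (Fintype.card (Bx V n) : ℝ) := by
      rw [hN]
      positivity
    have hper : ∀ x, (marg.card : ℝ) / (Fintype.card (Bx V n) : ℝ) * (π x * Θ x) ≤
        ∑ k : Bx V n, pihat π (x, k) * pw (Phat P) t (fun w => cc (fhat c) (x, k) w ^ p) (x, k) := by
      intro x
      have hterm : ∀ k : Bx V n, 0 ≤ pihat π (x, k) *
          pw (Phat P) t (fun w => cc (fhat c) (x, k) w ^ p) (x, k) := fun k =>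
        mul_nonneg (div_nonneg (hc.pi_nonneg x) hNpos.le)
          (pw_nonneg (Phat_rev hc hn0) t (fun w => Real.rpow_nonneg (cc_nonneg _ _ _) _) _)
      have h1 : ∑ k ∈ marg, pihat π (x, k) *
          pw (Phat P) t (fun w => cc (fhat c) (x, k) w ^ p) (x, k) ≤
          ∑ k : Bx V n, pihat π (x, k) * pw (Phat P) t (fun w => cc (fhat c) (x, k) w ^ p) (x, k) :=
        Finset.sum_le_sum_of_subset_of_nonneg (Finset.subset_univ _) (fun k _ _ => hterm k)
      refine le_trans (le_of_eq ?_) h1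
      have h2 : ∀ k ∈ marg, pihat π (x, k) *
          pw (Phat P) t (fun w => cc (fhat c) (x, k) w ^ p) (x, k) =
          (π x / (Fintype.card (Bx V n) : ℝ)) * Θ x := by
        intro k hk
        have hkm : Mg n t k := by
          intro l
          have := (Fintype.mem_piFinset.mp hk) l
          rw [hmid] at this
          simp only [Finset.mem_filter, Finset.mem_univ, true_and] at this
          exact this
        have h3 := pw_hat_eq hc hanti
          (fun v => Sp (fun z => v z - fhat c (x, k) z) ^ p) t x k hkm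
        have e1 : (fun w => cc (fhat c) (x, k) w ^ p) =
            (fun v => (fun v => Sp (fun z => v z - fhat c (x, k) z) ^ p) (fhat c v)) := rfl
        rw [e1, h3]
        unfold pihat
        dsimp only
        congr 1
        refine Ex_congr hs t x (fun ys ms _ => ?_)
        congr 2
        funext z
        simp
      rw [Finset.sum_congr rfl h2, Finset.sum_const, nsmul_eq_mul]
      ring
    have h2 : (marg.card : ℝ) / (Fintype.card (Bx V n) : ℝ) * Φ ≤
        ∑ x, ∑ k : Bx V n, pihat π (x, k) *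
          pw (Phat P) t (fun w => cc (fhat c) (x, k) w ^ p) (x, k) := by
      rw [hΦ, Finset.mul_sum]
      exact Finset.sum_le_sum (fun x _ => hper x)
    refine le_trans (mul_le_mul_of_nonneg_right ?_ hΦ0) h2
    -- the fraction of interior counters
    have hfrac : (marg.card : ℝ) / (Fintype.card (Bx V n) : ℝ) =
        (1 + (-(2 * (t : ℝ)) / n)) ^ L := by
      rw [hcardmarg, hN]
      have hle : 2 * t ≤ n := by omega
      push_cast [Nat.cast_sub hle]
      rw [← div_pow]
      congr 1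
      field_simp
      ring
    rw [hfrac]
    have hbern := one_add_mul_le_pow (a := -(2 * (t : ℝ)) / n) (by
      rw [le_div_iff₀ hnR]
      have : (2 * t + 1 : ℝ) ≤ n := by exact_mod_cast hn
      nlinarith) L
    refine le_trans (le_of_eq ?_) hbern
    ring
  have hT : Tendsto (fun n : ℕ => (1 - ((L : ℝ) * (2 * t)) / (n : ℝ)) * Φ) atTop
      (𝓝 ((1 - 0) * Φ)) :=
    ((tendsto_const_nhds).sub (tendsto_const_div_atTop_nhds_zero_nat _)).mul_const Φ
  have := le_of_tendsto hT (eventually_atTop.mpr ⟨2 * t + 1, key⟩)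
  simpa using this

end Vale.Agent.Lib.P125
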