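import Vale.Agent.Lib.P125.MtFlat3

open Finset BigOperators

namespace Vale.Agent.Lib.P125

set_option linter.unusedSectionVars false

section lift
variable {V : Type*} [Fintype V] [DecidableEq V] {n : ℕ}
variable {ι : Type*}

/-- The box of counters. -/
abbrev Bx (V : Type*) (n : ℕ) := V × V → Fin n

/-- The increment of the counters along a directed edge. -/
def gg (x y : V) (l : V × V) : ℤ := (if l = (x, y) then 1 else 0) - (if l = (y, x) then 1 else 0)

/-- `k'` arises from `k` by moving along `(x, y)`. -/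
def rel (x y : V) (k k' : Bx V n) : Prop := ∀ l, ((k' l : ℕ) : ℤ) = ((k l : ℕ) : ℤ) + gg x y l

instance (x y : V) (k k' : Bx V n) : Decidable (rel x y k k') :=
  inferInstanceAs (Decidable (∀ l, _))

lemma gg_symm (x y : V) (l : V × V) : gg y x l = - gg x y l := by
  unfold gg
  ring

lemma rel_symm (x y : V) (k k' : Bx V n) : rel y x k' k ↔ rel x y k k' := by
  unfold rel
  constructor
  · intro h l
    have := h l
    rw [gg_symm] at this
    omega
  · intro h l
    have := h l
    rw [gg_symm]
    omega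

lemma rel_unique {x y : V} {k k' k'' : Bx V n} (h1 : rel x y k k') (h2 : rel x y k k'') : k' = k'' := by
  funext l
  have h3 := h1 l
  have h4 := h2 l
  apply Fin.ext
  omega

open Classical in
/-- The probability of a blocked move. -/
noncomputable def blk (P : V → V → ℝ) (x : V) (k : Bx V n) : ℝ :=
  ∑ y, P x y * (if ∃ k', rel x y k k' then 0 else 1)

open Classical in
/-- The chain on the product with the box. A move that leaves the box is replaced by a hold. -/
noncomputable def Phat (P : V → V → ℝ) (u v : V × Bx V n) : ℝ :=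
  P u.1 v.1 * (if rel u.1 v.1 u.2 v.2 then 1 else 0) + (if u = v then blk P u.1 u.2 else 0)

/-- The stationary law of the chain on the product with the box. -/
noncomputable def pihat (π : V → ℝ) (u : V × Bx V n) : ℝ :=
  π u.1 / (Fintype.card (Bx V n) : ℝ)

lemma sum_rel (x y : V) (k : Bx V n) (G : Bx V n → ℝ) (k₀ : Bx V n) (h : rel x y k k₀) :
    ∑ k', (if rel x y k k' then 1 else 0) * G k' = G k₀ := by
  rw [Finset.sum_eq_single k₀]
  · simp [h]
  · intro b _ hb
    have : ¬ rel x y k b := fun h' => hb (rel_unique h' h)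
    simp [this]
  · simp

lemma sum_rel_none (x y : V) (k : Bx V n) (G : Bx V n → ℝ) (h : ¬ ∃ k', rel x y k k') :
    ∑ k', (if rel x y k k' then 1 else 0) * G k' = 0 := by
  refine Finset.sum_eq_zero (fun b _ => ?_)
  have : ¬ rel x y k b := fun h' => h ⟨b, h'⟩
  simp [this]

variable {π : V → ℝ} {P : V → V → ℝ}

lemma op_Phat (x : V) (k : Bx V n) (G : V × Bx V n → ℝ) :
    op (Phat P) G (x, k) =
      ∑ y, P x y * ∑ k', (if rel x y k k' then 1 else 0) * G (y, k') + blk P x k * G (x, k) := by
  classical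
  unfold op Phat
  rw [Fintype.sum_prod_type]
  simp only [add_mul, Finset.sum_add_distrib]
  congr 1
  · refine Finset.sum_congr rfl (fun y _ => ?_)
    rw [Finset.mul_sum]
    refine Finset.sum_congr rfl (fun k' _ => ?_)
    ring
  · rw [Finset.sum_eq_single x, Finset.sum_eq_single k]
    · simp
    · intro b _ hb
      have : (x, k) ≠ (x, b) := fun h => hb (Prod.ext_iff.mp h).2.symm
      simp [this]
    · simp
    · intro b _ hb
      refine Finset.sum_eq_zero (fun c _ => ?_)
      have : (x, k) ≠ (b, c) := fun h => hb (Prod.ext_iff.mp h).1.symm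
      simp [this]
    · simp

lemma Phat_rev (hc : Rev π P) (hn : 0 < n) : Rev (pihat (n := n) π) (Phat P) := by
  classical
  have hcard : (0 : ℝ) ≤ (Fintype.card (Bx V n) : ℝ) := Nat.cast_nonneg _
  refine ⟨fun u => div_nonneg (hc.pi_nonneg _) hcard, ?_, ?_, ?_⟩
  · intro u v
    unfold Phat
    refine add_nonneg (mul_nonneg (hc.nonneg _ _) (by split_ifs <;> norm_num)) ?_
    split_ifs
    · unfold blk
      exact Finset.sum_nonneg (fun y _ => mul_nonneg (hc.nonneg _ _) (by split_ifs <;> norm_num))
    · exact le_rfl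
  · intro u
    obtain ⟨x, k⟩ := u
    have h := op_Phat (P := P) x k (fun _ => 1)
    unfold op at h
    simp only [mul_one] at h
    rw [h]
    unfold blk
    rw [← Finset.sum_add_distrib]
    refine Eq.trans ?_ (hc.sum_one x)
    refine Finset.sum_congr rfl (fun y _ => ?_)
    by_cases hex : ∃ k', rel x y k k'
    · obtain ⟨k₀, hk₀⟩ := hex
      have := sum_rel x y k (fun _ => 1) k₀ hk₀
      simp only [mul_one] at this
      rw [this, if_pos ⟨k₀, hk₀⟩]
      ring
    · have := sum_rel_none x y k (fun _ => 1) hex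
      simp only [mul_one] at this
      rw [this, if_neg hex]
      ring
  · intro u v
    obtain ⟨x, k⟩ := u
    obtain ⟨y, k'⟩ := v
    unfold pihat Phat
    dsimp only
    by_cases huv : (x, k) = (y, k')
    · obtain ⟨h1, h2⟩ := Prod.ext_iff.mp huv
      dsimp only at h1 h2
      subst h1
      subst h2
      rfl
    · have hvu : ¬ (y, k') = (x, k) := fun h => huv h.symm
      simp only [if_neg huv, if_neg hvu, add_zero]
      by_cases hr : rel x y k k'
      · have hr' : rel y x k' k := (rel_symm x y k k').mpr hr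
        simp only [if_pos hr, if_pos hr', mul_one]
        have := hc.rev x y
        rw [div_mul_eq_mul_div, div_mul_eq_mul_div, this]
      · have hr' : ¬ rel y x k' k := fun h => hr ((rel_symm x y k k').mp h)
        simp only [if_neg hr, if_neg hr', mul_zero]

lemma pihat_sum (hπ1 : ∑ x, π x = 1) (hn : 0 < n) : ∑ u, pihat (n := n) π u = 1 := by
  classical
  have : Nonempty (Fin n) := ⟨⟨0, hn⟩⟩
  have hcard : (Fintype.card (Bx V n) : ℝ) ≠ 0 := by
    exact_mod_cast (Fintype.card_pos (α := Bx V n)).ne'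
  unfold pihat
  rw [Fintype.sum_prod_type]
  simp only [Finset.sum_const, Finset.card_univ, nsmul_eq_mul]
  have : ∀ x : V, (Fintype.card (Bx V n) : ℝ) * (π x / (Fintype.card (Bx V n) : ℝ)) = π x := by
    intro x
    field_simp
  simp only [this, hπ1]

/-- The function on the product with the box. -/
noncomputable def fhat (c : V → V → ι → ℝ) (u : V × Bx V n) (z : ι) : ℝ :=
  (1 / 2) * ∑ l : V × V, ((u.2 l : ℕ) : ℝ) * c l.1 l.2 z

lemma sum_gg (x y : V) (C : V × V → ℝ) :
    ∑ l, (gg x y l : ℝ) * C l = C (x, y) - C (y, x) := by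
  unfold gg
  push_cast
  simp only [sub_mul, Finset.sum_sub_distrib, ite_mul, one_mul, zero_mul]
  congr 1
  · simp
  · simp

lemma fhat_rel {c : V → V → ι → ℝ} (hanti : ∀ x y z, c y x z = - c x y z) {x y : V}
    {k k' : Bx V n} (h : rel x y k k') (z : ι) :
    fhat c (y, k') z = fhat c (x, k) z + c x y z := by
  unfold fhat
  dsimp only
  have e : ∀ l, ((k' l : ℕ) : ℝ) = ((k l : ℕ) : ℝ) + (gg x y l : ℝ) := by
    intro l
    have := congrArg (Int.cast : ℤ → ℝ) (h l)
    push_cast at this
    exact this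
  simp only [e, add_mul, Finset.sum_add_distrib]
  rw [sum_gg x y (fun l => c l.1 l.2 z)]
  dsimp only
  rw [hanti x y z]
  ring

variable [Fintype ι] [LinearOrder ι]

lemma gd_hat_rel {c : V → V → ι → ℝ} (hanti : ∀ x y z, c y x z = - c x y z) {x y : V}
    {k k' : Bx V n} (h : rel x y k k') :
    gd (fhat c) (x, k) (y, k') = ∑ z, |c x y z| := by
  unfold gd
  refine Finset.sum_congr rfl (fun z _ => ?_)
  rw [fhat_rel hanti h z]
  rw [show fhat c (x, k) z - (fhat c (x, k) z + c x y z) = - c x y z by ring, abs_neg]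

lemma Phat_L1 (hc : Rev π P) {c : V → V → ι → ℝ} (hanti : ∀ x y z, c y x z = - c x y z)
    (hL1 : ∀ x y, P x y ≠ 0 → ∑ z, |c x y z| ≤ 1) (u v : V × Bx V n) (hne : Phat P u v ≠ 0) :
    gd (fhat c) u v ≤ 1 := by
  classical
  obtain ⟨x, k⟩ := u
  obtain ⟨y, k'⟩ := v
  by_cases huv : (x, k) = (y, k')
  · rw [← huv, gd_self]
    norm_num
  · unfold Phat at hne
    simp only [if_neg huv, add_zero] at hne
    have hr : rel x y k k' := by
      by_contra hr
      simp [hr] at hne
    have hP : P x y ≠ 0 := by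
      intro h0
      simp [h0] at hne
    rw [gd_hat_rel hanti hr]
    exact hL1 x y hP

lemma Phat_moment (hc : Rev π P) (hn : 0 < n) {c : V → V → ι → ℝ}
    (hanti : ∀ x y z, c y x z = - c x y z) :
    ∑ u : V × Bx V n, ∑ v, pihat π u * Phat P u v * gd (fhat c) u v ≤
      ∑ x, ∑ y, π x * P x y * ∑ z, |c x y z| := by
  classical
  have : Nonempty (Fin n) := ⟨⟨0, hn⟩⟩
  have hcard : (Fintype.card (Bx V n) : ℝ) ≠ 0 := by
    exact_mod_cast (Fintype.card_pos (α := Bx V n)).ne'
  have hb : ∀ (x : V) (k : Bx V n), ∑ v, pihat π (x, k) * Phat P (x, k) v * gd (fhat c) (x, k) v ≤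
      (π x / (Fintype.card (Bx V n) : ℝ)) * ∑ y, P x y * ∑ z, |c x y z| := by
    intro x k
    have e : ∑ v, pihat π (x, k) * Phat P (x, k) v * gd (fhat c) (x, k) v =
        (π x / (Fintype.card (Bx V n) : ℝ)) * op (Phat P) (fun v => gd (fhat c) (x, k) v) (x, k) := by
      unfold op pihat
      rw [Finset.mul_sum]
      refine Finset.sum_congr rfl (fun v _ => ?_)
      ring
    rw [e, op_Phat, gd_self, mul_zero, add_zero]
    refine mul_le_mul_of_nonneg_left ?_ (div_nonneg (hc.pi_nonneg x) (Nat.cast_nonneg _))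
    refine Finset.sum_le_sum (fun y _ => mul_le_mul_of_nonneg_left ?_ (hc.nonneg x y))
    by_cases hex : ∃ k', rel x y k k'
    · obtain ⟨k₀, hk₀⟩ := hex
      rw [sum_rel x y k _ k₀ hk₀, gd_hat_rel hanti hk₀]
    · rw [sum_rel_none x y k _ hex]
      exact Finset.sum_nonneg (fun z _ => abs_nonneg _)
  rw [Fintype.sum_prod_type]
  refine le_trans (Finset.sum_le_sum (fun x _ => Finset.sum_le_sum (fun k _ => hb x k))) (le_of_eq ?_)
  refine Finset.sum_congr rfl (fun x _ => ?_)
  rw [Finset.sum_const, Finset.card_univ, nsmul_eq_mul, ← mul_assoc, mul_div_cancel₀ _ hcard,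
    Finset.mul_sum]
  exact Finset.sum_congr rfl (fun y _ => by ring)

/-- Distance to the boundary of the box. -/
def Mg (n m : ℕ) (k : Bx V n) : Prop := ∀ l, m ≤ (k l : ℕ) ∧ (k l : ℕ) + m < n

lemma exists_move {m : ℕ} {k : Bx V n} (hk : Mg n (m + 1) k) (x y : V) :
    ∃ k', rel x y k k' ∧ Mg n m k' := by
  have hg : ∀ l, -1 ≤ gg x y l ∧ gg x y l ≤ 1 := by
    intro l
    unfold gg
    split_ifs <;> norm_num
  refine ⟨fun l => ⟨(((k l : ℕ) : ℤ) + gg x y l).toNat, ?_⟩, ?_, ?_⟩
  · have := hk l
    have := hg l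
    omega
  · intro l
    have := hk l
    have := hg l
    dsimp only
    rw [Int.toNat_of_nonneg (by omega)]
  · intro l
    have := hk l
    have := hg l
    dsimp only
    omega

lemma pw_hat_eq (hc : Rev π P) {c : V → V → ι → ℝ} (hanti : ∀ x y z, c y x z = - c x y z)
    (G : (ι → ℝ) → ℝ) (m : ℕ) (x : V) (k : Bx V n) (hk : Mg n m k) :
    pw (Phat P) m (fun v => G (fhat c v)) (x, k) =
      Ex (fun _ => (1 : ℝ)) P m x (fun ys _ =>
        G (fhat c (x, k) + ∑ i ∈ range m, c (ys i) (ys (i + 1)))) := by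
  classical
  have hs : Spd hc (fun _ => (1 : ℝ)) := ⟨fun _ => zero_le_one, fun _ => le_rfl⟩
  induction m generalizing x k with
  | zero =>
    simp [Ex_zero]
  | succ m ih =>
    rw [pw_succ, op_Phat, Ex_succ]
    have hmv := fun y => exists_move hk x y
    choose kn hkn hmg using hmv
    have hblk : blk P x k = 0 := by
      unfold blk
      refine Finset.sum_eq_zero (fun y _ => ?_)
      rw [if_pos ⟨kn y, hkn y⟩, mul_zero]
    rw [hblk, zero_mul, add_zero]
    simp only [one_mul, sub_self, zero_mul, add_zero]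
    refine Finset.sum_congr rfl (fun y _ => ?_)
    rw [sum_rel x y k _ (kn y) (hkn y), ih y (kn y) (hmg y)]
    congr 1
    refine Ex_congr hs m y (fun ys ms hy => ?_)
    congr 1
    funext z
    rw [Finset.sum_range_succ']
    simp only [scons_succ, scons_zero, Pi.add_apply, Finset.sum_apply]
    rw [fhat_rel hanti (hkn y) z, hy]
    ring

end lift

section count
lemma card_mid (n t : ℕ) (h : 2 * t ≤ n) :
    ((univ : Finset (Fin n)).filter (fun i : Fin n => t ≤ i.val ∧ i.val + t < n)).card = n - 2 * t := by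
  rw [← Finset.card_map Fin.valEmbedding]
  have : ((univ : Finset (Fin n)).filter (fun i : Fin n => t ≤ i.val ∧ i.val + t < n)).map
      Fin.valEmbedding = Finset.Ico t (n - t) := by
    ext a
    simp only [Finset.mem_map, Finset.mem_filter, Finset.mem_univ, true_and, Finset.mem_Ico,
      Fin.valEmbedding_apply]
    constructor
    · rintro ⟨i, hi, rfl⟩
      omega
    · intro ha
      exact ⟨⟨a, by omega⟩, by simpa using (by omega : t ≤ a ∧ a + t < n), rfl⟩
  rw [this, Nat.card_Ico]
  omega
end count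

end Vale.Agent.Lib.P125
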