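import Vale.Agent.Lib.P125.MtForm

open Finset BigOperators

namespace Vale.Agent.Lib.P125

set_option linter.unusedSectionVars false

/-- Dyadic scale of a positive real. -/
lemma exists_scale {X : ℝ} (hX : 0 < X) : (2 : ℝ) ^ ((Int.log 2 X : ℤ) : ℝ) ≤ X ∧
    X < (2 : ℝ) ^ (((Int.log 2 X : ℤ) : ℝ) + 1) := by
  constructor
  · rw [Real.rpow_intCast]
    have := Int.zpow_log_le_self (b := 2) (by norm_num) hX
    exact_mod_cast this
  · have := Int.lt_zpow_succ_log_self (b := 2) (by norm_num) X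
    have h2 : ((Int.log 2 X : ℤ) : ℝ) + 1 = ((Int.log 2 X + 1 : ℤ) : ℝ) := by push_cast; ring
    rw [h2, Real.rpow_intCast]
    exact_mod_cast this

/-- A geometric sum over a finite set of integers. -/
lemma geom_int_sum (T : Finset ℤ) (J : ℤ) (hT : ∀ k ∈ T, k < J) {r : ℝ} (hr0 : 0 < r) (hr1 : r < 1) :
    ∑ k ∈ T, (1 - r) * r ^ (J - 1 - k).toNat ≤ 1 := by
  have hinj : Set.InjOn (fun k : ℤ => (J - 1 - k).toNat) T := by
    intro a ha b hb hab
    have h1 := hT a ha
    have h2 := hT b hb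
    dsimp only at hab
    omega
  have e := Finset.sum_image (f := fun i : ℕ => (1 - r) * r ^ i) hinj
  rw [← e]
  set I := T.image (fun k : ℤ => (J - 1 - k).toNat) with hI
  obtain ⟨N, hN⟩ : ∃ N, I ⊆ range N := by
    refine ⟨I.sup id + 1, fun i hi => ?_⟩
    have : i ≤ I.sup id := Finset.le_sup (f := id) hi
    simp only [Finset.mem_range]
    omega
  have h1r : 0 < 1 - r := by linarith
  calc ∑ i ∈ I, (1 - r) * r ^ i ≤ ∑ i ∈ range N, (1 - r) * r ^ i :=
        Finset.sum_le_sum_of_subset_of_nonneg hN (fun i _ _ => by positivity)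
    _ = 1 - r ^ N := by
        rw [← Finset.mul_sum, mul_comm, geom_sum_mul_neg]
    _ ≤ 1 := by
        have : 0 ≤ r ^ N := by positivity
        linarith

/-- A Marcinkiewicz type inequality over dyadic levels. -/
theorem marc {p q : ℝ} (hp : 0 < p) (hpq : p < q) (hq : 1 < q) : ∃ C : ℝ, 0 < C ∧
    ∀ (s : Finset ℤ) (W : ℤ → ℝ), (∀ k, 0 ≤ W k) →
      (∑ k ∈ s, W k) ^ p ≤ C * ∑ k ∈ s, ((2 : ℝ) ^ ((k : ℝ) * p) * (if W k = 0 then 0 else 1) +
        W k ^ q * (2 : ℝ) ^ (-((k : ℝ) * (q - p)))) := by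
  have hq1 : 0 < q - 1 := by linarith
  have hqp : 0 < q - p := by linarith
  set r : ℝ := (2 : ℝ) ^ (-((q - p) / (q - 1))) with hr
  have hr0 : 0 < r := Real.rpow_pos_of_pos (by norm_num) _
  have hr1 : r < 1 := Real.rpow_lt_one_of_one_lt_of_neg (by norm_num) (by
    have : 0 < (q - p) / (q - 1) := by positivity
    linarith)
  have h1r : 0 < 1 - r := by linarith
  have hrq : r ^ (1 - q) = (2 : ℝ) ^ (q - p) := by
    rw [hr, ← Real.rpow_mul (by norm_num)]
    congr 1
    field_simp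
    ring
  set A : ℝ := (1 - r) ^ (1 - q) with hA
  have hA0 : 0 < A := Real.rpow_pos_of_pos h1r _
  set B : ℝ := (2 : ℝ) ^ p with hB
  have hB0 : 0 < B := Real.rpow_pos_of_pos (by norm_num) _
  refine ⟨B + A, by positivity, ?_⟩
  intro s W hW
  have hterm1 : ∀ k : ℤ, 0 ≤ (2 : ℝ) ^ ((k : ℝ) * p) * (if W k = 0 then (0 : ℝ) else 1) := by
    intro k
    refine mul_nonneg (Real.rpow_nonneg (by norm_num) _) ?_
    split_ifs <;> norm_num
  have hterm2 : ∀ k, 0 ≤ W k ^ q * (2 : ℝ) ^ (-((k : ℝ) * (q - p))) := fun k =>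
    mul_nonneg (Real.rpow_nonneg (hW k) _) (Real.rpow_nonneg (by norm_num) _)
  set R := ∑ k ∈ s, ((2 : ℝ) ^ ((k : ℝ) * p) * (if W k = 0 then 0 else 1) +
        W k ^ q * (2 : ℝ) ^ (-((k : ℝ) * (q - p)))) with hRdef
  have hR0 : 0 ≤ R := Finset.sum_nonneg (fun k _ => add_nonneg (hterm1 k) (hterm2 k))
  set X := ∑ k ∈ s, W k with hX
  have hX0 : 0 ≤ X := Finset.sum_nonneg (fun k _ => hW k)
  rcases hX0.eq_or_lt with h0 | hXpos
  · rw [← h0, Real.zero_rpow hp.ne']
    positivity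
  obtain ⟨hJ1, hJ2⟩ := exists_scale hXpos
  set J : ℤ := Int.log 2 X with hJ
  by_cases hcase : ∃ k ∈ s, J ≤ k ∧ W k ≠ 0
  · -- a high level is active
    obtain ⟨k, hk, hJk, hWk⟩ := hcase
    have h1 : X ≤ 2 * (2 : ℝ) ^ (k : ℝ) := by
      have h2 : X < (2 : ℝ) ^ ((k : ℝ) + 1) :=
        lt_of_lt_of_le hJ2 (Real.rpow_le_rpow_of_exponent_le (by norm_num) (by
          have : (J : ℝ) ≤ k := by exact_mod_cast hJk
          linarith))
      rw [Real.rpow_add (by norm_num), Real.rpow_one] at h2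
      linarith
    have h3 : X ^ p ≤ B * (2 : ℝ) ^ ((k : ℝ) * p) := by
      have h4 := Real.rpow_le_rpow hX0 h1 hp.le
      rw [Real.mul_rpow (by norm_num) (Real.rpow_nonneg (by norm_num) _),
        ← Real.rpow_mul (by norm_num)] at h4
      exact h4
    have h5 : (2 : ℝ) ^ ((k : ℝ) * p) ≤ R := by
      have h6 := Finset.single_le_sum (f := fun k : ℤ => (2 : ℝ) ^ ((k : ℝ) * p) *
        (if W k = 0 then 0 else 1) + W k ^ q * (2 : ℝ) ^ (-((k : ℝ) * (q - p))))
        (fun k _ => add_nonneg (hterm1 k) (hterm2 k)) hk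
      rw [if_neg hWk, mul_one] at h6
      have := hterm2 k
      linarith
    have := mul_le_mul_of_nonneg_left h5 hB0.le
    have h7 : 0 ≤ A * R := by positivity
    nlinarith
  · -- only low levels
    push Not at hcase
    set T := s.filter (fun k => k < J) with hT
    have hTlt : ∀ k ∈ T, k < J := fun k hk => (Finset.mem_filter.mp hk).2
    have hXT : X = ∑ k ∈ T, W k := by
      rw [hX, hT, Finset.sum_filter]
      refine Finset.sum_congr rfl (fun k hk => ?_)
      split_ifs with hlt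
      · rfl
      · exact hcase k hk (not_lt.mp hlt)
    have hpow := rpow_sum_le T (fun k => (1 - r) * r ^ (J - 1 - k).toNat) W
      (fun k _ => by positivity) (geom_int_sum T J hTlt hr0 hr1) (fun k _ => hW k) hq.le
    rw [← hXT] at hpow
    have hw : ∀ k ∈ T, ((1 - r) * r ^ (J - 1 - k).toNat) ^ (1 - q) * W k ^ q =
        A * (W k ^ q * (2 : ℝ) ^ ((q - p) * ((J : ℝ) - 1 - k))) := by
      intro k hk
      have hkJ := hTlt k hk
      rw [Real.mul_rpow h1r.le (by positivity), ← Real.rpow_natCast r, ← Real.rpow_mul hr0.le,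
        mul_comm ((J - 1 - k).toNat : ℝ), Real.rpow_mul hr0.le, hrq, ← Real.rpow_mul (by norm_num)]
      have e : (((J - 1 - k).toNat : ℕ) : ℝ) = (J : ℝ) - 1 - k := by
        have h1 : (((J - 1 - k).toNat : ℕ) : ℤ) = J - 1 - k := Int.toNat_of_nonneg (by omega)
        have h2 := congrArg (Int.cast : ℤ → ℝ) h1
        push_cast at h2
        exact h2
      rw [e]
      ring
    rw [Finset.sum_congr rfl hw, ← Finset.mul_sum] at hpow
    -- multiply by the negative power of X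
    have hneg : X ^ (p - q) ≤ (2 : ℝ) ^ ((J : ℝ) * (p - q)) := by
      have h1 := Real.rpow_le_rpow_of_nonpos (Real.rpow_pos_of_pos (by norm_num) _) hJ1
        (by linarith : p - q ≤ 0)
      rwa [← Real.rpow_mul (by norm_num)] at h1
    have e1 : X ^ p = X ^ q * X ^ (p - q) := by
      rw [← Real.rpow_add hXpos]
      congr 1
      ring
    have hS0 : 0 ≤ ∑ k ∈ T, W k ^ q * (2 : ℝ) ^ ((q - p) * ((J : ℝ) - 1 - k)) :=
      Finset.sum_nonneg (fun k _ => mul_nonneg (Real.rpow_nonneg (hW k) _)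
        (Real.rpow_nonneg (by norm_num) _))
    have h2 : X ^ p ≤ A * (∑ k ∈ T, W k ^ q * (2 : ℝ) ^ ((q - p) * ((J : ℝ) - 1 - k))) *
        (2 : ℝ) ^ ((J : ℝ) * (p - q)) := by
      rw [e1]
      exact mul_le_mul hpow hneg (Real.rpow_nonneg hXpos.le _) (by positivity)
    have h3 : (∑ k ∈ T, W k ^ q * (2 : ℝ) ^ ((q - p) * ((J : ℝ) - 1 - k))) *
        (2 : ℝ) ^ ((J : ℝ) * (p - q)) ≤ R := by
      rw [Finset.sum_mul]
      have hsub : T ⊆ s := Finset.filter_subset _ _
      refine le_trans (Finset.sum_le_sum (fun k _ => ?_))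
        (Finset.sum_le_sum_of_subset_of_nonneg hsub
          (fun k _ _ => add_nonneg (hterm1 k) (hterm2 k)))
      have e2 : W k ^ q * (2 : ℝ) ^ ((q - p) * ((J : ℝ) - 1 - k)) *
          (2 : ℝ) ^ ((J : ℝ) * (p - q)) =
          W k ^ q * ((2 : ℝ) ^ (-(q - p)) * (2 : ℝ) ^ (-((k : ℝ) * (q - p)))) := by
        rw [mul_assoc, ← Real.rpow_add (by norm_num), ← Real.rpow_add (by norm_num)]
        congr 2
        ring
      rw [e2]
      have h4 : (2 : ℝ) ^ (-(q - p)) ≤ 1 :=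
        Real.rpow_le_one_of_one_le_of_nonpos (by norm_num) (by linarith)
      have h5 : 0 ≤ (2 : ℝ) ^ (-((k : ℝ) * (q - p))) := Real.rpow_nonneg (by norm_num) _
      have h6 : 0 ≤ W k ^ q := Real.rpow_nonneg (hW k) _
      have h7 := hterm1 k
      have h8 : (2 : ℝ) ^ (-(q - p)) * (2 : ℝ) ^ (-((k : ℝ) * (q - p))) ≤
          (2 : ℝ) ^ (-((k : ℝ) * (q - p))) := by nlinarith
      have h9 := mul_le_mul_of_nonneg_left h8 h6
      linarith
    have h10 := mul_le_mul_of_nonneg_left h3 hA0.le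
    have h11 : 0 ≤ B * R := by positivity
    rw [mul_assoc] at h2
    nlinarith

end Vale.Agent.Lib.P125
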