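import Vale.Agent.Lib.P125.TwoPointBridge

open Finset BigOperators

namespace Vale.Agent.Lib.P125

set_option linter.unusedSectionVars false

/-- Prepend to a sequence. -/
def scons {α : Type*} (a : α) (s : ℕ → α) : ℕ → α
  | 0 => a
  | n + 1 => s n

@[simp] lemma scons_zero {α : Type*} (a : α) (s : ℕ → α) : scons a s 0 = a := rfl
@[simp] lemma scons_succ {α : Type*} (a : α) (s : ℕ → α) (n : ℕ) : scons a s (n + 1) = s n := rfl

/-- Shift of a sequence. -/
def sh {α : Type*} (u : ℕ) (s : ℕ → α) : ℕ → α := fun i => s (i + u)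

/-- Number of marks before `j`. -/
def rk (m : ℕ → Bool) (j : ℕ) : ℕ := ((range j).filter (fun i => m i = true)).card

@[simp] lemma rk_zero (m : ℕ → Bool) : rk m 0 = 0 := by simp [rk]

lemma rk_succ (m : ℕ → Bool) (j : ℕ) : rk m (j + 1) = rk m j + (if m j = true then 1 else 0) := by
  unfold rk
  rw [Finset.range_add_one, Finset.filter_insert]
  split_ifs with h
  · rw [Finset.card_insert_of_notMem (by simp)]
  · simp

lemma rk_scons (b : Bool) (m : ℕ → Bool) (j : ℕ) :
    rk (scons b m) (j + 1) = (if b = true then 1 else 0) + rk m j := by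
  induction j with
  | zero => simp [rk_succ]; rfl
  | succ j ih =>
    rw [rk_succ, ih, rk_succ, scons_succ]
    ring

lemma rk_mono (m : ℕ → Bool) {a b : ℕ} (hab : a ≤ b) : rk m a ≤ rk m b := by
  unfold rk
  apply Finset.card_le_card
  intro i hi
  simp only [Finset.mem_filter, Finset.mem_range] at hi ⊢
  exact ⟨by omega, hi.2⟩

section
variable {V : Type*} [Fintype V]

/-- Expectation of a functional of the marked path of the lazy chain over `n` steps. A mark `true`
is a step of `P`, which happens with probability `h x` at `x`; a mark `false` is a hold. -/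
noncomputable def Ex (h : V → ℝ) (P : V → V → ℝ) : ℕ → V → ((ℕ → V) → (ℕ → Bool) → ℝ) → ℝ
  | 0, x, F => F (fun _ => x) (fun _ => false)
  | n + 1, x, F =>
      h x * ∑ y, P x y * Ex h P n y (fun ys ms => F (scons x ys) (scons true ms)) +
      (1 - h x) * Ex h P n x (fun ys ms => F (scons x ys) (scons false ms))

/-- Standing hypotheses on the speed. -/
structure Spd {π : V → ℝ} {P : V → V → ℝ} (hc : Rev π P) (h : V → ℝ) : Prop where
  nn : ∀ x, 0 ≤ h x
  le1 : ∀ x, h x ≤ 1

variable {π : V → ℝ} {P : V → V → ℝ} {hc : Rev π P} {h : V → ℝ}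

lemma Ex_zero (x : V) (F : (ℕ → V) → (ℕ → Bool) → ℝ) :
    Ex h P 0 x F = F (fun _ => x) (fun _ => false) := rfl

lemma Ex_succ (n : ℕ) (x : V) (F : (ℕ → V) → (ℕ → Bool) → ℝ) :
    Ex h P (n + 1) x F =
      h x * ∑ y, P x y * Ex h P n y (fun ys ms => F (scons x ys) (scons true ms)) +
      (1 - h x) * Ex h P n x (fun ys ms => F (scons x ys) (scons false ms)) := rfl

lemma Ex_mono (hs : Spd hc h) (n : ℕ) (x : V) {F G : (ℕ → V) → (ℕ → Bool) → ℝ}
    (hFG : ∀ ys ms, ys 0 = x → F ys ms ≤ G ys ms) : Ex h P n x F ≤ Ex h P n x G := by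
  induction n generalizing x F G with
  | zero => exact hFG _ _ rfl
  | succ n ih =>
    rw [Ex_succ, Ex_succ]
    have h1 := hs.nn x
    have h2 : 0 ≤ 1 - h x := by linarith [hs.le1 x]
    refine add_le_add (mul_le_mul_of_nonneg_left ?_ h1) (mul_le_mul_of_nonneg_left ?_ h2)
    · refine Finset.sum_le_sum (fun y _ => mul_le_mul_of_nonneg_left ?_ (hc.nonneg x y))
      exact ih y (fun ys ms _ => hFG _ _ rfl)
    · exact ih x (fun ys ms _ => hFG _ _ rfl)

lemma Ex_congr (hs : Spd hc h) (n : ℕ) (x : V) {F G : (ℕ → V) → (ℕ → Bool) → ℝ}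
    (hFG : ∀ ys ms, ys 0 = x → F ys ms = G ys ms) : Ex h P n x F = Ex h P n x G :=
  le_antisymm (Ex_mono hs n x (fun ys ms hy => (hFG ys ms hy).le))
    (Ex_mono hs n x (fun ys ms hy => (hFG ys ms hy).ge))

lemma Ex_const (hs : Spd hc h) (n : ℕ) (x : V) (c : ℝ) : Ex h P n x (fun _ _ => c) = c := by
  induction n generalizing x with
  | zero => rfl
  | succ n ih =>
    rw [Ex_succ]
    simp only [ih]
    rw [← Finset.sum_mul, hc.sum_one]
    ring

lemma Ex_add (n : ℕ) (x : V) (F G : (ℕ → V) → (ℕ → Bool) → ℝ) :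
    Ex h P n x (fun ys ms => F ys ms + G ys ms) = Ex h P n x F + Ex h P n x G := by
  induction n generalizing x F G with
  | zero => rfl
  | succ n ih =>
    rw [Ex_succ, Ex_succ, Ex_succ]
    have e1 : ∀ y, Ex h P n y (fun ys ms => F (scons x ys) (scons true ms) +
        G (scons x ys) (scons true ms)) =
        Ex h P n y (fun ys ms => F (scons x ys) (scons true ms)) +
        Ex h P n y (fun ys ms => G (scons x ys) (scons true ms)) := fun y => ih y _ _
    have e2 : Ex h P n x (fun ys ms => F (scons x ys) (scons false ms) +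
        G (scons x ys) (scons false ms)) =
        Ex h P n x (fun ys ms => F (scons x ys) (scons false ms)) +
        Ex h P n x (fun ys ms => G (scons x ys) (scons false ms)) := ih x _ _
    simp only [e1, e2, mul_add, Finset.sum_add_distrib]
    ring

lemma Ex_const_mul (n : ℕ) (x : V) (c : ℝ) (F : (ℕ → V) → (ℕ → Bool) → ℝ) :
    Ex h P n x (fun ys ms => c * F ys ms) = c * Ex h P n x F := by
  induction n generalizing x F with
  | zero => rfl
  | succ n ih =>
    rw [Ex_succ, Ex_succ]
    have e1 : ∀ y, Ex h P n y (fun ys ms => c * F (scons x ys) (scons true ms)) =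
        c * Ex h P n y (fun ys ms => F (scons x ys) (scons true ms)) := fun y => ih y _
    have e2 : Ex h P n x (fun ys ms => c * F (scons x ys) (scons false ms)) =
        c * Ex h P n x (fun ys ms => F (scons x ys) (scons false ms)) := ih x _
    simp only [e1, e2, mul_add, Finset.mul_sum]
    congr 1
    · refine Finset.sum_congr rfl (fun y _ => ?_)
      ring
    · ring

lemma Ex_sum {α : Type*} (hs : Spd hc h) (n : ℕ) (x : V) (s : Finset α)
    (F : α → (ℕ → V) → (ℕ → Bool) → ℝ) :
    Ex h P n x (fun ys ms => ∑ i ∈ s, F i ys ms) = ∑ i ∈ s, Ex h P n x (F i) := by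
  classical
  induction s using Finset.induction_on with
  | empty => simpa using Ex_const hs n x 0
  | insert a s ha ih =>
    simp only [Finset.sum_insert ha]
    rw [Ex_add, ih]

lemma Ex_nonneg (hs : Spd hc h) (n : ℕ) (x : V) {F : (ℕ → V) → (ℕ → Bool) → ℝ}
    (hF : ∀ ys ms, 0 ≤ F ys ms) : 0 ≤ Ex h P n x F := by
  have := Ex_mono hs n x (F := fun _ _ => 0) (G := F) (fun ys ms _ => hF ys ms)
  rwa [Ex_const hs] at this

variable [DecidableEq V]

/-- The lazy kernel. -/
noncomputable def lz (h : V → ℝ) (P : V → V → ℝ) (x y : V) : ℝ :=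
  h x * P x y + (1 - h x) * (if x = y then 1 else 0)

lemma op_lz (g : V → ℝ) (x : V) :
    op (lz h P) g x = h x * ∑ y, P x y * g y + (1 - h x) * g x := by
  unfold op lz
  simp only [add_mul, Finset.sum_add_distrib, Finset.mul_sum]
  congr 1
  · exact Finset.sum_congr rfl (fun y _ => by ring)
  · rw [Finset.sum_eq_single x]
    · simp
    · intro b _ hb
      simp [Ne.symm hb]
    · simp

/-- The lazy chain is reversible for `μ` whenever `μ x * h x = π x` up to a constant. -/
lemma lz_rev (hs : Spd hc h) {μ : V → ℝ} {c : ℝ} (hμ0 : ∀ x, 0 ≤ μ x)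
    (hμ : ∀ x, μ x * h x = c * π x) : Rev μ (lz h P) := by
  refine ⟨hμ0, ?_, ?_, ?_⟩
  · intro x y
    unfold lz
    have h1 := hs.nn x
    have h2 : 0 ≤ 1 - h x := by linarith [hs.le1 x]
    have := hc.nonneg x y
    split_ifs <;> positivity
  · intro x
    unfold lz
    rw [Finset.sum_add_distrib, ← Finset.mul_sum, hc.sum_one, ← Finset.mul_sum]
    simp
  · intro x y
    unfold lz
    have e : μ x * (h x * P x y) = μ y * (h y * P y x) := by
      have h1 := hc.rev x y
      calc μ x * (h x * P x y) = (μ x * h x) * P x y := by ring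
        _ = c * (π x * P x y) := by rw [hμ]; ring
        _ = c * (π y * P y x) := by rw [h1]
        _ = (μ y * h y) * P y x := by rw [hμ]; ring
        _ = μ y * (h y * P y x) := by ring
    by_cases hxy : x = y
    · subst hxy; rfl
    · have hyx : ¬ y = x := fun h => hxy h.symm
      simp [hxy, hyx, mul_add, e]

/-- Value at a fixed time. -/
lemma Ex_pos (hs : Spd hc h) (d n : ℕ) (hd : d ≤ n) (x : V) (φ : V → ℝ) :
    Ex h P n x (fun ys _ => φ (ys d)) = pw (lz h P) d φ x := by
  induction d generalizing n x with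
  | zero =>
    have := Ex_congr hs n x (F := fun ys _ => φ (ys 0)) (G := fun _ _ => φ x)
      (fun ys ms hy => by simp [hy])
    rw [this, Ex_const hs]
    rfl
  | succ d ih =>
    obtain ⟨m, rfl⟩ : ∃ m, n = m + 1 := ⟨n - 1, by omega⟩
    rw [Ex_succ, pw_succ, op_lz]
    have hdm : d ≤ m := by omega
    have e : ∀ y, Ex h P m y (fun ys ms => φ (scons x ys (d + 1))) = pw (lz h P) d φ y :=
      fun y => ih m hdm y
    simp only [e]

/-- Stationarity: a functional of the path after time `u`. -/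
lemma Ex_sh (hs : Spd hc h) {μ : V → ℝ} (hμ : Rev μ (lz h P)) (n u : ℕ)
    (F : (ℕ → V) → (ℕ → Bool) → ℝ) :
    ∑ x, μ x * Ex h P (n + u) x (fun ys ms => F (sh u ys) (sh u ms)) =
      ∑ x, μ x * Ex h P n x F := by
  induction u with
  | zero => rfl
  | succ u ih =>
    rw [← ih]
    have e : ∀ x, Ex h P (n + (u + 1)) x (fun ys ms => F (sh (u + 1) ys) (sh (u + 1) ms)) =
        op (lz h P) (fun y => Ex h P (n + u) y (fun ys ms => F (sh u ys) (sh u ms))) x := by
      intro x
      rw [op_lz]
      rfl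
    simp only [e]
    have := pw_stationary hμ 1 (fun y => Ex h P (n + u) y (fun ys ms => F (sh u ys) (sh u ms)))
    exact this

/-- Two time marginal at the stationary law. -/
lemma Ex_two (hs : Spd hc h) {μ : V → ℝ} (hμ : Rev μ (lz h P)) (u d n : ℕ) (hd : d ≤ n)
    (g : V → V → ℝ) :
    ∑ x, μ x * Ex h P (n + u) x (fun ys _ => g (ys u) (ys (d + u))) =
      ∑ x, μ x * pw (lz h P) d (g x) x := by
  have h1 := Ex_sh hs hμ n u (fun ys _ => g (ys 0) (ys d))
  have e1 : ∀ x, Ex h P (n + u) x (fun ys ms =>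
      (fun (ys : ℕ → V) (_ : ℕ → Bool) => g (ys 0) (ys d)) (sh u ys) (sh u ms)) =
      Ex h P (n + u) x (fun ys _ => g (ys u) (ys (d + u))) := by
    intro x
    refine Ex_congr hs _ x (fun ys ms _ => ?_)
    simp [sh]
  simp only [e1] at h1
  rw [h1]
  refine Finset.sum_congr rfl (fun x _ => ?_)
  congr 1
  rw [← Ex_pos hs d n hd x (g x)]
  refine Ex_congr hs _ x (fun ys ms hy => ?_)
  rw [hy]

/-- Path length. -/
def Len (L : V → V → ℝ) (d : ℕ) (ys : ℕ → V) : ℝ := ∑ i ∈ range d, L (ys i) (ys (i + 1))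

lemma Len_succ (L : V → V → ℝ) (d : ℕ) (x : V) (ys : ℕ → V) :
    Len L (d + 1) (scons x ys) = L x (ys 0) + Len L d ys := by
  unfold Len
  rw [Finset.sum_range_succ']
  simp only [scons_succ, scons_zero]
  ring

lemma Len_nonneg {L : V → V → ℝ} (hL : ∀ a b, 0 ≤ L a b) (d : ℕ) (ys : ℕ → V) :
    0 ≤ Len L d ys := Finset.sum_nonneg (fun _ _ => hL _ _)

/-- First moment of the length. -/
lemma Ex_len1 (hs : Spd hc h) {L : V → V → ℝ} {κ : ℝ} (hL : ∀ a b, 0 ≤ L a b)
    (hL0 : ∀ a, L a a = 0) (hrate : ∀ x, h x * ∑ y, P x y * L x y ≤ κ) (hκ : 0 ≤ κ)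
    (d n : ℕ) (hd : d ≤ n) (x : V) :
    Ex h P n x (fun ys _ => Len L d ys) ≤ d * κ := by
  induction d generalizing n x with
  | zero =>
    have : Ex h P n x (fun ys _ => Len L 0 ys) = 0 := by
      simpa [Len] using Ex_const hs n x 0
    rw [this]; simp
  | succ d ih =>
    obtain ⟨m, rfl⟩ : ∃ m, n = m + 1 := ⟨n - 1, by omega⟩
    have hdm : d ≤ m := by omega
    rw [Ex_succ]
    have e : ∀ (y : V), Ex h P m y (fun ys (_ : ℕ → Bool) => Len L (d + 1) (scons x ys)) =
        L x y + Ex h P m y (fun ys _ => Len L d ys) := by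
      intro y
      have : Ex h P m y (fun ys (_ : ℕ → Bool) => Len L (d + 1) (scons x ys)) =
          Ex h P m y (fun ys _ => L x y + Len L d ys) :=
        Ex_congr hs m y (fun ys ms hy => by rw [Len_succ, hy])
      rw [this, Ex_add, Ex_const hs]
    simp only [e, hL0, zero_add]
    have h1 := hs.nn x
    have h2 : 0 ≤ 1 - h x := by linarith [hs.le1 x]
    have hb : ∀ y, Ex h P m y (fun ys _ => Len L d ys) ≤ d * κ := fun y => ih m hdm y
    have h3 : ∑ y, P x y * (L x y + Ex h P m y (fun ys _ => Len L d ys)) ≤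
        ∑ y, P x y * L x y + d * κ := by
      calc ∑ y, P x y * (L x y + Ex h P m y (fun ys _ => Len L d ys))
          ≤ ∑ y, (P x y * L x y + P x y * (d * κ)) := by
            refine Finset.sum_le_sum (fun y _ => ?_)
            rw [mul_add]
            have := mul_le_mul_of_nonneg_left (hb y) (hc.nonneg x y)
            linarith
        _ = ∑ y, P x y * L x y + d * κ := by
            rw [Finset.sum_add_distrib, ← Finset.sum_mul, hc.sum_one, one_mul]
    have h4 := mul_le_mul_of_nonneg_left h3 h1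
    have h5 := mul_le_mul_of_nonneg_left (hb x) h2
    have h6 := hrate x
    push_cast
    nlinarith

/-- Second moment of the length. -/
lemma Ex_len2 (hs : Spd hc h) {L : V → V → ℝ} {κ : ℝ} (hL : ∀ a b, 0 ≤ L a b)
    (hL0 : ∀ a, L a a = 0) (hL1 : ∀ a b, P a b ≠ 0 → L a b ≤ 1)
    (hrate : ∀ x, h x * ∑ y, P x y * L x y ≤ κ) (hκ : 0 ≤ κ)
    (d n : ℕ) (hd : d ≤ n) (x : V) :
    Ex h P n x (fun ys _ => Len L d ys ^ 2) ≤ d * κ + (d * κ) ^ 2 := by
  induction d generalizing n x with
  | zero =>
    have : Ex h P n x (fun ys _ => Len L 0 ys ^ 2) = 0 := by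
      simpa [Len] using Ex_const hs n x 0
    rw [this]; simp
  | succ d ih =>
    obtain ⟨m, rfl⟩ : ∃ m, n = m + 1 := ⟨n - 1, by omega⟩
    have hdm : d ≤ m := by omega
    rw [Ex_succ]
    set E1 : V → ℝ := fun y => Ex h P m y (fun ys _ => Len L d ys) with hE1
    set E2 : V → ℝ := fun y => Ex h P m y (fun ys _ => Len L d ys ^ 2) with hE2
    have e : ∀ (y : V), Ex h P m y (fun ys (_ : ℕ → Bool) => Len L (d + 1) (scons x ys) ^ 2) =
        L x y ^ 2 + 2 * L x y * E1 y + E2 y := by
      intro y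
      have : Ex h P m y (fun ys (_ : ℕ → Bool) => Len L (d + 1) (scons x ys) ^ 2) =
          Ex h P m y (fun ys _ => (L x y ^ 2 + (2 * L x y) * Len L d ys) + Len L d ys ^ 2) :=
        Ex_congr hs m y (fun ys ms hy => by rw [Len_succ, hy]; ring)
      rw [this, Ex_add, Ex_add, Ex_const hs, Ex_const_mul]
    simp only [e, hL0]
    have h1 := hs.nn x
    have h2 : 0 ≤ 1 - h x := by linarith [hs.le1 x]
    have hb1 : ∀ y, E1 y ≤ d * κ := fun y => Ex_len1 hs hL hL0 hrate hκ d m hdm y
    have hb2 : ∀ y, E2 y ≤ d * κ + (d * κ) ^ 2 := fun y => ih m hdm y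
    set M2 : ℝ := d * κ + (d * κ) ^ 2 with hM2
    have h3 : ∑ y, P x y * (L x y ^ 2 + 2 * L x y * E1 y + E2 y) ≤
        (1 + 2 * (d * κ)) * ∑ y, P x y * L x y + M2 := by
      calc ∑ y, P x y * (L x y ^ 2 + 2 * L x y * E1 y + E2 y)
          ≤ ∑ y, ((1 + 2 * (d * κ)) * (P x y * L x y) + P x y * M2) := by
            refine Finset.sum_le_sum (fun y _ => ?_)
            have hP := hc.nonneg x y
            have hLy := hL x y
            by_cases hne : P x y = 0
            · simp [hne]
            · have hle : L x y ^ 2 ≤ L x y := by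
                have := hL1 x y hne
                nlinarith
              have h7 : L x y ^ 2 + 2 * L x y * E1 y + E2 y ≤
                  (1 + 2 * (d * κ)) * L x y + M2 := by
                have h8 := mul_le_mul_of_nonneg_left (hb1 y) hLy
                have h9 := hb2 y
                nlinarith
              have := mul_le_mul_of_nonneg_left h7 hP
              nlinarith
        _ = (1 + 2 * (d * κ)) * ∑ y, P x y * L x y + M2 := by
            rw [Finset.sum_add_distrib, ← Finset.mul_sum, ← Finset.sum_mul, hc.sum_one, one_mul]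
    have h4 := mul_le_mul_of_nonneg_left h3 h1
    have h5 : (1 - h x) * (0 ^ 2 + 2 * 0 * E1 x + E2 x) ≤ (1 - h x) * M2 := by
      refine mul_le_mul_of_nonneg_left ?_ h2
      have := hb2 x
      linarith
    have h6 := hrate x
    have h7 : h x * ((1 + 2 * (d * κ)) * ∑ y, P x y * L x y) =
        (1 + 2 * (d * κ)) * (h x * ∑ y, P x y * L x y) := by ring
    have h8 : (1 + 2 * (d * κ)) * (h x * ∑ y, P x y * L x y) ≤ (1 + 2 * (d * κ)) * κ :=
      mul_le_mul_of_nonneg_left h6 (by positivity)
    rw [mul_add, h7] at h4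
    push_cast
    have h9 : 0 ≤ κ ^ 2 := sq_nonneg κ
    have h10 : h x * M2 + (1 - h x) * M2 = M2 := by ring
    rw [hM2] at *
    nlinarith

end

/-- The functional of the value just after the `s`-th mark, if that happens within `n` steps. -/
def Wv {V : Type*} (g : V → ℝ) (s n : ℕ) (ys : ℕ → V) (ms : ℕ → Bool) : ℝ :=
  ∑ R ∈ range (n + 1), if scons true ms R = true ∧ rk ms R = s then g (ys R) else 0

section
variable {V : Type*}

lemma rk_pos_of_mark (ms : ℕ → Bool) (R : ℕ) (h : ms R = true) : 0 < rk ms (R + 1) := by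
  rw [rk_succ]; simp [h]

lemma Wv_zero (g : V → ℝ) (n : ℕ) (ys : ℕ → V) (ms : ℕ → Bool) : Wv g 0 n ys ms = g (ys 0) := by
  unfold Wv
  rw [Finset.sum_range_succ']
  have : ∀ R ∈ range n, (if scons true ms (R + 1) = true ∧ rk ms (R + 1) = 0 then g (ys (R + 1))
      else 0) = 0 := by
    intro R _
    rw [if_neg]
    rintro ⟨h1, h2⟩
    have := rk_pos_of_mark ms R h1
    omega
  rw [Finset.sum_eq_zero this]
  simp

lemma Wv_succ_true (g : V → ℝ) (s n : ℕ) (z : V) (ys : ℕ → V) (ms : ℕ → Bool) :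
    Wv g (s + 1) (n + 1) (scons z ys) (scons true ms) = Wv g s n ys ms := by
  unfold Wv
  rw [Finset.sum_range_succ']
  simp only [rk_zero, scons_zero, Nat.zero_ne_add_one, and_false, if_false, add_zero]
  refine Finset.sum_congr rfl (fun R _ => ?_)
  simp only [scons_succ, rk_scons, if_true]
  have : (1 + rk ms R = s + 1) ↔ rk ms R = s := by omega
  simp [this]

lemma Wv_succ_false (g : V → ℝ) (s n : ℕ) (z : V) (ys : ℕ → V) (ms : ℕ → Bool) :
    Wv g (s + 1) (n + 1) (scons z ys) (scons false ms) = Wv g (s + 1) n ys ms := by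
  unfold Wv
  rw [Finset.sum_range_succ']
  simp only [rk_zero, scons_zero, Nat.zero_ne_add_one, and_false, if_false, add_zero]
  refine Finset.sum_congr rfl (fun R _ => ?_)
  simp only [scons_succ, rk_scons]
  cases R with
  | zero => simp
  | succ R =>
    simp
    exact if_congr Iff.rfl rfl rfl

lemma Wv_nonneg {g : V → ℝ} (hg : ∀ x, 0 ≤ g x) (s n : ℕ) (ys : ℕ → V) (ms : ℕ → Bool) :
    0 ≤ Wv g s n ys ms := by
  unfold Wv
  refine Finset.sum_nonneg (fun R _ => ?_)
  split_ifs
  · exact hg _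
  · exact le_rfl

end

section
variable {V : Type*} [Fintype V] {π : V → ℝ} {P : V → V → ℝ} {hc : Rev π P} {h : V → ℝ}

/-- The `s` marks arrive in time, with a loss that is explicit. -/
lemma Ex_Wv (hs : Spd hc h) {h0 : ℝ} (hh0 : 0 < h0) (hh01 : h0 ≤ 1) (hlow : ∀ x, h0 ≤ h x)
    {g : V → ℝ} (hg : ∀ x, 0 ≤ g x) (n s : ℕ) (y : V) :
    (h0 * n - s) * pw P s g y ≤ h0 * n * Ex h P n y (Wv g s n) := by
  induction n generalizing s y with
  | zero =>
    simp only [Nat.cast_zero, mul_zero, zero_sub, zero_mul]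
    have : 0 ≤ pw P s g y := pw_nonneg hc s hg y
    have h1 : (0 : ℝ) ≤ s := Nat.cast_nonneg s
    nlinarith
  | succ n ih =>
    cases s with
    | zero =>
      have e : Ex h P (n + 1) y (Wv g 0 (n + 1)) = g y := by
        have : Ex h P (n + 1) y (Wv g 0 (n + 1)) = Ex h P (n + 1) y (fun _ _ => g y) :=
          Ex_congr hs _ y (fun ys ms hy => by rw [Wv_zero, hy])
        rw [this, Ex_const hs]
      rw [e]
      simp
    | succ s =>
      rw [Ex_succ]
      set hy := h y with hhy
      have hy1 : hy ≤ 1 := hs.le1 y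
      have hy0 : h0 ≤ hy := hlow y
      have e1 : ∀ z, Ex h P n z (fun ys ms => Wv g (s + 1) (n + 1) (scons y ys) (scons true ms)) =
          Ex h P n z (Wv g s n) := by
        intro z
        refine Ex_congr hs n z (fun ys ms _ => ?_)
        rw [Wv_succ_true]
      have e2 : Ex h P n y (fun ys ms => Wv g (s + 1) (n + 1) (scons y ys) (scons false ms)) =
          Ex h P n y (Wv g (s + 1) n) :=
        Ex_congr hs n y (fun ys ms _ => by rw [Wv_succ_false])
      simp only [e1, e2]
      set Ψ : ℝ := pw P (s + 1) g y with hΨ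
      have hΨ0 : 0 ≤ Ψ := pw_nonneg hc _ hg y
      have hΨe : Ψ = ∑ z, P y z * pw P s g z := rfl
      set A1 : ℝ := ∑ z, P y z * Ex h P n z (Wv g s n) with hA1
      set A2 : ℝ := Ex h P n y (Wv g (s + 1) n) with hA2
      have hE : ∀ z, 0 ≤ Ex h P n z (Wv g s n) := fun z =>
        Ex_nonneg hs n z (fun ys ms => Wv_nonneg hg s n ys ms)
      have hA10 : 0 ≤ A1 := Finset.sum_nonneg (fun z _ => mul_nonneg (hc.nonneg y z) (hE z))
      have hA20 : 0 ≤ A2 := Ex_nonneg hs n y (fun ys ms => Wv_nonneg hg (s + 1) n ys ms)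
      have hA : 0 ≤ hy * A1 + (1 - hy) * A2 := by
        have : 0 ≤ 1 - hy := by linarith
        have h3 : 0 ≤ hy := le_trans hh0.le hy0
        positivity
      have hn0 : (0 : ℝ) ≤ n := Nat.cast_nonneg n
      have hs0 : (0 : ℝ) ≤ s := Nat.cast_nonneg s
      push_cast
      by_cases hcase : h0 * (n + 1) ≤ s + 1
      · have h1 : (h0 * (n + 1) - (s + 1)) * Ψ ≤ 0 :=
          mul_nonpos_of_nonpos_of_nonneg (by linarith) hΨ0
        have h2 : 0 ≤ h0 * (n + 1) * (hy * A1 + (1 - hy) * A2) := by positivity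
        linarith
      · push Not at hcase
        have hnpos : (0 : ℝ) < n := by
          by_contra hn
          have : (n : ℝ) = 0 := le_antisymm (not_lt.mp hn) hn0
          rw [this] at hcase
          nlinarith
        have hA1b : (h0 * n - s) * Ψ ≤ h0 * n * A1 := by
          rw [hΨe, Finset.mul_sum, hA1, Finset.mul_sum]
          refine Finset.sum_le_sum (fun z _ => ?_)
          have := mul_le_mul_of_nonneg_left (ih s z) (hc.nonneg y z)
          nlinarith
        have hA2b : (h0 * n - (s + 1)) * Ψ ≤ h0 * n * A2 := by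
          have := ih (s + 1) y
          push_cast at this
          exact this
        have hy00 : 0 ≤ hy := le_trans hh0.le hy0
        have hy10 : 0 ≤ 1 - hy := by linarith
        have h3 : (h0 * n - (s + 1) + hy) * Ψ ≤ h0 * n * (hy * A1 + (1 - hy) * A2) := by
          have h4 := mul_le_mul_of_nonneg_left hA1b hy00
          have h5 := mul_le_mul_of_nonneg_left hA2b hy10
          nlinarith
        have h6 : (s : ℝ) + 1 ≤ (n + 1) * hy := by nlinarith
        have h7 : n * (h0 * (n + 1) - (s + 1)) ≤ (n + 1) * (h0 * n - (s + 1) + hy) := by nlinarith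
        have h8 : n * ((h0 * (n + 1) - (s + 1)) * Ψ) ≤
            n * (h0 * (n + 1) * (hy * A1 + (1 - hy) * A2)) := by
          calc n * ((h0 * (n + 1) - (s + 1)) * Ψ) = (n * (h0 * (n + 1) - (s + 1))) * Ψ := by ring
            _ ≤ ((n + 1) * (h0 * n - (s + 1) + hy)) * Ψ :=
                mul_le_mul_of_nonneg_right h7 hΨ0
            _ = (n + 1) * ((h0 * n - (s + 1) + hy) * Ψ) := by ring
            _ ≤ (n + 1) * (h0 * n * (hy * A1 + (1 - hy) * A2)) :=
                mul_le_mul_of_nonneg_left h3 (by positivity)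
            _ = n * (h0 * (n + 1) * (hy * A1 + (1 - hy) * A2)) := by ring
        exact le_of_mul_le_mul_left h8 hnpos

end

end Vale.Agent.Lib.P125
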