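import Vale.Agent.Lib.P125.Bridge

open Finset BigOperators

namespace Vale.Agent.Lib.P125

variable {V : Type*} [Fintype V] [DecidableEq V] {π : V → ℝ} {P : Matrix V V ℝ}

lemma mat_succ (n : ℕ) (x y : V) : (P ^ (n + 1)) x y = ∑ u, P x u * (P ^ n) u y := by
  rw [pow_succ', Matrix.mul_apply]

lemma mat_nonneg (hc : Rev π (fun a b => P a b)) (n : ℕ) (x y : V) : 0 ≤ (P ^ n) x y := by
  induction n generalizing x with
  | zero =>
    simp only [pow_zero, Matrix.one_apply]
    split_ifs <;> norm_num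
  | succ n ih =>
    rw [mat_succ]
    exact Finset.sum_nonneg (fun u _ => mul_nonneg (hc.nonneg x u) (ih u))

lemma mat_sum_one (hc : Rev π (fun a b => P a b)) (n : ℕ) (x : V) : ∑ y, (P ^ n) x y = 1 := by
  induction n generalizing x with
  | zero => simp [Matrix.one_apply]
  | succ n ih =>
    simp only [mat_succ]
    rw [Finset.sum_comm]
    simp only [← Finset.mul_sum, ih, mul_one]
    exact hc.sum_one x

lemma mat_rev (hc : Rev π (fun a b => P a b)) (n : ℕ) (x y : V) :
    π x * (P ^ n) x y = π y * (P ^ n) y x := by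
  induction n generalizing x y with
  | zero =>
    simp only [pow_zero, Matrix.one_apply]
    by_cases h : x = y
    · subst h; rfl
    · rw [if_neg h, if_neg (fun h' => h h'.symm)]; ring
  | succ n ih =>
    rw [mat_succ, mat_succ, Finset.mul_sum, Finset.mul_sum]
    -- use P^(n+1) = P^n * P on the right
    have h2 : (P ^ (n + 1)) y x = ∑ u, (P ^ n) y u * P u x := by
      rw [pow_succ, Matrix.mul_apply]
    have h3 : ∑ u, π y * (P y u * (P ^ n) u x) = π y * (P ^ (n + 1)) y x := by
      rw [mat_succ, Finset.mul_sum]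
    rw [h3, h2, Finset.mul_sum]
    refine Finset.sum_congr rfl (fun u _ => ?_)
    have h4 := hc.rev x u
    have h5 := ih u y
    calc π x * (P x u * (P ^ n) u y) = (π x * P x u) * (P ^ n) u y := by ring
      _ = (π u * P u x) * (P ^ n) u y := by rw [h4]
      _ = (π u * (P ^ n) u y) * P u x := by ring
      _ = (π y * (P ^ n) y u) * P u x := by rw [h5]
      _ = π y * ((P ^ n) y u * P u x) := by ring

/-- Chapman-Kolmogorov triangle inequality along the path. -/
lemma kernel_triangle (hc : Rev π (fun a b => P a b)) (ψ : V → ℝ) (n : ℕ) (x x' : V) :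
    |ψ x' - ψ x| * (P ^ n) x x' ≤
      ∑ s ∈ range n, ∑ u, ∑ v, (P ^ s) x u * P u v * |ψ v - ψ u| * (P ^ (n - 1 - s)) v x' := by
  induction n generalizing x with
  | zero =>
    simp only [pow_zero, Matrix.one_apply, Finset.range_zero, Finset.sum_empty]
    by_cases h : x = x'
    · subst h; simp
    · simp [h]
  | succ n ih =>
    rw [Finset.sum_range_succ']
    have h0 : ∑ u, ∑ v, (P ^ 0) x u * P u v * |ψ v - ψ u| * (P ^ (n + 1 - 1 - 0)) v x' =
        ∑ v, P x v * |ψ v - ψ x| * (P ^ n) v x' := by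
      simp only [pow_zero, Matrix.one_apply, ite_mul, one_mul, zero_mul, Nat.add_sub_cancel,
        Nat.sub_zero]
      simp
    have h1 : ∑ s ∈ range n, ∑ u, ∑ v, (P ^ (s + 1)) x u * P u v * |ψ v - ψ u| *
          (P ^ (n + 1 - 1 - (s + 1))) v x' =
        ∑ w, P x w * ∑ s ∈ range n, ∑ u, ∑ v, (P ^ s) w u * P u v * |ψ v - ψ u| *
          (P ^ (n - 1 - s)) v x' := by
      have e1 : ∀ s u v, (P ^ (s + 1)) x u * P u v * |ψ v - ψ u| *
            (P ^ (n + 1 - 1 - (s + 1))) v x' =
          ∑ w, P x w * ((P ^ s) w u * P u v * |ψ v - ψ u| * (P ^ (n - 1 - s)) v x') := by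
        intro s u v
        have e : n + 1 - 1 - (s + 1) = n - 1 - s := by omega
        rw [e, mat_succ, Finset.sum_mul, Finset.sum_mul, Finset.sum_mul]
        refine Finset.sum_congr rfl (fun w _ => ?_)
        ring
      simp only [e1]
      have e2 : ∀ w, P x w * ∑ s ∈ range n, ∑ u, ∑ v, (P ^ s) w u * P u v * |ψ v - ψ u| *
            (P ^ (n - 1 - s)) v x' =
          ∑ s ∈ range n, ∑ u, ∑ v, P x w * ((P ^ s) w u * P u v * |ψ v - ψ u| *
            (P ^ (n - 1 - s)) v x') := by
        intro w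
        rw [Finset.mul_sum]
        refine Finset.sum_congr rfl (fun s _ => ?_)
        rw [Finset.mul_sum]
        refine Finset.sum_congr rfl (fun u _ => ?_)
        rw [Finset.mul_sum]
      simp only [e2]
      calc ∑ s ∈ range n, ∑ u, ∑ v, ∑ w, P x w * ((P ^ s) w u * P u v * |ψ v - ψ u| *
            (P ^ (n - 1 - s)) v x')
          = ∑ s ∈ range n, ∑ u, ∑ w, ∑ v, P x w * ((P ^ s) w u * P u v * |ψ v - ψ u| *
            (P ^ (n - 1 - s)) v x') := by
            refine Finset.sum_congr rfl (fun s _ => Finset.sum_congr rfl (fun u _ => ?_))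
            exact Finset.sum_comm
        _ = ∑ s ∈ range n, ∑ w, ∑ u, ∑ v, P x w * ((P ^ s) w u * P u v * |ψ v - ψ u| *
            (P ^ (n - 1 - s)) v x') := by
            refine Finset.sum_congr rfl (fun s _ => ?_)
            exact Finset.sum_comm
        _ = ∑ w, ∑ s ∈ range n, ∑ u, ∑ v, P x w * ((P ^ s) w u * P u v * |ψ v - ψ u| *
            (P ^ (n - 1 - s)) v x') := Finset.sum_comm
    rw [h0, h1, mat_succ, Finset.mul_sum, ← Finset.sum_add_distrib]
    refine Finset.sum_le_sum (fun w _ => ?_)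
    have h2 : |ψ x' - ψ x| ≤ |ψ x' - ψ w| + |ψ w - ψ x| := abs_sub_le _ _ _
    have h3 := ih w
    have hQ := mat_nonneg hc n w x'
    have hP0 := hc.nonneg x w
    calc |ψ x' - ψ x| * (P x w * (P ^ n) w x')
        = P x w * (|ψ x' - ψ x| * (P ^ n) w x') := by ring
      _ ≤ P x w * ((|ψ x' - ψ w| + |ψ w - ψ x|) * (P ^ n) w x') := by
          apply mul_le_mul_of_nonneg_left _ hP0
          exact mul_le_mul_of_nonneg_right h2 hQ
      _ = P x w * (|ψ x' - ψ w| * (P ^ n) w x') + P x w * |ψ w - ψ x| * (P ^ n) w x' := by ring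
      _ ≤ _ := by
          apply add_le_add_left
          exact mul_le_mul_of_nonneg_left h3 hP0

end Vale.Agent.Lib.P125
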