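import Vale.Agent.Lib.P125.Basic

open Finset BigOperators

namespace Vale.Agent.Lib.P125

variable {V : Type*} [Fintype V] {π : V → ℝ} {P : V → V → ℝ}

/-- Telescoping along the iterates. -/
lemma pw_telescope (h : V → ℝ) (k : ℕ) (w : V) :
    pw P k h w = h w + ∑ i ∈ range k, pw P i (fun x => op P h x - h x) w := by
  have h1 : ∀ i, pw P i (fun x => op P h x - h x) w = pw P (i + 1) h w - pw P i h w := by
    intro i
    rw [pw_sub_fun, ← pw_succ']
  simp only [h1]
  rw [Finset.sum_range_sub (fun i => pw P i h w) k]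
  simp

/-- Edge functional. -/
def edgeF (P : V → V → ℝ) (φ : V → ℝ) (ζ : V → ℝ) (x : V) : ℝ :=
  ∑ v, P x v * ((φ v - φ x) * ζ v)

lemma edgeF_add (φ A B : V → ℝ) :
    edgeF P φ (fun x => A x + B x) = fun x => edgeF P φ A x + edgeF P φ B x := by
  funext x
  simp only [edgeF, mul_add, Finset.sum_add_distrib]

/-- Product rule for the one step operator. -/
lemma op_mul_center (φ ζ : V → ℝ) (c : ℝ) (x : V) :
    op P (fun y => (φ y - c) * ζ y) x = edgeF P φ ζ x + (φ x - c) * op P ζ x := by
  simp only [op, edgeF, Finset.mul_sum, ← Finset.sum_add_distrib]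
  refine Finset.sum_congr rfl (fun v _ => ?_)
  ring

/-- Lipschitz bound on the edge functional. -/
lemma abs_edgeF_le (hc : Rev π P) {φ : V → ℝ} (hφ : ∀ u v, P u v ≠ 0 → |φ v - φ u| ≤ 1)
    (ζ : V → ℝ) (x : V) : |edgeF P φ ζ x| ≤ op P (fun y => |ζ y|) x := by
  unfold edgeF op
  refine (Finset.abs_sum_le_sum_abs _ _).trans (Finset.sum_le_sum (fun v _ => ?_))
  by_cases h : P x v = 0
  · simp [h]
  · rw [abs_mul, abs_mul, abs_of_nonneg (hc.nonneg x v)]
    apply mul_le_mul_of_nonneg_left _ (hc.nonneg x v)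
    calc |φ v - φ x| * |ζ v| ≤ 1 * |ζ v| :=
          mul_le_mul_of_nonneg_right (hφ x v h) (abs_nonneg _)
      _ = |ζ v| := one_mul _

/-- The cross terms. -/
lemma cross_formula (hc : Rev π P) (φ : V → ℝ) (w : V) (k : ℕ) (ζ : V → ℝ) :
    ∑ i ∈ range (k + 1), pw P i (fun x => (φ x - φ w) * ζ x) w =
      ∑ l ∈ range k, pw P l (edgeF P φ (fun x => ∑ j ∈ range (k - l), pw P j ζ x)) w := by
  induction k generalizing ζ with
  | zero => simp
  | succ k ih =>
    rw [Finset.sum_range_succ']
    have h0 : pw P 0 (fun x => (φ x - φ w) * ζ x) w = 0 := by simp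
    rw [h0, add_zero]
    have h1 : ∀ i, pw P (i + 1) (fun x => (φ x - φ w) * ζ x) w =
        pw P i (edgeF P φ ζ) w + pw P i (fun x => (φ x - φ w) * op P ζ x) w := by
      intro i
      rw [pw_succ']
      have : op P (fun x => (φ x - φ w) * ζ x) =
          fun x => edgeF P φ ζ x + (φ x - φ w) * op P ζ x := by
        funext x
        exact op_mul_center φ ζ (φ w) x
      rw [this, pw_add_fun]
    simp only [h1]
    rw [Finset.sum_add_distrib, ih (op P ζ)]
    rw [Finset.sum_range_succ _ k]
    -- the right hand side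
    have h2 : ∀ l ∈ range k, pw P l (edgeF P φ (fun x => ∑ j ∈ range (k + 1 - l), pw P j ζ x)) w =
        pw P l (edgeF P φ ζ) w +
          pw P l (edgeF P φ (fun x => ∑ j ∈ range (k - l), pw P j (op P ζ) x)) w := by
      intro l hl
      have hl' : l < k := Finset.mem_range.mp hl
      have e : k + 1 - l = (k - l) + 1 := by omega
      rw [e]
      have e2 : (fun x => ∑ j ∈ range ((k - l) + 1), pw P j ζ x) =
          fun x => ζ x + ∑ j ∈ range (k - l), pw P j (op P ζ) x := by
        funext x
        rw [Finset.sum_range_succ', add_comm]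
        congr 1
        refine Finset.sum_congr rfl (fun j _ => ?_)
        rw [pw_succ']
      rw [e2, edgeF_add, pw_add_fun]
    rw [Finset.sum_range_succ _ k, Finset.sum_congr rfl h2, Finset.sum_add_distrib]
    have e3 : k + 1 - k = 1 := by omega
    rw [e3]
    have e4 : (fun x => ∑ j ∈ range 1, pw P j ζ x) = ζ := by
      funext x
      simp
    rw [e4]
    ring

/-- Second moment bound from a starting point, with explicit drift majorant. -/
lemma second_moment_bound (hc : Rev π P) {φ : V → ℝ} (hφ : ∀ u v, P u v ≠ 0 → |φ v - φ u| ≤ 1)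
    (w : V) (k : ℕ) :
    pw P (k + 1) (fun x => (φ x - φ w) ^ 2) w ≤
      (k + 1 : ℝ) + 2 * ∑ l ∈ range k, pw P (l + 1) (fun x => |φ x - pw P (k - l) φ x|) w := by
  set φt : V → ℝ := fun x => φ x - φ w with hφt
  set ξ : V → ℝ := fun x => φ x - op P φ x with hξ
  set E : V → ℝ := fun x => ∑ v, P x v * (φ v - φ x) ^ 2 with hE
  -- step 1
  have h1 : ∀ x, op P (fun y => φt y ^ 2) x - φt x ^ 2 = E x - 2 * (φt x * ξ x) := by
    intro x
    have h2 := op_var hc φt x (φt x)
    have h3 : op P φt x = op P φ x - φ w := by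
      have : φt = fun y => φ y - (fun _ => φ w) y := rfl
      rw [this, op_sub, op_const hc]
    have h4 : ∑ v, P x v * (φt v - φt x) ^ 2 = E x := by
      simp only [hE, hφt]
      refine Finset.sum_congr rfl (fun v _ => ?_)
      ring
    rw [h4, h3] at h2
    simp only [hξ]
    have h5 : φt x = φ x - φ w := rfl
    rw [h5] at h2 ⊢
    nlinarith
  have hE1 : ∀ x, E x ≤ 1 := by
    intro x
    calc E x ≤ ∑ v, P x v := by
          refine Finset.sum_le_sum (fun v _ => ?_)
          by_cases h : P x v = 0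
          · simp [h]
          · have := hφ x v h
            have h2 : (φ v - φ x) ^ 2 ≤ 1 := by
              rw [← sq_abs]
              nlinarith [abs_nonneg (φ v - φ x)]
            nlinarith [hc.nonneg x v]
      _ = 1 := hc.sum_one x
  have h2 : pw P (k + 1) (fun x => φt x ^ 2) w ≤
      (k + 1 : ℝ) - 2 * ∑ i ∈ range (k + 1), pw P i (fun x => φt x * ξ x) w := by
    rw [pw_telescope]
    have e0 : φt w ^ 2 = 0 := by simp [hφt]
    rw [e0, zero_add]
    have e1 : ∀ i, pw P i (fun x => op P (fun y => φt y ^ 2) x - φt x ^ 2) w =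
        pw P i E w - 2 * pw P i (fun x => φt x * ξ x) w := by
      intro i
      have : (fun x => op P (fun y => φt y ^ 2) x - φt x ^ 2) =
          fun x => E x - 2 * (φt x * ξ x) := by
        funext x; exact h1 x
      rw [this, pw_sub_fun, pw_const_mul]
    simp only [e1]
    rw [Finset.sum_sub_distrib, ← Finset.mul_sum]
    have e2 : ∑ i ∈ range (k + 1), pw P i E w ≤ (k + 1 : ℝ) := by
      calc ∑ i ∈ range (k + 1), pw P i E w ≤ ∑ i ∈ range (k + 1), (1 : ℝ) := by
            refine Finset.sum_le_sum (fun i _ => ?_)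
            have := pw_mono hc i (g := E) (h := fun _ => 1) hE1 w
            rwa [pw_const hc] at this
        _ = (k + 1 : ℝ) := by simp
    linarith
  have h3 : ∑ i ∈ range (k + 1), pw P i (fun x => φt x * ξ x) w =
      ∑ l ∈ range k, pw P l (edgeF P φ (fun x => ∑ j ∈ range (k - l), pw P j ξ x)) w :=
    cross_formula hc φ w k ξ
  have h4 : ∀ L x, ∑ j ∈ range L, pw P j ξ x = φ x - pw P L φ x := by
    intro L x
    have e : ∀ j, pw P j ξ x = pw P j φ x - pw P (j + 1) φ x := by
      intro j
      simp only [hξ]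
      rw [pw_sub_fun, ← pw_succ']
    simp only [e]
    rw [Finset.sum_range_sub' (fun j => pw P j φ x) L]
    rfl
  have h5 : ∀ l, |pw P l (edgeF P φ (fun x => ∑ j ∈ range (k - l), pw P j ξ x)) w| ≤
      pw P (l + 1) (fun x => |φ x - pw P (k - l) φ x|) w := by
    intro l
    refine (abs_pw_le hc l _ w).trans ?_
    rw [pw_succ']
    apply pw_mono hc
    intro x
    refine (abs_edgeF_le hc hφ _ x).trans (le_of_eq ?_)
    simp only [h4]
  have h6 : |∑ l ∈ range k, pw P l (edgeF P φ (fun x => ∑ j ∈ range (k - l), pw P j ξ x)) w| ≤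
      ∑ l ∈ range k, pw P (l + 1) (fun x => |φ x - pw P (k - l) φ x|) w :=
    (Finset.abs_sum_le_sum_abs _ _).trans (Finset.sum_le_sum (fun l _ => h5 l))
  rw [h3] at h2
  have h7 := (abs_le.mp h6).1
  linarith

end Vale.Agent.Lib.P125
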