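import Vale.Agent.Lib.P125.Pair1
import Vale.Agent.Lib.P125.Pair2

open Finset BigOperators

namespace Vale.Agent.Lib.P125

variable {V : Type*} [Fintype V] [DecidableEq V] {π : V → ℝ} {P : Matrix V V ℝ}
variable {ι : Type*} [Fintype ι] [LinearOrder ι]

/-- Initial segment sums. -/
def segS (f : V → ι → ℝ) (z : ι) (x : V) : ℝ := ∑ z' with z' ≤ z, f x z'

lemma segS_lip (f : V → ι → ℝ) (hLip : ∀ u v, P u v ≠ 0 → ∑ z, |f u z - f v z| ≤ 1)
    (z : ι) (u v : V) (h : P u v ≠ 0) : |segS f z v - segS f z u| ≤ 1 := by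
  have h1 : segS f z v - segS f z u = ∑ z' with z' ≤ z, (f v z' - f u z') := by
    unfold segS
    rw [Finset.sum_sub_distrib]
  rw [h1]
  refine (Finset.abs_sum_le_sum_abs _ _).trans ?_
  refine le_trans ?_ (hLip u v h)
  calc ∑ z' with z' ≤ z, |f v z' - f u z'| ≤ ∑ z', |f v z' - f u z'| :=
        Finset.sum_le_sum_of_subset_of_nonneg (Finset.filter_subset _ _)
          (fun _ _ _ => abs_nonneg _)
    _ = ∑ z', |f u z' - f v z'| :=
        Finset.sum_congr rfl (fun z' _ => abs_sub_comm _ _)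

/-- Bound on the mean drift for every lag up to `n`. -/
lemma drift_mean (hc : Rev π (fun a b => P a b)) (hπ1 : ∑ x, π x = 1) (f : V → ι → ℝ)
    (hLip : ∀ u v, P u v ≠ 0 → ∑ z, |f u z - f v z| ≤ 1) (L : ℕ) (κ : ℝ) (hκ : 0 < κ)
    (hL : 3 * (L : ℝ) ≤ κ ^ 3) (y : V → ι) :
    ∑ x, π x * |segS f (y x) x - pw (fun a b => P a b) L (segS f (y x)) x| ≤ κ ^ 2 := by
  have h0 := mean_summing_sel hc L f y
  have e1 : ∀ x, ∑ z with z ≤ y x, (f x z - pw (fun a b => P a b) L (fun w => f w z) x) =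
      segS f (y x) x - pw (fun a b => P a b) L (segS f (y x)) x := by
    intro x
    rw [Finset.sum_sub_distrib]
    congr 1
    have : segS f (y x) = fun w => ∑ z with z ≤ y x, f w z := rfl
    rw [this, pw_sum]
  simp only [e1] at h0
  have h1 : ∑ u, ∑ v, π u * P u v * (√(∑ z, |f u z - f v z|)) ^ 3 ≤ 1 := by
    have h2 : ∀ u v, π u * P u v * (√(∑ z, |f u z - f v z|)) ^ 3 ≤ π u * P u v := by
      intro u v
      by_cases h : P u v = 0
      · simp [h]
      · have h3 := hLip u v h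
        have h4 : 0 ≤ ∑ z, |f u z - f v z| := Finset.sum_nonneg (fun z _ => abs_nonneg _)
        have h5 : √(∑ z, |f u z - f v z|) ≤ 1 := Real.sqrt_le_one.mpr h3
        have h6 : (√(∑ z, |f u z - f v z|)) ^ 3 ≤ 1 :=
          pow_le_one₀ (Real.sqrt_nonneg _) h5
        have h7 : 0 ≤ π u * P u v := mul_nonneg (hc.pi_nonneg u) (hc.nonneg u v)
        nlinarith
    calc ∑ u, ∑ v, π u * P u v * (√(∑ z, |f u z - f v z|)) ^ 3
        ≤ ∑ u, ∑ v, π u * P u v :=
          Finset.sum_le_sum (fun u _ => Finset.sum_le_sum (fun v _ => h2 u v))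
      _ = ∑ u, π u * ∑ v, P u v := by
          refine Finset.sum_congr rfl (fun u _ => ?_)
          rw [Finset.mul_sum]
      _ = 1 := by
          simp only [show ∀ u, ∑ v, P u v = 1 from hc.sum_one, mul_one]
          exact hπ1
  have hLnn : (0 : ℝ) ≤ L := Nat.cast_nonneg L
  have h2 : ∑ x, π x * (√|segS f (y x) x - pw (fun a b => P a b) L (segS f (y x)) x|) ^ 3 ≤
      3 * L := by
    refine h0.trans ?_
    nlinarith
  have h3 : ∀ x, |segS f (y x) x - pw (fun a b => P a b) L (segS f (y x)) x| ≤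
      κ ^ 2 / 3 + (2 / (3 * κ)) *
        (√|segS f (y x) x - pw (fun a b => P a b) L (segS f (y x)) x|) ^ 3 := by
    intro x
    set s := |segS f (y x) x - pw (fun a b => P a b) L (segS f (y x)) x| with hs
    have hs0 : 0 ≤ s := abs_nonneg _
    set r := √s with hr
    have hr0 : 0 ≤ r := Real.sqrt_nonneg _
    have hr2 : r ^ 2 = s := Real.sq_sqrt hs0
    have key : 3 * κ * r ^ 2 ≤ κ ^ 3 + 2 * r ^ 3 := by
      nlinarith [mul_nonneg hκ.le (sq_nonneg (κ - r)), mul_nonneg hr0 (sq_nonneg (κ - r)),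
        mul_nonneg hκ.le hr0]
    have h4 : s = r ^ 2 := hr2.symm
    rw [h4]
    have h5 : κ ^ 2 / 3 + 2 / (3 * κ) * r ^ 3 = (κ ^ 3 + 2 * r ^ 3) / (3 * κ) := by
      field_simp
    rw [h5, le_div_iff₀ (by positivity)]
    nlinarith
  calc ∑ x, π x * |segS f (y x) x - pw (fun a b => P a b) L (segS f (y x)) x|
      ≤ ∑ x, π x * (κ ^ 2 / 3 + (2 / (3 * κ)) *
          (√|segS f (y x) x - pw (fun a b => P a b) L (segS f (y x)) x|) ^ 3) :=
        Finset.sum_le_sum (fun x _ => mul_le_mul_of_nonneg_left (h3 x) (hc.pi_nonneg x))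
    _ = κ ^ 2 / 3 * ∑ x, π x + (2 / (3 * κ)) *
          ∑ x, π x * (√|segS f (y x) x - pw (fun a b => P a b) L (segS f (y x)) x|) ^ 3 := by
        rw [Finset.mul_sum, Finset.mul_sum, ← Finset.sum_add_distrib]
        refine Finset.sum_congr rfl (fun x _ => ?_)
        ring
    _ ≤ κ ^ 2 := by
        rw [hπ1, mul_one]
        have h4 : 2 / (3 * κ) * ∑ x, π x *
            (√|segS f (y x) x - pw (fun a b => P a b) L (segS f (y x)) x|) ^ 3 ≤
            2 / (3 * κ) * κ ^ 3 :=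
          mul_le_mul_of_nonneg_left (h2.trans hL) (by positivity)
        have h5 : 2 / (3 * κ) * κ ^ 3 = 2 / 3 * κ ^ 2 := by
          field_simp
        linarith

end Vale.Agent.Lib.P125
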