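import Vale.Agent.Lib.P125.Pair3

open Finset BigOperators

namespace Vale.Agent.Lib.P125

variable {V : Type*} [Fintype V] {π : V → ℝ}
variable {ι : Type*} [Fintype ι] [LinearOrder ι]

/-- Swapping a triple sum. -/
lemma sum3_comm {α β γ : Type*} (s : Finset α) (t : Finset β) (r : Finset γ)
    (F : α → β → γ → ℝ) :
    ∑ a ∈ s, ∑ b ∈ t, ∑ c ∈ r, F a b c = ∑ c ∈ r, ∑ a ∈ s, ∑ b ∈ t, F a b c := by
  calc ∑ a ∈ s, ∑ b ∈ t, ∑ c ∈ r, F a b c
      = ∑ a ∈ s, ∑ c ∈ r, ∑ b ∈ t, F a b c :=
        Finset.sum_congr rfl (fun a _ => Finset.sum_comm)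
    _ = ∑ c ∈ r, ∑ a ∈ s, ∑ b ∈ t, F a b c := Finset.sum_comm

variable [DecidableEq V] {P : Matrix V V ℝ}

omit [DecidableEq V] in
/-- Stationarity of the edge measure, second variable. -/
lemma edge_stat_right (hc : Rev π (fun a b => P a b)) (h : V → ℝ) :
    ∑ u, ∑ v, π u * P u v * h v = ∑ v, π v * h v := by
  rw [Finset.sum_comm]
  refine Finset.sum_congr rfl (fun v _ => ?_)
  have h1 : ∀ u, π u * P u v * h v = π v * h v * P v u := by
    intro u
    have := hc.rev u v
    calc π u * P u v * h v = (π u * P u v) * h v := rfl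
      _ = (π v * P v u) * h v := by rw [this]
      _ = π v * h v * P v u := by ring
  simp only [h1]
  rw [← Finset.mul_sum, show ∑ u, P v u = 1 from hc.sum_one v, mul_one]

omit [DecidableEq V] in
/-- Stationarity of the edge measure, first variable. -/
lemma edge_stat_left (hc : Rev π (fun a b => P a b)) (h : V → ℝ) :
    ∑ u, ∑ v, π u * P u v * h u = ∑ u, π u * h u := by
  refine Finset.sum_congr rfl (fun u _ => ?_)
  have h1 : ∀ v, π u * P u v * h u = π u * h u * P u v := fun v => by ring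
  simp only [h1]
  rw [← Finset.mul_sum, show ∑ v, P u v = 1 from hc.sum_one u, mul_one]

/-- Second moment of the difference across an edge, split at the edge. -/
lemma split_bound (hc : Rev π (fun a b => P a b)) (φ : V → ℝ) (s s' : ℕ) (u v : V) :
    ∑ x, ∑ x', (P ^ s) u x * (P ^ s') v x' * (φ x' - φ x) ^ 2 ≤
      3 * (∑ x', (P ^ s') v x' * (φ x' - φ v) ^ 2 + (φ v - φ u) ^ 2 +
        ∑ x, (P ^ s) u x * (φ x - φ u) ^ 2) := by
  have h1 : ∀ x x', (P ^ s) u x * (P ^ s') v x' * (φ x' - φ x) ^ 2 ≤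
      3 * ((P ^ s) u x * ((P ^ s') v x' * (φ x' - φ v) ^ 2) +
        (P ^ s) u x * (P ^ s') v x' * (φ v - φ u) ^ 2 +
        ((P ^ s) u x * (φ x - φ u) ^ 2) * (P ^ s') v x') := by
    intro x x'
    have hq : 0 ≤ (P ^ s) u x * (P ^ s') v x' :=
      mul_nonneg (mat_nonneg hc s u x) (mat_nonneg hc s' v x')
    have h2 : (φ x' - φ x) ^ 2 ≤
        3 * ((φ x' - φ v) ^ 2 + (φ v - φ u) ^ 2 + (φ x - φ u) ^ 2) := by
      nlinarith [sq_nonneg ((φ x' - φ v) - (φ v - φ u)),
        sq_nonneg ((φ x' - φ v) + (φ x - φ u)), sq_nonneg ((φ v - φ u) + (φ x - φ u))]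
    calc (P ^ s) u x * (P ^ s') v x' * (φ x' - φ x) ^ 2
        ≤ (P ^ s) u x * (P ^ s') v x' *
            (3 * ((φ x' - φ v) ^ 2 + (φ v - φ u) ^ 2 + (φ x - φ u) ^ 2)) :=
          mul_le_mul_of_nonneg_left h2 hq
      _ = _ := by ring
  calc ∑ x, ∑ x', (P ^ s) u x * (P ^ s') v x' * (φ x' - φ x) ^ 2
      ≤ ∑ x, ∑ x', 3 * ((P ^ s) u x * ((P ^ s') v x' * (φ x' - φ v) ^ 2) +
          (P ^ s) u x * (P ^ s') v x' * (φ v - φ u) ^ 2 +
          ((P ^ s) u x * (φ x - φ u) ^ 2) * (P ^ s') v x') :=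
        Finset.sum_le_sum (fun x _ => Finset.sum_le_sum (fun x' _ => h1 x x'))
    _ = 3 * ((∑ x, (P ^ s) u x) * (∑ x', (P ^ s') v x' * (φ x' - φ v) ^ 2) +
          (∑ x, (P ^ s) u x) * (∑ x', (P ^ s') v x') * (φ v - φ u) ^ 2 +
          (∑ x, (P ^ s) u x * (φ x - φ u) ^ 2) * (∑ x', (P ^ s') v x')) := by
        rw [Finset.sum_mul_sum, Finset.sum_mul_sum, Finset.sum_mul_sum, Finset.sum_mul,
          ← Finset.sum_add_distrib, ← Finset.sum_add_distrib, Finset.mul_sum]
        refine Finset.sum_congr rfl (fun x _ => ?_)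
        rw [Finset.sum_mul, ← Finset.sum_add_distrib, ← Finset.sum_add_distrib, Finset.mul_sum]
    _ = _ := by
        rw [mat_sum_one hc s u, mat_sum_one hc s' v]
        ring

/-- The one coordinate estimate. -/
lemma coord_bound (hc : Rev π (fun a b => P a b)) (ψ φ : V → ℝ) (n : ℕ) :
    ∑ x, ∑ x', π x * (P ^ n) x x' * (|ψ x' - ψ x| * (φ x' - φ x) ^ 2) ≤
      ∑ s ∈ range n, ∑ u, ∑ v, π u * P u v * |ψ v - ψ u| *
        (3 * (∑ x', (P ^ (n - 1 - s)) v x' * (φ x' - φ v) ^ 2 + (φ v - φ u) ^ 2 +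
          ∑ x, (P ^ s) u x * (φ x - φ u) ^ 2)) := by
  have h1 : ∀ x x', π x * (P ^ n) x x' * (|ψ x' - ψ x| * (φ x' - φ x) ^ 2) ≤
      ∑ s ∈ range n, ∑ u, ∑ v, π u * P u v * |ψ v - ψ u| *
        ((P ^ s) u x * (P ^ (n - 1 - s)) v x' * (φ x' - φ x) ^ 2) := by
    intro x x'
    have h2 := kernel_triangle hc ψ n x x'
    have h3 : 0 ≤ π x * (φ x' - φ x) ^ 2 := mul_nonneg (hc.pi_nonneg x) (sq_nonneg _)
    calc π x * (P ^ n) x x' * (|ψ x' - ψ x| * (φ x' - φ x) ^ 2)
        = (π x * (φ x' - φ x) ^ 2) * (|ψ x' - ψ x| * (P ^ n) x x') := by ring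
      _ ≤ (π x * (φ x' - φ x) ^ 2) * ∑ s ∈ range n, ∑ u, ∑ v, (P ^ s) x u * P u v *
            |ψ v - ψ u| * (P ^ (n - 1 - s)) v x' :=
          mul_le_mul_of_nonneg_left h2 h3
      _ = _ := by
          rw [Finset.mul_sum]
          refine Finset.sum_congr rfl (fun s _ => ?_)
          rw [Finset.mul_sum]
          refine Finset.sum_congr rfl (fun u _ => ?_)
          rw [Finset.mul_sum]
          refine Finset.sum_congr rfl (fun v _ => ?_)
          have h4 := mat_rev hc s x u
          calc π x * (φ x' - φ x) ^ 2 * ((P ^ s) x u * P u v * |ψ v - ψ u| *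
                (P ^ (n - 1 - s)) v x')
              = (π x * (P ^ s) x u) * (P u v * |ψ v - ψ u| * (P ^ (n - 1 - s)) v x' *
                (φ x' - φ x) ^ 2) := by ring
            _ = (π u * (P ^ s) u x) * (P u v * |ψ v - ψ u| * (P ^ (n - 1 - s)) v x' *
                (φ x' - φ x) ^ 2) := by rw [h4]
            _ = _ := by ring
  calc ∑ x, ∑ x', π x * (P ^ n) x x' * (|ψ x' - ψ x| * (φ x' - φ x) ^ 2)
      ≤ ∑ x, ∑ x', ∑ s ∈ range n, ∑ u, ∑ v, π u * P u v * |ψ v - ψ u| *
          ((P ^ s) u x * (P ^ (n - 1 - s)) v x' * (φ x' - φ x) ^ 2) :=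
        Finset.sum_le_sum (fun x _ => Finset.sum_le_sum (fun x' _ => h1 x x'))
    _ = ∑ s ∈ range n, ∑ u, ∑ v, ∑ x, ∑ x', π u * P u v * |ψ v - ψ u| *
          ((P ^ s) u x * (P ^ (n - 1 - s)) v x' * (φ x' - φ x) ^ 2) := by
        rw [sum3_comm]
        refine Finset.sum_congr rfl (fun s _ => ?_)
        rw [sum3_comm]
        refine Finset.sum_congr rfl (fun u _ => ?_)
        rw [sum3_comm]
    _ ≤ _ := by
        refine Finset.sum_le_sum (fun s _ => Finset.sum_le_sum (fun u _ =>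
          Finset.sum_le_sum (fun v _ => ?_)))
        have h5 : 0 ≤ π u * P u v * |ψ v - ψ u| :=
          mul_nonneg (mul_nonneg (hc.pi_nonneg u) (hc.nonneg u v)) (abs_nonneg _)
        have h6 := split_bound hc φ s (n - 1 - s) u v
        calc ∑ x, ∑ x', π u * P u v * |ψ v - ψ u| *
              ((P ^ s) u x * (P ^ (n - 1 - s)) v x' * (φ x' - φ x) ^ 2)
            = π u * P u v * |ψ v - ψ u| * ∑ x, ∑ x', (P ^ s) u x * (P ^ (n - 1 - s)) v x' *
                (φ x' - φ x) ^ 2 := by
              rw [Finset.mul_sum]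
              refine Finset.sum_congr rfl (fun x _ => ?_)
              rw [Finset.mul_sum]
          _ ≤ _ := mul_le_mul_of_nonneg_left h6 h5

/-- Main estimate in the form of a sum over edges. -/
theorem pair_main (hc : Rev π (fun a b => P a b)) (f : V → ι → ℝ)
    (hLip : ∀ u v, P u v ≠ 0 → ∑ z, |f u z - f v z| ≤ 1) (n : ℕ)
    (M : ℕ → V → ℝ) (hM0 : ∀ k w, 0 ≤ M k w)
    (hJ : ∀ z k w, ∑ x, (P ^ k) w x * (segS f z x - segS f z w) ^ 2 ≤ M k w)
    (y : V → V → ι) :
    ∑ x, ∑ x', π x * (P ^ n) x x' * |segS f (y x x') x' - segS f (y x x') x| ^ 3 ≤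
      9 * ∑ s ∈ range n, (∑ v, π v * M (n - 1 - s) v + ∑ u, π u + ∑ u, π u * M s u) := by
  set φ := segS f with hφ
  set A : ι → ℝ := fun z => ∑ x, ∑ x', π x * (P ^ n) x x' *
      (|f x' z - f x z| * (φ z x' - φ z x) ^ 2) with hA
  -- plateau
  have step1 : ∑ x, ∑ x', π x * (P ^ n) x x' * |φ (y x x') x' - φ (y x x') x| ^ 3 ≤
      3 * ∑ z, A z := by
    have h0 : ∀ x x', |φ (y x x') x' - φ (y x x') x| ^ 3 ≤
        3 * ∑ z, |f x' z - f x z| * (φ z x' - φ z x) ^ 2 := by
      intro x x'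
      have e : ∀ z, ∑ z' with z' ≤ z, (f x' z' - f x z') = φ z x' - φ z x := by
        intro z
        simp only [hφ, segS]
        rw [Finset.sum_sub_distrib]
      have h1 := plateau (fun z => f x' z - f x z) (y x x')
      simp only [e] at h1
      exact h1
    calc ∑ x, ∑ x', π x * (P ^ n) x x' * |φ (y x x') x' - φ (y x x') x| ^ 3
        ≤ ∑ x, ∑ x', π x * (P ^ n) x x' *
            (3 * ∑ z, |f x' z - f x z| * (φ z x' - φ z x) ^ 2) :=
          Finset.sum_le_sum (fun x _ => Finset.sum_le_sum (fun x' _ =>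
            mul_le_mul_of_nonneg_left (h0 x x')
              (mul_nonneg (hc.pi_nonneg x) (mat_nonneg hc n x x'))))
      _ = ∑ x, ∑ x', ∑ z, 3 * (π x * (P ^ n) x x' *
            (|f x' z - f x z| * (φ z x' - φ z x) ^ 2)) := by
          refine Finset.sum_congr rfl (fun x _ => Finset.sum_congr rfl (fun x' _ => ?_))
          rw [Finset.mul_sum, Finset.mul_sum]
          refine Finset.sum_congr rfl (fun z _ => ?_)
          ring
      _ = ∑ z, ∑ x, ∑ x', 3 * (π x * (P ^ n) x x' *
            (|f x' z - f x z| * (φ z x' - φ z x) ^ 2)) := sum3_comm _ _ _ _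
      _ = 3 * ∑ z, A z := by
          rw [Finset.mul_sum]
          refine Finset.sum_congr rfl (fun z _ => ?_)
          simp only [hA]
          rw [Finset.mul_sum]
          refine Finset.sum_congr rfl (fun x _ => ?_)
          rw [Finset.mul_sum]
  -- each coordinate
  have step2 : ∀ z, A z ≤ ∑ s ∈ range n, ∑ u, ∑ v, π u * P u v * |f u z - f v z| *
      (3 * (M (n - 1 - s) v + (φ z v - φ z u) ^ 2 + M s u)) := by
    intro z
    refine (coord_bound hc (fun w => f w z) (φ z) n).trans ?_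
    refine Finset.sum_le_sum (fun s _ => Finset.sum_le_sum (fun u _ =>
      Finset.sum_le_sum (fun v _ => ?_)))
    rw [abs_sub_comm (f v z) (f u z)]
    apply mul_le_mul_of_nonneg_left _
      (mul_nonneg (mul_nonneg (hc.pi_nonneg u) (hc.nonneg u v)) (abs_nonneg _))
    apply mul_le_mul_of_nonneg_left _ (by norm_num)
    have h1 := hJ z (n - 1 - s) v
    have h2 := hJ z s u
    linarith
  -- sum over coordinates
  have step3 : ∑ z, A z ≤ ∑ s ∈ range n, 3 * ∑ u, ∑ v, π u * P u v *
      (M (n - 1 - s) v + 1 + M s u) := by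
    calc ∑ z, A z ≤ ∑ z, ∑ s ∈ range n, ∑ u, ∑ v, π u * P u v * |f u z - f v z| *
          (3 * (M (n - 1 - s) v + (φ z v - φ z u) ^ 2 + M s u)) :=
          Finset.sum_le_sum (fun z _ => step2 z)
      _ = ∑ s ∈ range n, ∑ u, ∑ v, ∑ z, π u * P u v * |f u z - f v z| *
          (3 * (M (n - 1 - s) v + (φ z v - φ z u) ^ 2 + M s u)) := by
          rw [Finset.sum_comm]
          refine Finset.sum_congr rfl (fun s _ => ?_)
          rw [Finset.sum_comm]
          refine Finset.sum_congr rfl (fun u _ => ?_)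
          rw [Finset.sum_comm]
      _ ≤ ∑ s ∈ range n, ∑ u, ∑ v, 3 * (π u * P u v * (M (n - 1 - s) v + 1 + M s u)) := by
          refine Finset.sum_le_sum (fun s _ => Finset.sum_le_sum (fun u _ =>
            Finset.sum_le_sum (fun v _ => ?_)))
          by_cases hP : P u v = 0
          · simp [hP]
          · have h1 := hLip u v hP
            have h2 : ∀ z, (φ z v - φ z u) ^ 2 ≤ 1 := by
              intro z
              have h3 := segS_lip f hLip z u v hP
              rw [← sq_abs]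
              nlinarith [abs_nonneg (φ z v - φ z u)]
            have h4 : 0 ≤ M (n - 1 - s) v + 1 + M s u := by
              have := hM0 (n - 1 - s) v
              have := hM0 s u
              linarith
            have h5 : 0 ≤ π u * P u v := mul_nonneg (hc.pi_nonneg u) (hc.nonneg u v)
            calc ∑ z, π u * P u v * |f u z - f v z| *
                  (3 * (M (n - 1 - s) v + (φ z v - φ z u) ^ 2 + M s u))
                ≤ ∑ z, π u * P u v * |f u z - f v z| * (3 * (M (n - 1 - s) v + 1 + M s u)) := by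
                  refine Finset.sum_le_sum (fun z _ => ?_)
                  apply mul_le_mul_of_nonneg_left _ (mul_nonneg h5 (abs_nonneg _))
                  have := h2 z
                  linarith
              _ = 3 * (π u * P u v * (M (n - 1 - s) v + 1 + M s u)) * ∑ z, |f u z - f v z| := by
                  rw [Finset.mul_sum]
                  refine Finset.sum_congr rfl (fun z _ => ?_)
                  ring
              _ ≤ 3 * (π u * P u v * (M (n - 1 - s) v + 1 + M s u)) * 1 :=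
                  mul_le_mul_of_nonneg_left h1 (by positivity)
              _ = _ := mul_one _
      _ = _ := by
          refine Finset.sum_congr rfl (fun s _ => ?_)
          rw [Finset.mul_sum]
          refine Finset.sum_congr rfl (fun u _ => ?_)
          rw [Finset.mul_sum]
  have step4 : ∀ s, ∑ u, ∑ v, π u * P u v * (M (n - 1 - s) v + 1 + M s u) =
      ∑ v, π v * M (n - 1 - s) v + ∑ u, π u + ∑ u, π u * M s u := by
    intro s
    have h1 := edge_stat_right hc (M (n - 1 - s))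
    have h2 := edge_stat_left hc (M s)
    have h3 := edge_stat_left hc (fun _ => (1 : ℝ))
    simp only [mul_one] at h3
    rw [← h1, ← h2, ← h3, ← Finset.sum_add_distrib, ← Finset.sum_add_distrib]
    refine Finset.sum_congr rfl (fun u _ => ?_)
    rw [← Finset.sum_add_distrib, ← Finset.sum_add_distrib]
    refine Finset.sum_congr rfl (fun v _ => ?_)
    ring
  calc ∑ x, ∑ x', π x * (P ^ n) x x' * |φ (y x x') x' - φ (y x x') x| ^ 3
      ≤ 3 * ∑ z, A z := step1
    _ ≤ 3 * ∑ s ∈ range n, 3 * ∑ u, ∑ v, π u * P u v * (M (n - 1 - s) v + 1 + M s u) := by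
        apply mul_le_mul_of_nonneg_left step3 (by norm_num)
    _ = 9 * ∑ s ∈ range n, (∑ v, π v * M (n - 1 - s) v + ∑ u, π u + ∑ u, π u * M s u) := by
        simp only [step4]
        rw [← Finset.mul_sum]
        ring

end Vale.Agent.Lib.P125
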