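import Vale.Agent.Lib.P125.Pair4

open Finset BigOperators

namespace Vale.Agent.Lib.P125

variable {V : Type*} [Fintype V] [DecidableEq V] {π : V → ℝ} {P : Matrix V V ℝ}
variable {ι : Type*} [Fintype ι] [LinearOrder ι]

/-- Explicit majorant of the second moment. -/
def majM (p : V → V → ℝ) (Dm : ℕ → V → ℝ) : ℕ → V → ℝ
  | 0, _ => 0
  | k + 1, w => (k + 1 : ℝ) + 2 * ∑ l ∈ range k, pw p (l + 1) (Dm (k - l)) w

lemma majM_nonneg (hc : Rev π (fun a b => P a b)) (Dm : ℕ → V → ℝ)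
    (hD : ∀ L x, 0 ≤ Dm L x) (k : ℕ) (w : V) : 0 ≤ majM (fun a b => P a b) Dm k w := by
  cases k with
  | zero => exact le_rfl
  | succ k =>
    have h1 : 0 ≤ ∑ l ∈ range k, pw (fun a b => P a b) (l + 1) (Dm (k - l)) w :=
      Finset.sum_nonneg (fun l _ => pw_nonneg hc _ (hD _) w)
    simp only [majM]
    positivity

/-- The main theorem, with an abstract cube root parameter. -/
theorem pair_kappa [Nonempty ι] (hc : Rev π (fun a b => P a b)) (hπ1 : ∑ x, π x = 1)
    (f : V → ι → ℝ) (hLip : ∀ u v, P u v ≠ 0 → ∑ z, |f u z - f v z| ≤ 1) (n : ℕ)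
    (κ : ℝ) (hκ : 0 < κ) (hn : 3 * (n : ℝ) ≤ κ ^ 3) (y : V → V → ι) :
    ∑ x, ∑ x', π x * (P ^ n) x x' * |segS f (y x x') x' - segS f (y x x') x| ^ 3 ≤
      9 * n * (2 * n + 4 * n * κ ^ 2 + 1) := by
  set p : V → V → ℝ := fun a b => P a b with hp
  have hsel : ∀ (L : ℕ) (x : V), ∃ y' : ι, ∀ z, |segS f z x - pw p L (segS f z) x| ≤
      |segS f y' x - pw p L (segS f y') x| := by
    intro L x
    obtain ⟨y', _, hy'⟩ := Finset.exists_max_image (Finset.univ : Finset ι)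
      (fun z => |segS f z x - pw p L (segS f z) x|) Finset.univ_nonempty
    exact ⟨y', fun z => hy' z (Finset.mem_univ _)⟩
  choose ys hys using hsel
  set Dm : ℕ → V → ℝ := fun L x => |segS f (ys L x) x - pw p L (segS f (ys L x)) x| with hDm
  have hDm0 : ∀ L x, 0 ≤ Dm L x := fun L x => abs_nonneg _
  have hDmean : ∀ L, L ≤ n → ∑ x, π x * Dm L x ≤ κ ^ 2 := by
    intro L hL
    have h1 : 3 * (L : ℝ) ≤ κ ^ 3 := by
      have : (L : ℝ) ≤ n := by exact_mod_cast hL
      linarith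
    exact drift_mean hc hπ1 f hLip L κ hκ h1 (ys L)
  set M := majM p Dm with hM
  have hM0 : ∀ k w, 0 ≤ M k w := majM_nonneg hc Dm hDm0
  have hJ : ∀ z k w, ∑ x, (P ^ k) w x * (segS f z x - segS f z w) ^ 2 ≤ M k w := by
    intro z k w
    have e : ∑ x, (P ^ k) w x * (segS f z x - segS f z w) ^ 2 =
        pw p k (fun x => (segS f z x - segS f z w) ^ 2) w :=
      (pw_eq_matrix P k _ w).symm
    rw [e]
    cases k with
    | zero => simp [hM, majM]
    | succ k =>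
      have hφ : ∀ u v, p u v ≠ 0 → |segS f z v - segS f z u| ≤ 1 :=
        fun u v h => segS_lip f hLip z u v h
      refine (second_moment_bound hc hφ w k).trans ?_
      simp only [hM, majM]
      refine add_le_add le_rfl ?_
      apply mul_le_mul_of_nonneg_left _ (by norm_num)
      refine Finset.sum_le_sum (fun l _ => ?_)
      apply pw_mono hc
      intro x
      exact hys (k - l) x z
  have hMmean : ∀ k, k < n → ∑ w, π w * M k w ≤ n + 2 * n * κ ^ 2 := by
    intro k hk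
    have hκ2 : 0 ≤ κ ^ 2 := by positivity
    cases k with
    | zero =>
      have h1 : ∑ w, π w * M 0 w = 0 := by simp [hM, majM]
      rw [h1]
      positivity
    | succ k =>
      have h1 : ∑ w, π w * M (k + 1) w = (k + 1 : ℝ) + 2 * ∑ l ∈ range k, ∑ w, π w * Dm (k - l) w := by
        simp only [hM, majM]
        have h2 : ∀ w, π w * ((k + 1 : ℝ) + 2 * ∑ l ∈ range k, pw p (l + 1) (Dm (k - l)) w) =
            (k + 1 : ℝ) * π w + 2 * ∑ l ∈ range k, π w * pw p (l + 1) (Dm (k - l)) w := by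
          intro w
          rw [mul_add, Finset.mul_sum, Finset.mul_sum, Finset.mul_sum]
          congr 1
          · ring
          · refine Finset.sum_congr rfl (fun l _ => ?_)
            ring
        simp only [h2]
        rw [Finset.sum_add_distrib, ← Finset.mul_sum, hπ1, mul_one, ← Finset.mul_sum,
          Finset.sum_comm]
        congr 2
        refine Finset.sum_congr rfl (fun l _ => ?_)
        exact pw_stationary hc (l + 1) (Dm (k - l))
      rw [h1]
      have h3 : ∑ l ∈ range k, ∑ w, π w * Dm (k - l) w ≤ ∑ l ∈ range k, κ ^ 2 := by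
        refine Finset.sum_le_sum (fun l _ => hDmean _ ?_)
        omega
      rw [Finset.sum_const, Finset.card_range, nsmul_eq_mul] at h3
      have hk1 : (k + 1 : ℝ) ≤ n := by
        have : k + 1 ≤ n := by omega
        exact_mod_cast this
      have hk2 : (k : ℝ) ≤ n := by linarith
      have h4 : (k : ℝ) * κ ^ 2 ≤ n * κ ^ 2 := mul_le_mul_of_nonneg_right hk2 hκ2
      linarith
  have hmain := pair_main hc f hLip n M hM0 hJ y
  refine hmain.trans ?_
  have hsum : ∑ s ∈ range n, (∑ v, π v * M (n - 1 - s) v + ∑ u, π u + ∑ u, π u * M s u) ≤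
      ∑ s ∈ range n, ((n + 2 * n * κ ^ 2) + 1 + (n + 2 * n * κ ^ 2)) := by
    refine Finset.sum_le_sum (fun s hs => ?_)
    have hs' : s < n := Finset.mem_range.mp hs
    have h1 := hMmean (n - 1 - s) (by omega)
    have h2 := hMmean s hs'
    rw [hπ1]
    linarith
  rw [Finset.sum_const, Finset.card_range, nsmul_eq_mul] at hsum
  calc 9 * ∑ s ∈ range n, (∑ v, π v * M (n - 1 - s) v + ∑ u, π u + ∑ u, π u * M s u)
      ≤ 9 * ((n : ℝ) * ((n + 2 * n * κ ^ 2) + 1 + (n + 2 * n * κ ^ 2))) := by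
        apply mul_le_mul_of_nonneg_left hsum (by norm_num)
    _ = _ := by ring

/-- Final form. -/
theorem pair_summing (π : V → ℝ) (P : Matrix V V ℝ)
    (hπ : ∀ x, 0 ≤ π x) (hP : ∀ x y, 0 ≤ P x y) (hS : ∀ x, ∑ y, P x y = 1)
    (hR : ∀ x y, π x * P x y = π y * P y x) (hπ1 : ∑ x, π x = 1)
    (f : V → ι → ℝ) (hLip : ∀ u v, P u v ≠ 0 → ∑ z, |f u z - f v z| ≤ 1)
    (n : ℕ) (hn : 1 ≤ n) :
    ∑ x, ∑ x', π x * (P ^ n) x x' *
        (⨆ y : ι, |∑ z with z ≤ y, (f x' z - f x z)|) ^ 3 ≤ 103 * (n : ℝ) ^ (8 / 3 : ℝ) := by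
  have hc : Rev π (fun a b => P a b) := ⟨hπ, hP, hS, hR⟩
  have hnR : (1 : ℝ) ≤ n := by exact_mod_cast hn
  have hn0 : (0 : ℝ) < n := by linarith
  -- cube roots
  set t : ℝ := (n : ℝ) ^ (1 / 3 : ℝ) with ht
  have ht0 : 0 < t := Real.rpow_pos_of_pos hn0 _
  have ht3 : t ^ 3 = n := by
    rw [ht, ← Real.rpow_natCast, ← Real.rpow_mul hn0.le]
    norm_num
  have ht8 : (n : ℝ) ^ (8 / 3 : ℝ) = t ^ 8 := by
    rw [ht, ← Real.rpow_natCast, ← Real.rpow_mul hn0.le]
    norm_num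
  have ht1 : 1 ≤ t := by
    by_contra h
    push Not at h
    have : t ^ 3 < 1 := pow_lt_one₀ ht0.le h (by norm_num)
    linarith
  set κ : ℝ := (3 * (n : ℝ)) ^ (1 / 3 : ℝ) with hκdef
  have hκ0 : 0 < κ := Real.rpow_pos_of_pos (by positivity) _
  have hκ3 : κ ^ 3 = 3 * n := by
    rw [hκdef, ← Real.rpow_natCast, ← Real.rpow_mul (by positivity)]
    norm_num
  have hκ2 : κ ^ 2 ≤ (21 / 10) * t ^ 2 := by
    have h1 : (κ ^ 2) ^ 3 ≤ ((21 / 10) * t ^ 2) ^ 3 := by
      have e1 : (κ ^ 2) ^ 3 = (κ ^ 3) ^ 2 := by ring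
      have e2 : ((21 / 10) * t ^ 2) ^ 3 = (9261 / 1000) * (t ^ 3) ^ 2 := by ring
      rw [e1, e2, hκ3, ht3]
      nlinarith [sq_nonneg (n : ℝ)]
    exact (pow_le_pow_iff_left₀ (by positivity) (by positivity) (by norm_num)).mp h1
  have hRHS : 9 * (n : ℝ) * (2 * n + 4 * n * κ ^ 2 + 1) ≤ 103 * t ^ 8 := by
    have e : t ^ 8 = (n : ℝ) ^ 2 * t ^ 2 := by
      rw [← ht3]; ring
    rw [e]
    have h1 : 1 ≤ t ^ 2 := one_le_pow₀ ht1
    have h2 : (n : ℝ) ^ 2 * κ ^ 2 ≤ (n : ℝ) ^ 2 * ((21 / 10) * t ^ 2) :=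
      mul_le_mul_of_nonneg_left hκ2 (by positivity)
    have h3 : (n : ℝ) ≤ (n : ℝ) ^ 2 := by nlinarith
    have h4 : (n : ℝ) ^ 2 ≤ (n : ℝ) ^ 2 * t ^ 2 := by
      have : 0 ≤ (n : ℝ) ^ 2 := by positivity
      nlinarith
    nlinarith
  rw [ht8]
  by_cases hι : Nonempty ι
  · have hsel : ∀ x x', ∃ y : ι, |∑ z with z ≤ y, (f x' z - f x z)| =
        ⨆ y : ι, |∑ z with z ≤ y, (f x' z - f x z)| := by
      intro x x'
      exact exists_eq_ciSup_of_finite
    choose y hy using hsel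
    have h := pair_kappa hc hπ1 f hLip n κ hκ0 (by rw [hκ3]) y
    have e : ∀ x x', (⨆ y : ι, |∑ z with z ≤ y, (f x' z - f x z)|) ^ 3 =
        |segS f (y x x') x' - segS f (y x x') x| ^ 3 := by
      intro x x'
      rw [← hy x x']
      congr 2
      simp only [segS]
      rw [Finset.sum_sub_distrib]
    simp only [e]
    exact h.trans hRHS
  · have : IsEmpty ι := not_nonempty_iff.mp hι
    simp
    positivity

end Vale.Agent.Lib.P125
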