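import Vale.Agent.Lib.P125.VarRec

open Finset BigOperators

namespace Vale.Agent.Lib.P125

set_option linter.unusedSectionVars false

variable {V : Type*} [Fintype V] {π : V → ℝ} {P : V → V → ℝ}

/-- Reversal of a two variable function under `π ⊗ P^t`. -/
lemma pw_rev2 (hc : Rev π P) (t : ℕ) (Ξ : V → V → ℝ) :
    ∑ x, π x * pw P t (Ξ x) x = ∑ y, π y * pw P t (fun x => Ξ x y) y := by
  induction t generalizing Ξ with
  | zero => rfl
  | succ t ih =>
    have h1 : ∀ x, pw P (t + 1) (Ξ x) x = pw P t (fun y => op P (Ξ x) y) x := by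
      intro x
      rw [pw_succ']
    simp only [h1]
    rw [ih (fun x y => op P (Ξ x) y)]
    have h2 : ∀ w, pw P t (fun x => op P (Ξ x) w) w = ∑ y, P w y * pw P t (fun x => Ξ x y) w := by
      intro w
      have e : (fun x => op P (Ξ x) w) = fun x => ∑ y, P w y * Ξ x y := rfl
      rw [e]
      have e2 := congrFun (pw_sum (P := P) t Finset.univ (fun y x => P w y * Ξ x y)) w
      rw [e2]
      refine Finset.sum_congr rfl (fun y _ => ?_)
      exact congrFun (pw_const_mul (P := P) t (P w y) (fun x => Ξ x y)) w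
    have h3 : ∀ y, pw P (t + 1) (fun x => Ξ x y) y = ∑ w, P y w * pw P t (fun x => Ξ x y) w :=
      fun y => rfl
    simp only [h2, h3, Finset.mul_sum]
    rw [Finset.sum_comm]
    refine Finset.sum_congr rfl (fun y _ => Finset.sum_congr rfl (fun w _ => ?_))
    have := hc.rev w y
    calc π w * (P w y * pw P t (fun x => Ξ x y) w)
        = (π w * P w y) * pw P t (fun x => Ξ x y) w := by ring
      _ = (π y * P y w) * pw P t (fun x => Ξ x y) w := by rw [this]
      _ = π y * (P y w * pw P t (fun x => Ξ x y) w) := by ring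

/-- The two sided kernel around an edge. -/
def ten (P : V → V → ℝ) (s r : ℕ) (Φ : V → V → ℝ) (a b : V) : ℝ :=
  pw P s (fun x => pw P r (Φ x) b) a

/-- Telescoping a coordinate along the path, in operator form. -/
lemma path_sum (hc : Rev π P) (D : V → ℝ) (t : ℕ) (Φ : V → V → ℝ) (hΦ : ∀ x y, 0 ≤ Φ x y) :
    ∑ x, π x * pw P t (fun w => |D w - D x| * Φ x w) x ≤
      ∑ s ∈ range t, ∑ a, ∑ b, π a * P a b * (|D b - D a| * ten P s (t - 1 - s) Φ a b) := by
  induction t generalizing Φ with
  | zero => simp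
  | succ t ih =>
    set Φ' : V → V → ℝ := fun x y => op P (Φ x) y with hΦ'
    have hΦ'0 : ∀ x y, 0 ≤ Φ' x y := fun x y =>
      Finset.sum_nonneg (fun w _ => mul_nonneg (hc.nonneg y w) (hΦ x w))
    set Ξ : V → V → ℝ := fun x y => ∑ w, P y w * (|D w - D y| * Φ x w) with hΞ
    have hpt : ∀ x, pw P (t + 1) (fun w => |D w - D x| * Φ x w) x ≤
        pw P t (fun y => |D y - D x| * Φ' x y) x + pw P t (Ξ x) x := by
      intro x
      rw [pw_succ']
      have h1 : ∀ y, op P (fun w => |D w - D x| * Φ x w) y ≤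
          |D y - D x| * Φ' x y + Ξ x y := by
        intro y
        have e1 : |D y - D x| * Φ' x y = ∑ w, P y w * (|D y - D x| * Φ x w) := by
          simp only [hΦ', op, Finset.mul_sum]
          exact Finset.sum_congr rfl (fun w _ => by ring)
        rw [e1, hΞ, ← Finset.sum_add_distrib]
        refine Finset.sum_le_sum (fun w _ => ?_)
        rw [← mul_add]
        refine mul_le_mul_of_nonneg_left ?_ (hc.nonneg y w)
        rw [← add_mul]
        refine mul_le_mul_of_nonneg_right ?_ (hΦ x w)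
        calc |D w - D x| = |(D y - D x) + (D w - D y)| := by ring_nf
          _ ≤ |D y - D x| + |D w - D y| := abs_add_le _ _
      have h2 := pw_mono hc t h1 x
      have e2 := congrFun (pw_add_fun (P := P) t (fun y => |D y - D x| * Φ' x y) (Ξ x)) x
      rw [e2] at h2
      exact h2
    have hsum : ∑ x, π x * pw P (t + 1) (fun w => |D w - D x| * Φ x w) x ≤
        ∑ x, π x * pw P t (fun y => |D y - D x| * Φ' x y) x + ∑ x, π x * pw P t (Ξ x) x := by
      rw [← Finset.sum_add_distrib]
      refine Finset.sum_le_sum (fun x _ => ?_)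
      rw [← mul_add]
      exact mul_le_mul_of_nonneg_left (hpt x) (hc.pi_nonneg x)
    refine hsum.trans ?_
    rw [Finset.sum_range_succ]
    refine add_le_add ((ih Φ' hΦ'0).trans (le_of_eq ?_)) (le_of_eq ?_)
    · refine Finset.sum_congr rfl (fun s hs => Finset.sum_congr rfl (fun a _ =>
        Finset.sum_congr rfl (fun b _ => ?_)))
      have hs' : s < t := Finset.mem_range.mp hs
      have e : t + 1 - 1 - s = (t - 1 - s) + 1 := by omega
      rw [e]
      congr 2
      unfold ten
      congr 1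
      funext x
      rw [pw_succ']
    · rw [pw_rev2 hc]
      refine Finset.sum_congr rfl (fun y _ => ?_)
      have e1 : pw P t (fun x => Ξ x y) y =
          ∑ w, P y w * (|D w - D y| * pw P t (fun x => Φ x w) y) := by
        have e2 := congrFun (pw_sum (P := P) t Finset.univ
          (fun w x => P y w * (|D w - D y| * Φ x w))) y
        simp only [hΞ]
        rw [e2]
        refine Finset.sum_congr rfl (fun w _ => ?_)
        have e3 := congrFun (pw_const_mul (P := P) t (P y w * |D w - D y|)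
          (fun x => Φ x w)) y
        have e4 : (fun x => P y w * (|D w - D y| * Φ x w)) =
            (fun x => (P y w * |D w - D y|) * Φ x w) := by
          funext x; ring
        rw [e4, e3]
        ring
      rw [e1, Finset.mul_sum]
      refine Finset.sum_congr rfl (fun w _ => ?_)
      have e5 : t + 1 - 1 - t = 0 := by omega
      rw [e5]
      unfold ten
      simp only [pw_zero]
      ring

section main
variable {ι : Type*} [LinearOrder ι] [Fintype ι]

/-- Summing the telescoping over the coordinates. -/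
lemma peak_path (hc : Rev π P) (f : V → ι → ℝ) (t : ℕ) (Φ : ι → V → V → ℝ)
    (hΦ : ∀ z x y, 0 ≤ Φ z x y) (M : ℕ → ℕ → V → V → ℝ)
    (hM : ∀ z s r a b, ten P s r (Φ z) a b ≤ M s r a b) :
    ∑ x, π x * pw P t (fun w => ∑ z, |f w z - f x z| * Φ z x w) x ≤
      ∑ s ∈ range t, ∑ a, ∑ b, π a * P a b * (gd f a b * M s (t - 1 - s) a b) := by
  have h1 : ∀ x, pw P t (fun w => ∑ z, |f w z - f x z| * Φ z x w) x =
      ∑ z, pw P t (fun w => |f w z - f x z| * Φ z x w) x := fun x =>
    congrFun (pw_sum (P := P) t Finset.univ (fun z w => |f w z - f x z| * Φ z x w)) x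
  simp only [h1, Finset.mul_sum]
  rw [Finset.sum_comm]
  have h2 : ∀ z, ∑ x, π x * pw P t (fun w => |f w z - f x z| * Φ z x w) x ≤
      ∑ s ∈ range t, ∑ a, ∑ b, π a * P a b * (|f b z - f a z| * M s (t - 1 - s) a b) := by
    intro z
    refine (path_sum hc (fun w => f w z) t (Φ z) (hΦ z)).trans ?_
    refine Finset.sum_le_sum (fun s _ => Finset.sum_le_sum (fun a _ =>
      Finset.sum_le_sum (fun b _ => ?_)))
    refine mul_le_mul_of_nonneg_left ?_ (mul_nonneg (hc.pi_nonneg a) (hc.nonneg a b))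
    exact mul_le_mul_of_nonneg_left (hM z s _ a b) (abs_nonneg _)
  refine (Finset.sum_le_sum (fun z _ => h2 z)).trans (le_of_eq ?_)
  rw [Finset.sum_comm]
  refine Finset.sum_congr rfl (fun s _ => ?_)
  rw [Finset.sum_comm]
  refine Finset.sum_congr rfl (fun a _ => ?_)
  rw [Finset.sum_comm]
  refine Finset.sum_congr rfl (fun b _ => ?_)
  rw [← Finset.mul_sum, ← Finset.sum_mul]
  congr 2
  exact Finset.sum_congr rfl (fun z _ => abs_sub_comm _ _)

/-- The second moment majorant. -/
noncomputable def Bs (P : V → V → ℝ) (f : V → ι → ℝ) (r : ℕ) (x : V) : ℝ :=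
  Vs P f r x + As P f r x ^ 2

lemma Bs_nonneg (hc : Rev π P) (f : V → ι → ℝ) (r : ℕ) (x : V) : 0 ≤ Bs P f r x :=
  add_nonneg (Vs_nonneg hc f r x) (sq_nonneg _)

lemma moment_le_Bs (hc : Rev π P) (f : V → ι → ℝ) (r : ℕ) (z : ι) (x : V) :
    pw P r (fun y => (sm f z y - sm f z x) ^ 2) x ≤ Bs P f r x := by
  rw [moment_eq hc]
  refine add_le_add (le_Vs f r z x) ?_
  rw [← sq_abs (pw P r (sm f z) x - sm f z x)]
  exact pow_le_pow_left₀ (abs_nonneg _) (le_As f r z x) 2

theorem sum_Bs_le (hc : Rev π P) (f : V → ι → ℝ) (r : ℕ) :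
    ∑ x, π x * Bs P f r x ≤ 154 * r * √r * En π P f := by
  have h1 := sum_Vs_le hc f r
  have h2 := sum_As_sq_le hc f r
  have e : ∑ x, π x * Bs P f r x = ∑ x, π x * Vs P f r x + ∑ x, π x * As P f r x ^ 2 := by
    rw [← Finset.sum_add_distrib]
    exact Finset.sum_congr rfl (fun x _ => by unfold Bs; ring)
  rw [e]
  have hE := En_nonneg hc f
  have h3 : 0 ≤ (r : ℝ) * √r * En π P f := by positivity
  nlinarith

lemma pw_const_add (hc : Rev π P) (n : ℕ) (c : ℝ) (h : V → ℝ) (x : V) :
    pw P n (fun y => c + h y) x = c + pw P n h x := by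
  have := congrFun (pw_add_fun (P := P) n (fun _ => c) h) x
  rw [this, pw_const hc]

/-- The two sided second moment around an edge. -/
lemma ten_cube_le (hc : Rev π P) (f : V → ι → ℝ) (z : ι) (s r : ℕ) (a b : V) :
    ten P s r (fun x w => (sm f z w - sm f z x) ^ 2) a b ≤
      3 * (Bs P f r b + gd f a b ^ 2 + Bs P f s a) := by
  set h := sm f z with hh
  have hgd : (h b - h a) ^ 2 ≤ gd f a b ^ 2 := by
    rw [← sq_abs (h b - h a)]
    exact pow_le_pow_left₀ (abs_nonneg _) (abs_sm_sub_le f z a b) 2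
  have inner : ∀ x, pw P r (fun w => (h w - h x) ^ 2) b ≤
      3 * Bs P f r b + 3 * gd f a b ^ 2 + 3 * (h x - h a) ^ 2 := by
    intro x
    have h1 : pw P r (fun w => (h w - h x) ^ 2) b ≤
        pw P r (fun w => (3 * (h b - h a) ^ 2 + 3 * (h x - h a) ^ 2)
          + 3 * (h w - h b) ^ 2) b := by
      apply pw_mono hc
      intro w
      nlinarith [sq_nonneg ((h w - h b) - (h b - h a)), sq_nonneg ((h w - h b) + (h x - h a)),
        sq_nonneg ((h b - h a) + (h x - h a))]
    rw [pw_const_add hc] at h1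
    have e1 := congrFun (pw_const_mul (P := P) r 3 (fun w => (h w - h b) ^ 2)) b
    rw [e1] at h1
    have h2 := moment_le_Bs hc f r z b
    nlinarith
  unfold ten
  have h1 := pw_mono hc s inner a
  refine h1.trans ?_
  have e2 : (fun x => 3 * Bs P f r b + 3 * gd f a b ^ 2 + 3 * (h x - h a) ^ 2) =
      (fun x => (3 * Bs P f r b + 3 * gd f a b ^ 2) + 3 * (h x - h a) ^ 2) := rfl
  rw [e2, pw_const_add hc]
  have e1 := congrFun (pw_const_mul (P := P) s 3 (fun x => (h x - h a) ^ 2)) a
  rw [e1]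
  have h2 := moment_le_Bs hc f s z a
  nlinarith

/-- First moment version. -/
lemma pw_abs_le_sqrt (hc : Rev π P) (f : V → ι → ℝ) (z : ι) (r : ℕ) (b : V) :
    pw P r (fun w => |sm f z w - sm f z b|) b ≤ √(Bs P f r b) := by
  apply Real.le_sqrt_of_sq_le
  refine (sq_pw_le hc r _ b).trans ?_
  refine le_trans (le_of_eq ?_) (moment_le_Bs hc f r z b)
  congr 1
  funext w
  exact sq_abs _

lemma ten_abs_le (hc : Rev π P) (f : V → ι → ℝ) (z : ι) (s r : ℕ) (a b : V) :
    ten P s r (fun x w => |sm f z w - sm f z x|) a b ≤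
      √(Bs P f r b) + gd f a b + √(Bs P f s a) := by
  set h := sm f z with hh
  have hgd : |h b - h a| ≤ gd f a b := abs_sm_sub_le f z a b
  have inner : ∀ x, pw P r (fun w => |h w - h x|) b ≤
      √(Bs P f r b) + gd f a b + |h x - h a| := by
    intro x
    have h1 : pw P r (fun w => |h w - h x|) b ≤
        pw P r (fun w => (|h b - h a| + |h x - h a|) + |h w - h b|) b := by
      apply pw_mono hc
      intro w
      calc |h w - h x| = |(h w - h b) + (h b - h a) + (-(h x - h a))| := by ring_nf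
        _ ≤ |(h w - h b) + (h b - h a)| + |-(h x - h a)| := abs_add_le _ _
        _ ≤ |h w - h b| + |h b - h a| + |-(h x - h a)| := by
            gcongr
            exact abs_add_le _ _
        _ = |h b - h a| + |h x - h a| + |h w - h b| := by rw [abs_neg]; ring
    rw [pw_const_add hc] at h1
    have h2 := pw_abs_le_sqrt hc f z r b
    linarith
  unfold ten
  have h1 := pw_mono hc s inner a
  refine h1.trans ?_
  have e2 : (fun x => √(Bs P f r b) + gd f a b + |h x - h a|) =
      (fun x => (√(Bs P f r b) + gd f a b) + |h x - h a|) := rfl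
  rw [e2, pw_const_add hc]
  have h2 := pw_abs_le_sqrt hc f z s a
  linarith

/-- The two point displacement in the summing norm. -/
noncomputable def cc (f : V → ι → ℝ) (x w : V) : ℝ := ⨆ y : ι, |∑ z with z ≤ y, (f w z - f x z)|

lemma cc_nonneg (f : V → ι → ℝ) (x w : V) : 0 ≤ cc f x w :=
  Real.iSup_nonneg (fun _ => abs_nonneg _)

lemma sum_le_eq_sm (f : V → ι → ℝ) (x w : V) (z : ι) :
    ∑ z' with z' ≤ z, (f w z' - f x z') = sm f z w - sm f z x := by
  unfold sm
  rw [Finset.sum_sub_distrib]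

lemma cc_cube_le (f : V → ι → ℝ) (x w : V) :
    cc f x w ^ 3 ≤ 3 * ∑ z, |f w z - f x z| * (sm f z w - sm f z x) ^ 2 := by
  by_cases hι : Nonempty ι
  · obtain ⟨y, hy⟩ : ∃ y : ι, |∑ z with z ≤ y, (f w z - f x z)| = cc f x w :=
      exists_eq_ciSup_of_finite
    rw [← hy]
    have h := plateau (fun z => f w z - f x z) y
    simp only [sum_le_eq_sm] at h
    rw [sum_le_eq_sm]
    exact h
  · have : IsEmpty ι := not_nonempty_iff.mp hι
    simp [cc]

lemma cc_sq_le (f : V → ι → ℝ) (x w : V) :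
    cc f x w ^ 2 ≤ 2 * ∑ z, |f w z - f x z| * |sm f z w - sm f z x| := by
  by_cases hι : Nonempty ι
  · obtain ⟨y, hy⟩ : ∃ y : ι, |∑ z with z ≤ y, (f w z - f x z)| = cc f x w :=
      exists_eq_ciSup_of_finite
    rw [← hy]
    have h := plateau_two (fun z => f w z - f x z) y
    simp only [sum_le_eq_sm] at h
    rw [sum_le_eq_sm]
    exact h
  · have : IsEmpty ι := not_nonempty_iff.mp hι
    simp [cc]

lemma edge_fst (hc : Rev π P) (ξ : V → ℝ) :
    ∑ a, ∑ b, π a * P a b * ξ a = ∑ a, π a * ξ a := by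
  refine Finset.sum_congr rfl (fun a _ => ?_)
  rw [← Finset.sum_mul, ← Finset.mul_sum, hc.sum_one, mul_one]

lemma edge_snd (hc : Rev π P) (ξ : V → ℝ) :
    ∑ a, ∑ b, π a * P a b * ξ b = ∑ a, π a * ξ a := by
  rw [edge_symm hc (fun _ b => ξ b)]
  exact edge_fst hc ξ

/-- All `f`: the `L²` two point inequality, operator form. -/
theorem two_point_sq (hc : Rev π P) (f : V → ι → ℝ) (t : ℕ) (ht : 1 ≤ t) :
    ∑ x, π x * pw P t (fun w => cc f x w ^ 2) x ≤ 52 * t * √(t * √t) * En π P f := by
  have htR : (1 : ℝ) ≤ t := by exact_mod_cast ht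
  have hst : (1 : ℝ) ≤ √(t : ℝ) := Real.one_le_sqrt.mpr htR
  set τ : ℝ := √(t * √t) with hτ
  have hτ1 : 1 ≤ τ := Real.one_le_sqrt.mpr (by nlinarith)
  have hτsq : τ ^ 2 = t * √t := Real.sq_sqrt (by positivity)
  set E := En π P f with hE
  have hE0 : 0 ≤ E := En_nonneg hc f
  have hpk := peak_path hc f t (fun z x w => |sm f z w - sm f z x|)
    (fun _ _ _ => abs_nonneg _)
    (fun s r a b => √(Bs P f r b) + gd f a b + √(Bs P f s a))
    (fun z s r a b => ten_abs_le hc f z s r a b)
  have h1 : ∑ x, π x * pw P t (fun w => cc f x w ^ 2) x ≤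
      2 * ∑ x, π x * pw P t (fun w => ∑ z, |f w z - f x z| * |sm f z w - sm f z x|) x := by
    rw [Finset.mul_sum]
    refine Finset.sum_le_sum (fun x _ => ?_)
    have h2 : pw P t (fun w => cc f x w ^ 2) x ≤
        2 * pw P t (fun w => ∑ z, |f w z - f x z| * |sm f z w - sm f z x|) x := by
      have := congrFun (pw_const_mul (P := P) t 2
        (fun w => ∑ z, |f w z - f x z| * |sm f z w - sm f z x|)) x
      rw [← this]
      exact pw_mono hc t (fun w => cc_sq_le f x w) x
    have := mul_le_mul_of_nonneg_left h2 (hc.pi_nonneg x)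
    linarith
  -- Young with the parameter `L`
  set L : ℝ := 25 / 2 * τ with hL
  have hL0 : 0 < L := by positivity
  have hbeta : ∀ r ≤ t, ∑ x, π x * Bs P f r x ≤ L ^ 2 * E := by
    intro r hr
    have h2 := sum_Bs_le hc f r
    have hrR : (r : ℝ) ≤ t := by exact_mod_cast hr
    have h3 : (r : ℝ) * √r ≤ t * √t :=
      mul_le_mul hrR (Real.sqrt_le_sqrt hrR) (Real.sqrt_nonneg _) (by positivity)
    have h4 : 154 * (r : ℝ) * √r * E ≤ 154 * (t * √t) * E := by
      have := mul_le_mul_of_nonneg_right h3 hE0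
      nlinarith
    have h5 : L ^ 2 = (625 / 4) * (t * √t) := by
      rw [hL, mul_pow, hτsq]; norm_num
    rw [h5]
    have h6 : 0 ≤ (t * √t) * E := by positivity
    nlinarith
  have hyoung : ∀ (ξ : V → ℝ), (∀ x, 0 ≤ ξ x) → ∑ x, π x * ξ x ≤ L ^ 2 * E →
      ∀ side : V → V → V, (∀ a b, side a b = a) ∨ (∀ a b, side a b = b) →
      ∑ a, ∑ b, π a * P a b * (gd f a b * √(ξ (side a b))) ≤ L * E := by
    intro ξ hξ hsum side hside
    have hpt : ∀ a b, gd f a b * √(ξ (side a b)) ≤
        (L / 2) * gd f a b ^ 2 + (1 / (2 * L)) * ξ (side a b) := by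
      intro a b
      have h2 : 0 ≤ (L * gd f a b - √(ξ (side a b))) ^ 2 / (2 * L) := by positivity
      have h3 : (L * gd f a b - √(ξ (side a b))) ^ 2 / (2 * L) =
          (L / 2) * gd f a b ^ 2 + (1 / (2 * L)) * √(ξ (side a b)) ^ 2
            - gd f a b * √(ξ (side a b)) := by
        field_simp
        ring
      rw [Real.sq_sqrt (hξ _)] at h3
      linarith
    have h4 : ∑ a, ∑ b, π a * P a b * (gd f a b * √(ξ (side a b))) ≤
        ∑ a, ∑ b, π a * P a b * ((L / 2) * gd f a b ^ 2 + (1 / (2 * L)) * ξ (side a b)) :=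
      Finset.sum_le_sum (fun a _ => Finset.sum_le_sum (fun b _ =>
        mul_le_mul_of_nonneg_left (hpt a b) (mul_nonneg (hc.pi_nonneg a) (hc.nonneg a b))))
    refine h4.trans ?_
    have e1 : ∑ a, ∑ b, π a * P a b * ((L / 2) * gd f a b ^ 2 + (1 / (2 * L)) * ξ (side a b)) =
        (L / 2) * E + (1 / (2 * L)) * ∑ a, ∑ b, π a * P a b * ξ (side a b) := by
      rw [hE]
      unfold En
      rw [Finset.mul_sum, Finset.mul_sum, ← Finset.sum_add_distrib]
      refine Finset.sum_congr rfl (fun a _ => ?_)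
      rw [Finset.mul_sum, Finset.mul_sum, ← Finset.sum_add_distrib]
      exact Finset.sum_congr rfl (fun b _ => by ring)
    have e2 : ∑ a, ∑ b, π a * P a b * ξ (side a b) = ∑ x, π x * ξ x := by
      rcases hside with h | h
      · simp only [h]
        exact edge_fst hc ξ
      · simp only [h]
        exact edge_snd hc ξ
    rw [e1, e2]
    have h5 : (1 / (2 * L)) * ∑ x, π x * ξ x ≤ (1 / (2 * L)) * (L ^ 2 * E) :=
      mul_le_mul_of_nonneg_left hsum (by positivity)
    have h6 : (1 / (2 * L)) * (L ^ 2 * E) = (L / 2) * E := by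
      field_simp
    linarith
  -- the bound for each `s`
  have hs : ∀ s ∈ range t, ∑ a, ∑ b, π a * P a b *
      (gd f a b * (√(Bs P f (t - 1 - s) b) + gd f a b + √(Bs P f s a))) ≤ (2 * L + 1) * E := by
    intro s hs
    have hs' : s < t := Finset.mem_range.mp hs
    have h2 := hyoung (Bs P f (t - 1 - s)) (Bs_nonneg hc f _) (hbeta _ (by omega))
      (fun _ b => b) (Or.inr (fun _ _ => rfl))
    have h3 := hyoung (Bs P f s) (Bs_nonneg hc f _) (hbeta _ hs'.le)
      (fun a _ => a) (Or.inl (fun _ _ => rfl))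
    have e1 : ∑ a, ∑ b, π a * P a b *
        (gd f a b * (√(Bs P f (t - 1 - s) b) + gd f a b + √(Bs P f s a))) =
        ∑ a, ∑ b, π a * P a b * (gd f a b * √(Bs P f (t - 1 - s) b)) + E +
          ∑ a, ∑ b, π a * P a b * (gd f a b * √(Bs P f s a)) := by
      rw [hE]
      unfold En
      rw [← Finset.sum_add_distrib, ← Finset.sum_add_distrib]
      refine Finset.sum_congr rfl (fun a _ => ?_)
      rw [← Finset.sum_add_distrib, ← Finset.sum_add_distrib]
      exact Finset.sum_congr rfl (fun b _ => by ring)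
    rw [e1]
    nlinarith
  have hsum := Finset.sum_le_sum hs
  simp only [Finset.sum_const, Finset.card_range, nsmul_eq_mul] at hsum
  have hfin : 2 * ((t : ℝ) * ((2 * L + 1) * E)) ≤ 52 * t * τ * E := by
    have h2 : 2 * L + 1 ≤ 26 * τ := by rw [hL]; linarith
    have h3 : (2 * L + 1) * E ≤ 26 * τ * E := mul_le_mul_of_nonneg_right h2 hE0
    have h4 : (t : ℝ) * ((2 * L + 1) * E) ≤ t * (26 * τ * E) :=
      mul_le_mul_of_nonneg_left h3 (by positivity)
    nlinarith
  linarith

lemma edge_sum3 (hc : Rev π P) (X Y : V → ℝ) (c : ℝ) :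
    ∑ a, ∑ b, π a * P a b * (3 * (X b + c + Y a)) =
      3 * (∑ x, π x * X x + c * ∑ x, π x + ∑ x, π x * Y x) := by
  have h1 : ∀ a b, π a * P a b * (3 * (X b + c + Y a)) =
      3 * (π a * P a b * X b) + 3 * c * (π a * P a b * 1) + 3 * (π a * P a b * Y a) := by
    intro a b; ring
  simp only [h1, Finset.sum_add_distrib, ← Finset.mul_sum]
  rw [edge_snd hc X, edge_fst hc Y, edge_fst hc (fun _ => 1)]
  simp only [mul_one]
  ring

/-- Lipschitz `f`: the `L³` two point inequality, operator form. -/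
theorem two_point_cube (hc : Rev π P) (hπ1 : ∑ x, π x = 1) (f : V → ι → ℝ)
    (hL : ∀ u v, P u v ≠ 0 → gd f u v ≤ 1) (t : ℕ) (ht : 1 ≤ t) :
    ∑ x, π x * pw P t (fun w => cc f x w ^ 3) x ≤ 2781 * t ^ 2 * √t := by
  have htR : (1 : ℝ) ≤ t := by exact_mod_cast ht
  have hst : (1 : ℝ) ≤ √(t : ℝ) := Real.one_le_sqrt.mpr htR
  -- the energy is at most one
  have hE1 : En π P f ≤ 1 := by
    unfold En
    have h1 : ∑ u, ∑ v, π u * P u v * gd f u v ^ 2 ≤ ∑ u, ∑ v, π u * P u v * 1 := by
      refine Finset.sum_le_sum (fun u _ => Finset.sum_le_sum (fun v _ => ?_))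
      by_cases hP : P u v = 0
      · simp [hP]
      · refine mul_le_mul_of_nonneg_left ?_ (mul_nonneg (hc.pi_nonneg u) (hc.nonneg u v))
        have h2 := hL u v hP
        have h3 := gd_nonneg f u v
        nlinarith
    refine h1.trans (le_of_eq ?_)
    have := edge_fst hc (fun _ => 1)
    simp only [mul_one] at this ⊢
    exact this.trans hπ1
  have hE0 := En_nonneg hc f
  have hbeta : ∀ r ≤ t, ∑ x, π x * Bs P f r x ≤ 154 * (t * √t) := by
    intro r hr
    have h2 := sum_Bs_le hc f r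
    have hrR : (r : ℝ) ≤ t := by exact_mod_cast hr
    have h3 : (r : ℝ) * √r ≤ t * √t :=
      mul_le_mul hrR (Real.sqrt_le_sqrt hrR) (Real.sqrt_nonneg _) (by positivity)
    have h4 : 0 ≤ (r : ℝ) * √r := by positivity
    have h5 : (r : ℝ) * √r * En π P f ≤ (r : ℝ) * √r * 1 :=
      mul_le_mul_of_nonneg_left hE1 h4
    nlinarith
  have hpk := peak_path hc f t (fun z x w => (sm f z w - sm f z x) ^ 2)
    (fun _ _ _ => sq_nonneg _)
    (fun s r a b => 3 * (Bs P f r b + gd f a b ^ 2 + Bs P f s a))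
    (fun z s r a b => ten_cube_le hc f z s r a b)
  have h1 : ∑ x, π x * pw P t (fun w => cc f x w ^ 3) x ≤
      3 * ∑ x, π x * pw P t (fun w => ∑ z, |f w z - f x z| * (sm f z w - sm f z x) ^ 2) x := by
    rw [Finset.mul_sum]
    refine Finset.sum_le_sum (fun x _ => ?_)
    have h2 : pw P t (fun w => cc f x w ^ 3) x ≤
        3 * pw P t (fun w => ∑ z, |f w z - f x z| * (sm f z w - sm f z x) ^ 2) x := by
      have := congrFun (pw_const_mul (P := P) t 3
        (fun w => ∑ z, |f w z - f x z| * (sm f z w - sm f z x) ^ 2)) x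
      rw [← this]
      exact pw_mono hc t (fun w => cc_cube_le f x w) x
    have := mul_le_mul_of_nonneg_left h2 (hc.pi_nonneg x)
    linarith
  -- the bound for each `s`
  have hs : ∀ s ∈ range t, ∑ a, ∑ b, π a * P a b *
      (gd f a b * (3 * (Bs P f (t - 1 - s) b + gd f a b ^ 2 + Bs P f s a))) ≤
        3 * (308 * (t * √t) + 1) := by
    intro s hs
    have hs' : s < t := Finset.mem_range.mp hs
    have h2 : ∑ a, ∑ b, π a * P a b *
        (gd f a b * (3 * (Bs P f (t - 1 - s) b + gd f a b ^ 2 + Bs P f s a))) ≤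
        ∑ a, ∑ b, π a * P a b * (3 * (Bs P f (t - 1 - s) b + 1 + Bs P f s a)) := by
      refine Finset.sum_le_sum (fun a _ => Finset.sum_le_sum (fun b _ => ?_))
      by_cases hP : P a b = 0
      · simp [hP]
      · refine mul_le_mul_of_nonneg_left ?_ (mul_nonneg (hc.pi_nonneg a) (hc.nonneg a b))
        have h3 := hL a b hP
        have h4 := gd_nonneg f a b
        have h5 := Bs_nonneg hc f (t - 1 - s) b
        have h6 := Bs_nonneg hc f s a
        have h7 : gd f a b ^ 3 ≤ 1 := pow_le_one₀ h4 h3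
        nlinarith [mul_le_mul_of_nonneg_right h3 h5, mul_le_mul_of_nonneg_right h3 h6]
    refine h2.trans ?_
    rw [edge_sum3 hc, hπ1]
    have h3 := hbeta (t - 1 - s) (by omega)
    have h4 := hbeta s hs'.le
    nlinarith
  have hsum := Finset.sum_le_sum hs
  simp only [Finset.sum_const, Finset.card_range, nsmul_eq_mul] at hsum
  have h9 : (t : ℝ) ≤ t ^ 2 * √t := by nlinarith [mul_nonneg (sub_nonneg.mpr htR) (sub_nonneg.mpr hst)]
  have h10 : (t : ℝ) * (3 * (308 * (t * √t) + 1)) = 924 * (t ^ 2 * √t) + 3 * t := by ring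
  rw [h10] at hsum
  have h11 : 0 ≤ (t : ℝ) ^ 2 * √t := by positivity
  nlinarith

end main

end Vale.Agent.Lib.P125
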