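import Vale.Agent.Lib.P125.TwoPoint
import Vale.Agent.Lib.P125.Bridge

open Finset BigOperators

namespace Vale.Agent.Lib.P125

set_option linter.unusedSectionVars false

section
variable {V : Type*} [Fintype V] {π : V → ℝ} {P : V → V → ℝ}
variable {ι : Type*} [LinearOrder ι] [Fintype ι]

/-- From the third moment to the first moment. -/
theorem two_point_first (hc : Rev π P) (hπ1 : ∑ x, π x = 1) (f : V → ι → ℝ)
    (t : ℕ) (lam : ℝ) (hlam : 0 < lam)
    (hcube : ∑ x, π x * pw P t (fun w => cc f x w ^ 3) x ≤ lam ^ 3) :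
    ∑ x, π x * pw P t (fun w => cc f x w) x ≤ lam := by
  have hpt : ∀ x, pw P t (fun w => cc f x w) x ≤
      (1 / (3 * lam ^ 2)) * pw P t (fun w => cc f x w ^ 3) x + (2 * lam / 3) := by
    intro x
    have h1 : ∀ w, cc f x w ≤ (2 * lam / 3) + (1 / (3 * lam ^ 2)) * cc f x w ^ 3 := by
      intro w
      have hc0 := cc_nonneg f x w
      have h2 : 0 ≤ (cc f x w - lam) ^ 2 * (cc f x w + 2 * lam) / (3 * lam ^ 2) := by positivity
      have h3 : (cc f x w - lam) ^ 2 * (cc f x w + 2 * lam) / (3 * lam ^ 2) =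
          (2 * lam / 3) + (1 / (3 * lam ^ 2)) * cc f x w ^ 3 - cc f x w := by
        field_simp
        ring
      linarith
    have h2 := pw_mono hc t h1 x
    rw [pw_const_add hc] at h2
    have e := congrFun (pw_const_mul (P := P) t (1 / (3 * lam ^ 2)) (fun w => cc f x w ^ 3)) x
    rw [e] at h2
    linarith
  have h1 : ∑ x, π x * pw P t (fun w => cc f x w) x ≤
      ∑ x, π x * ((1 / (3 * lam ^ 2)) * pw P t (fun w => cc f x w ^ 3) x + (2 * lam / 3)) :=
    Finset.sum_le_sum (fun x _ => mul_le_mul_of_nonneg_left (hpt x) (hc.pi_nonneg x))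
  have e1 : ∑ x, π x * ((1 / (3 * lam ^ 2)) * pw P t (fun w => cc f x w ^ 3) x + (2 * lam / 3)) =
      (1 / (3 * lam ^ 2)) * ∑ x, π x * pw P t (fun w => cc f x w ^ 3) x + (2 * lam / 3) := by
    have e0 : ∑ x, π x * (2 * lam / 3) = 2 * lam / 3 := by
      rw [← Finset.sum_mul, hπ1, one_mul]
    have e00 : ∑ x, π x * ((1 / (3 * lam ^ 2)) * pw P t (fun w => cc f x w ^ 3) x + (2 * lam / 3)) =
        (1 / (3 * lam ^ 2)) * ∑ x, π x * pw P t (fun w => cc f x w ^ 3) x +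
          ∑ x, π x * (2 * lam / 3) := by
      rw [Finset.mul_sum, ← Finset.sum_add_distrib]
      refine Finset.sum_congr rfl (fun x _ => ?_)
      ring
    rw [e00, e0]
  rw [e1] at h1
  have h2 : (1 / (3 * lam ^ 2)) * ∑ x, π x * pw P t (fun w => cc f x w ^ 3) x ≤
      (1 / (3 * lam ^ 2)) * lam ^ 3 := mul_le_mul_of_nonneg_left hcube (by positivity)
  have h3 : (1 / (3 * lam ^ 2)) * lam ^ 3 = lam / 3 := by
    field_simp
  linarith

lemma rpow_seven_fourths {t : ℝ} (ht : 1 ≤ t) : t * √(t * √t) = t ^ (7 / 4 : ℝ) := by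
  have h0 : 0 < t := by linarith
  have e1 : √t = t ^ (1 / 2 : ℝ) := Real.sqrt_eq_rpow t
  have e2 : t * t ^ (1 / 2 : ℝ) = t ^ (3 / 2 : ℝ) := by
    nth_rewrite 1 [← Real.rpow_one t]
    rw [← Real.rpow_add h0]
    norm_num
  rw [e1, e2, Real.sqrt_eq_rpow, ← Real.rpow_mul h0.le]
  nth_rewrite 1 [← Real.rpow_one t]
  rw [← Real.rpow_add h0]
  norm_num

lemma rpow_five_halves {t : ℝ} (ht : 1 ≤ t) : t ^ 2 * √t = t ^ (5 / 2 : ℝ) := by
  have h0 : 0 < t := by linarith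
  rw [Real.sqrt_eq_rpow, ← Real.rpow_natCast t 2, ← Real.rpow_add h0]
  norm_num

end

/-- Final form of the two point inequalities for summing operators. -/
theorem two_point_summing {V ι : Type*} [Fintype V] [DecidableEq V] [Fintype ι] [LinearOrder ι]
    (π : V → ℝ) (P : Matrix V V ℝ)
    (hπ : ∀ x, 0 ≤ π x) (hπ1 : ∑ x, π x = 1) (hP : ∀ x y, 0 ≤ P x y) (hS : ∀ x, ∑ y, P x y = 1)
    (hR : ∀ x y, π x * P x y = π y * P y x)
    (f : V → ι → ℝ) (t : ℕ) (ht : 1 ≤ t) :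
    (∑ x, ∑ w, π x * (P ^ t) x w * (⨆ y : ι, |∑ z with z ≤ y, (f w z - f x z)|) ^ 2
        ≤ 52 * (t : ℝ) ^ (7 / 4 : ℝ) * ∑ u, ∑ v, π u * P u v * (∑ z, |f u z - f v z|) ^ 2) ∧
    ((∀ u v, P u v ≠ 0 → ∑ z, |f u z - f v z| ≤ 1) →
      (∑ x, ∑ w, π x * (P ^ t) x w * (⨆ y : ι, |∑ z with z ≤ y, (f w z - f x z)|) ^ 3
          ≤ 2781 * (t : ℝ) ^ (5 / 2 : ℝ)) ∧
      (∑ x, ∑ w, π x * (P ^ t) x w * (⨆ y : ι, |∑ z with z ≤ y, (f w z - f x z)|)
          ≤ 15 * (t : ℝ) ^ (5 / 6 : ℝ))) := by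
  have hc : Rev π (fun a b => P a b) := ⟨hπ, hP, hS, hR⟩
  have htR : (1 : ℝ) ≤ t := by exact_mod_cast ht
  have hform : ∀ h : V → V → ℝ, ∑ x, ∑ w, π x * (P ^ t) x w * h x w =
      ∑ x, π x * pw (fun a b => P a b) t (h x) x := by
    intro h
    refine Finset.sum_congr rfl (fun x _ => ?_)
    rw [pw_eq_matrix, Finset.mul_sum]
    exact Finset.sum_congr rfl (fun w _ => by ring)
  constructor
  · have h1 := two_point_sq hc f t ht
    have e1 : ∑ x, ∑ w, π x * (P ^ t) x w *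
        (⨆ y : ι, |∑ z with z ≤ y, (f w z - f x z)|) ^ 2 =
        ∑ x, π x * pw (fun a b => P a b) t (fun w => cc f x w ^ 2) x :=
      hform (fun x w => cc f x w ^ 2)
    rw [e1]
    refine h1.trans (le_of_eq ?_)
    rw [← rpow_seven_fourths htR]
    unfold En gd
    ring
  · intro hL
    have hL' : ∀ u v, (fun a b => P a b) u v ≠ 0 → gd f u v ≤ 1 := hL
    have h1 := two_point_cube hc hπ1 f hL' t ht
    have e1 : ∑ x, ∑ w, π x * (P ^ t) x w *
        (⨆ y : ι, |∑ z with z ≤ y, (f w z - f x z)|) ^ 3 =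
        ∑ x, π x * pw (fun a b => P a b) t (fun w => cc f x w ^ 3) x :=
      hform (fun x w => cc f x w ^ 3)
    have e2 : ∑ x, ∑ w, π x * (P ^ t) x w *
        (⨆ y : ι, |∑ z with z ≤ y, (f w z - f x z)|) =
        ∑ x, π x * pw (fun a b => P a b) t (fun w => cc f x w) x :=
      hform (fun x w => cc f x w)
    have h0 : (0 : ℝ) < t := by linarith
    have h52 : 2781 * (t : ℝ) ^ 2 * √t = 2781 * (t : ℝ) ^ (5 / 2 : ℝ) := by
      rw [← rpow_five_halves htR]; ring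
    constructor
    · rw [e1, ← h52]
      exact h1
    · rw [e2]
      apply two_point_first hc hπ1 f t _ (by positivity)
      refine h1.trans ?_
      rw [h52]
      have e3 : (15 * (t : ℝ) ^ (5 / 6 : ℝ)) ^ 3 = 3375 * (t : ℝ) ^ (5 / 2 : ℝ) := by
        rw [mul_pow, ← Real.rpow_natCast ((t : ℝ) ^ (5 / 6 : ℝ)) 3, ← Real.rpow_mul h0.le]
        norm_num
      rw [e3]
      have : 0 < (t : ℝ) ^ (5 / 2 : ℝ) := by positivity
      linarith

end Vale.Agent.Lib.P125
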