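import Vale.Agent.Lib.P125.GreenTwo

open Finset BigOperators

namespace Vale.Agent.Lib.P125

variable {V : Type*} [Fintype V] {π : V → ℝ} {P : V → V → ℝ}

/-- Conditional variance at time `r` from the starting point `x`. -/
def vr (P : V → V → ℝ) (r : ℕ) (φ : V → ℝ) (x : V) : ℝ :=
  pw P r (fun y => φ y ^ 2) x - (pw P r φ x) ^ 2

lemma pw_sq_sub (hc : Rev π P) (r : ℕ) (φ : V → ℝ) (c : ℝ) (x : V) :
    pw P r (fun y => (φ y - c) ^ 2) x =
      pw P r (fun y => φ y ^ 2) x - 2 * c * pw P r φ x + c ^ 2 := by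
  have e : (fun y => (φ y - c) ^ 2) = (fun y => (φ y ^ 2 + (-(2 * c)) * φ y) + c ^ 2) := by
    funext y; ring
  rw [e, pw_add_fun, pw_add_fun, pw_const_mul, pw_const hc]
  ring

lemma vr_nonneg (hc : Rev π P) (r : ℕ) (φ : V → ℝ) (x : V) : 0 ≤ vr P r φ x := by
  unfold vr
  linarith [sq_pw_le hc r φ x]

lemma moment_eq (hc : Rev π P) (r : ℕ) (φ : V → ℝ) (c : ℝ) (x : V) :
    pw P r (fun y => (φ y - c) ^ 2) x = vr P r φ x + (pw P r φ x - c) ^ 2 := by
  rw [pw_sq_sub hc]
  unfold vr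
  ring

/-- Law of total variance along the semigroup. -/
lemma vr_add (r m : ℕ) (φ : V → ℝ) (x : V) :
    vr P (r + m) φ x = pw P r (vr P m φ) x + vr P r (pw P m φ) x := by
  have e2 : pw P r (vr P m φ) x =
      pw P r (pw P m (fun y => φ y ^ 2)) x - pw P r (fun y => pw P m φ y ^ 2) x :=
    congrFun (pw_sub_fun (P := P) r (pw P m (fun y => φ y ^ 2)) (fun y => pw P m φ y ^ 2)) x
  rw [e2]
  unfold vr
  rw [pw_add, pw_add]
  ring

lemma vr_add_le (hc : Rev π P) (r : ℕ) (φ ψ : V → ℝ) (x : V) :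
    vr P r (fun y => φ y + ψ y) x ≤ (11 / 10) * vr P r φ x + 11 * vr P r ψ x := by
  set a := pw P r φ x with ha
  set b := pw P r ψ x with hb
  have h1 := moment_eq hc r (fun y => φ y + ψ y) (a + b) x
  have h2 := moment_eq hc r φ a x
  have h3 := moment_eq hc r ψ b x
  have e1 : pw P r (fun y => φ y + ψ y) x = a + b := by
    rw [pw_add_fun]
  rw [e1] at h1
  rw [← ha] at h2
  rw [← hb] at h3
  have h4 : pw P r (fun y => (φ y + ψ y - (a + b)) ^ 2) x ≤
      pw P r (fun y => (11 / 10) * (φ y - a) ^ 2 + 11 * (ψ y - b) ^ 2) x := by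
    apply pw_mono hc
    intro y
    nlinarith [sq_nonneg ((φ y - a) - 10 * (ψ y - b))]
  have h5 : pw P r (fun y => (11 / 10) * (φ y - a) ^ 2 + 11 * (ψ y - b) ^ 2) x =
      (11 / 10) * pw P r (fun y => (φ y - a) ^ 2) x + 11 * pw P r (fun y => (ψ y - b) ^ 2) x := by
    rw [pw_add_fun, pw_const_mul, pw_const_mul]
  rw [h5, h1, h2, h3] at h4
  simp only [sub_self] at h4
  nlinarith

lemma vr_le_pw_sq (r : ℕ) (ψ : V → ℝ) (x : V) : vr P r ψ x ≤ pw P r (fun y => ψ y ^ 2) x := by
  unfold vr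
  linarith [sq_nonneg (pw P r ψ x)]

/-- The numerical inequalities for the dyadic splitting. -/
lemma split_ineq (m n : ℕ) (hn : 1 ≤ n) (h : m = n ∨ m = n + 1) :
    (m : ℝ) * √m + (11 / 10) * (n * √n) ≤ (17 / 20) * (((m + n : ℕ) : ℝ) * √((m + n : ℕ) : ℝ)) ∧
      (m : ℝ) * √m ≤ (11 / 20) * (((m + n : ℕ) : ℝ) * √((m + n : ℕ) : ℝ)) := by
  have hn1 : (1 : ℝ) ≤ n := by exact_mod_cast hn
  have hmn : (n : ℝ) ≤ m := by
    rcases h with h | h
    · simp [h]
    · rw [h]; push_cast; linarith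
  have hm0 : (0 : ℝ) ≤ m := by positivity
  have hn0 : (0 : ℝ) ≤ n := by positivity
  set R : ℝ := ((m + n : ℕ) : ℝ) with hR
  have hRe : R = (m : ℝ) + n := by rw [hR]; push_cast; ring
  have hR0 : 0 ≤ R := by rw [hRe]; positivity
  have hsm : √(m : ℝ) ^ 2 = m := Real.sq_sqrt hm0
  have hsR : √R ^ 2 = R := Real.sq_sqrt hR0
  have hsnm : √(n : ℝ) ≤ √(m : ℝ) := Real.sqrt_le_sqrt hmn
  have hsm0 : 0 ≤ √(m : ℝ) := Real.sqrt_nonneg _
  have hsR0 : 0 ≤ √R := Real.sqrt_nonneg _
  constructor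
  · have h1 : (m : ℝ) * √m + (11 / 10) * (n * √n) ≤ ((m : ℝ) + (11 / 10) * n) * √m := by
      nlinarith [mul_le_mul_of_nonneg_left hsnm hn0]
    refine h1.trans ?_
    apply (sq_le_sq₀ (by positivity) (by positivity)).mp
    have e1 : (((m : ℝ) + (11 / 10) * n) * √m) ^ 2 = ((m : ℝ) + (11 / 10) * n) ^ 2 * m := by
      rw [mul_pow, hsm]
    have e2 : ((17 / 20) * (R * √R)) ^ 2 = (289 / 400) * R ^ 3 := by
      rw [mul_pow, mul_pow, hsR]; ring
    rw [e1, e2, hRe]
    rcases h with h | h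
    · rw [h]
      nlinarith [pow_pos (by linarith : (0 : ℝ) < n) 3]
    · rw [h]
      push_cast
      nlinarith [mul_nonneg hn0 hn0, mul_nonneg (mul_nonneg hn0 hn0) hn0,
        mul_nonneg (sub_nonneg.mpr hn1) hn0, mul_nonneg (mul_nonneg (sub_nonneg.mpr hn1) hn0) hn0]
  · apply (sq_le_sq₀ (by positivity) (by positivity)).mp
    have e1 : ((m : ℝ) * √m) ^ 2 = (m : ℝ) ^ 3 := by
      rw [mul_pow, hsm]; ring
    have e2 : ((11 / 20) * (R * √R)) ^ 2 = (121 / 400) * R ^ 3 := by
      rw [mul_pow, mul_pow, hsR]; ring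
    rw [e1, e2, hRe]
    rcases h with h | h
    · rw [h]
      nlinarith [pow_pos (by linarith : (0 : ℝ) < n) 3]
    · rw [h]
      push_cast
      nlinarith [mul_nonneg hn0 hn0, mul_nonneg (mul_nonneg hn0 hn0) hn0,
        mul_nonneg (sub_nonneg.mpr hn1) hn0, mul_nonneg (mul_nonneg (sub_nonneg.mpr hn1) hn0) hn0]

section sup
set_option linter.unusedSectionVars false
variable {ι : Type*} [LinearOrder ι] [Fintype ι]

/-- Running sums of a vector valued function. -/
def sm (f : V → ι → ℝ) (z : ι) (x : V) : ℝ := ∑ z' with z' ≤ z, f x z'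

/-- The `ℓ¹` gradient. -/
def gd (f : V → ι → ℝ) (u v : V) : ℝ := ∑ z, |f u z - f v z|

lemma gd_nonneg (f : V → ι → ℝ) (u v : V) : 0 ≤ gd f u v :=
  Finset.sum_nonneg (fun _ _ => abs_nonneg _)

lemma abs_sm_sub_le (f : V → ι → ℝ) (z : ι) (u v : V) : |sm f z v - sm f z u| ≤ gd f u v := by
  unfold sm gd
  rw [← Finset.sum_sub_distrib]
  refine (Finset.abs_sum_le_sum_abs _ _).trans ?_
  refine (Finset.sum_le_sum_of_subset_of_nonneg (Finset.filter_subset _ _)
    (fun z _ _ => abs_nonneg _)).trans (le_of_eq ?_)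
  exact Finset.sum_congr rfl (fun z _ => abs_sub_comm _ _)

/-- The drift function. -/
noncomputable def As (P : V → V → ℝ) (f : V → ι → ℝ) (m : ℕ) (x : V) : ℝ :=
  ⨆ z : ι, |pw P m (sm f z) x - sm f z x|

/-- The supremum of the conditional variances. -/
noncomputable def Vs (P : V → V → ℝ) (f : V → ι → ℝ) (r : ℕ) (x : V) : ℝ :=
  ⨆ z : ι, vr P r (sm f z) x

lemma le_As (f : V → ι → ℝ) (m : ℕ) (z : ι) (x : V) :
    |pw P m (sm f z) x - sm f z x| ≤ As P f m x :=
  le_ciSup (f := fun z : ι => |pw P m (sm f z) x - sm f z x|) (Set.finite_range _).bddAbove z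

lemma le_Vs (f : V → ι → ℝ) (r : ℕ) (z : ι) (x : V) :
    vr P r (sm f z) x ≤ Vs P f r x :=
  le_ciSup (f := fun z : ι => vr P r (sm f z) x) (Set.finite_range _).bddAbove z

lemma As_nonneg (f : V → ι → ℝ) (m : ℕ) (x : V) : 0 ≤ As P f m x :=
  Real.iSup_nonneg (fun _ => abs_nonneg _)

lemma Vs_nonneg (hc : Rev π P) (f : V → ι → ℝ) (r : ℕ) (x : V) : 0 ≤ Vs P f r x :=
  Real.iSup_nonneg (fun _ => vr_nonneg hc _ _ _)

/-- The energy of `f`. -/
def En (π : V → ℝ) (P : V → V → ℝ) (f : V → ι → ℝ) : ℝ :=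
  ∑ u, ∑ v, π u * P u v * (gd f u v) ^ 2

lemma En_nonneg (hc : Rev π P) (f : V → ι → ℝ) : 0 ≤ En π P f :=
  Finset.sum_nonneg (fun u _ => Finset.sum_nonneg (fun v _ =>
    mul_nonneg (mul_nonneg (hc.pi_nonneg u) (hc.nonneg u v)) (sq_nonneg _)))

/-- Second moment of the drift function. -/
lemma sum_As_sq_le (hc : Rev π P) (f : V → ι → ℝ) (m : ℕ) :
    ∑ x, π x * As P f m x ^ 2 ≤ (7 / 2) * m * √m * En π P f := by
  by_cases hι : Nonempty ι
  · have hsel : ∀ x, ∃ y : ι, |pw P m (sm f y) x - sm f y x| = As P f m x := by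
      intro x
      exact exists_eq_ciSup_of_finite
    choose y hy using hsel
    have h := drift_two_sel hc m f y
    have e1 : ∀ x, (∑ z with z ≤ y x, (f x z - pw P m (fun w => f w z) x)) ^ 2 =
        As P f m x ^ 2 := by
      intro x
      rw [← hy x, sq_abs]
      have e2 : pw P m (sm f (y x)) x = ∑ z with z ≤ y x, pw P m (fun w => f w z) x :=
        congrFun (pw_sum (P := P) m (Finset.univ.filter (· ≤ y x)) (fun z w => f w z)) x
      rw [e2, Finset.sum_sub_distrib]
      unfold sm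
      ring
    simp only [e1] at h
    exact h
  · have : IsEmpty ι := not_nonempty_iff.mp hι
    have h0 : ∀ x, As P f m x = 0 := fun x => by
      unfold As
      simp
    simp only [h0]
    have := En_nonneg hc f
    simp only [ne_eq, OfNat.ofNat_ne_zero, not_false_eq_true, zero_pow, mul_zero,
      Finset.sum_const_zero]
    positivity

/-- Pointwise recursion for the variance supremum. -/
lemma Vs_add_le (hc : Rev π P) [Nonempty ι] (f : V → ι → ℝ) (r m : ℕ) (x : V) :
    Vs P f (r + m) x ≤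
      pw P r (Vs P f m) x + (11 / 10) * Vs P f r x + 11 * pw P r (fun y => As P f m y ^ 2) x := by
  refine ciSup_le (fun z => ?_)
  rw [vr_add]
  have h1 : pw P r (vr P m (sm f z)) x ≤ pw P r (Vs P f m) x :=
    pw_mono hc r (fun y => le_Vs f m z y) x
  set G : V → ℝ := fun y => pw P m (sm f z) y - sm f z y with hG
  have e1 : pw P m (sm f z) = fun y => sm f z y + G y := by
    funext y
    simp only [hG]
    ring
  have h2 : vr P r (pw P m (sm f z)) x ≤
      (11 / 10) * vr P r (sm f z) x + 11 * vr P r G x := by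
    rw [e1]
    exact vr_add_le hc r (sm f z) G x
  have h3 : vr P r G x ≤ pw P r (fun y => As P f m y ^ 2) x := by
    refine (vr_le_pw_sq r G x).trans (pw_mono hc r (fun y => ?_) x)
    have hle : |G y| ≤ As P f m y := le_As (P := P) f m z y
    show G y ^ 2 ≤ As P f m y ^ 2
    rw [← sq_abs (G y)]
    exact pow_le_pow_left₀ (abs_nonneg _) hle 2
  have h4 := le_Vs (P := P) f r z x
  linarith

lemma sum_Vs_add_le (hc : Rev π P) [Nonempty ι] (f : V → ι → ℝ) (r m : ℕ) :
    ∑ x, π x * Vs P f (r + m) x ≤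
      ∑ x, π x * Vs P f m x + (11 / 10) * ∑ x, π x * Vs P f r x
        + 11 * ∑ x, π x * As P f m x ^ 2 := by
  have h1 : ∑ x, π x * Vs P f (r + m) x ≤
      ∑ x, π x * (pw P r (Vs P f m) x + (11 / 10) * Vs P f r x
        + 11 * pw P r (fun y => As P f m y ^ 2) x) :=
    Finset.sum_le_sum (fun x _ =>
      mul_le_mul_of_nonneg_left (Vs_add_le hc f r m x) (hc.pi_nonneg x))
  refine h1.trans (le_of_eq ?_)
  have h2 := pw_stationary hc r (Vs P f m)
  have h3 := pw_stationary hc r (fun y => As P f m y ^ 2)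
  rw [← h2, ← h3, Finset.mul_sum, Finset.mul_sum, ← Finset.sum_add_distrib,
    ← Finset.sum_add_distrib]
  exact Finset.sum_congr rfl (fun x _ => by ring)

lemma Vs_zero (f : V → ι → ℝ) (x : V) : Vs P f 0 x = 0 := by
  unfold Vs vr
  simp

lemma Vs_one_le (hc : Rev π P) (f : V → ι → ℝ) (x : V) :
    Vs P f 1 x ≤ ∑ v, P x v * gd f x v ^ 2 := by
  have hnn : 0 ≤ ∑ v, P x v * gd f x v ^ 2 :=
    Finset.sum_nonneg (fun v _ => mul_nonneg (hc.nonneg x v) (sq_nonneg _))
  refine Real.iSup_le (fun z => ?_) hnn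
  have h1 := moment_eq hc 1 (sm f z) (sm f z x) x
  have h2 : pw P 1 (fun y => (sm f z y - sm f z x) ^ 2) x ≤ ∑ v, P x v * gd f x v ^ 2 := by
    show ∑ v, P x v * (sm f z v - sm f z x) ^ 2 ≤ _
    refine Finset.sum_le_sum (fun v _ => mul_le_mul_of_nonneg_left ?_ (hc.nonneg x v))
    have := abs_sm_sub_le f z x v
    rw [← sq_abs (sm f z v - sm f z x)]
    exact pow_le_pow_left₀ (abs_nonneg _) this 2
  nlinarith [sq_nonneg (pw P 1 (sm f z) x - sm f z x)]

/-- The main bound on the variance supremum. -/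
theorem sum_Vs_le (hc : Rev π P) (f : V → ι → ℝ) (r : ℕ) :
    ∑ x, π x * Vs P f r x ≤ 150 * r * √r * En π P f := by
  by_cases hι : Nonempty ι
  · induction r using Nat.strong_induction_on with
    | _ r ih =>
      have hE := En_nonneg hc f
      rcases Nat.lt_or_ge r 2 with hr | hr
      · interval_cases r
        · simp [Vs_zero]
        · have h1 : ∑ x, π x * Vs P f 1 x ≤ En π P f := by
            unfold En
            refine Finset.sum_le_sum (fun x _ => ?_)
            have := mul_le_mul_of_nonneg_left (Vs_one_le hc f x) (hc.pi_nonneg x)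
            refine this.trans (le_of_eq ?_)
            rw [Finset.mul_sum]
            exact Finset.sum_congr rfl (fun v _ => by ring)
          simp only [Nat.cast_one, Real.sqrt_one, mul_one]
          linarith
      · obtain ⟨n, m, hmn, hn1, hsplit⟩ : ∃ n m : ℕ, n + m = r ∧ 1 ≤ n ∧ (m = n ∨ m = n + 1) :=
          ⟨r / 2, r - r / 2, by omega, by omega, by omega⟩
        have hm1 : m < r := by omega
        have hn2 : n < r := by omega
        have h1 := sum_Vs_add_le hc f n m
        have h2 := ih m hm1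
        have h3 := ih n hn2
        have h4 := sum_As_sq_le hc f m
        obtain ⟨h5, h6⟩ := split_ineq m n hn1 hsplit
        have e1 : m + n = r := by omega
        rw [e1] at h5 h6
        rw [hmn] at h1
        set X : ℝ := (m : ℝ) * √m with hX
        set Y : ℝ := (n : ℝ) * √n with hY
        set Z : ℝ := (r : ℝ) * √r with hZ
        have e2 : 150 * (m : ℝ) * √m * En π P f = 150 * X * En π P f := by rw [hX]; ring
        have e3 : 150 * (n : ℝ) * √n * En π P f = 150 * Y * En π P f := by rw [hY]; ring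
        have e4 : (7 / 2) * (m : ℝ) * √m * En π P f = (7 / 2) * X * En π P f := by rw [hX]; ring
        have e5 : 150 * (r : ℝ) * √r * En π P f = 150 * Z * En π P f := by rw [hZ]; ring
        rw [e2] at h2
        rw [e3] at h3
        rw [e4] at h4
        rw [e5]
        have h7 : (X + (11 / 10) * Y) * En π P f ≤ ((17 / 20) * Z) * En π P f :=
          mul_le_mul_of_nonneg_right h5 hE
        have h8 : X * En π P f ≤ ((11 / 20) * Z) * En π P f :=
          mul_le_mul_of_nonneg_right h6 hE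
        have hZ0 : 0 ≤ Z * En π P f := by positivity
        nlinarith
  · have : IsEmpty ι := not_nonempty_iff.mp hι
    have h0 : ∀ x, Vs P f r x = 0 := fun x => by
      unfold Vs
      simp
    simp only [h0, mul_zero, Finset.sum_const_zero]
    have := En_nonneg hc f
    positivity

end sup

end Vale.Agent.Lib.P125
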